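import Vale.Agent.P048.SysDef

/-!
# P048: simple facts on systems of paths with ends in a clique
-/

namespace Vale.Agent.P048

variable {V : Type*}

theorem Sys.ne_nil {G : SimpleGraph V} {K : Finset V} {bl : List (List V)} (h : Sys G K bl) :
    ∀ b ∈ bl, b ≠ [] := by
  intro b hb hn
  obtain ⟨x, hx, -⟩ := h.head b hb
  rw [hn] at hx
  simp at hx

theorem Sys.perm {G : SimpleGraph V} {K : Finset V} {bl bl' : List (List V)}
    (h : Sys G K bl) (hp : bl.Perm bl') : Sys G K bl' where
  nodup := (hp.flatten).nodup_iff.1 h.nodup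
  chain := fun b hb => h.chain b (hp.mem_iff.2 hb)
  head := fun b hb => h.head b (hp.mem_iff.2 hb)
  last := fun b hb => h.last b (hp.mem_iff.2 hb)

theorem Sys.of_append_right {G : SimpleGraph V} {K : Finset V} {bl bl' : List (List V)}
    (h : Sys G K (bl ++ bl')) : Sys G K bl' where
  nodup := by
    have := h.nodup
    rw [List.flatten_append] at this
    exact (List.nodup_append.1 this).2.1
  chain := fun b hb => h.chain b (List.mem_append_right _ hb)
  head := fun b hb => h.head b (List.mem_append_right _ hb)
  last := fun b hb => h.last b (List.mem_append_right _ hb)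

theorem Sys.of_append_left {G : SimpleGraph V} {K : Finset V} {bl bl' : List (List V)}
    (h : Sys G K (bl ++ bl')) : Sys G K bl where
  nodup := by
    have := h.nodup
    rw [List.flatten_append] at this
    exact (List.nodup_append.1 this).1
  chain := fun b hb => h.chain b (List.mem_append_left _ hb)
  head := fun b hb => h.head b (List.mem_append_left _ hb)
  last := fun b hb => h.last b (List.mem_append_left _ hb)

theorem Sys.tail {G : SimpleGraph V} {K : Finset V} {b : List V} {bl : List (List V)}
    (h : Sys G K (b :: bl)) : Sys G K bl :=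
  Sys.of_append_right (bl := [b]) h

/-- the ends of the list of all vertices of a system, and its being a chain -/
theorem Sys.flatten_facts {G : SimpleGraph V} {K : Finset V} :
    ∀ (bl : List (List V)), G.IsClique (K : Set V) → Sys G K bl →
      List.IsChain G.Adj bl.flatten ∧ (bl ≠ [] → ∃ x ∈ bl.flatten.head?, x ∈ K) ∧
        (bl ≠ [] → ∃ x ∈ bl.flatten.getLast?, x ∈ K) := by
  intro bl hK
  induction bl with
  | nil => intro _; simp
  | cons b t ih =>
    intro h
    obtain ⟨i1, i2, i3⟩ := ih h.tail
    have hb : b ≠ [] := h.ne_nil b (by simp)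
    obtain ⟨x, hx, hxK⟩ := h.head b (by simp)
    obtain ⟨y, hy, hyK⟩ := h.last b (by simp)
    rcases t with _ | ⟨c, t⟩
    · refine ⟨?_, fun _ => ⟨x, by simpa using hx, hxK⟩, fun _ => ⟨y, by simpa using hy, hyK⟩⟩
      have := h.chain b (by simp)
      simpa using this
    · obtain ⟨x', hx', hxK'⟩ := i2 (by simp)
      obtain ⟨y', hy', hyK'⟩ := i3 (by simp)
      have hne : (c :: t).flatten ≠ [] := by
        intro h0
        rw [h0] at hx'
        simp at hx'
      refine ⟨?_, fun _ => ⟨x, ?_, hxK⟩, fun _ => ⟨y', ?_, hyK'⟩⟩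
      · rw [List.flatten_cons, List.isChain_append]
        refine ⟨h.chain b (by simp), i1, ?_⟩
        intro u hu v hv
        rw [Option.mem_def] at hu hv hy hx'
        rw [hy] at hu
        rw [hx'] at hv
        simp only [Option.some.injEq] at hu hv
        subst hu hv
        apply hK hyK hxK'
        intro he
        have hnd := h.nodup
        rw [List.flatten_cons, List.nodup_append] at hnd
        exact hnd.2.2 y (List.mem_of_getLast? hy) x' (List.mem_of_head? hx') he
      · rw [List.flatten_cons, List.head?_append_of_ne_nil _ hb]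
        exact hx
      · rw [List.flatten_cons, List.getLast?_append_of_ne_nil _ hne]
        exact hy'

theorem Sys.cyc {G : SimpleGraph V} {K : Finset V} {bl : List (List V)}
    (hK : G.IsClique (K : Set V)) (h : Sys G K bl) (h2 : 2 ≤ bl.flatten.length) :
    CycL G bl.flatten := by
  obtain ⟨i1, i2, i3⟩ := Sys.flatten_facts bl hK h
  have hbl : bl ≠ [] := by
    intro h0
    rw [h0] at h2
    simp at h2
  obtain ⟨x, hx, hxK⟩ := i2 hbl
  obtain ⟨y, hy, hyK⟩ := i3 hbl
  refine ⟨h.nodup, i1, ?_⟩
  intro u hu v hv
  rw [Option.mem_def] at hu hv hy hx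
  rw [hy] at hu
  rw [hx] at hv
  simp only [Option.some.injEq] at hu hv
  subst hu hv
  apply hK hyK hxK
  intro he
  have hnd := h.nodup
  generalize bl.flatten = l at *
  rcases l with _ | ⟨a, l⟩
  · simp at h2
  · rcases l with _ | ⟨b, l⟩
    · simp at h2
    · simp only [List.head?_cons, Option.some.injEq] at hx
      subst hx
      subst he
      rw [List.getLast?_cons_cons] at hy
      rw [List.nodup_cons] at hnd
      exact hnd.1 (List.mem_of_getLast? hy)

theorem Sys.singletons {G : SimpleGraph V} {K : Finset V} (L : List V) (hL : L.Nodup)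
    (hLK : ∀ x ∈ L, x ∈ K) : Sys G K (L.map (fun x => [x])) := by
  have hf : (L.map (fun x => [x])).flatten = L := by
    induction L with
    | nil => rfl
    | cons a t ih =>
      rw [List.map_cons, List.flatten_cons, ih hL.of_cons (fun x hx => hLK x (by simp [hx]))]
      rfl
  refine ⟨by rw [hf]; exact hL, ?_, ?_, ?_⟩
  · intro b hb
    obtain ⟨x, hx, rfl⟩ := List.mem_map.1 hb
    exact List.isChain_singleton x
  · intro b hb
    obtain ⟨x, hx, rfl⟩ := List.mem_map.1 hb
    exact ⟨x, by simp, hLK x hx⟩
  · intro b hb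
    obtain ⟨x, hx, rfl⟩ := List.mem_map.1 hb
    exact ⟨x, by simp, hLK x hx⟩

/-- a general constructor: replace the first block -/
theorem Sys.cons_of {G : SimpleGraph V} {K : Finset V} {b : List V} {bl : List (List V)}
    (h : Sys G K bl) (hn : (b ++ bl.flatten).Nodup) (hc : List.IsChain G.Adj b)
    (hh : ∃ x ∈ b.head?, x ∈ K) (hl : ∃ x ∈ b.getLast?, x ∈ K) : Sys G K (b :: bl) where
  nodup := by rw [List.flatten_cons]; exact hn
  chain := by
    intro c hc'
    rcases List.mem_cons.1 hc' with rfl | hc'
    · exact hc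
    · exact h.chain c hc'
  head := by
    intro c hc'
    rcases List.mem_cons.1 hc' with rfl | hc'
    · exact hh
    · exact h.head c hc'
  last := by
    intro c hc'
    rcases List.mem_cons.1 hc' with rfl | hc'
    · exact hl
    · exact h.last c hc'

theorem isChain_reverse {G : SimpleGraph V} {l : List V} (h : List.IsChain G.Adj l) :
    List.IsChain G.Adj l.reverse := by
  rw [List.isChain_reverse]
  exact h.imp (fun a b hab => hab.symm)

/-- reversing a block -/
theorem Sys.reverse_block {G : SimpleGraph V} {K : Finset V} {b : List V} {bl : List (List V)}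
    (h : Sys G K (b :: bl)) : Sys G K (b.reverse :: bl) := by
  apply Sys.cons_of h.tail
  · have := h.nodup
    rw [List.flatten_cons] at this
    exact ((List.reverse_perm b).append_right _).nodup_iff.2 this
  · exact isChain_reverse (h.chain b (by simp))
  · rw [List.head?_reverse]
    exact h.last b (by simp)
  · rw [List.getLast?_reverse]
    exact h.head b (by simp)

/-- cutting a block at a gap (`U` may be empty) -/
theorem Sys.split_block {G : SimpleGraph V} {K : Finset V} {A U B : List V} {bl : List (List V)}
    (h : Sys G K ((A ++ (U ++ B)) :: bl)) (hA : ∃ x ∈ A.getLast?, x ∈ K)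
    (hB : ∃ x ∈ B.head?, x ∈ K) : Sys G K (A :: B :: bl) := by
  have hn := h.nodup
  have hc := h.chain _ (List.mem_cons_self)
  have hA0 : A ≠ [] := by
    rintro rfl
    obtain ⟨x, hx, -⟩ := hA
    simp at hx
  have hB0 : B ≠ [] := by
    rintro rfl
    obtain ⟨x, hx, -⟩ := hB
    simp at hx
  have hhead := h.head _ (List.mem_cons_self)
  have hlast := h.last _ (List.mem_cons_self)
  rw [List.head?_append_of_ne_nil _ hA0] at hhead
  rw [List.getLast?_append_of_ne_nil _ (by simp [hB0]),
    List.getLast?_append_of_ne_nil _ hB0] at hlast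
  rw [List.flatten_cons] at hn
  have hc1 := List.isChain_append.1 hc
  have hc2 := List.isChain_append.1 hc1.2.1
  have hsub : (A ++ (B ++ bl.flatten)).Sublist (A ++ (U ++ B) ++ bl.flatten) := by
    rw [List.append_assoc, List.append_assoc]
    exact (List.sublist_append_right U (B ++ bl.flatten)).append_left A
  have hn2 : (A ++ (B ++ bl.flatten)).Nodup := hsub.nodup hn
  refine Sys.cons_of (Sys.cons_of h.tail ?_ hc2.2.1 hB hlast) ?_ hc1.1 hhead hA
  · exact (List.nodup_append.1 hn2).2.1
  · rw [List.flatten_cons]
    exact hn2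

theorem Sys.nodup_blocks {G : SimpleGraph V} {K : Finset V} {bl : List (List V)}
    (h : Sys G K bl) : bl.Nodup := by
  induction bl with
  | nil => simp
  | cons b t ih =>
    rw [List.nodup_cons]
    refine ⟨?_, ih h.tail⟩
    intro hb
    have hn := h.nodup
    rw [List.flatten_cons, List.nodup_append] at hn
    obtain ⟨x, hx, -⟩ := h.head b (by simp)
    have hx' : x ∈ b := List.mem_of_head? hx
    exact hn.2.2 x hx' x (List.mem_flatten.2 ⟨b, hb, hx'⟩) rfl

/-- two blocks with a common vertex are equal -/
theorem Sys.eq_of_mem {G : SimpleGraph V} {K : Finset V} {bl : List (List V)}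
    (h : Sys G K bl) {b c : List V} (hb : b ∈ bl) (hc : c ∈ bl) {x : V} (hxb : x ∈ b)
    (hxc : x ∈ c) : b = c := by
  induction bl with
  | nil => simp at hb
  | cons d t ih =>
    have hn := h.nodup
    rw [List.flatten_cons, List.nodup_append] at hn
    rcases List.mem_cons.1 hb with e1 | hb'
    · rcases List.mem_cons.1 hc with e2 | hc'
      · rw [e1, e2]
      · subst e1
        exact absurd rfl (hn.2.2 x hxb x (List.mem_flatten.2 ⟨c, hc', hxc⟩))
    · rcases List.mem_cons.1 hc with e2 | hc'
      · subst e2
        exact absurd rfl (hn.2.2 x hxc x (List.mem_flatten.2 ⟨b, hb', hxb⟩))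
      · exact ih h.tail hb' hc'

theorem Sys.block_nodup {G : SimpleGraph V} {K : Finset V} {bl : List (List V)}
    (h : Sys G K bl) {b : List V} (hb : b ∈ bl) : b.Nodup :=
  (List.nodup_flatten.1 h.nodup).1 b hb

theorem Sys.exists_cut {G : SimpleGraph V} {K : Finset V} {bl : List (List V)}
    (h : Sys G K bl) (hc : Cov K bl) {k : V} (hk : k ∈ K) : ∃ A B, IsCut bl k A B := by
  obtain ⟨b, hb, hkb⟩ := List.mem_flatten.1 (hc k hk)
  obtain ⟨A, B, rfl⟩ := List.append_of_mem hkb
  rcases A with _ | ⟨a, A⟩
  · exact ⟨k :: B, [], by simpa using hb, by simp, Or.inr ⟨rfl, by simp⟩⟩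
  · exact ⟨a :: A, k :: B, hb, by simp, Or.inl (by simp)⟩

/-- in a list without repetitions a cut is determined by its port -/
theorem cut_unique {l A B A' B' : List V} (hn : l.Nodup) (h : l = A ++ B) (h' : l = A' ++ B')
    (hA : A ≠ []) (he : A.getLast? = A'.getLast?) : A = A' ∧ B = B' := by
  have hA' : A' ≠ [] := by
    rintro rfl
    rw [List.getLast?_nil, List.getLast?_eq_none_iff] at he
    exact hA he
  obtain ⟨C, z, rfl⟩ := List.eq_nil_or_concat' A |>.resolve_left hA
  obtain ⟨C', z', rfl⟩ := List.eq_nil_or_concat' A' |>.resolve_left hA'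
  have he : z = z' := by simpa using he
  subst he
  rw [List.append_assoc] at h h'
  have hz : C.length = C'.length := by
    have h1 : l[C.length]? = some z := by
      rw [h, List.getElem?_append_right le_rfl]; simp
    have h2 : l[C'.length]? = some z := by
      rw [h', List.getElem?_append_right le_rfl]; simp
    have hl1 : C.length < l.length := by rw [h]; simp
    exact (List.getElem?_inj hl1 hn).1 (h1.trans h2.symm)
  rw [h] at h'
  obtain ⟨e1, e2⟩ := List.append_inj h' hz
  simp only [List.singleton_append, List.cons.injEq, true_and] at e2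
  exact ⟨by rw [e1], e2⟩

/-- different `k` have different ports -/
theorem Sys.port_inj {G : SimpleGraph V} {K : Finset V} {bl : List (List V)} (h : Sys G K bl)
    {k k' : V} {A B A' B' : List V} (hc : IsCut bl k A B) (hc' : IsCut bl k' A' B')
    (he : A.getLast? = A'.getLast?) : k = k' := by
  obtain ⟨h1, h2, h3⟩ := hc
  obtain ⟨h1', h2', h3'⟩ := hc'
  obtain ⟨z, hz⟩ : ∃ z, A.getLast? = some z := by
    cases hA : A.getLast? with
    | none => exact absurd (List.getLast?_eq_none_iff.1 hA) h2
    | some z => exact ⟨z, rfl⟩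
  have hz' : A'.getLast? = some z := he ▸ hz
  have hb : A ++ B = A' ++ B' :=
    h.eq_of_mem h1 h1' (List.mem_append_left _ (List.mem_of_getLast? hz))
      (List.mem_append_left _ (List.mem_of_getLast? hz'))
  obtain ⟨rfl, rfl⟩ := cut_unique (h.block_nodup h1) rfl hb h2 he
  rcases h3 with h3 | ⟨h3, h4⟩ <;> rcases h3' with h3' | ⟨h3', h4'⟩
  · rw [h3] at h3'; simpa using h3'
  · rw [h3'] at h3; simp at h3
  · rw [h3] at h3'; simp at h3'
  · rw [h4] at h4'; simpa using h4'

end Vale.Agent.P048
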