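import Vale.Agent.P048.Reroute
import Vale.Agent.P048.Sys

/-!
# P048: the case without short extensions of a maximal covering system
-/

namespace Vale.Agent.P048

open Finset

namespace CaseAAux

variable {V : Type*}

/-- `y` is reached from `z` by a chain of at most `j` vertices (counting `y`) with `P`. -/
def Reach (G : SimpleGraph V) (P : V → Prop) (z : V) (j : ℕ) (y : V) : Prop :=
  ∃ W : List V, W.length + 1 ≤ j ∧ (∀ x ∈ W, P x) ∧ P y ∧ List.IsChain G.Adj (z :: (W ++ [y]))

theorem Reach.one {G : SimpleGraph V} {P : V → Prop} {z y : V} (hy : P y) (h : G.Adj z y) :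
    Reach G P z 1 y :=
  ⟨[], by simp, by simp, hy, by simp [h]⟩

theorem Reach.mono {G : SimpleGraph V} {P : V → Prop} {z y : V} {j j' : ℕ} (hj : j ≤ j')
    (h : Reach G P z j y) : Reach G P z j' y := by
  obtain ⟨W, h1, h2⟩ := h
  exact ⟨W, h1.trans hj, h2⟩

theorem Reach.prop {G : SimpleGraph V} {P : V → Prop} {z y : V} {j : ℕ}
    (h : Reach G P z j y) : P y := h.choose_spec.2.2.1

theorem Reach.succ {G : SimpleGraph V} {P : V → Prop} {z y y' : V} {j : ℕ}
    (h : Reach G P z j y) (hy : P y') (ha : G.Adj y y') : Reach G P z (j + 1) y' := by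
  obtain ⟨W, h1, h2, h3, h4⟩ := h
  refine ⟨W ++ [y], by simp; omega, ?_, hy, ?_⟩
  · intro x hx
    rw [List.mem_append, List.mem_singleton] at hx
    rcases hx with hx | rfl
    · exact h2 x hx
    · exact h3
  · rw [List.append_assoc]
    have : z :: (W ++ ([y] ++ [y'])) = (z :: W) ++ y :: [y'] := by simp
    rw [this, List.isChain_split]
    refine ⟨by simpa using h4, by simp [ha]⟩

/-- a chain from `z` to the vertex `z'` outside -/
theorem Reach.to {G : SimpleGraph V} {P : V → Prop} {z y z' : V} {j : ℕ}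
    (h : Reach G P z j y) (ha : G.Adj y z') :
    ∃ W : List V, W ≠ [] ∧ W.length ≤ j ∧ (∀ x ∈ W, P x) ∧
      List.IsChain G.Adj (z :: (W ++ [z'])) := by
  obtain ⟨W, h1, h2, h3, h4⟩ := h
  refine ⟨W ++ [y], by simp, by simpa using h1, ?_, ?_⟩
  · intro x hx
    rw [List.mem_append, List.mem_singleton] at hx
    rcases hx with hx | rfl
    · exact h2 x hx
    · exact h3
  · rw [List.append_assoc]
    have : z :: (W ++ ([y] ++ [z'])) = (z :: W) ++ y :: [z'] := by simp
    rw [this, List.isChain_split]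
    refine ⟨by simpa using h4, by simp [ha]⟩

theorem chain_reverse {G : SimpleGraph V} {z y : V} {W : List V}
    (h : List.IsChain G.Adj (z :: (W ++ [y]))) : List.IsChain G.Adj (y :: (W.reverse ++ [z])) := by
  have := List.isChain_reverse.2 (by
    have h' : List.IsChain (fun a b => G.Adj b a) (z :: (W ++ [y])) :=
      h.imp (fun _ _ h => h.symm)
    exact h' : List.IsChain (fun a b => G.Adj b a) (z :: (W ++ [y])))
  simpa using this

theorem Reach.join {G : SimpleGraph V} {P : V → Prop} {z y z' y' : V} {j j' : ℕ}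
    (h : Reach G P z j y) (h' : Reach G P z' j' y') (ha : y = y' ∨ G.Adj y y') :
    ∃ W : List V, W ≠ [] ∧ W.length ≤ j + j' ∧ (∀ x ∈ W, P x) ∧
      List.IsChain G.Adj (z :: (W ++ [z'])) := by
  obtain ⟨W, h1, h2, h3, h4⟩ := h
  obtain ⟨W', k1, k2, k3, k4⟩ := h'
  rcases ha with rfl | ha
  · refine ⟨W ++ (y :: W'.reverse), by simp, by simp; omega, ?_, ?_⟩
    · intro x hx
      rw [List.mem_append, List.mem_cons, List.mem_reverse] at hx
      rcases hx with hx | rfl | hx
      · exact h2 x hx
      · exact h3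
      · exact k2 x hx
    · have : z :: ((W ++ (y :: W'.reverse)) ++ [z']) = (z :: W) ++ y :: (W'.reverse ++ [z']) := by
        simp
      rw [this, List.isChain_split]
      exact ⟨by simpa using h4, chain_reverse k4⟩
  · refine ⟨W ++ (y :: y' :: W'.reverse), by simp, by simp; omega, ?_, ?_⟩
    · intro x hx
      rw [List.mem_append, List.mem_cons, List.mem_cons, List.mem_reverse] at hx
      rcases hx with hx | rfl | rfl | hx
      · exact h2 x hx
      · exact h3
      · exact k3
      · exact k2 x hx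
    · have : z :: ((W ++ (y :: y' :: W'.reverse)) ++ [z']) =
          (z :: W) ++ y :: (y' :: (W'.reverse ++ [z'])) := by
        simp
      rw [this, List.isChain_split]
      refine ⟨by simpa using h4, ?_⟩
      rw [List.isChain_cons_cons]
      exact ⟨ha, chain_reverse k4⟩

/-- two nonadjacent vertices near the port `z` -/
theorem exists_pair [Fintype V] [DecidableEq V] (G : SimpleGraph V) [DecidableRel G.Adj] (m : ℕ)
    (hdeg : ∀ v, m - 1 ≤ G.degree v) (r : ℕ)
    (hmax : ∀ K' : Finset V, G.IsClique (K' : Set V) → K'.card ≤ r)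
    (F Q : Finset V) (hF : F.card + 1 ≤ m) (z : V) (hz : z ∈ F) (hQ : Q ⊆ F) (hzQ : z ∉ Q)
    (hQr : r ≤ Q.card + 1)
    (hconn : ∀ y, Reach G (fun x => x ∉ F) z 3 y → ∀ q ∈ Q, ¬ G.Adj y q) :
    ∃ p q, Reach G (fun x => x ∉ F) z 3 p ∧ Reach G (fun x => x ∉ F) z 3 q ∧ p ≠ q ∧
      ¬ G.Adj p q := by
  classical
  by_contra hno
  push Not at hno
  set P : V → Prop := fun x => x ∉ F with hP
  set D : Finset V := Finset.univ.filter (fun y => Reach G P z 3 y) with hD
  have hDmem : ∀ y, y ∈ D ↔ Reach G P z 3 y := by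
    intro y
    rw [hD, Finset.mem_filter]
    simp
  have hDcl : G.IsClique (D : Set V) := by
    intro x hx y hy hxy
    rw [Finset.mem_coe, hDmem] at hx hy
    exact hno x y hx hy hxy
  have hDr := hmax D hDcl
  -- a first vertex
  have hdz := hdeg z
  rw [← G.card_neighborFinset_eq_degree] at hdz
  have h1 : ∃ y, y ∈ G.neighborFinset z ∧ y ∉ F := by
    by_contra hn
    push Not at hn
    have hsub : G.neighborFinset z ⊆ F.erase z := by
      intro y hy
      rw [Finset.mem_erase]
      refine ⟨?_, hn y hy⟩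
      rintro rfl
      rw [SimpleGraph.mem_neighborFinset] at hy
      exact G.loopless.irrefl _ hy
    have := Finset.card_le_card hsub
    rw [Finset.card_erase_of_mem hz] at this
    have := Finset.card_pos.2 ⟨z, hz⟩
    omega
  obtain ⟨y₀, hy₀, hy₀F⟩ := h1
  rw [SimpleGraph.mem_neighborFinset] at hy₀
  have hr0 : Reach G P z 1 y₀ := Reach.one hy₀F hy₀
  have hy₀D : y₀ ∈ D := (hDmem y₀).2 (hr0.mono (by norm_num))
  -- everything in `D` is reached in two steps
  have h2 : ∀ y ∈ D, Reach G P z 2 y := by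
    intro y hy
    by_cases hyy : y = y₀
    · rw [hyy]
      exact hr0.mono (by norm_num)
    · exact hr0.succ ((hDmem y).1 hy).prop (hDcl (by simpa using hy₀D) (by simpa using hy)
        (Ne.symm hyy))
  have h3 : ∀ y ∈ D, G.neighborFinset y \ F ⊆ D.erase y := by
    intro y hy x hx
    rw [Finset.mem_sdiff, SimpleGraph.mem_neighborFinset] at hx
    rw [Finset.mem_erase]
    refine ⟨?_, (hDmem x).2 ((h2 y hy).succ hx.2 hx.1)⟩
    rintro rfl
    exact G.loopless.irrefl _ hx.1
  have h4 : ∀ y ∈ D, m ≤ (G.neighborFinset y ∩ F).card + D.card := by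
    intro y hy
    have e1 := Finset.card_le_card (h3 y hy)
    rw [Finset.card_erase_of_mem hy] at e1
    have e2 := Finset.card_sdiff_add_card_inter (G.neighborFinset y) F
    have e3 := hdeg y
    rw [← G.card_neighborFinset_eq_degree] at e3
    have e4 := Finset.card_pos.2 ⟨y, hy⟩
    omega
  have h5 : ∀ y ∈ D, G.neighborFinset y ∩ F ⊆ F \ Q := by
    intro y hy x hx
    rw [Finset.mem_inter, SimpleGraph.mem_neighborFinset] at hx
    rw [Finset.mem_sdiff]
    exact ⟨hx.2, fun hxQ => hconn y ((hDmem y).1 hy) x hxQ hx.1⟩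
  have hcQ : (F \ Q).card + Q.card = F.card := by
    have := Finset.card_sdiff_add_card_eq_card hQ
    omega
  have h6 : ∀ y ∈ D, G.Adj y z := by
    intro y hy
    by_contra hyz
    have hsub : G.neighborFinset y ∩ F ⊆ (F \ Q).erase z := by
      intro x hx
      rw [Finset.mem_erase]
      refine ⟨?_, h5 y hy hx⟩
      rintro rfl
      rw [Finset.mem_inter, SimpleGraph.mem_neighborFinset] at hx
      exact hyz hx.1
    have e1 := Finset.card_le_card hsub
    have hzz : z ∈ F \ Q := by
      rw [Finset.mem_sdiff]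
      exact ⟨hz, hzQ⟩
    rw [Finset.card_erase_of_mem hzz] at e1
    have e2 := h4 y hy
    have e3 := Finset.card_pos.2 ⟨z, hzz⟩
    omega
  have h7 : r ≤ D.card := by
    have e1 := Finset.card_le_card (h5 y₀ hy₀D)
    have e2 := h4 y₀ hy₀D
    omega
  have hzD : z ∉ D := fun hzD => ((hDmem z).1 hzD).prop hz
  have h8 : G.IsClique ((insert z D : Finset V) : Set V) := by
    rw [Finset.coe_insert, SimpleGraph.isClique_insert]
    refine ⟨hDcl, ?_⟩
    intro y hy _
    exact (h6 y (by simpa using hy)).symm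
  have h9 := hmax _ h8
  rw [Finset.card_insert_of_notMem hzD] at h9
  omega

end CaseAAux

variable {V : Type*}

open CaseAAux in
theorem caseA [Fintype V] [DecidableEq V] (G : SimpleGraph V) [DecidableRel G.Adj] (m : ℕ)
    (hdeg : ∀ v, m - 1 ≤ G.degree v) (K : Finset V) (hK : G.IsClique (K : Set V))
    (hmax : ∀ K' : Finset V, G.IsClique (K' : Set V) → K'.card ≤ K.card) (hK2 : 2 ≤ K.card)
    (bl : List (List V)) (h : Sys G K bl) (hc : Cov K bl) (hlen : bl.flatten.length + 1 ≤ m)
    (hno : ∀ bl', Sys G K bl' → Cov K bl' → ∀ q, 1 ≤ q → q ≤ 6 →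
      bl'.flatten.length ≠ bl.flatten.length + q) :
    ∃ I : Finset V, G.IsIndepSet (I : Set V) ∧ I.card = 2 * K.card := by
  classical
  -- the ports
  have hport : ∀ k : V, ∃ z : V, k ∈ K → ∃ A B, IsCut bl k A B ∧ A.getLast? = some z := by
    intro k
    by_cases hk : k ∈ K
    · obtain ⟨A, B, hAB⟩ := h.exists_cut hc hk
      exact ⟨A.getLast hAB.2.1, fun _ => ⟨A, B, hAB, List.getLast?_eq_some_getLast hAB.2.1⟩⟩
    · exact ⟨k, fun hk' => absurd hk' hk⟩
  choose z hz using hport
  have hzinj : ∀ k ∈ K, ∀ k' ∈ K, z k = z k' → k = k' := by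
    intro k hk k' hk' he
    obtain ⟨A, B, h1, h2⟩ := hz k hk
    obtain ⟨A', B', h1', h2'⟩ := hz k' hk'
    exact h.port_inj h1 h1' (by rw [h2, h2', he])
  have hzF : ∀ k ∈ K, z k ∈ bl.flatten := by
    intro k hk
    obtain ⟨A, B, h1, h2⟩ := hz k hk
    rw [List.mem_flatten]
    exact ⟨A ++ B, h1.1, List.mem_append_left _ (List.mem_of_getLast? h2)⟩
  -- no short chains between two ports
  have hconn : ∀ k ∈ K, ∀ k' ∈ K, k ≠ k' → ∀ W : List V, W ≠ [] → W.length ≤ 6 →
      (∀ x ∈ W, x ∉ bl.flatten) → ¬ List.IsChain G.Adj (z k :: (W ++ [z k'])) := by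
    intro k hk k' hk' hkk W hW0 hW6 hWF hWc
    obtain ⟨W', a1, a2, a3, a4, a5⟩ := exists_simple_chain (P := fun x => x ∉ bl.flatten) W hWF
      hWc hW0
    obtain ⟨A, B, h1, h2⟩ := hz k hk
    obtain ⟨A', B', h1', h2'⟩ := hz k' hk'
    obtain ⟨aff, new, rest, b1, b2, b3, b4⟩ := h.reroute hkk hk hk' h1 h1' h2 h2' a1 a2 a3
    refine hno (new ++ rest) b3 ?_ W'.length (List.length_pos_iff.2 a4) (a5.trans hW6) ?_
    · intro x hx
      exact b4.mem_iff.2 (List.mem_append_right _ (hc x hx))
    · rw [b4.length_eq, List.length_append]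
      omega
  set F : Finset V := bl.flatten.toFinset with hF
  have hFmem : ∀ x, x ∈ F ↔ x ∈ bl.flatten := by
    intro x
    rw [hF, List.mem_toFinset]
  have hFcard : F.card = bl.flatten.length := by
    rw [hF, List.toFinset_card_of_nodup h.nodup]
  set P : V → Prop := fun x => x ∉ F with hP
  have hP' : ∀ W : List V, (∀ x ∈ W, P x) → ∀ x ∈ W, x ∉ bl.flatten := by
    intro W hW x hx hxF
    exact hW x hx ((hFmem x).2 hxF)
  have hpair : ∀ k : V, ∃ p q : V, k ∈ K → Reach G P (z k) 3 p ∧ Reach G P (z k) 3 q ∧ p ≠ q ∧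
      ¬ G.Adj p q := by
    intro k
    by_cases hk : k ∈ K
    · have := exists_pair G m hdeg K.card hmax F ((K.erase k).image z) (by omega) (z k)
        ((hFmem _).2 (hzF k hk)) (by
          intro x hx
          rw [Finset.mem_image] at hx
          obtain ⟨k', hk', rfl⟩ := hx
          exact (hFmem _).2 (hzF k' (Finset.mem_of_mem_erase hk'))) (by
          intro hx
          rw [Finset.mem_image] at hx
          obtain ⟨k', hk', he⟩ := hx
          rw [Finset.mem_erase] at hk'
          exact hk'.1 (hzinj k' hk'.2 k hk he)) (by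
          rw [Finset.card_image_of_injOn (by
            intro x hx y hy he
            exact hzinj x (Finset.mem_of_mem_erase hx) y (Finset.mem_of_mem_erase hy) he),
            Finset.card_erase_of_mem hk]
          omega) (by
          intro y hy q hq hyq
          rw [Finset.mem_image] at hq
          obtain ⟨k', hk', rfl⟩ := hq
          rw [Finset.mem_erase] at hk'
          obtain ⟨W, c1, c2, c3, c4⟩ := hy.to hyq
          exact hconn k hk k' hk'.2 (Ne.symm hk'.1) W c1 (by omega) (hP' W c3) c4)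
      obtain ⟨p, q, hpq⟩ := this
      exact ⟨p, q, fun _ => hpq⟩
    · exact ⟨k, k, fun hk' => absurd hk' hk⟩
  choose p q hpq using hpair
  have hsep : ∀ k ∈ K, ∀ k' ∈ K, k ≠ k' → ∀ y y', Reach G P (z k) 3 y → Reach G P (z k') 3 y' →
      y ≠ y' ∧ ¬ G.Adj y y' := by
    intro k hk k' hk' hkk y y' hy hy'
    constructor
    · intro he
      obtain ⟨W, c1, c2, c3, c4⟩ := hy.join hy' (Or.inl he)
      exact hconn k hk k' hk' hkk W c1 (by omega) (hP' W c3) c4
    · intro he
      obtain ⟨W, c1, c2, c3, c4⟩ := hy.join hy' (Or.inr he)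
      exact hconn k hk k' hk' hkk W c1 (by omega) (hP' W c3) c4
  refine ⟨K.biUnion (fun k => {p k, q k}), ?_, ?_⟩
  · intro x hx y hy hxy
    rw [Finset.mem_coe, Finset.mem_biUnion] at hx hy
    obtain ⟨k, hk, hx⟩ := hx
    obtain ⟨k', hk', hy⟩ := hy
    have hrx : Reach G P (z k) 3 x := by
      rw [Finset.mem_insert, Finset.mem_singleton] at hx
      rcases hx with rfl | rfl
      · exact (hpq k hk).1
      · exact (hpq k hk).2.1
    have hry : Reach G P (z k') 3 y := by
      rw [Finset.mem_insert, Finset.mem_singleton] at hy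
      rcases hy with rfl | rfl
      · exact (hpq k' hk').1
      · exact (hpq k' hk').2.1
    by_cases hkk : k = k'
    · subst hkk
      rw [Finset.mem_insert, Finset.mem_singleton] at hx hy
      rcases hx with rfl | rfl <;> rcases hy with rfl | rfl
      · exact absurd rfl hxy
      · exact (hpq k hk).2.2.2
      · exact fun ha => (hpq k hk).2.2.2 ha.symm
      · exact absurd rfl hxy
    · exact (hsep k hk k' hk' hkk x y hrx hry).2
  · rw [Finset.card_biUnion]
    · rw [Finset.sum_congr rfl (fun k hk => Finset.card_pair (hpq k hk).2.2.1),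
        Finset.sum_const, smul_eq_mul, mul_comm]
    · intro k hk k' hk' hkk
      rw [Function.onFun, Finset.disjoint_left]
      intro x hx hx'
      have hrx : Reach G P (z k) 3 x := by
        rw [Finset.mem_insert, Finset.mem_singleton] at hx
        rcases hx with rfl | rfl
        · exact (hpq k hk).1
        · exact (hpq k hk).2.1
      have hry : Reach G P (z k') 3 x := by
        rw [Finset.mem_insert, Finset.mem_singleton] at hx'
        rcases hx' with rfl | rfl
        · exact (hpq k' hk').1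
        · exact (hpq k' hk').2.1
      exact (hsep k hk k' hk' hkk x x hrx hry).1 rfl

end Vale.Agent.P048
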