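import Vale.Agent.P048.Basic

namespace Vale.Agent.P048

open Finset

variable {V : Type*}

/-- The largest size of an independent subset of the finite set `S`. -/
noncomputable def ind (G : SimpleGraph V) (S : Finset V) : ℕ := by
  classical
  exact (S.powerset.filter (fun I : Finset V => G.IsIndepSet (I : Set V))).sup Finset.card

theorem card_le_ind {G : SimpleGraph V} {S I : Finset V} (hI : I ⊆ S)
    (hi : G.IsIndepSet (I : Set V)) : I.card ≤ ind G S := by
  classical
  unfold ind
  exact Finset.le_sup (f := Finset.card) (by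
    rw [Finset.mem_filter, Finset.mem_powerset]; exact ⟨hI, hi⟩)

theorem exists_ind (G : SimpleGraph V) (S : Finset V) :
    ∃ I ⊆ S, G.IsIndepSet (I : Set V) ∧ I.card = ind G S := by
  classical
  unfold ind
  obtain ⟨I, hI, hI'⟩ := Finset.exists_mem_eq_sup
    (S.powerset.filter (fun I : Finset V => G.IsIndepSet (I : Set V)))
    ⟨∅, by simp⟩ Finset.card
  rw [Finset.mem_filter, Finset.mem_powerset] at hI
  exact ⟨I, hI.1, hI.2, hI'.symm⟩

theorem ind_mono {G : SimpleGraph V} {S S' : Finset V} (h : S ⊆ S') : ind G S ≤ ind G S' := by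
  obtain ⟨I, h1, h2, h3⟩ := exists_ind G S
  rw [← h3]
  exact card_le_ind (h1.trans h) h2

theorem ind_pos {G : SimpleGraph V} {S : Finset V} (h : S.Nonempty) : 1 ≤ ind G S := by
  obtain ⟨x, hx⟩ := h
  have := card_le_ind (G := G) (S := S) (I := {x}) (by simpa using hx) (by simp)
  simpa using this

theorem ind_add_le [DecidableEq V] {G : SimpleGraph V} {S S' : Finset V} (hd : Disjoint S S')
    (hn : ∀ x ∈ S, ∀ y ∈ S', ¬ G.Adj x y) : ind G S + ind G S' ≤ ind G (S ∪ S') := by
  obtain ⟨I, h1, h2, h3⟩ := exists_ind G S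
  obtain ⟨J, k1, k2, k3⟩ := exists_ind G S'
  rw [← h3, ← k3, ← Finset.card_union_of_disjoint (Finset.disjoint_of_subset_left h1
    (Finset.disjoint_of_subset_right k1 hd))]
  apply card_le_ind (Finset.union_subset_union h1 k1)
  rw [Finset.coe_union]
  intro x hx y hy hxy
  rcases hx with hx | hx <;> rcases hy with hy | hy
  · exact h2 hx hy hxy
  · exact hn x (h1 hx) y (k1 hy)
  · intro h
    exact hn y (h1 hy) x (k1 hx) h.symm
  · exact k2 hx hy hxy

/-- Deleting the closed neighbourhood of an independent set `I` lowers `ind` by at least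
`I.card`. -/
theorem ind_sdiff_add_le [DecidableEq V] {G : SimpleGraph V} [DecidableRel G.Adj]
    {S I : Finset V} (hI : I ⊆ S) (hi : G.IsIndepSet (I : Set V)) :
    ind G (S.filter (fun x => ∀ y ∈ I, x ≠ y ∧ ¬ G.Adj y x)) + I.card ≤ ind G S := by
  have h1 := ind_add_le (G := G) (S := S.filter (fun x => ∀ y ∈ I, x ≠ y ∧ ¬ G.Adj y x)) (S' := I)
    (by
      rw [Finset.disjoint_left]
      intro x hx hxI
      rw [Finset.mem_filter] at hx
      exact (hx.2 x hxI).1 rfl)
    (by
      intro x hx y hy h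
      rw [Finset.mem_filter] at hx
      exact (hx.2 y hy).2 h.symm)
  have h2 := card_le_ind (G := G) (S := I) (I := I) (Finset.Subset.refl _) hi
  have h3 : ind G (S.filter (fun x => ∀ y ∈ I, x ≠ y ∧ ¬ G.Adj y x) ∪ I) ≤ ind G S := by
    apply ind_mono
    intro x hx
    rw [Finset.mem_union, Finset.mem_filter] at hx
    rcases hx with hx | hx
    · exact hx.1
    · exact hI hx
  omega

/-- `ind` of a finite set equals `ind` of the induced graph. -/
theorem ind_comap [DecidableEq V] (G : SimpleGraph V) (S : Finset V) (T : Finset {x // x ∈ S}) :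
    ind (G.comap (fun x : {x // x ∈ S} => x.1)) T
      = ind G (T.map ⟨fun x : {x // x ∈ S} => x.1, Subtype.val_injective⟩) := by
  apply le_antisymm
  · obtain ⟨I, h1, h2, h3⟩ := exists_ind (G.comap (fun x : {x // x ∈ S} => x.1)) T
    rw [← h3, ← Finset.card_map (⟨fun x : {x // x ∈ S} => x.1, Subtype.val_injective⟩ :
      {x // x ∈ S} ↪ V)]
    apply card_le_ind (Finset.map_subset_map.2 h1)
    intro x hx y hy hxy
    rw [Finset.mem_coe, Finset.mem_map] at hx hy
    obtain ⟨x, hx, rfl⟩ := hx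
    obtain ⟨y, hy, rfl⟩ := hy
    exact h2 hx hy (fun h => hxy (by rw [h]))
  · obtain ⟨I, h1, h2, h3⟩ := exists_ind G
      (T.map ⟨fun x : {x // x ∈ S} => x.1, Subtype.val_injective⟩)
    rw [← h3]
    have hsub : ∃ J : Finset {x // x ∈ S}, J ⊆ T ∧
        J.map ⟨fun x : {x // x ∈ S} => x.1, Subtype.val_injective⟩ = I := by
      obtain ⟨J, hJ, hJ'⟩ := Finset.subset_map_iff.1 h1
      exact ⟨J, hJ, hJ'.symm⟩
    obtain ⟨J, hJ, rfl⟩ := hsub
    rw [Finset.card_map]
    apply card_le_ind hJ
    intro x hx y hy hxy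
    exact h2 (by rw [Finset.mem_coe, Finset.mem_map]; exact ⟨x, hx, rfl⟩)
      (by rw [Finset.mem_coe, Finset.mem_map]; exact ⟨y, hy, rfl⟩)
      (fun h => hxy (Subtype.ext h))

end Vale.Agent.P048
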