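import Vale.Agent.P048.Sys
import Vale.Agent.P048.Ind

/-!
# P048: gaps of a system of paths
-/

namespace Vale.Agent.P048

open Finset

variable {V : Type*}

/-- number of vertices of `K` on a list, and of the others -/
def cK [DecidableEq V] (K : Finset V) (b : List V) : ℕ := b.countP (fun x => decide (x ∈ K))
def cN [DecidableEq V] (K : Finset V) (b : List V) : ℕ := b.countP (fun x => decide (x ∉ K))

/-- `b` starts and ends in `K` and between any two consecutive vertices of `K` on `b` there are
at least `δ` others. -/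
def Gapped (K : Finset V) (δ : ℕ) (b : List V) : Prop :=
  (∃ x ∈ b.head?, x ∈ K) ∧ (∃ x ∈ b.getLast?, x ∈ K) ∧
    ∀ A U B : List V, b = A ++ (U ++ B) → (∃ x ∈ A.getLast?, x ∈ K) → (∃ x ∈ B.head?, x ∈ K) →
      (∀ x ∈ U, x ∉ K) → δ ≤ U.length

namespace GapsAux

theorem cK_nil [DecidableEq V] (K : Finset V) : cK K [] = 0 := rfl

theorem cN_nil [DecidableEq V] (K : Finset V) : cN K [] = 0 := rfl

theorem cK_append [DecidableEq V] (K : Finset V) (a b : List V) :
    cK K (a ++ b) = cK K a + cK K b := by
  simp only [cK, List.countP_append]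

theorem cN_append [DecidableEq V] (K : Finset V) (a b : List V) :
    cN K (a ++ b) = cN K a + cN K b := by
  simp only [cN, List.countP_append]

theorem cK_cons_mem [DecidableEq V] {K : Finset V} {x : V} (hx : x ∈ K) (b : List V) :
    cK K (x :: b) = cK K b + 1 := by
  simp [cK, hx]

theorem cN_cons_mem [DecidableEq V] {K : Finset V} {x : V} (hx : x ∈ K) (b : List V) :
    cN K (x :: b) = cN K b := by
  simp [cN, hx]

theorem cK_of_notMem [DecidableEq V] {K : Finset V} {U : List V} (hU : ∀ x ∈ U, x ∉ K) :
    cK K U = 0 := by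
  unfold cK
  rw [List.countP_eq_zero]
  intro x hx
  simp [hU x hx]

theorem cN_of_notMem [DecidableEq V] {K : Finset V} {U : List V} (hU : ∀ x ∈ U, x ∉ K) :
    cN K U = U.length := by
  unfold cN
  rw [List.countP_eq_length]
  intro x hx
  simp [hU x hx]

theorem cK_add_cN [DecidableEq V] (K : Finset V) (b : List V) : cK K b + cN K b = b.length := by
  unfold cK cN
  rw [List.length_eq_countP_add_countP (fun x => decide (x ∈ K))]
  simp

theorem cK_perm [DecidableEq V] {K : Finset V} {a b : List V} (h : a.Perm b) : cK K a = cK K b :=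
  h.countP_eq _

theorem cN_perm [DecidableEq V] {K : Finset V} {a b : List V} (h : a.Perm b) : cN K a = cN K b :=
  h.countP_eq _

/-- decomposition of a gapped block -/
theorem gapped_cases {K : Finset V} {δ : ℕ} {b : List V} (h : Gapped K δ b) :
    ∃ k ∈ K, b = [k] ∨ ∃ U B, b = k :: (U ++ B) ∧ (∀ x ∈ U, x ∉ K) ∧ δ ≤ U.length ∧
      Gapped K δ B := by
  classical
  obtain ⟨⟨k, hk1, hk2⟩, ⟨l, hl1, hl2⟩, h3⟩ := h
  refine ⟨k, hk2, ?_⟩
  cases b with
  | nil => simp at hk1
  | cons k' b' =>
    have hkk : k' = k := by simpa using hk1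
    subst hkk
    by_cases hb : b' = []
    · left
      rw [hb]
    · right
      have hll : l ∈ b'.getLast? := by
        rw [List.getLast?_cons] at hl1
        rw [List.getLast?_eq_some_getLast hb] at hl1 ⊢
        simpa using hl1
      set U := b'.takeWhile (fun x => decide (x ∉ K)) with hU
      set B := b'.dropWhile (fun x => decide (x ∉ K)) with hB
      have hUB : U ++ B = b' := List.takeWhile_append_dropWhile
      have hUK : ∀ x ∈ U, x ∉ K := by
        intro x hx
        have := List.mem_takeWhile_imp hx
        simpa using this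
      have hB0 : B ≠ [] := by
        intro hB0
        rw [hB0, List.append_nil] at hUB
        rw [← hUB] at hll
        exact hUK l (List.mem_of_getLast? hll) hl2
      have hBh : ∃ x ∈ B.head?, x ∈ K := by
        have := List.head?_dropWhile_not (fun x => decide (x ∉ K)) b'
        rw [← hB] at this
        cases hBB : B with
        | nil => exact absurd hBB hB0
        | cons y B' =>
          rw [hBB] at this
          refine ⟨y, by simp, ?_⟩
          simpa using this
      have hBl : l ∈ B.getLast? := by
        rw [← hUB, List.getLast?_append, List.getLast?_eq_some_getLast hB0] at hll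
        rw [List.getLast?_eq_some_getLast hB0]
        simpa using hll
      refine ⟨U, B, by rw [hUB], hUK, ?_, hBh, ⟨l, hBl, hl2⟩, ?_⟩
      · exact h3 [k'] U B (by rw [hUB]; rfl) ⟨k', by simp, hk2⟩ hBh hUK
      · intro A U' B' hBe hA hB' hU'
        refine h3 (k' :: (U ++ A)) U' B' ?_ ?_ hB' hU'
        · rw [← hUB, hBe]
          simp
        · obtain ⟨x, hx, hxK⟩ := hA
          refine ⟨x, ?_, hxK⟩
          have hA0 : A ≠ [] := by
            rintro rfl
            simp at hx
          rw [List.getLast?_eq_some_getLast hA0] at hx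
          rw [show k' :: (U ++ A) = (k' :: U) ++ A from rfl, List.getLast?_append,
            List.getLast?_eq_some_getLast hA0]
          simpa using hx

end GapsAux

open GapsAux

theorem Gapped.count [DecidableEq V] {K : Finset V} {δ : ℕ} {b : List V} (h : Gapped K δ b) :
    δ * (cK K b - 1) ≤ cN K b ∧ 1 ≤ cK K b := by
  induction hn : b.length using Nat.strong_induction_on generalizing b with
  | _ n ih =>
    obtain ⟨k, hk, rfl | ⟨U, B, rfl, hU, hδ, hB⟩⟩ := gapped_cases h
    · rw [cK_cons_mem hk, cK_nil]
      simp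
    · have := ih B.length (by
        rw [← hn, List.length_cons, List.length_append]
        omega) hB rfl
      rw [cK_cons_mem hk, cN_cons_mem hk, cK_append, cN_append, cK_of_notMem hU, cN_of_notMem hU]
      obtain ⟨h1, h2⟩ := this
      refine ⟨?_, by omega⟩
      obtain ⟨c, hc⟩ : ∃ c, cK K B = c + 1 := ⟨cK K B - 1, by omega⟩
      rw [hc] at h1 ⊢
      simp only [Nat.add_sub_cancel] at h1
      have : 0 + (c + 1) + 1 - 1 = c + 1 := by omega
      rw [this, Nat.mul_add, Nat.mul_one]
      omega

def IsFour (K : Finset V) (b : List V) : Prop :=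
  ∃ k u u' k', b = [k, u, u', k'] ∧ k ∈ K ∧ u ∉ K ∧ u' ∉ K ∧ k' ∈ K
def IsFive (K : Finset V) (b : List V) : Prop :=
  ∃ k u u' u'' k', b = [k, u, u', u'', k'] ∧ k ∈ K ∧ u ∉ K ∧ u' ∉ K ∧ u'' ∉ K ∧ k' ∈ K
def IsSeven (K : Finset V) (b : List V) : Prop :=
  ∃ k u u' k' v v' k'', b = [k, u, u', k', v, v', k''] ∧ k ∈ K ∧ u ∉ K ∧ u' ∉ K ∧ k' ∈ K ∧
    v ∉ K ∧ v' ∉ K ∧ k'' ∈ K

namespace GapsAux

/-- a block of a system splits off -/
theorem perm_of_mem {bl : List (List V)} {b : List V} (hb : b ∈ bl) :
    ∃ rest, bl.Perm (b :: rest) := by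
  obtain ⟨s, t, rfl⟩ := List.append_of_mem hb
  exact ⟨s ++ t, List.perm_middle⟩

theorem length_le_flatten {G : SimpleGraph V} {K : Finset V} {bl : List (List V)}
    (h : Sys G K bl) : bl.length ≤ bl.flatten.length := by
  have h1 : ∀ b ∈ bl, b ≠ [] := h.ne_nil
  clear h
  induction bl with
  | nil => simp
  | cons b bl ih =>
    have e1 := ih (fun b' hb' => h1 b' (List.mem_cons_of_mem _ hb'))
    have e2 := List.length_pos_iff.2 (h1 b List.mem_cons_self)
    rw [List.length_cons, List.flatten_cons, List.length_append]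
    omega

theorem cov_perm {K : Finset V} {bl bl' : List (List V)} (hp : bl.Perm bl') (hc : Cov K bl) :
    Cov K bl' := fun x hx => hp.flatten.mem_iff.1 (hc x hx)

end GapsAux

theorem exists_gapped_system [DecidableEq V] {G : SimpleGraph V} {K : Finset V} {δ : ℕ}
    {bl : List (List V)} (h : Sys G K bl) (hc : Cov K bl) (hδ : 1 ≤ δ)
    (hno : ∀ bl', Sys G K bl' → Cov K bl' → ∀ d, 1 ≤ d → d < δ →
      bl'.flatten.length + d ≠ bl.flatten.length) :
    ∃ bl', Sys G K bl' ∧ Cov K bl' ∧ bl'.flatten.length = bl.flatten.length ∧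
      ∀ b ∈ bl', Gapped K δ b := by
  induction hn : bl.flatten.length - bl.length using Nat.strong_induction_on generalizing bl with
  | _ n ih =>
    by_cases hg : ∀ b ∈ bl, Gapped K δ b
    · exact ⟨bl, h, hc, rfl, hg⟩
    · push Not at hg
      obtain ⟨b, hb, hbg⟩ := hg
      obtain ⟨rest, hp⟩ := perm_of_mem hb
      have h' := h.perm hp
      have hc' := cov_perm hp hc
      have hlen := hp.flatten.length_eq
      have hex : ∃ A U B : List V, b = A ++ (U ++ B) ∧ (∃ x ∈ A.getLast?, x ∈ K) ∧
          (∃ x ∈ B.head?, x ∈ K) ∧ (∀ x ∈ U, x ∉ K) ∧ U.length < δ := by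
        by_contra hcon
        push Not at hcon
        refine hbg ⟨h.head b hb, h.last b hb, ?_⟩
        intro A U B h1 h2 h3 h4
        by_contra h5
        exact absurd (hcon A U B h1 h2 h3 h4) (by omega)
      obtain ⟨A, U, B, rfl, hA, hB, hU, hUδ⟩ := hex
      have h2 : Sys G K (A :: B :: rest) := h'.split_block hA hB
      have hc2 : Cov K (A :: B :: rest) := by
        intro x hx
        have := hc' x hx
        simp only [List.flatten_cons, List.mem_append] at this ⊢
        rcases this with (h3 | h3 | h3) | h3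
        · exact Or.inl h3
        · exact absurd hx (hU x h3)
        · exact Or.inr (Or.inl h3)
        · exact Or.inr (Or.inr h3)
      have hl2 : (A :: B :: rest).flatten.length + U.length = bl.flatten.length := by
        rw [hlen]
        simp only [List.flatten_cons, List.length_append]
        omega
      by_cases hU0 : U.length = 0
      · have hll : (A :: B :: rest).flatten.length = bl.flatten.length := by omega
        have hbl := hp.length_eq
        rw [List.length_cons] at hbl
        have hle := length_le_flatten h2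
        have hle' : (A :: B :: rest).length = rest.length + 2 := by simp
        obtain ⟨bl', k1, k2, k3, k4⟩ := ih ((A :: B :: rest).flatten.length -
          (A :: B :: rest).length) (by omega) h2 hc2 (by
            intro bl' a1 a2 d a3 a4
            rw [hll]
            exact hno bl' a1 a2 d a3 a4) rfl
        exact ⟨bl', k1, k2, k3.trans hll, k4⟩
      · exact absurd hl2 (hno _ h2 hc2 U.length (by omega) hUδ)

namespace GapsAux

theorem cK_flatten_cons [DecidableEq V] (K : Finset V) (b : List V) (bl : List (List V)) :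
    cK K (b :: bl).flatten = cK K b + cK K bl.flatten := by
  rw [List.flatten_cons, cK_append]

theorem cN_flatten_cons [DecidableEq V] (K : Finset V) (b : List V) (bl : List (List V)) :
    cN K (b :: bl).flatten = cN K b + cN K bl.flatten := by
  rw [List.flatten_cons, cN_append]

theorem cK_eq_card [DecidableEq V] {G : SimpleGraph V} {K : Finset V} {bl : List (List V)}
    (h : Sys G K bl) (hc : Cov K bl) : cK K bl.flatten = K.card := by
  unfold cK
  rw [List.countP_eq_length_filter, ← List.toFinset_card_of_nodup (h.nodup.filter _)]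
  congr 1
  ext x
  rw [List.mem_toFinset, List.mem_filter]
  simp only [decide_eq_true_eq]
  exact ⟨fun h => h.2, fun hx => ⟨hc x hx, hx⟩⟩

/-- a gapped block is a singleton or has two vertices in `K` -/
theorem gapped_two [DecidableEq V] {K : Finset V} {δ : ℕ} {b : List V} (h : Gapped K δ b) :
    b.length = 1 ∨ 2 ≤ cK K b := by
  obtain ⟨k, hk, rfl | ⟨U, B, rfl, hU, hδ, hB⟩⟩ := gapped_cases h
  · left
    rfl
  · right
    have := hB.count.2
    rw [cK_cons_mem hk, cK_append, cK_of_notMem hU]
    omega

theorem sum_bound [DecidableEq V] {K : Finset V} {δ : ℕ} {bl : List (List V)}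
    (h : ∀ b ∈ bl, Gapped K δ b) :
    δ * cK K bl.flatten ≤ δ * bl.countP (fun b => decide (b.length = 1)) +
      2 * cN K bl.flatten := by
  induction bl with
  | nil => simp [cK_nil]
  | cons b bl ih =>
    have e1 := ih (fun b' hb' => h b' (List.mem_cons_of_mem _ hb'))
    have e2 := h b List.mem_cons_self
    rw [cK_flatten_cons, cN_flatten_cons, List.countP_cons]
    obtain ⟨e3, e4⟩ := e2.count
    by_cases hb : b.length = 1
    · have e5 := cK_add_cN K b
      have e6 : cK K b = 1 := by omega
      simp only [hb, decide_true, if_true]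
      rw [e6, Nat.mul_add, Nat.mul_add]
      omega
    · have e5 := (gapped_two e2).resolve_left hb
      simp only [hb, decide_false, Bool.false_eq_true, if_false]
      obtain ⟨c, hc⟩ : ∃ c, cK K b = c + 2 := ⟨cK K b - 2, by omega⟩
      rw [hc] at e3 ⊢
      have : c + 2 - 1 = c + 1 := by omega
      rw [this] at e3
      have e7 : δ * (c + 2) ≤ 2 * cN K b := by
        calc δ * (c + 2) ≤ 2 * (δ * (c + 1)) := by
              rw [Nat.mul_left_comm]
              exact Nat.mul_le_mul_left _ (by omega)
          _ ≤ 2 * cN K b := Nat.mul_le_mul_left _ e3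
      have e8 : δ * (c + 2 + cK K bl.flatten) = δ * (c + 2) + δ * cK K bl.flatten :=
        Nat.mul_add _ _ _
      have e9 : List.countP (fun b => decide (b.length = 1)) bl + 0 =
        List.countP (fun b => decide (b.length = 1)) bl := Nat.add_zero _
      rw [e8, e9]
      omega

theorem flatten_singletons_length {S : List (List V)} (hS : ∀ b ∈ S, b.length = 1) :
    S.flatten.length = S.length := by
  induction S with
  | nil => rfl
  | cons b S ih =>
    rw [List.flatten_cons, List.length_append, List.length_cons,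
      ih (fun b' hb' => hS b' (List.mem_cons_of_mem _ hb')), hS b List.mem_cons_self]
    omega

/-- deleting `e` singleton blocks -/
theorem delete_singletons {G : SimpleGraph V} {K : Finset V} {bl : List (List V)}
    (h : Sys G K bl) {e : ℕ} (he : e ≤ bl.countP (fun b => decide (b.length = 1))) :
    ∃ bl', Sys G K bl' ∧ bl'.flatten.length + e = bl.flatten.length := by
  set S := bl.filter (fun b => decide (b.length = 1)) with hS
  set N := bl.filter (fun b => !decide (b.length = 1)) with hN
  have hp : (S ++ N).Perm bl := List.filter_append_perm _ _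
  have hSl : e ≤ S.length := by
    rw [hS, ← List.countP_eq_length_filter]
    exact he
  have h1 : Sys G K (S.take e ++ (S.drop e ++ N)) := by
    rw [← List.append_assoc, List.take_append_drop]
    exact h.perm hp.symm
  refine ⟨S.drop e ++ N, h1.of_append_right, ?_⟩
  have h2 : ((S.take e ++ (S.drop e ++ N)).flatten).length = bl.flatten.length := by
    rw [← List.append_assoc, List.take_append_drop]
    exact hp.flatten.length_eq
  rw [List.flatten_append, List.length_append, flatten_singletons_length (by
    intro b hb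
    have := List.mem_of_mem_take hb
    rw [hS, List.mem_filter] at this
    simpa using this.2), List.length_take, Nat.min_eq_left hSl] at h2
  omega

end GapsAux

theorem caseB2 [DecidableEq V] {G : SimpleGraph V} {K : Finset V} {m e δ : ℕ}
    {bl : List (List V)} (h : Sys G K bl) (hc : Cov K bl)
    (hm : ∀ bl', Sys G K bl' → bl'.flatten.length ≠ m) (hlen : bl.flatten.length = m + e)
    (he : 1 ≤ e) (heδ : e + 1 ≤ δ) (hδ3 : 3 ≤ δ) (hδ6 : δ ≤ 6) (hr : 9 ≤ K.card)
    (hmr : m ≤ 2 * K.card) (hno : ∀ bl', Sys G K bl' → Cov K bl' → ∀ d, 1 ≤ d → d < δ →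
      bl'.flatten.length + d ≠ bl.flatten.length) : False := by
  obtain ⟨bl', h1, h2, h3, h4⟩ := exists_gapped_system h hc (by omega) hno
  have e1 := sum_bound h4
  have e2 := cK_eq_card h1 h2
  have e3 := cK_add_cN K bl'.flatten
  rw [e2] at e1 e3
  by_cases hs : e ≤ bl'.countP (fun b => decide (b.length = 1))
  · obtain ⟨bl'', k1, k2⟩ := delete_singletons h1 hs
    exact hm bl'' k1 (by omega)
  · push Not at hs
    generalize bl'.countP (fun b => decide (b.length = 1)) = s at *
    have e4 : bl'.flatten.length = m + e := by omega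
    generalize cN K bl'.flatten = N at *
    interval_cases δ
    all_goals omega

namespace GapsAux

theorem isFour_of [DecidableEq V] {K : Finset V} {b : List V} (h : Gapped K 2 b)
    (h1 : b.length ≠ 1) (h2 : cN K b ≤ cK K b) : IsFour K b := by
  have hc := h.count.1
  have h2' := (gapped_two h).resolve_left h1
  have hK : cK K b = 2 := by omega
  have hN : cN K b = 2 := by omega
  obtain ⟨k, hk, rfl | ⟨U, B, rfl, hU, hδ, hB⟩⟩ := gapped_cases h
  · exact absurd rfl h1
  · rw [cK_cons_mem hk, cK_append, cK_of_notMem hU] at hK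
    rw [cN_cons_mem hk, cN_append, cN_of_notMem hU] at hN
    obtain ⟨k', hk', rfl | ⟨U', B', rfl, hU', hδ', hB'⟩⟩ := gapped_cases hB
    · rw [cN_cons_mem hk', cN_nil] at hN
      match U, hU, hδ, hN with
      | [u, u'], hU, _, _ =>
        exact ⟨k, u, u', k', rfl, hk, hU u (by simp), hU u' (by simp), hk'⟩
    · rw [cK_cons_mem hk', cK_append, cK_of_notMem hU'] at hK
      have := hB'.count.2
      omega

theorem isFive_or_isSeven_of [DecidableEq V] {K : Finset V} {b : List V} (h : Gapped K 2 b)
    (h1 : b.length ≠ 1) (h2 : cN K b = cK K b + 1) : IsFive K b ∨ IsSeven K b := by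
  have hc := h.count.1
  have h2' := (gapped_two h).resolve_left h1
  obtain ⟨k, hk, rfl | ⟨U, B, rfl, hU, hδ, hB⟩⟩ := gapped_cases h
  · exact absurd rfl h1
  · have hK : cK K (k :: (U ++ B)) ≤ 3 := by omega
    rw [cK_cons_mem hk, cK_append, cK_of_notMem hU, cN_cons_mem hk, cN_append,
      cN_of_notMem hU] at *
    obtain ⟨k', hk', rfl | ⟨U', B', rfl, hU', hδ', hB'⟩⟩ := gapped_cases hB
    · left
      rw [cN_cons_mem hk', cN_nil, cK_cons_mem hk', cK_nil] at h2
      match U, hU, hδ, h2 with
      | [u, u', u''], hU, _, _ =>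
        exact ⟨k, u, u', u'', k', rfl, hk, hU u (by simp), hU u' (by simp), hU u'' (by simp), hk'⟩
    · right
      rw [cK_cons_mem hk', cK_append, cK_of_notMem hU', cN_cons_mem hk', cN_append,
        cN_of_notMem hU'] at *
      obtain ⟨k'', hk'', rfl | ⟨U'', B'', rfl, hU'', hδ'', hB''⟩⟩ := gapped_cases hB'
      · rw [cN_cons_mem hk'', cN_nil, cK_cons_mem hk'', cK_nil] at *
        have hl : U.length = 2 := by omega
        have hl' : U'.length = 2 := by omega
        match U, hU, hl, U', hU', hl' with
        | [u, u'], hU, _, [v, v'], hU', _ =>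
          exact ⟨k, u, u', k', v, v', k'', rfl, hk, hU u (by simp), hU u' (by simp), hk',
            hU' v (by simp), hU' v' (by simp), hk''⟩
      · rw [cK_cons_mem hk'', cK_append, cK_of_notMem hU''] at hK
        have := hB''.count.2
        omega

theorem le_of_gapped [DecidableEq V] {K : Finset V} {b : List V} (h : Gapped K 2 b)
    (h1 : b.length ≠ 1) : cK K b ≤ cN K b := by
  have hc := h.count.1
  have h2' := (gapped_two h).resolve_left h1
  omega

theorem le_of_gapped_all [DecidableEq V] {K : Finset V} {bl : List (List V)}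
    (h : ∀ b ∈ bl, Gapped K 2 b) (h1 : ∀ b ∈ bl, b.length ≠ 1) :
    cK K bl.flatten ≤ cN K bl.flatten := by
  induction bl with
  | nil => simp [cK_nil]
  | cons b bl ih =>
    rw [cK_flatten_cons, cN_flatten_cons]
    have e1 := ih (fun b' hb' => h b' (List.mem_cons_of_mem _ hb'))
      (fun b' hb' => h1 b' (List.mem_cons_of_mem _ hb'))
    have e2 := le_of_gapped (h b List.mem_cons_self) (h1 b List.mem_cons_self)
    omega

theorem eq_of_gapped_all [DecidableEq V] {K : Finset V} {bl : List (List V)}
    (h : ∀ b ∈ bl, Gapped K 2 b) (h1 : ∀ b ∈ bl, b.length ≠ 1)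
    (h2 : cN K bl.flatten ≤ cK K bl.flatten) : ∀ b ∈ bl, cN K b ≤ cK K b := by
  induction bl with
  | nil => simp
  | cons b bl ih =>
    rw [cK_flatten_cons, cN_flatten_cons] at h2
    have e2 := le_of_gapped (h b List.mem_cons_self) (h1 b List.mem_cons_self)
    have e3 := le_of_gapped_all (fun b' hb' => h b' (List.mem_cons_of_mem _ hb'))
      (fun b' hb' => h1 b' (List.mem_cons_of_mem _ hb'))
    have e1 := ih (fun b' hb' => h b' (List.mem_cons_of_mem _ hb'))
      (fun b' hb' => h1 b' (List.mem_cons_of_mem _ hb')) (by omega)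
    intro b' hb'
    rw [List.mem_cons] at hb'
    rcases hb' with rfl | hb'
    · omega
    · exact e1 b' hb'

end GapsAux

theorem structure_two [DecidableEq V] {G : SimpleGraph V} {K : Finset V} {m : ℕ}
    {bl : List (List V)} (h : Sys G K bl) (hc : Cov K bl)
    (hm : ∀ bl', Sys G K bl' → bl'.flatten.length ≠ m) (hlen : bl.flatten.length = m + 1)
    (hmr : m ≤ 2 * K.card) (hmr' : 3 ≤ m) :
    ∃ exc fours : List (List V), Sys G K (exc ++ fours) ∧ Cov K (exc ++ fours) ∧
      (exc ++ fours).flatten.length = m + 1 ∧ (∀ b ∈ fours, IsFour K b) ∧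
      (exc = [] ∨ (∃ b, exc = [b] ∧ (IsFive K b ∨ IsSeven K b))) := by
  obtain ⟨bl', h1, h2, h3, h4⟩ := exists_gapped_system (δ := 2) h hc (by omega) (by
    intro bl' a1 _ d a3 a4 a5
    exact hm bl' a1 (by omega))
  have hs : ∀ b ∈ bl', b.length ≠ 1 := by
    intro b hb hb1
    have : 1 ≤ bl'.countP (fun b => decide (b.length = 1)) := by
      rw [Nat.one_le_iff_ne_zero]
      intro h0
      rw [List.countP_eq_zero] at h0
      exact h0 b hb (by simpa using hb1)
    obtain ⟨bl'', k1, k2⟩ := delete_singletons h1 this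
    exact hm bl'' k1 (by omega)
  have e2 := cK_eq_card h1 h2
  have e3 := cK_add_cN K bl'.flatten
  by_cases hall : ∀ b ∈ bl', cN K b ≤ cK K b
  · refine ⟨[], bl', h1, h2, by rw [List.nil_append]; omega, ?_, Or.inl rfl⟩
    intro b hb
    exact isFour_of (h4 b hb) (hs b hb) (hall b hb)
  · push Not at hall
    obtain ⟨b, hb, hbe⟩ := hall
    obtain ⟨rest, hp⟩ := perm_of_mem hb
    have hr4 : ∀ b' ∈ rest, Gapped K 2 b' := fun b' hb' =>
      h4 b' (hp.mem_iff.2 (List.mem_cons_of_mem _ hb'))
    have hrs : ∀ b' ∈ rest, b'.length ≠ 1 := fun b' hb' =>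
      hs b' (hp.mem_iff.2 (List.mem_cons_of_mem _ hb'))
    have c1 := cK_perm (K := K) hp.flatten
    have c2 := cN_perm (K := K) hp.flatten
    rw [cK_flatten_cons] at c1
    rw [cN_flatten_cons] at c2
    have c3 := le_of_gapped_all hr4 hrs
    have c4 := eq_of_gapped_all hr4 hrs (by omega)
    refine ⟨[b], rest, h1.perm hp, cov_perm hp h2, ?_, ?_, Or.inr ⟨b, rfl, ?_⟩⟩
    · rw [List.singleton_append, ← hp.flatten.length_eq]
      omega
    · intro b' hb'
      exact isFour_of (hr4 b' hb') (hrs b' hb') (c4 b' hb')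
    · exact isFive_or_isSeven_of (h4 b hb) (hs b hb) (by omega)

end Vale.Agent.P048
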