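import Vale.Agent.P048.Reroute
import Vale.Agent.P048.Gaps

/-!
# P048: systems with one vertex too many (case B1)
-/

namespace Vale.Agent.P048

open Finset

variable {V : Type*}

namespace B1

/-- Replace the first block by smaller ones. -/
theorem replace {G : SimpleGraph V} {K : Finset V} {b : List V} {bs bl : List (List V)}
    (h : Sys G K (b :: bl)) (hs : bs.flatten.Sublist b)
    (hc : ∀ c ∈ bs, List.IsChain G.Adj c ∧ (∃ x ∈ c.head?, x ∈ K) ∧ (∃ x ∈ c.getLast?, x ∈ K)) :
    Sys G K (bs ++ bl) := by
  refine ⟨?_, ?_, ?_, ?_⟩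
  · have h1 := h.nodup
    rw [List.flatten_cons] at h1
    rw [List.flatten_append]
    exact List.Nodup.sublist (List.Sublist.append hs (List.Sublist.refl _)) h1
  · intro c hc'
    rcases List.mem_append.1 hc' with h1 | h1
    · exact (hc c h1).1
    · exact h.chain c (List.mem_cons_of_mem _ h1)
  · intro c hc'
    rcases List.mem_append.1 hc' with h1 | h1
    · exact (hc c h1).2.1
    · exact h.head c (List.mem_cons_of_mem _ h1)
  · intro c hc'
    rcases List.mem_append.1 hc' with h1 | h1
    · exact (hc c h1).2.2
    · exact h.last c (List.mem_cons_of_mem _ h1)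

theorem perm' {G : SimpleGraph V} {K : Finset V} {bl bl' : List (List V)}
    (h : Sys G K bl) (hp : bl.Perm bl') : Sys G K bl' :=
  ⟨(hp.flatten).nodup_iff.1 h.nodup, fun b hb => h.chain b (hp.mem_iff.2 hb),
    fun b hb => h.head b (hp.mem_iff.2 hb), fun b hb => h.last b (hp.mem_iff.2 hb)⟩

/-- Shorten a block of type four by 2, 3 or 4. -/
theorem drop4 {G : SimpleGraph V} {K : Finset V} {b : List V} (hb : IsFour K b) (d : ℕ)
    (hd2 : 2 ≤ d) (hd4 : d ≤ 4) : ∃ bs : List (List V),
      (∀ rest, Sys G K (b :: rest) → Sys G K (bs ++ rest)) ∧ bs.flatten.length + d = 4 := by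
  obtain ⟨k, u, u', k', rfl, hk, hu, hu', hk'⟩ := hb
  have hcases : d = 2 ∨ d = 3 ∨ d = 4 := by omega
  rcases hcases with rfl | rfl | rfl
  · refine ⟨[[k], [k']], ?_, by simp⟩
    intro rest h
    apply replace h
    · simp only [List.flatten_cons, List.flatten_nil, List.append_nil, List.cons_append,
        List.nil_append]
      exact List.Sublist.cons_cons _ (List.Sublist.cons _ (List.Sublist.cons _
        (List.Sublist.refl _)))
    · intro c hc
      simp only [List.mem_cons, List.not_mem_nil, or_false] at hc
      rcases hc with rfl | rfl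
      · exact ⟨List.isChain_singleton _, ⟨k, by simp, hk⟩, ⟨k, by simp, hk⟩⟩
      · exact ⟨List.isChain_singleton _, ⟨k', by simp, hk'⟩, ⟨k', by simp, hk'⟩⟩
  · refine ⟨[[k]], ?_, by simp⟩
    intro rest h
    apply replace h
    · simp
    · intro c hc
      simp only [List.mem_cons, List.not_mem_nil, or_false] at hc
      subst hc
      exact ⟨List.isChain_singleton _, ⟨k, by simp, hk⟩, ⟨k, by simp, hk⟩⟩
  · refine ⟨[], ?_, by simp⟩
    intro rest h
    apply replace h
    · simp
    · intro c hc
      simp at hc

/-- Shorten a block of type four or seven by 2. -/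
theorem drop2 {G : SimpleGraph V} {K : Finset V} {b : List V} (hb : IsFour K b ∨ IsSeven K b) :
    ∃ bs : List (List V), (∀ rest, Sys G K (b :: rest) → Sys G K (bs ++ rest)) ∧
      bs.flatten.length + 2 = b.length := by
  rcases hb with hb | hb
  · obtain ⟨bs, h1, h2⟩ := drop4 (G := G) hb 2 (le_refl _) (by omega)
    refine ⟨bs, h1, ?_⟩
    obtain ⟨k, u, u', k', rfl, -⟩ := hb
    simpa using h2
  · obtain ⟨k, u, u', k', v, v', k'', rfl, hk, hu, hu', hk', hv, hv', hk''⟩ := hb
    refine ⟨[[k], [k', v, v', k'']], ?_, by simp⟩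
    intro rest h
    have hch := h.chain _ (List.mem_cons_self)
    apply replace h
    · simp only [List.flatten_cons, List.flatten_nil, List.append_nil, List.cons_append,
        List.nil_append]
      exact List.Sublist.cons_cons _ (List.Sublist.cons _ (List.Sublist.cons _
        (List.Sublist.refl _)))
    · intro c hc
      simp only [List.mem_cons, List.not_mem_nil, or_false] at hc
      rcases hc with rfl | rfl
      · exact ⟨List.isChain_singleton _, ⟨k, by simp, hk⟩, ⟨k, by simp, hk⟩⟩
      · refine ⟨?_, ⟨k', by simp, hk'⟩, ⟨k'', by simp, hk''⟩⟩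
        have e : [k, u, u', k', v, v', k''] = [k, u, u'] ++ [k', v, v', k''] := by simp
        rw [e] at hch
        exact (List.isChain_append.1 hch).2.1

/-- Condition on the lengths of the blocks. -/
def Lens (L : List ℕ) : Prop :=
  ∃ n, (5 ≤ n ∧ L.Perm (List.replicate n 4)) ∨ (4 ≤ n ∧ L.Perm (5 :: List.replicate n 4)) ∨
    (3 ≤ n ∧ L.Perm (7 :: List.replicate n 4))

theorem Lens.perm {L L' : List ℕ} (h : Lens L) (hp : L.Perm L') : Lens L' := by
  obtain ⟨n, h | h | h⟩ := h
  · exact ⟨n, Or.inl ⟨h.1, hp.symm.trans h.2⟩⟩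
  · exact ⟨n, Or.inr (Or.inl ⟨h.1, hp.symm.trans h.2⟩)⟩
  · exact ⟨n, Or.inr (Or.inr ⟨h.1, hp.symm.trans h.2⟩)⟩

theorem count_add_count_le (a b : ℕ) (hab : a ≠ b) (L : List ℕ) :
    L.count a + L.count b ≤ L.length := by
  induction L with
  | nil => simp
  | cons x L ih =>
    rw [List.count_cons, List.count_cons, List.length_cons]
    by_cases h1 : x = a
    · have h2 : ¬ x = b := fun h => hab (h1.symm.trans h)
      simp [h1, hab]
      omega
    · by_cases h2 : x = b
      · subst h2
        simp [h1]
        omega
      · simp [h1, h2]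
        omega

theorem extract_one {rest : List (List V)} {v : ℕ} (h : 1 ≤ (rest.map List.length).count v) :
    ∃ b rest', rest.Perm (b :: rest') ∧ b.length = v ∧
      ∀ w, (rest.map List.length).count w = (rest'.map List.length).count w + if v = w then 1 else 0 := by
  have h1 : v ∈ rest.map List.length := List.count_pos_iff.1 (by omega)
  obtain ⟨b, hb, hbv⟩ := List.mem_map.1 h1
  obtain ⟨s, t, rfl⟩ := List.append_of_mem hb
  refine ⟨b, s ++ t, List.perm_middle, hbv, ?_⟩
  intro w
  rw [(List.perm_middle.map List.length).count_eq]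
  rw [List.map_cons, List.count_cons, hbv]
  simp

theorem Lens.extract {aff rest : List (List V)} (h : Lens ((aff ++ rest).map List.length))
    (ha : aff.length ≤ 2) : ∃ b4 b' rest', rest.Perm (b4 :: b' :: rest') ∧ b4.length = 4 ∧
      (b'.length = 4 ∨ b'.length = 7) := by
  have hA : (aff.map List.length).count 4 + (aff.map List.length).count 7 ≤ 2 := by
    have := count_add_count_le 4 7 (by norm_num) (aff.map List.length)
    rw [List.length_map] at this
    omega
  have key : (2 ≤ (rest.map List.length).count 4) ∨
      (1 ≤ (rest.map List.length).count 4 ∧ 1 ≤ (rest.map List.length).count 7) := by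
    rw [List.map_append] at h
    obtain ⟨n, h | h | h⟩ := h
    · have e := h.2.count_eq 4
      rw [List.count_append, List.count_replicate] at e
      simp at e
      left; omega
    · have e := h.2.count_eq 4
      rw [List.count_append, List.count_cons, List.count_replicate] at e
      simp at e
      left; omega
    · have e := h.2.count_eq 4
      rw [List.count_append, List.count_cons, List.count_replicate] at e
      simp at e
      have e' := h.2.count_eq 7
      rw [List.count_append, List.count_cons, List.count_replicate] at e'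
      simp at e'
      by_cases h2 : 2 ≤ (rest.map List.length).count 4
      · left; exact h2
      · right; omega
  rcases key with key | key
  · obtain ⟨b4, r1, p1, l1, c1⟩ := extract_one (V := V) (v := 4) (rest := rest) (by omega)
    have c2 := c1 4
    simp at c2
    obtain ⟨b', r2, p2, l2, -⟩ := extract_one (V := V) (v := 4) (rest := r1) (by omega)
    exact ⟨b4, b', r2, p1.trans (p2.cons _), l1, Or.inl l2⟩
  · obtain ⟨b4, r1, p1, l1, c1⟩ := extract_one (V := V) (v := 4) (rest := rest) (by omega)
    have c2 := c1 7
    simp at c2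
    obtain ⟨b', r2, p2, l2, -⟩ := extract_one (V := V) (v := 7) (rest := r1) (by omega)
    exact ⟨b4, b', r2, p1.trans (p2.cons _), l1, Or.inr l2⟩

/-- Systems of the shape under consideration. -/
structure Shape (G : SimpleGraph V) (K : Finset V) (m : ℕ) (bl : List (List V)) : Prop where
  sys : Sys G K bl
  len : bl.flatten.length = m + 1
  typ : ∀ b ∈ bl, IsFour K b ∨ IsFive K b ∨ IsSeven K b
  lens : Lens (bl.map List.length)

theorem length_of_typ {K : Finset V} {b : List V} (h : IsFour K b ∨ IsFive K b ∨ IsSeven K b) :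
    (b.length = 4 → IsFour K b) ∧ (b.length = 5 → IsFive K b) ∧ (b.length = 7 → IsSeven K b) ∧
      b.length ≤ 7 := by
  rcases h with h | h | h
  · have hl : b.length = 4 := by
      obtain ⟨k, u, u', k', rfl, -⟩ := h
      simp
    exact ⟨fun _ => h, fun h5 => by omega, fun h7 => by omega, by omega⟩
  · have hl : b.length = 5 := by
      obtain ⟨k, u, u', u'', k', rfl, -⟩ := h
      simp
    exact ⟨fun h5 => by omega, fun _ => h, fun h7 => by omega, by omega⟩
  · have hl : b.length = 7 := by
      obtain ⟨k, u, u', k', v, v', k'', rfl, -⟩ := h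
      simp
    exact ⟨fun h5 => by omega, fun h7 => by omega, fun _ => h, by omega⟩

theorem Shape.perm {G : SimpleGraph V} {K : Finset V} {m : ℕ} {bl bl' : List (List V)}
    (h : Shape G K m bl) (hp : bl.Perm bl') : Shape G K m bl' :=
  ⟨perm' h.sys hp, by rw [← hp.flatten.length_eq]; exact h.len,
    fun b hb => h.typ b (hp.mem_iff.2 hb), h.lens.perm (hp.map _)⟩

theorem typ_reverse {K : Finset V} {b : List V} (h : IsFour K b ∨ IsFive K b ∨ IsSeven K b) :
    IsFour K b.reverse ∨ IsFive K b.reverse ∨ IsSeven K b.reverse := by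
  rcases h with h | h | h
  · obtain ⟨k, u, u', k', rfl, h1, h2, h3, h4⟩ := h
    exact Or.inl ⟨k', u', u, k, by simp, h4, h3, h2, h1⟩
  · obtain ⟨k, u, u', u'', k', rfl, h1, h2, h3, h4, h5⟩ := h
    exact Or.inr (Or.inl ⟨k', u'', u', u, k, by simp, h5, h4, h3, h2, h1⟩)
  · obtain ⟨k, u, u', k', v, v', k'', rfl, h1, h2, h3, h4, h5, h6, h7⟩ := h
    exact Or.inr (Or.inr ⟨k'', v', v, k', u', u, k, by simp, h7, h6, h5, h4, h3, h2, h1⟩)

theorem Shape.reverse {G : SimpleGraph V} {K : Finset V} {m : ℕ} {b : List V}
    {bl : List (List V)} (h : Shape G K m (b :: bl)) : Shape G K m (b.reverse :: bl) := by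
  refine ⟨h.sys.reverse_block, ?_, ?_, ?_⟩
  · have := h.len
    rw [List.flatten_cons, List.length_append] at this ⊢
    rw [List.length_reverse]
    exact this
  · intro c hc
    rcases List.mem_cons.1 hc with rfl | hc
    · exact typ_reverse (h.typ b List.mem_cons_self)
    · exact h.typ c (List.mem_cons_of_mem _ hc)
  · have := h.lens
    rw [List.map_cons] at this ⊢
    rw [List.length_reverse]
    exact this

theorem Shape.conn {G : SimpleGraph V} {K : Finset V} {m : ℕ} {bl : List (List V)}
    (h : Shape G K m bl) (hm : ∀ bl', Sys G K bl' → bl'.flatten.length ≠ m)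
    {k k' : V} {A B A' B' W : List V} {z z' : V}
    (hne : k ≠ k') (hk : k ∈ K) (hk' : k' ∈ K) (hc : IsCut bl k A B) (hc' : IsCut bl k' A' B')
    (hA : A.getLast? = some z) (hA' : A'.getLast? = some z')
    (hW1 : W ≠ []) (hW4 : W.length ≤ 4) (hWn : W.Nodup) (hWd : ∀ x ∈ W, x ∉ bl.flatten)
    (hWc : List.IsChain G.Adj (z :: (W ++ [z']))) : False := by
  obtain ⟨aff, new, rest, hp, haff, hs, hfl⟩ :=
    h.sys.reroute hne hk hk' hc hc' hA hA' hWn hWd hWc
  obtain ⟨b4, b', rest', hr, hl4, hl'⟩ := (h.lens.perm (hp.map _)).extract haff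
  have hb4 : b4 ∈ bl := by
    rw [hp.mem_iff, List.mem_append, hr.mem_iff]
    right; exact List.mem_cons_self
  have hb' : b' ∈ bl := by
    rw [hp.mem_iff, List.mem_append, hr.mem_iff]
    right; exact List.mem_cons_of_mem _ List.mem_cons_self
  have t4 := (length_of_typ (h.typ b4 hb4)).1 hl4
  have t' : IsFour K b' ∨ IsSeven K b' := by
    rcases hl' with hl' | hl'
    · exact Or.inl ((length_of_typ (h.typ b' hb')).1 hl')
    · exact Or.inr ((length_of_typ (h.typ b' hb')).2.2.1 hl')
  have hW0 : 1 ≤ W.length := by
    rcases W with _ | ⟨x, W⟩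
    · exact absurd rfl hW1
    · simp
  have hT : (new ++ rest).Perm (b4 :: b' :: (new ++ rest')) := by
    refine (List.Perm.append_left new hr).trans ?_
    refine List.perm_middle.trans ?_
    exact (List.perm_middle).cons _
  have hsT := perm' hs hT
  have hlenT : b4.length + (b'.length + (new ++ rest').flatten.length) = W.length + (m + 1) := by
    have e1 := hT.flatten.length_eq
    rw [hfl.length_eq, List.length_append, h.len, List.flatten_cons, List.flatten_cons,
      List.length_append, List.length_append] at e1
    omega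
  by_cases h4 : W.length ≤ 3
  · obtain ⟨bs, h1, h2⟩ := drop4 (G := G) t4 (W.length + 1) (by omega) (by omega)
    apply hm _ (h1 _ hsT)
    rw [List.flatten_append, List.length_append, List.flatten_cons, List.length_append]
    omega
  · obtain ⟨bs, h1, h2⟩ := drop4 (G := G) t4 3 (by omega) (by omega)
    obtain ⟨bs', h1', h2'⟩ := drop2 (G := G) t'
    have s1 := h1 _ hsT
    have s2 : Sys G K (b' :: (bs ++ (new ++ rest'))) := perm' s1 List.perm_middle
    apply hm _ (h1' _ s2)
    rw [List.flatten_append, List.length_append, List.flatten_append, List.length_append]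
    omega

/-- The middle vertex of an exceptional block. -/
def mid (b : List V) : List V := if b.length = 4 then [] else (b[b.length / 2]?).toList

theorem length_mid_le (l : List (List V)) :
    (l.flatMap mid).length ≤ (l.map List.length).countP (fun n => decide (n ≠ 4)) := by
  induction l with
  | nil => simp
  | cons b l ih =>
    rw [List.flatMap_cons, List.length_append, List.map_cons, List.countP_cons]
    by_cases hb : b.length = 4
    · have h1 : mid b = [] := by
        unfold mid
        rw [if_pos hb]
      rw [h1, List.length_nil]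
      omega
    · have h1 : (mid b).length ≤ 1 := by
        unfold mid
        rw [if_neg hb]
        rcases h : b[b.length / 2]? with _ | x <;> simp
      have h2 : decide (b.length ≠ 4) = true := by simpa using hb
      rw [h2]
      simp only [if_true]
      omega

/-- Every vertex of a block which is not the middle vertex of an exceptional block is a port for
a suitable orientation. -/
theorem port_of_mem {K : Finset V} {b : List V} {x : V}
    (h : IsFour K b ∨ IsFive K b ∨ IsSeven K b) (hx : x ∈ b) (hmid : x ∉ mid b) :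
    ∃ b', (b' = b ∨ b' = b.reverse) ∧ ∃ A B k, b' = A ++ B ∧ A.getLast? = some x ∧ k ∈ K ∧
      k ∈ b ∧ (B.head? = some k ∨ (B = [] ∧ A.head? = some k)) := by
  rcases h with h | h | h
  · obtain ⟨k, u, u', k', rfl, h1, h2, h3, h4⟩ := h
    simp only [List.mem_cons, List.not_mem_nil, or_false] at hx
    rcases hx with rfl | rfl | rfl | rfl
    · exact ⟨_, Or.inr rfl, [k', u', u, x], [], k', by simp, by simp, h4, by simp, by simp⟩
    · exact ⟨_, Or.inr rfl, [k', u', x], [k], k, by simp, by simp, h1, by simp, by simp⟩
    · exact ⟨_, Or.inl rfl, [k, u, x], [k'], k', by simp, by simp, h4, by simp, by simp⟩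
    · exact ⟨_, Or.inl rfl, [k, u, u', x], [], k, by simp, by simp, h1, by simp, by simp⟩
  · obtain ⟨k, u, u', u'', k', rfl, h1, h2, h3, h4, h5⟩ := h
    simp only [List.mem_cons, List.not_mem_nil, or_false] at hx
    rcases hx with rfl | rfl | rfl | rfl | rfl
    · exact ⟨_, Or.inr rfl, [k', u'', u', u, x], [], k', by simp, by simp, h5, by simp, by simp⟩
    · exact ⟨_, Or.inr rfl, [k', u'', u', x], [k], k, by simp, by simp, h1, by simp, by simp⟩
    · exact absurd (by simp [mid]) hmid
    · exact ⟨_, Or.inl rfl, [k, u, u', x], [k'], k', by simp, by simp, h5, by simp, by simp⟩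
    · exact ⟨_, Or.inl rfl, [k, u, u', u'', x], [], k, by simp, by simp, h1, by simp, by simp⟩
  · obtain ⟨k, u, u', k', v, v', k'', rfl, h1, h2, h3, h4, h5, h6, h7⟩ := h
    simp only [List.mem_cons, List.not_mem_nil, or_false] at hx
    rcases hx with rfl | rfl | rfl | rfl | rfl | rfl | rfl
    · exact ⟨_, Or.inr rfl, [k'', v', v, k', u', u, x], [], k'', by simp, by simp, h7, by simp,
        by simp⟩
    · exact ⟨_, Or.inr rfl, [k'', v', v, k', u', x], [k], k, by simp, by simp, h1, by simp,
        by simp⟩
    · exact ⟨_, Or.inl rfl, [k, u, x], [k', v, v', k''], k', by simp, by simp, h4, by simp,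
        by simp⟩
    · exact absurd (by simp [mid]) hmid
    · exact ⟨_, Or.inr rfl, [k'', v', x], [k', u', u, k], k', by simp, by simp, h4, by simp,
        by simp⟩
    · exact ⟨_, Or.inl rfl, [k, u, u', k', v, x], [k''], k'', by simp, by simp, h7, by simp,
        by simp⟩
    · exact ⟨_, Or.inl rfl, [k, u, u', k', v, v', x], [], k, by simp, by simp, h1, by simp,
        by simp⟩

/-- The vertices outside `K` of a block. -/
def nK [DecidableEq V] (K : Finset V) (b : List V) : List V :=
  b.filter (fun x => decide (x ∉ K))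

/-- The vertices outside `K` of an exceptional block. -/
def ex [DecidableEq V] (K : Finset V) (b : List V) : List V :=
  if b.length = 4 then [] else nK K b

theorem length_nK_le [DecidableEq V] {K : Finset V} {b : List V}
    (h : IsFour K b ∨ IsFive K b ∨ IsSeven K b) :
    (nK K b).length ≤ 4 ∧ (b.length = 4 → (nK K b).length ≤ 2) := by
  rcases h with h | h | h
  · obtain ⟨k, u, u', k', rfl, h1, h2, h3, h4⟩ := h
    have e : nK K [k, u, u', k'] = [u, u'] := by simp [nK, h1, h2, h3, h4]
    rw [e]
    simp
  · obtain ⟨k, u, u', u'', k', rfl, h1, h2, h3, h4, h5⟩ := h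
    have e : nK K [k, u, u', u'', k'] = [u, u', u''] := by simp [nK, h1, h2, h3, h4, h5]
    rw [e]
    simp
  · obtain ⟨k, u, u', k', v, v', k'', rfl, h1, h2, h3, h4, h5, h6, h7⟩ := h
    have e : nK K [k, u, u', k', v, v', k''] = [u, u', v, v'] := by
      simp [nK, h1, h2, h3, h4, h5, h6, h7]
    rw [e]
    simp

theorem length_ex_le [DecidableEq V] {K : Finset V} (l : List (List V))
    (h : ∀ b ∈ l, IsFour K b ∨ IsFive K b ∨ IsSeven K b) :
    (l.flatMap (ex K)).length ≤ 4 * (l.map List.length).countP (fun n => decide (n ≠ 4)) := by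
  induction l with
  | nil => simp
  | cons b l ih =>
    have ih' := ih (fun c hc => h c (List.mem_cons_of_mem _ hc))
    rw [List.flatMap_cons, List.length_append, List.map_cons, List.countP_cons]
    by_cases hb : b.length = 4
    · have h1 : ex K b = [] := by
        unfold ex
        rw [if_pos hb]
      rw [h1, List.length_nil]
      omega
    · have h1 : (ex K b).length ≤ 4 := by
        unfold ex
        rw [if_neg hb]
        exact (length_nK_le (h b List.mem_cons_self)).1
      have h2 : decide (b.length ≠ 4) = true := by simpa using hb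
      rw [h2]
      simp only [if_true]
      omega

theorem Lens.countP {L : List ℕ} (h : Lens L) : L.countP (fun n => decide (n ≠ 4)) ≤ 1 := by
  obtain ⟨n, h | h | h⟩ := h
  · rw [h.2.countP_eq, List.countP_replicate]
    simp
  · rw [h.2.countP_eq, List.countP_cons, List.countP_replicate]
    simp
  · rw [h.2.countP_eq, List.countP_cons, List.countP_replicate]
    simp

/-- A port has a neighbour outside of the system. -/
theorem Shape.exists_out [Fintype V] [DecidableEq V] {G : SimpleGraph V} [DecidableRel G.Adj]
    {K : Finset V} {m : ℕ} {rest : List (List V)} {A B : List V} {z : V}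
    (h : Shape G K m ((A ++ B) :: rest)) (hm : ∀ bl', Sys G K bl' → bl'.flatten.length ≠ m)
    (hA : A.getLast? = some z) (hB : ∀ x ∈ B.head?, x ∈ K) (hdeg : m - 1 ≤ G.degree z)
    (hr : 9 ≤ K.card) (hmr : 2 * K.card ≤ m + 1) :
    ∃ y, G.Adj z y ∧ y ∉ ((A ++ B) :: rest).flatten := by
  by_contra hcon
  push Not at hcon
  have hzA : z ∈ A := List.mem_of_mem_getLast? (by rw [hA]; rfl)
  have hsub : G.neighborFinset z ⊆
      ((K ∪ (nK K (A ++ B)).toFinset) ∪ (rest.flatMap (ex K)).toFinset).erase z := by
    intro w hw
    rw [SimpleGraph.mem_neighborFinset] at hw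
    rw [Finset.mem_erase]
    refine ⟨hw.ne', ?_⟩
    have hwF := hcon w hw
    rw [Finset.mem_union, Finset.mem_union, List.mem_toFinset, List.mem_toFinset]
    by_cases hwK : w ∈ K
    · exact Or.inl (Or.inl hwK)
    rw [List.flatten_cons, List.mem_append] at hwF
    rcases hwF with hwF | hwF
    · left; right
      unfold nK
      rw [List.mem_filter]
      exact ⟨hwF, by simpa using hwK⟩
    · right
      obtain ⟨b1, hb1, hwb1⟩ := List.mem_flatten.1 hwF
      have ht1 := h.typ b1 (List.mem_cons_of_mem _ hb1)
      rw [List.mem_flatMap]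
      refine ⟨b1, hb1, ?_⟩
      unfold ex
      by_cases hl4 : b1.length = 4
      · exfalso
        -- a system of size `m + 1` with a block consisting of one vertex
        have fin : ∀ (a u u' c : V) (rest' : List (List V)), u' = w → c ∈ K →
            Shape G K m ((A ++ B) :: ([a, u, u'] ++ [c]) :: rest') → False := by
          intro a u u' c rest' hu' hcK hS
          have h1 := hS.sys.reroute_diff (W := []) (z := z) (z' := w) hA (by simp [hu']) hB
            (by simpa using hcK) List.nodup_nil (by simp) (by simpa using hw)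
          obtain ⟨s1, f1⟩ := h1
          have s2 : Sys G K ([c] :: ((A ++ ([] ++ [a, u, u'].reverse)) :: (opt B ++ rest'))) := by
            refine perm' s1 ?_
            have e : opt [c] = [[c]] := rfl
            rw [e]
            have p1 : (opt B ++ ([[c]] ++ rest')).Perm ([c] :: (opt B ++ rest')) := by
              rw [List.singleton_append]
              exact List.perm_middle
            exact (p1.cons _).trans (List.Perm.swap _ _ _)
          have s3 := s2.of_append_right (bl := [[c]])
          apply hm _ s3
          have l1 := f1.length_eq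
          rw [List.length_append, hS.len] at l1
          have e : opt [c] = [[c]] := rfl
          rw [e] at l1
          simp only [List.flatten_cons, List.flatten_append, List.length_append, List.flatten_nil,
            List.length_cons, List.length_nil] at l1 ⊢
          omega
        obtain ⟨a, u, u', c, hb1e, ha, hu, hu', hc⟩ := (length_of_typ ht1).1 hl4
        obtain ⟨s, t, rfl⟩ := List.append_of_mem hb1
        have hS1 : Shape G K m ((A ++ B) :: b1 :: (s ++ t)) := h.perm (List.perm_middle.cons _)
        rw [hb1e] at hwb1 hS1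
        simp only [List.mem_cons, List.not_mem_nil, or_false] at hwb1
        rcases hwb1 with rfl | rfl | rfl | rfl
        · exact hwK ha
        · have hS2 : Shape G K m ([a, w, u', c] :: (A ++ B) :: (s ++ t)) :=
            hS1.perm (List.Perm.swap _ _ _)
          have hS3 := hS2.reverse.perm (List.Perm.swap _ _ _)
          exact fin c u' w a (s ++ t) rfl ha (by simpa using hS3)
        · exact fin a u w c (s ++ t) rfl hc (by simpa using hS1)
        · exact hwK hc
      · rw [if_neg hl4]
        unfold nK
        rw [List.mem_filter]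
        exact ⟨hwb1, by simpa using hwK⟩
  have hzU : z ∈ ((K ∪ (nK K (A ++ B)).toFinset) ∪ (rest.flatMap (ex K)).toFinset) := by
    rw [Finset.mem_union, Finset.mem_union, List.mem_toFinset]
    by_cases hzK : z ∈ K
    · exact Or.inl (Or.inl hzK)
    · left; right
      unfold nK
      rw [List.mem_filter]
      exact ⟨List.mem_append_left _ hzA, by simpa using hzK⟩
  have hcard := Finset.card_le_card hsub
  rw [SimpleGraph.card_neighborFinset_eq_degree, Finset.card_erase_of_mem hzU] at hcard
  have c1 : ((K ∪ (nK K (A ++ B)).toFinset) ∪ (rest.flatMap (ex K)).toFinset).card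
      ≤ K.card + (nK K (A ++ B)).length + (rest.flatMap (ex K)).length := by
    refine (Finset.card_union_le _ _).trans ?_
    refine Nat.add_le_add ?_ (List.toFinset_card_le _)
    refine (Finset.card_union_le _ _).trans ?_
    exact Nat.add_le_add_left (List.toFinset_card_le _) _
  have c2 := length_ex_le (K := K) rest (fun b hb => h.typ b (List.mem_cons_of_mem _ hb))
  have c3 := length_nK_le (h.typ _ List.mem_cons_self)
  have c4 := h.lens.countP
  rw [List.map_cons, List.countP_cons] at c4
  by_cases hl : (A ++ B).length = 4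
  · have c5 := c3.2 hl
    omega
  · have c5 := c3.1
    have c6 : decide ((A ++ B).length ≠ 4) = true := by simpa using hl
    rw [c6] at c4
    simp only [if_true] at c4
    omega

/-- The neighbours in the system of an outside neighbour of a port. -/
theorem Shape.nbrs {G : SimpleGraph V} {K : Finset V} {m : ℕ} {rest : List (List V)}
    {A B : List V} {k z y w : V}
    (h : Shape G K m ((A ++ B) :: rest)) (hm : ∀ bl', Sys G K bl' → bl'.flatten.length ≠ m)
    (hk : k ∈ K) (hA : A.getLast? = some z) (hB : B.head? = some k ∨ (B = [] ∧ A.head? = some k))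
    (hzy : G.Adj z y) (hy : y ∉ ((A ++ B) :: rest).flatten) (hyw : G.Adj y w)
    (hw : w ∈ ((A ++ B) :: rest).flatten) : w ∈ A ++ B ∨ w ∈ rest.flatMap mid := by
  rw [List.flatten_cons, List.mem_append] at hw
  rcases hw with hw | hw
  · exact Or.inl hw
  right
  obtain ⟨b1, hb1, hwb1⟩ := List.mem_flatten.1 hw
  rw [List.mem_flatMap]
  refine ⟨b1, hb1, ?_⟩
  by_contra hmid
  obtain ⟨b', hb', A', B', k', hb'e, hA', hk', hkb, hB'⟩ :=
    port_of_mem (h.typ b1 (List.mem_cons_of_mem _ hb1)) hwb1 hmid
  have hA0 : A ≠ [] := by
    rintro rfl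
    simp at hA
  have hA'0 : A' ≠ [] := by
    rintro rfl
    simp at hA'
  obtain ⟨s, t, rfl⟩ := List.append_of_mem hb1
  have hS1 : Shape G K m (b1 :: (A ++ B) :: (s ++ t)) :=
    h.perm ((List.perm_middle.cons _).trans (List.Perm.swap _ _ _))
  have hS2 : Shape G K m ((A ++ B) :: b' :: (s ++ t)) := by
    rcases hb' with rfl | rfl
    · exact hS1.perm (List.Perm.swap _ _ _)
    · exact hS1.reverse.perm (List.Perm.swap _ _ _)
  have hkAB : k ∈ A ++ B := by
    rcases hB with hB | hB
    · exact List.mem_append_right _ (List.mem_of_mem_head? (by rw [hB]; rfl))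
    · exact List.mem_append_left _ (List.mem_of_mem_head? (by rw [hB.2]; rfl))
  have hkk' : k ≠ k' := by
    rintro rfl
    have hn := hS1.sys.nodup
    rw [List.flatten_cons, List.nodup_append] at hn
    refine hn.2.2 k hkb k ?_ rfl
    rw [List.flatten_cons]
    exact List.mem_append_left _ hkAB
  refine hS2.conn hm (W := [y]) hkk' hk hk' (A := A) (B := B) (A' := A') (B' := B')
    ⟨List.mem_cons_self, hA0, hB⟩
    ⟨by rw [← hb'e]; exact List.mem_cons_of_mem _ List.mem_cons_self, hA'0, hB'⟩ hA hA'
    (by simp) (by simp) (List.nodup_singleton _) ?_ ?_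
  · intro x hx
    rw [List.mem_singleton] at hx
    subst hx
    intro hx2
    apply hy
    have hmem : ∀ v, v ∈ b' ↔ v ∈ b1 := by
      intro v
      rcases hb' with rfl | rfl
      · rfl
      · exact List.mem_reverse
    simp only [List.flatten_cons, List.flatten_append, List.mem_append] at hx2 ⊢
    rw [hmem] at hx2
    tauto
  · simp [hzy, hyw]

/-- The neighbours outside of the system of such a vertex do not form a clique. -/
theorem Shape.exists_pair [Fintype V] [DecidableEq V] {G : SimpleGraph V} [DecidableRel G.Adj]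
    {K : Finset V} {m : ℕ} {rest : List (List V)} {A B : List V} {k z y : V}
    (h : Shape G K m ((A ++ B) :: rest)) (hm : ∀ bl', Sys G K bl' → bl'.flatten.length ≠ m)
    (hk : k ∈ K) (hA : A.getLast? = some z) (hB : B.head? = some k ∨ (B = [] ∧ A.head? = some k))
    (hzy : G.Adj z y) (hy : y ∉ ((A ++ B) :: rest).flatten) (hdeg : m - 1 ≤ G.degree y)
    (hmax : ∀ K' : Finset V, G.IsClique (K' : Set V) → K'.card ≤ K.card)
    (hr : 9 ≤ K.card) (hmr : 2 * K.card ≤ m + 1) :
    ∃ p p', G.Adj y p ∧ p ∉ ((A ++ B) :: rest).flatten ∧ G.Adj y p' ∧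
      p' ∉ ((A ++ B) :: rest).flatten ∧ p ≠ p' ∧ ¬ G.Adj p p' := by
  by_contra hcon
  push Not at hcon
  have hsplit : G.neighborFinset y ⊆
      (G.neighborFinset y).filter (fun x => x ∉ ((A ++ B) :: rest).flatten) ∪
        ((A ++ B) ++ rest.flatMap mid).toFinset := by
    intro w hw
    rw [Finset.mem_union, Finset.mem_filter, List.mem_toFinset, List.mem_append]
    by_cases hwF : w ∈ ((A ++ B) :: rest).flatten
    · right
      rw [SimpleGraph.mem_neighborFinset] at hw
      exact h.nbrs hm hk hA hB hzy hy hw hwF
    · exact Or.inl ⟨hw, hwF⟩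
  have hcl : G.IsClique ((insert y ((G.neighborFinset y).filter
      (fun x => x ∉ ((A ++ B) :: rest).flatten)) : Finset V) : Set V) := by
    rw [Finset.coe_insert, SimpleGraph.isClique_insert]
    refine ⟨?_, ?_⟩
    · intro p hp p' hp' hne
      rw [Finset.mem_coe, Finset.mem_filter, SimpleGraph.mem_neighborFinset] at hp hp'
      exact hcon p p' hp.1 hp.2 hp'.1 hp'.2 hne
    · intro p hp _
      rw [Finset.mem_coe, Finset.mem_filter, SimpleGraph.mem_neighborFinset] at hp
      exact hp.1
  have h1 := hmax _ hcl
  rw [Finset.card_insert_of_notMem (by simp)] at h1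
  have h2 := Finset.card_le_card hsplit
  rw [SimpleGraph.card_neighborFinset_eq_degree] at h2
  have h3 := Finset.card_union_le ((G.neighborFinset y).filter
    (fun x => x ∉ ((A ++ B) :: rest).flatten)) ((A ++ B) ++ rest.flatMap mid).toFinset
  have h4 := List.toFinset_card_le ((A ++ B) ++ rest.flatMap mid)
  rw [List.length_append] at h4
  have c1 := length_mid_le rest
  have c2 := (length_of_typ (h.typ _ List.mem_cons_self)).2.2.2
  have c4 := h.lens.countP
  rw [List.map_cons, List.countP_cons] at c4
  by_cases hl : (A ++ B).length = 4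
  · omega
  · have c6 : decide ((A ++ B).length ≠ 4) = true := by simpa using hl
    rw [c6] at c4
    simp only [if_true] at c4
    omega

theorem card_filter_le [DecidableEq V] {K : Finset V} (l : List (List V))
    (h : ∀ b ∈ l, IsFour K b) :
    (l.flatten.filter (fun x => decide (x ∈ K))).length ≤ 2 * l.length := by
  induction l with
  | nil => simp
  | cons b l ih =>
    have ih' := ih (fun c hc => h c (List.mem_cons_of_mem _ hc))
    obtain ⟨k, u, u', k', rfl, h1, h2, h3, h4⟩ := h b List.mem_cons_self
    rw [List.flatten_cons, List.filter_append, List.length_append, List.length_cons]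
    have e : [k, u, u', k'].filter (fun x => decide (x ∈ K)) = [k, k'] := by
      simp [h1, h2, h3, h4]
    rw [e]
    simp only [List.length_cons, List.length_nil]
    omega

theorem length_flatten_four {K : Finset V} (l : List (List V))
    (h : ∀ b ∈ l, IsFour K b) : l.flatten.length = 4 * l.length ∧
      l.map List.length = List.replicate l.length 4 := by
  induction l with
  | nil => simp
  | cons b l ih =>
    have ih' := ih (fun c hc => h c (List.mem_cons_of_mem _ hc))
    obtain ⟨k, u, u', k', rfl, -⟩ := h b List.mem_cons_self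
    rw [List.flatten_cons, List.length_append, List.map_cons, ih'.2]
    simp only [List.length_cons, List.length_nil]
    exact ⟨by omega, rfl⟩

end B1

open B1 in
theorem caseB1 [Fintype V] [DecidableEq V] (G : SimpleGraph V) [DecidableRel G.Adj] (m : ℕ)
    (hdeg : ∀ v, m - 1 ≤ G.degree v) (K : Finset V) (hK : G.IsClique (K : Set V))
    (hmax : ∀ K' : Finset V, G.IsClique (K' : Set V) → K'.card ≤ K.card)
    (hr : 9 ≤ K.card) (hmr : m ≤ 2 * K.card)
    (hm : ∀ bl', Sys G K bl' → bl'.flatten.length ≠ m)
    (exc fours : List (List V)) (h : Sys G K (exc ++ fours)) (hc : Cov K (exc ++ fours))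
    (hlen : (exc ++ fours).flatten.length = m + 1) (h4 : ∀ b ∈ fours, IsFour K b)
    (hexc : exc = [] ∨ (∃ b, exc = [b] ∧ (IsFive K b ∨ IsSeven K b))) :
    ∃ I : Finset V, G.IsIndepSet (I : Set V) ∧ I.card = 2 * K.card := by
  -- the numbers
  have hfl := length_flatten_four fours h4
  have hfc := card_filter_le fours h4
  have hKc : K.card ≤ ((exc ++ fours).flatten.filter (fun x => decide (x ∈ K))).length := by
    have hsub : K ⊆ ((exc ++ fours).flatten.filter (fun x => decide (x ∈ K))).toFinset := by
      intro x hx
      rw [List.mem_toFinset, List.mem_filter]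
      exact ⟨hc x hx, by simpa using hx⟩
    exact (Finset.card_le_card hsub).trans (List.toFinset_card_le _)
  rw [List.flatten_append, List.filter_append, List.length_append] at hKc
  have hlen' := hlen
  rw [List.flatten_append, List.length_append, hfl.1] at hlen'
  have hnum : Lens ((exc ++ fours).map List.length) ∧ 2 * K.card ≤ m + 1 := by
    rcases hexc with rfl | ⟨b, rfl, hb | hb⟩
    · simp only [List.flatten_nil, List.filter_nil, List.length_nil] at hKc hlen'
      refine ⟨⟨fours.length, Or.inl ⟨by omega, ?_⟩⟩, by omega⟩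
      rw [List.nil_append, hfl.2]
    · obtain ⟨k, u, u', u'', k', rfl, h1, h2, h3, h5, h6⟩ := hb
      have e : [k, u, u', u'', k'].filter (fun x => decide (x ∈ K)) = [k, k'] := by
        simp [h1, h2, h3, h5, h6]
      simp only [List.flatten_cons, List.flatten_nil, List.append_nil] at hKc hlen'
      rw [e] at hKc
      simp only [List.length_cons, List.length_nil] at hKc hlen'
      refine ⟨⟨fours.length, Or.inr (Or.inl ⟨by omega, ?_⟩)⟩, by omega⟩
      rw [List.map_append, hfl.2]
      simp
    · obtain ⟨k, u, u', k', v, v', k'', rfl, h1, h2, h3, h5, h6, h7, h8⟩ := hb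
      have e : [k, u, u', k', v, v', k''].filter (fun x => decide (x ∈ K)) = [k, k', k''] := by
        simp [h1, h2, h3, h5, h6, h7, h8]
      simp only [List.flatten_cons, List.flatten_nil, List.append_nil] at hKc hlen'
      rw [e] at hKc
      simp only [List.length_cons, List.length_nil] at hKc hlen'
      refine ⟨⟨fours.length, Or.inr (Or.inr ⟨by omega, ?_⟩)⟩, by omega⟩
      rw [List.map_append, hfl.2]
      simp
  obtain ⟨hlens, h2r⟩ := hnum
  have hS : Shape G K m (exc ++ fours) := by
    refine ⟨h, hlen, ?_, hlens⟩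
    intro b hb
    rcases List.mem_append.1 hb with hb | hb
    · rcases hexc with rfl | ⟨b', rfl, hb'⟩
      · simp at hb
      · rw [List.mem_singleton] at hb
        subst hb
        exact Or.inr hb'
    · exact Or.inl (h4 b hb)
  -- the choice
  have key : ∀ k ∈ K, ∃ (A B : List V) (z y p p' : V), IsCut (exc ++ fours) k A B ∧
      A.getLast? = some z ∧ G.Adj z y ∧ y ∉ (exc ++ fours).flatten ∧ G.Adj y p ∧
      p ∉ (exc ++ fours).flatten ∧ G.Adj y p' ∧ p' ∉ (exc ++ fours).flatten ∧ p ≠ p' ∧
      ¬ G.Adj p p' := by
    intro k hk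
    obtain ⟨A, B, hcut⟩ := h.exists_cut hc hk
    obtain ⟨hAB, hA0, hB⟩ := hcut
    obtain ⟨z, hz⟩ : ∃ z, A.getLast? = some z := by
      rcases hA : A.getLast? with _ | z
      · exact absurd (List.getLast?_eq_none_iff.1 hA) hA0
      · exact ⟨z, rfl⟩
    obtain ⟨s, t, hst⟩ := List.append_of_mem hAB
    have hp : (exc ++ fours).Perm ((A ++ B) :: (s ++ t)) := by
      rw [hst]
      exact List.perm_middle
    have hS1 := hS.perm hp
    have hBK : ∀ x ∈ B.head?, x ∈ K := by
      intro x hx
      rcases hB with hB | hB
      · rw [hB] at hx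
        have : k = x := by simpa using hx
        rwa [← this]
      · rw [hB.1] at hx
        simp at hx
    obtain ⟨y, hzy, hy⟩ := hS1.exists_out hm hz hBK (hdeg z) hr h2r
    obtain ⟨p, p', q1, q2, q3, q4, q5, q6⟩ :=
      hS1.exists_pair hm hk hz hB hzy hy (hdeg y) hmax hr h2r
    have hmem : ∀ v, v ∈ (exc ++ fours).flatten ↔ v ∈ ((A ++ B) :: (s ++ t)).flatten :=
      fun v => hp.flatten.mem_iff
    refine ⟨A, B, z, y, p, p', ⟨hAB, hA0, hB⟩, hz, hzy, ?_, q1, ?_, q3, ?_, q5, q6⟩
    · rw [hmem]; exact hy
    · rw [hmem]; exact q2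
    · rw [hmem]; exact q4
  have hKne : K.Nonempty := by
    rw [← Finset.card_pos]
    omega
  have : Nonempty V := ⟨hKne.choose⟩
  choose! A B z y p p' hcut hz hzy hy hyp hp hyp' hp' hpp hnp using key
  have main : ∀ k ∈ K, ∀ k' ∈ K, k ≠ k' → ∀ x, G.Adj (y k) x → x ∉ (exc ++ fours).flatten →
      ∀ x', G.Adj (y k') x' → x' ∉ (exc ++ fours).flatten → x ≠ x' ∧ ¬ G.Adj x x' := by
    intro k hk k' hk' hne x hx hxF x' hx' hxF'
    have aux : ∀ W : List V, W ≠ [] → W.length ≤ 4 → (∀ v ∈ W, v ∉ (exc ++ fours).flatten) →
        List.IsChain G.Adj (z k :: (W ++ [z k'])) → False := by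
      intro W hW0 hW4 hWF hWc
      obtain ⟨W', w1, w2, w3, w4, w5⟩ :=
        exists_simple_chain (P := fun v => v ∉ (exc ++ fours).flatten) W hWF hWc hW0
      exact hS.conn hm hne hk hk' (hcut k hk) (hcut k' hk') (hz k hk) (hz k' hk') w4
        (w5.trans hW4) w1 w2 w3
    constructor
    · rintro rfl
      refine aux [y k, x, y k'] (by simp) (by simp) ?_ ?_
      · intro v hv
        simp only [List.mem_cons, List.not_mem_nil, or_false] at hv
        rcases hv with rfl | rfl | rfl
        · exact hy k hk
        · exact hxF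
        · exact hy k' hk'
      · simp [hzy k hk, hx, hx'.symm, (hzy k' hk').symm]
    · intro hxx
      refine aux [y k, x, x', y k'] (by simp) (by simp) ?_ ?_
      · intro v hv
        simp only [List.mem_cons, List.not_mem_nil, or_false] at hv
        rcases hv with rfl | rfl | rfl | rfl
        · exact hy k hk
        · exact hxF
        · exact hxF'
        · exact hy k' hk'
      · simp [hzy k hk, hx, hxx, hx'.symm, (hzy k' hk').symm]
  have main2 : ∀ k ∈ K, ∀ x, x = p k ∨ x = p' k → G.Adj (y k) x ∧ x ∉ (exc ++ fours).flatten := by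
    intro k hk x hx
    rcases hx with rfl | rfl
    · exact ⟨hyp k hk, hp k hk⟩
    · exact ⟨hyp' k hk, hp' k hk⟩
  refine ⟨K.biUnion (fun k => {p k, p' k}), ?_, ?_⟩
  · intro x hx x' hx' hne
    rw [Finset.mem_coe, Finset.mem_biUnion] at hx hx'
    obtain ⟨k, hk, hxk⟩ := hx
    obtain ⟨k', hk', hxk'⟩ := hx'
    rw [Finset.mem_insert, Finset.mem_singleton] at hxk hxk'
    by_cases hkk : k = k'
    · subst hkk
      rcases hxk with rfl | rfl <;> rcases hxk' with rfl | rfl
      · exact absurd rfl hne
      · exact hnp k hk
      · exact fun h => hnp k hk h.symm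
      · exact absurd rfl hne
    · have m1 := main2 k hk x hxk
      have m2 := main2 k' hk' x' hxk'
      exact (main k hk k' hk' hkk x m1.1 m1.2 x' m2.1 m2.2).2
  · rw [Finset.card_biUnion]
    · rw [Finset.sum_congr rfl (fun k hk => Finset.card_pair (hpp k hk))]
      rw [Finset.sum_const, smul_eq_mul, mul_comm]
    · intro k hk k' hk' hkk
      rw [Function.onFun, Finset.disjoint_left]
      intro x hx hx'
      rw [Finset.mem_insert, Finset.mem_singleton] at hx hx'
      have m1 := main2 k hk x hx
      have m2 := main2 k' hk' x hx'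
      exact (main k hk k' hk' hkk x m1.1 m1.2 x m2.1 m2.2).1 rfl

end Vale.Agent.P048
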