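import Vale.Agent.P048.Sys

/-!
# P048: inserting a path with outside vertices between two ports of a system
-/

namespace Vale.Agent.P048

variable {V : Type*}

theorem opt_flatten (B : List V) : (opt B).flatten = B := by
  cases B <;> simp [opt]

theorem opt_length_le (B : List V) : (opt B).length ≤ 1 := by
  cases B <;> simp [opt]

theorem Sys.opt_append {G : SimpleGraph V} {K : Finset V} {B : List V} {X : List (List V)}
    (h : Sys G K X) (hn : (B ++ X.flatten).Nodup) (hc : List.IsChain G.Adj B)
    (hh : ∀ x ∈ B.head?, x ∈ K) (hl : ∀ x ∈ B.getLast?, x ∈ K) : Sys G K (opt B ++ X) := by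
  cases hB : B with
  | nil => simpa [opt] using h
  | cons b t =>
    rw [← hB]
    have : opt B = [B] := by rw [hB]; rfl
    rw [this]
    have hB0 : B ≠ [] := by rw [hB]; simp
    apply Sys.cons_of h hn hc
    · refine ⟨B.head hB0, List.head?_eq_some_head hB0, hh _ (List.head?_eq_some_head hB0)⟩
    · refine ⟨B.getLast hB0, List.getLast?_eq_some_getLast hB0,
        hl _ (List.getLast?_eq_some_getLast hB0)⟩

theorem chain_join {G : SimpleGraph V} {A W D : List V} {z z' : V}
    (hA : List.IsChain G.Adj A) (hAz : A.getLast? = some z)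
    (hW : List.IsChain G.Adj (z :: (W ++ [z']))) (hD : List.IsChain G.Adj D)
    (hDz : D.head? = some z') : List.IsChain G.Adj (A ++ (W ++ D)) := by
  obtain ⟨t, rfl⟩ : ∃ t, D = z' :: t := by
    cases D with
    | nil => simp at hDz
    | cons a t => exact ⟨t, by simpa using hDz⟩
  rw [List.isChain_append]
  have h1 : List.IsChain G.Adj (W ++ [z']) := hW.tail
  refine ⟨hA, List.isChain_split.2 ⟨h1, hD⟩, ?_⟩
  intro x hx y hy
  rw [hAz] at hx
  simp only [Option.mem_def, Option.some.injEq] at hx
  subst hx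
  cases W with
  | nil =>
    simp only [List.nil_append, List.head?_cons, Option.mem_def, Option.some.injEq] at hy
    subst hy
    simpa using hW
  | cons w W =>
    simp only [List.cons_append, List.head?_cons, Option.mem_def, Option.some.injEq] at hy
    subst hy
    rw [List.cons_append, List.isChain_cons_cons] at hW
    exact hW.1

theorem Sys.reroute_diff {G : SimpleGraph V} {K : Finset V} {rest : List (List V)}
    {A B A' B' W : List V} {z z' : V}
    (h : Sys G K ((A ++ B) :: (A' ++ B') :: rest)) (hA : A.getLast? = some z)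
    (hA' : A'.getLast? = some z') (hB : ∀ x ∈ B.head?, x ∈ K) (hB' : ∀ x ∈ B'.head?, x ∈ K)
    (hW : W.Nodup) (hWd : ∀ x ∈ W, x ∉ ((A ++ B) :: (A' ++ B') :: rest).flatten)
    (hWc : List.IsChain G.Adj (z :: (W ++ [z']))) :
    Sys G K ((A ++ (W ++ A'.reverse)) :: (opt B ++ (opt B' ++ rest))) ∧
      (((A ++ (W ++ A'.reverse)) :: (opt B ++ (opt B' ++ rest))).flatten).Perm
        (W ++ ((A ++ B) :: (A' ++ B') :: rest).flatten) := by
  have hA0 : A ≠ [] := by rintro rfl; simp at hA
  have hA0' : A' ≠ [] := by rintro rfl; simp at hA'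
  have hperm : (((A ++ (W ++ A'.reverse)) :: (opt B ++ (opt B' ++ rest))).flatten).Perm
        (W ++ ((A ++ B) :: (A' ++ B') :: rest).flatten) := by
    simp only [List.flatten_cons, List.flatten_append, opt_flatten]
    rw [← Multiset.coe_eq_coe]
    simp only [← Multiset.coe_add, Multiset.coe_reverse]
    abel
  have hnd : (W ++ ((A ++ B) :: (A' ++ B') :: rest).flatten).Nodup := by
    rw [List.nodup_append']
    exact ⟨hW, h.nodup, fun x hx hx' => hWd x hx hx'⟩
  have hnd' := hperm.nodup_iff.2 hnd
  refine ⟨?_, hperm⟩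
  have hc1 := List.isChain_append.1 (h.chain (A ++ B) (by simp))
  have hc2 := List.isChain_append.1 (h.chain (A' ++ B') (by simp))
  have hr : Sys G K rest := h.tail.tail
  simp only [List.flatten_cons, List.flatten_append, opt_flatten] at hnd'
  have hhA : ∃ x ∈ A.head?, x ∈ K := by
    have := h.head (A ++ B) (by simp)
    rwa [List.head?_append_of_ne_nil _ hA0] at this
  have hhA' : ∃ x ∈ A'.head?, x ∈ K := by
    have := h.head (A' ++ B') (by simp)
    rwa [List.head?_append_of_ne_nil _ hA0'] at this
  have hlB : ∀ x ∈ B.getLast?, x ∈ K := by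
    intro x hx
    have hB0 : B ≠ [] := by rintro rfl; simp at hx
    obtain ⟨y, hy, hyK⟩ := h.last (A ++ B) (by simp)
    rw [List.getLast?_append_of_ne_nil _ hB0] at hy
    rw [Option.mem_def] at hx hy
    rw [hx] at hy
    simp only [Option.some.injEq] at hy
    rw [hy]; exact hyK
  have hlB' : ∀ x ∈ B'.getLast?, x ∈ K := by
    intro x hx
    have hB0 : B' ≠ [] := by rintro rfl; simp at hx
    obtain ⟨y, hy, hyK⟩ := h.last (A' ++ B') (by simp)
    rw [List.getLast?_append_of_ne_nil _ hB0] at hy
    rw [Option.mem_def] at hx hy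
    rw [hx] at hy
    simp only [Option.some.injEq] at hy
    rw [hy]; exact hyK
  have hd1 := (List.nodup_append'.1 hnd').2.1
  have hd2 := (List.nodup_append'.1 hd1).2.1
  apply Sys.cons_of
  · apply Sys.opt_append
    · exact Sys.opt_append hr hd2 hc2.2.1 hB' hlB'
    · simp only [List.flatten_append, opt_flatten]
      exact hd1
    · exact hc1.2.1
    · exact hB
    · exact hlB
  · simp only [List.flatten_append, opt_flatten]
    exact hnd'
  · apply chain_join hc1.1 hA hWc (isChain_reverse hc2.1)
    rw [List.head?_reverse]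
    exact hA'
  · rw [List.head?_append_of_ne_nil _ hA0]
    exact hhA
  · rw [List.getLast?_append_of_ne_nil _ (by simp [hA0']),
      List.getLast?_append_of_ne_nil _ (by simp [hA0']), List.getLast?_reverse]
    exact hhA'

theorem Sys.reroute_same {G : SimpleGraph V} {K : Finset V} {rest : List (List V)}
    {A D E W : List V} {z z' : V}
    (h : Sys G K ((A ++ (D ++ E)) :: rest)) (hA : A.getLast? = some z)
    (hD : D.getLast? = some z') (hDh : ∃ x ∈ D.head?, x ∈ K) (hE : ∀ x ∈ E.head?, x ∈ K)
    (hW : W.Nodup) (hWd : ∀ x ∈ W, x ∉ ((A ++ (D ++ E)) :: rest).flatten)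
    (hWc : List.IsChain G.Adj (z :: (W ++ [z']))) :
    Sys G K ((A ++ (W ++ D.reverse)) :: (opt E ++ rest)) ∧
      (((A ++ (W ++ D.reverse)) :: (opt E ++ rest)).flatten).Perm
        (W ++ ((A ++ (D ++ E)) :: rest).flatten) := by
  have hA0 : A ≠ [] := by rintro rfl; simp at hA
  have hD0 : D ≠ [] := by rintro rfl; simp at hD
  have hperm : (((A ++ (W ++ D.reverse)) :: (opt E ++ rest)).flatten).Perm
        (W ++ ((A ++ (D ++ E)) :: rest).flatten) := by
    simp only [List.flatten_cons, List.flatten_append, opt_flatten]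
    rw [← Multiset.coe_eq_coe]
    simp only [← Multiset.coe_add, Multiset.coe_reverse]
    abel
  have hnd : (W ++ ((A ++ (D ++ E)) :: rest).flatten).Nodup := by
    rw [List.nodup_append']
    exact ⟨hW, h.nodup, fun x hx hx' => hWd x hx hx'⟩
  have hnd' := hperm.nodup_iff.2 hnd
  refine ⟨?_, hperm⟩
  have hc1 := List.isChain_append.1 (h.chain (A ++ (D ++ E)) (by simp))
  have hc2 := List.isChain_append.1 hc1.2.1
  simp only [List.flatten_cons, List.flatten_append, opt_flatten] at hnd'
  have hhA : ∃ x ∈ A.head?, x ∈ K := by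
    have := h.head (A ++ (D ++ E)) (by simp)
    rwa [List.head?_append_of_ne_nil _ hA0] at this
  have hlE : ∀ x ∈ E.getLast?, x ∈ K := by
    intro x hx
    have hE0 : E ≠ [] := by rintro rfl; simp at hx
    obtain ⟨y, hy, hyK⟩ := h.last (A ++ (D ++ E)) (by simp)
    rw [List.getLast?_append_of_ne_nil _ (by simp [hE0]),
      List.getLast?_append_of_ne_nil _ hE0] at hy
    rw [Option.mem_def] at hx hy
    rw [hx] at hy
    simp only [Option.some.injEq] at hy
    rw [hy]; exact hyK
  have hd1 := (List.nodup_append'.1 hnd').2.1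
  apply Sys.cons_of
  · exact Sys.opt_append h.tail hd1 hc2.2.1 hE hlE
  · simp only [List.flatten_append, opt_flatten]
    exact hnd'
  · apply chain_join hc1.1 hA hWc (isChain_reverse hc2.1)
    rw [List.head?_reverse]
    exact hD
  · rw [List.head?_append_of_ne_nil _ hA0]
    exact hhA
  · rw [List.getLast?_append_of_ne_nil _ (by simp [hD0]),
      List.getLast?_append_of_ne_nil _ (by simp [hD0]), List.getLast?_reverse]
    exact hDh

theorem chain_cons_concat_reverse {G : SimpleGraph V} {z z' : V} {W : List V}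
    (h : List.IsChain G.Adj (z :: (W ++ [z']))) :
    List.IsChain G.Adj (z' :: (W.reverse ++ [z])) := by
  have := isChain_reverse h
  simpa using this

theorem IsCut.head_mem {K : Finset V} {bl : List (List V)} {k : V} {A B : List V}
    (h : IsCut bl k A B) (hk : k ∈ K) : ∀ x ∈ B.head?, x ∈ K := by
  intro x hx
  obtain ⟨-, -, h3 | ⟨h3, -⟩⟩ := h
  · rw [h3] at hx
    simp only [Option.mem_def, Option.some.injEq] at hx
    rw [← hx]; exact hk
  · rw [h3] at hx; simp at hx

/-- the case of two cuts in one block, the first cut being before the second one -/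
theorem Sys.reroute_aux {G : SimpleGraph V} {K : Finset V} {bl : List (List V)}
    {k k' : V} {A B A' B' W : List V} {z z' : V} (h : Sys G K bl)
    (hk : k ∈ K) (hk' : k' ∈ K) (hc : IsCut bl k A B) (hc' : IsCut bl k' A' B')
    (hA : A.getLast? = some z) (hA' : A'.getLast? = some z')
    (hW : W.Nodup) (hWd : ∀ x ∈ W, x ∉ bl.flatten)
    (hWc : List.IsChain G.Adj (z :: (W ++ [z']))) (he : A ++ B = A' ++ B')
    (hlt : A.length < A'.length) :
    ∃ aff new rest : List (List V), bl.Perm (aff ++ rest) ∧ aff.length ≤ 2 ∧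
      Sys G K (new ++ rest) ∧ (new ++ rest).flatten.Perm (W ++ bl.flatten) := by
  classical
  obtain ⟨D, hD1, hD2⟩ : ∃ D, A' = A ++ D ∧ B = D ++ B' := by
    rcases List.append_eq_append_iff.1 he with ⟨D, h1, h2⟩ | ⟨D, h1, h2⟩
    · exact ⟨D, h1, h2⟩
    · rw [h1, List.length_append] at hlt
      omega
  subst hD1 hD2
  have hD0 : D ≠ [] := by
    rintro rfl
    simp at hlt
  have hDl : D.getLast? = some z' := by
    rwa [List.getLast?_append_of_ne_nil _ hD0] at hA'
  have hDh : ∃ x ∈ D.head?, x ∈ K := by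
    have := hc.head_mem hk
    rw [List.head?_append_of_ne_nil _ hD0] at this
    exact ⟨D.head hD0, List.head?_eq_some_head hD0, this _ (List.head?_eq_some_head hD0)⟩
  have hp : bl.Perm ((A ++ (D ++ B')) :: bl.erase (A ++ (D ++ B'))) :=
    List.perm_cons_erase hc.1
  obtain ⟨r1, r2⟩ := Sys.reroute_same (h.perm hp) hA hDl hDh (hc'.head_mem hk') hW
    (fun x hx hx' => hWd x hx (hp.flatten.mem_iff.2 hx')) hWc
  refine ⟨[A ++ (D ++ B')], (A ++ (W ++ D.reverse)) :: opt B', bl.erase (A ++ (D ++ B')),
    hp, by simp, r1, ?_⟩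
  exact r2.trans (hp.flatten.symm.append_left W)

/-- the general form -/
theorem Sys.reroute {G : SimpleGraph V} {K : Finset V} {bl : List (List V)}
    {k k' : V} {A B A' B' W : List V} {z z' : V} (h : Sys G K bl)
    (hne : k ≠ k') (hk : k ∈ K) (hk' : k' ∈ K) (hc : IsCut bl k A B) (hc' : IsCut bl k' A' B')
    (hA : A.getLast? = some z) (hA' : A'.getLast? = some z')
    (hW : W.Nodup) (hWd : ∀ x ∈ W, x ∉ bl.flatten)
    (hWc : List.IsChain G.Adj (z :: (W ++ [z']))) :
    ∃ aff new rest : List (List V), bl.Perm (aff ++ rest) ∧ aff.length ≤ 2 ∧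
      Sys G K (new ++ rest) ∧ (new ++ rest).flatten.Perm (W ++ bl.flatten) := by
  classical
  by_cases he : A ++ B = A' ++ B'
  · rcases lt_trichotomy A.length A'.length with hlt | heq | hlt
    · exact h.reroute_aux hk hk' hc hc' hA hA' hW hWd hWc he hlt
    · exfalso
      apply hne
      obtain ⟨e1, -⟩ := List.append_inj he heq
      exact h.port_inj hc hc' (by rw [e1])
    · obtain ⟨aff, new, rest, h1, h2, h3, h4⟩ := h.reroute_aux hk' hk hc' hc hA' hA
        (List.nodup_reverse.2 hW) (fun x hx => hWd x (List.mem_reverse.1 hx))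
        (chain_cons_concat_reverse hWc) he.symm hlt
      exact ⟨aff, new, rest, h1, h2, h3,
        h4.trans ((List.reverse_perm W).append_right _)⟩
  · have h1 : bl.Perm ((A ++ B) :: bl.erase (A ++ B)) := List.perm_cons_erase hc.1
    have h2 : A' ++ B' ∈ bl.erase (A ++ B) := (List.mem_erase_of_ne (Ne.symm he)).2 hc'.1
    have h3 : (bl.erase (A ++ B)).Perm ((A' ++ B') :: (bl.erase (A ++ B)).erase (A' ++ B')) :=
      List.perm_cons_erase h2
    have hp : bl.Perm ((A ++ B) :: (A' ++ B') :: (bl.erase (A ++ B)).erase (A' ++ B')) :=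
      h1.trans (h3.cons _)
    generalize (bl.erase (A ++ B)).erase (A' ++ B') = rest at hp
    obtain ⟨r1, r2⟩ := Sys.reroute_diff (h.perm hp) hA hA' (hc.head_mem hk)
      (hc'.head_mem hk') hW (fun x hx hx' => hWd x hx (hp.flatten.mem_iff.2 hx')) hWc
    refine ⟨[A ++ B, A' ++ B'], (A ++ (W ++ A'.reverse)) :: (opt B ++ opt B'), rest,
      hp, by simp, ?_, ?_⟩
    · simpa using r1
    · have := r2.trans (hp.flatten.symm.append_left W)
      simpa using this

theorem exists_dup : ∀ (l : List V), ¬ l.Nodup → ∃ X a Y Z, l = X ++ a :: (Y ++ a :: Z) := by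
  intro l
  induction l with
  | nil => intro h; exact absurd List.nodup_nil h
  | cons b t ih =>
    intro h
    by_cases hb : b ∈ t
    · obtain ⟨Y, Z, rfl⟩ := List.append_of_mem hb
      exact ⟨[], b, Y, Z, rfl⟩
    · have : ¬ t.Nodup := fun ht => h (List.nodup_cons.2 ⟨hb, ht⟩)
      obtain ⟨X, a, Y, Z, rfl⟩ := ih this
      exact ⟨b :: X, a, Y, Z, rfl⟩

/-- a chain from `z` to `z'` through vertices with `P` can be made simple -/
theorem exists_simple_chain {G : SimpleGraph V} {z z' : V} {P : V → Prop} (W : List V)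
    (hW : ∀ x ∈ W, P x) (hWc : List.IsChain G.Adj (z :: (W ++ [z']))) (hne : W ≠ []) :
    ∃ W' : List V, W'.Nodup ∧ (∀ x ∈ W', P x) ∧ List.IsChain G.Adj (z :: (W' ++ [z'])) ∧
      W' ≠ [] ∧ W'.length ≤ W.length := by
  obtain ⟨n, hn⟩ : ∃ n, W.length ≤ n := ⟨_, le_rfl⟩
  induction n generalizing W with
  | zero =>
    exfalso
    exact hne (List.length_eq_zero_iff.1 (by omega))
  | succ n ih =>
    by_cases hnd : W.Nodup
    · exact ⟨W, hnd, hW, hWc, hne, le_rfl⟩
    · obtain ⟨X, a, Y, Z, rfl⟩ := exists_dup W hnd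
      have hlen : (X ++ a :: Z).length < (X ++ a :: (Y ++ a :: Z)).length := by
        simp only [List.length_append, List.length_cons]; omega
      have hc : List.IsChain G.Adj (z :: ((X ++ a :: Z) ++ [z'])) := by
        have e1 : z :: ((X ++ a :: (Y ++ a :: Z)) ++ [z']) =
            (z :: X) ++ a :: ((Y ++ a :: (Z ++ [z']))) := by simp
        have e2 : z :: ((X ++ a :: Z) ++ [z']) = (z :: X) ++ a :: (Z ++ [z']) := by simp
        rw [e1, List.isChain_split] at hWc
        rw [e2, List.isChain_split]
        refine ⟨hWc.1, ?_⟩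
        have h2 := hWc.2
        have e3 : a :: (Y ++ a :: (Z ++ [z'])) = (a :: Y) ++ a :: (Z ++ [z']) := by simp
        rw [e3, List.isChain_split] at h2
        exact h2.2
      obtain ⟨W', h1, h2, h3, h4, h5⟩ := ih (X ++ a :: Z) (by
        intro x hx
        apply hW
        rcases List.mem_append.1 hx with hx | hx
        · exact List.mem_append_left _ hx
        · apply List.mem_append_right
          rcases List.mem_cons.1 hx with rfl | hx
          · simp
          · simp [hx]) hc (by simp) (by omega)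
      exact ⟨W', h1, h2, h3, h4, by omega⟩

end Vale.Agent.P048
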