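import Vale.Agent.P048.Gaps
import Vale.Agent.P048.Reroute
import Vale.Agent.P048.CaseA
import Vale.Agent.P048.CaseB1

/-!
# P048: large cliques give large independent sets
-/

namespace Vale.Agent.P048

open Finset

variable {V : Type*}

theorem flatten_map_singleton (L : List V) : (L.map (fun x => [x])).flatten = L := by
  induction L with
  | nil => rfl
  | cons a t ih =>
    rw [List.map_cons, List.flatten_cons, ih]
    rfl

theorem clique_case [Fintype V] [DecidableEq V] (G : SimpleGraph V) [DecidableRel G.Adj] (m : ℕ)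
    (hm : 17 ≤ m) (hfree : ∀ l, CycL G l → l.length ≠ m) (hdeg : ∀ v, m - 1 ≤ G.degree v)
    (K : Finset V) (hK : G.IsClique (K : Set V))
    (hmax : ∀ K' : Finset V, G.IsClique (K' : Set V) → K'.card ≤ K.card)
    (hmr : m ≤ 2 * K.card) : ∃ I : Finset V, G.IsIndepSet (I : Set V) ∧ I.card = 2 * K.card := by
  classical
  have hno : ∀ bl : List (List V), Sys G K bl → bl.flatten.length ≠ m := by
    intro bl h hl
    exact hfree _ (h.cyc hK (by omega)) hl
  have hKm : K.card + 1 ≤ m := by
    by_contra hcon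
    obtain ⟨L, hL, hLc⟩ := Finset.exists_subset_card_eq (s := K) (n := m) (by omega)
    refine hno _ (Sys.singletons (G := G) L.toList L.nodup_toList
      (fun x hx => hL (Finset.mem_toList.1 hx))) ?_
    rw [flatten_map_singleton, Finset.length_toList, hLc]
  let P : ℕ → Prop := fun c => ∃ bl, Sys G K bl ∧ Cov K bl ∧ bl.flatten.length = c
  have hPr : P K.card := by
    refine ⟨K.toList.map (fun x => [x]), Sys.singletons _ K.nodup_toList
      (fun x hx => Finset.mem_toList.1 hx), ?_, ?_⟩
    · intro x hx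
      rw [flatten_map_singleton]
      exact Finset.mem_toList.2 hx
    · rw [flatten_map_singleton, Finset.length_toList]
  have hPm : ¬ P m := fun ⟨bl, h1, _, h3⟩ => hno bl h1 h3
  obtain ⟨c0, hc0m, hc0, hc0max⟩ : ∃ c0, c0 + 1 ≤ m ∧ P c0 ∧ ∀ c, c0 < c → c + 1 ≤ m → ¬ P c := by
    refine ⟨Nat.findGreatest P (m - 1), ?_, ?_, ?_⟩
    · have := Nat.findGreatest_le (P := P) (m - 1)
      omega
    · exact Nat.findGreatest_spec (P := P) (m := K.card) (by omega) hPr
    · intro c h1 h2
      exact Nat.findGreatest_is_greatest h1 (by omega)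
  obtain ⟨bl0, h0s, h0c, h0l⟩ := hc0
  by_cases hA : ∀ bl', Sys G K bl' → Cov K bl' → ∀ q, 1 ≤ q → q ≤ 6 →
      bl'.flatten.length ≠ bl0.flatten.length + q
  · exact caseA G m hdeg K hK hmax (by omega) bl0 h0s h0c (by omega) hA
  · have hex : ∃ c, m < c ∧ P c := by
      by_contra hcon
      apply hA
      intro bl' h1 h2 q hq hq' hl
      by_cases hlt : bl'.flatten.length + 1 ≤ m
      · exact hc0max bl'.flatten.length (by omega) hlt ⟨bl', h1, h2, rfl⟩
      · have : bl'.flatten.length ≠ m := hno bl' h1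
        exact hcon ⟨bl'.flatten.length, by omega, bl', h1, h2, rfl⟩
    have hc1 := Nat.find_spec hex
    have hc1min : ∀ c, c < Nat.find hex → ¬ (m < c ∧ P c) := fun c hc => Nat.find_min hex hc
    generalize Nat.find hex = c1 at hc1 hc1min
    obtain ⟨hmc1, bl1, h1s, h1c, h1l⟩ := hc1
    have hc16 : c1 ≤ c0 + 6 := by
      by_contra hcon
      apply hA
      intro bl' h1 h2 q hq hq' hl
      by_cases hlt : bl'.flatten.length + 1 ≤ m
      · exact hc0max bl'.flatten.length (by omega) hlt ⟨bl', h1, h2, rfl⟩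
      · have : bl'.flatten.length ≠ m := hno bl' h1
        exact hc1min bl'.flatten.length (by omega) ⟨by omega, bl', h1, h2, rfl⟩
    have hgap : ∀ bl', Sys G K bl' → Cov K bl' → ∀ d, 1 ≤ d → d < c1 - c0 →
        bl'.flatten.length + d ≠ bl1.flatten.length := by
      intro bl' h1 h2 d hd hd' hl
      by_cases hlt : bl'.flatten.length + 1 ≤ m
      · exact hc0max bl'.flatten.length (by omega) hlt ⟨bl', h1, h2, rfl⟩
      · have : bl'.flatten.length ≠ m := hno bl' h1
        exact hc1min bl'.flatten.length (by omega) ⟨by omega, bl', h1, h2, rfl⟩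
    by_cases hδ : 3 ≤ c1 - c0
    · exact (caseB2 (e := c1 - m) (δ := c1 - c0) h1s h1c hno (by omega) (by omega) (by omega) hδ
        (by omega) (by omega) hmr hgap).elim
    · obtain ⟨exc, fours, k1, k2, k3, k4, k5⟩ :=
        structure_two h1s h1c hno (by omega) hmr (by omega)
      exact caseB1 G m hdeg K hK hmax (by omega) hmr hno exc fours k1 k2 k3 k4 k5

end Vale.Agent.P048
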