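import Mathlib

/-!
# P048: paths and cycles as lists of vertices
-/

namespace Vale.Agent.P048

variable {V : Type*}

/-- A path of `G`, given as the list of its vertices. -/
def PathL (G : SimpleGraph V) (l : List V) : Prop := l.Nodup ∧ List.IsChain G.Adj l

/-- A cycle of `G`, given as the cyclic list of its vertices: no vertex is repeated, consecutive
entries are adjacent, and the last entry is adjacent to the first one. -/
def CycL (G : SimpleGraph V) (l : List V) : Prop :=
  l.Nodup ∧ List.IsChain G.Adj l ∧ ∀ x ∈ l.getLast?, ∀ y ∈ l.head?, G.Adj x y

end Vale.Agent.P048
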