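import Vale.Agent.P048.CaseA

/-!
# P048: the case without extensions by `1, 2, 3, 4` of a maximal covering system
-/

namespace Vale.Agent.P048

open Finset

variable {V : Type*}

namespace CaseAAux

/-- A port whose territory of radius two is a clique. -/
theorem exc_facts [Fintype V] [DecidableEq V] (G : SimpleGraph V) [DecidableRel G.Adj] (m : ℕ)
    (hdeg : ∀ v, m - 1 ≤ G.degree v) (r : ℕ)
    (hmax : ∀ K' : Finset V, G.IsClique (K' : Set V) → K'.card ≤ r)
    (F Q : Finset V) (hF : F.card + 1 ≤ m) (z : V) (hz : z ∈ F) (hQ : Q ⊆ F) (hzQ : z ∉ Q)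
    (hQr : r ≤ Q.card + 1)
    (hconn : ∀ y, Reach G (fun x => x ∉ F) z 2 y → ∀ q ∈ Q, ¬ G.Adj y q)
    (hexc : ∀ p q, Reach G (fun x => x ∉ F) z 2 p → Reach G (fun x => x ∉ F) z 2 q → p ≠ q →
      G.Adj p q) :
    F.card + 1 = m ∧ (∃ y, Reach G (fun x => x ∉ F) z 2 y ∧ ∀ u ∈ F, u ∉ Q → G.Adj y u) ∧
      ∃ x, Reach G (fun x => x ∉ F) z 2 x ∧ ¬ G.Adj z x := by
  classical
  set P : V → Prop := fun x => x ∉ F with hP
  set D : Finset V := Finset.univ.filter (fun y => Reach G P z 2 y) with hD
  have hDmem : ∀ y, y ∈ D ↔ Reach G P z 2 y := by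
    intro y
    rw [hD, Finset.mem_filter]
    simp
  have hDcl : G.IsClique (D : Set V) := by
    intro x hx y hy hxy
    rw [Finset.mem_coe, hDmem] at hx hy
    exact hexc x y hx hy hxy
  have hDr := hmax D hDcl
  have hdz := hdeg z
  rw [← G.card_neighborFinset_eq_degree] at hdz
  have h1 : ∃ y, y ∈ G.neighborFinset z ∧ y ∉ F := by
    by_contra hn
    push Not at hn
    have hsub : G.neighborFinset z ⊆ F.erase z := by
      intro y hy
      rw [Finset.mem_erase]
      refine ⟨?_, hn y hy⟩
      rintro rfl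
      rw [SimpleGraph.mem_neighborFinset] at hy
      exact G.loopless.irrefl _ hy
    have := Finset.card_le_card hsub
    rw [Finset.card_erase_of_mem hz] at this
    have := Finset.card_pos.2 ⟨z, hz⟩
    omega
  obtain ⟨y₀, hy₀, hy₀F⟩ := h1
  rw [SimpleGraph.mem_neighborFinset] at hy₀
  have hr0 : Reach G P z 1 y₀ := Reach.one hy₀F hy₀
  have hy₀D : y₀ ∈ D := (hDmem y₀).2 (hr0.mono (by norm_num))
  have h3 : G.neighborFinset y₀ \ F ⊆ D.erase y₀ := by
    intro x hx
    rw [Finset.mem_sdiff, SimpleGraph.mem_neighborFinset] at hx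
    rw [Finset.mem_erase]
    refine ⟨?_, (hDmem x).2 (hr0.succ hx.2 hx.1)⟩
    rintro rfl
    exact G.loopless.irrefl _ hx.1
  have h4 : m ≤ (G.neighborFinset y₀ ∩ F).card + D.card := by
    have e1 := Finset.card_le_card h3
    rw [Finset.card_erase_of_mem hy₀D] at e1
    have e2 := Finset.card_sdiff_add_card_inter (G.neighborFinset y₀) F
    have e3 := hdeg y₀
    rw [← G.card_neighborFinset_eq_degree] at e3
    have e4 := Finset.card_pos.2 ⟨y₀, hy₀D⟩
    omega
  have h5 : G.neighborFinset y₀ ∩ F ⊆ F \ Q := by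
    intro x hx
    rw [Finset.mem_inter, SimpleGraph.mem_neighborFinset] at hx
    rw [Finset.mem_sdiff]
    exact ⟨hx.2, fun hxQ => hconn y₀ ((hDmem y₀).1 hy₀D) x hxQ hx.1⟩
  have hcQ : (F \ Q).card + Q.card = F.card := Finset.card_sdiff_add_card_eq_card hQ
  have h6 := Finset.card_le_card h5
  have h7 : G.neighborFinset y₀ ∩ F = F \ Q := Finset.eq_of_subset_of_card_le h5 (by omega)
  refine ⟨by omega, ⟨y₀, (hDmem y₀).1 hy₀D, ?_⟩, ?_⟩
  · intro u hu huQ
    have : u ∈ F \ Q := Finset.mem_sdiff.2 ⟨hu, huQ⟩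
    rw [← h7, Finset.mem_inter, SimpleGraph.mem_neighborFinset] at this
    exact this.1
  · by_contra hcon
    push Not at hcon
    have hzD : z ∉ D := fun hzD => ((hDmem z).1 hzD).prop hz
    have h8 : G.IsClique ((insert z D : Finset V) : Set V) := by
      rw [Finset.coe_insert, SimpleGraph.isClique_insert]
      refine ⟨hDcl, ?_⟩
      intro y hy _
      exact hcon y ((hDmem y).1 (by simpa using hy))
    have h9 := hmax _ h8
    rw [Finset.card_insert_of_notMem hzD] at h9
    omega

end CaseAAux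

/-- inserting a vertex into a block -/
theorem Sys.insert_vertex {G : SimpleGraph V} {K : Finset V} {A B : List V} {p u y : V}
    {rest : List (List V)} (h : Sys G K ((A ++ (p :: u :: B)) :: rest))
    (hy : y ∉ ((A ++ (p :: u :: B)) :: rest).flatten) (hpy : G.Adj p y) (hyu : G.Adj y u) :
    Sys G K ((A ++ (p :: y :: u :: B)) :: rest) ∧
      (((A ++ (p :: y :: u :: B)) :: rest).flatten).Perm
        (y :: ((A ++ (p :: u :: B)) :: rest).flatten) := by
  have hperm : (((A ++ (p :: y :: u :: B)) :: rest).flatten).Perm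
        (y :: ((A ++ (p :: u :: B)) :: rest).flatten) := by
    rw [List.flatten_cons, List.flatten_cons]
    have e1 : (A ++ (p :: y :: u :: B)) ++ rest.flatten =
        (A ++ [p]) ++ y :: (u :: B ++ rest.flatten) := by simp
    have e2 : (A ++ (p :: u :: B)) ++ rest.flatten =
        (A ++ [p]) ++ (u :: B ++ rest.flatten) := by simp
    rw [e1, e2]
    exact List.perm_middle
  refine ⟨?_, hperm⟩
  have hnd : (y :: ((A ++ (p :: u :: B)) :: rest).flatten).Nodup :=
    List.nodup_cons.2 ⟨hy, h.nodup⟩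
  have hnd' := hperm.nodup_iff.2 hnd
  rw [List.flatten_cons] at hnd'
  have hch := h.chain (A ++ (p :: u :: B)) List.mem_cons_self
  have hhd := h.head (A ++ (p :: u :: B)) List.mem_cons_self
  have hlt := h.last (A ++ (p :: u :: B)) List.mem_cons_self
  apply Sys.cons_of h.tail hnd'
  · rw [List.isChain_append_cons_cons] at hch
    rw [List.isChain_append_cons_cons, List.isChain_cons_cons]
    exact ⟨hch.1, hpy, hyu, hch.2.2⟩
  · cases A with
    | nil => simpa using hhd
    | cons a A => simpa using hhd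
  · rw [List.getLast?_append_of_ne_nil _ (by simp)] at hlt ⊢
    rw [List.getLast?_cons_cons] at hlt ⊢
    rw [List.getLast?_cons_cons]
    exact hlt

open CaseAAux in
theorem caseA5 [Fintype V] [DecidableEq V] (G : SimpleGraph V) [DecidableRel G.Adj] (m : ℕ)
    (hdeg : ∀ v, m - 1 ≤ G.degree v) (K : Finset V) (hK : G.IsClique (K : Set V))
    (hmax : ∀ K' : Finset V, G.IsClique (K' : Set V) → K'.card ≤ K.card) (hK2 : 2 ≤ K.card)
    (hmr : m ≤ 2 * K.card)
    (bl : List (List V)) (h : Sys G K bl) (hc : Cov K bl) (hlen : bl.flatten.length + 1 ≤ m)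
    (hno : ∀ bl', Sys G K bl' → Cov K bl' → ∀ q, 1 ≤ q → q ≤ 4 →
      bl'.flatten.length ≠ bl.flatten.length + q) :
    ∃ I : Finset V, G.IsIndepSet (I : Set V) ∧ m ≤ I.card := by
  classical
  -- the ports
  have hport : ∀ k : V, ∃ z : V, k ∈ K → ∃ A B, IsCut bl k A B ∧ A.getLast? = some z := by
    intro k
    by_cases hk : k ∈ K
    · obtain ⟨A, B, hAB⟩ := h.exists_cut hc hk
      exact ⟨A.getLast hAB.2.1, fun _ => ⟨A, B, hAB, List.getLast?_eq_some_getLast hAB.2.1⟩⟩
    · exact ⟨k, fun hk' => absurd hk' hk⟩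
  choose z hz using hport
  have hzinj : ∀ k ∈ K, ∀ k' ∈ K, z k = z k' → k = k' := by
    intro k hk k' hk' he
    obtain ⟨A, B, h1, h2⟩ := hz k hk
    obtain ⟨A', B', h1', h2'⟩ := hz k' hk'
    exact h.port_inj h1 h1' (by rw [h2, h2', he])
  have hzF : ∀ k ∈ K, z k ∈ bl.flatten := by
    intro k hk
    obtain ⟨A, B, h1, h2⟩ := hz k hk
    rw [List.mem_flatten]
    exact ⟨A ++ B, h1.1, List.mem_append_left _ (List.mem_of_getLast? h2)⟩
  -- no short chains between two ports
  have hconn : ∀ k ∈ K, ∀ k' ∈ K, k ≠ k' → ∀ W : List V, W ≠ [] → W.length ≤ 4 →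
      (∀ x ∈ W, x ∉ bl.flatten) → ¬ List.IsChain G.Adj (z k :: (W ++ [z k'])) := by
    intro k hk k' hk' hkk W hW0 hW6 hWF hWc
    obtain ⟨W', a1, a2, a3, a4, a5⟩ := exists_simple_chain (P := fun x => x ∉ bl.flatten) W hWF
      hWc hW0
    obtain ⟨A, B, h1, h2⟩ := hz k hk
    obtain ⟨A', B', h1', h2'⟩ := hz k' hk'
    obtain ⟨aff, new, rest, b1, b2, b3, b4⟩ := h.reroute hkk hk hk' h1 h1' h2 h2' a1 a2 a3
    refine hno (new ++ rest) b3 ?_ W'.length (List.length_pos_iff.2 a4) (a5.trans hW6) ?_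
    · intro x hx
      exact b4.mem_iff.2 (List.mem_append_right _ (hc x hx))
    · rw [b4.length_eq, List.length_append]
      omega
  set F : Finset V := bl.flatten.toFinset with hF
  have hFmem : ∀ x, x ∈ F ↔ x ∈ bl.flatten := by
    intro x
    rw [hF, List.mem_toFinset]
  have hFcard : F.card = bl.flatten.length := by
    rw [hF, List.toFinset_card_of_nodup h.nodup]
  set P : V → Prop := fun x => x ∉ F with hP
  have hP' : ∀ W : List V, (∀ x ∈ W, P x) → ∀ x ∈ W, x ∉ bl.flatten := by
    intro W hW x hx hxF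
    exact hW x hx ((hFmem x).2 hxF)
  have hsep : ∀ k ∈ K, ∀ k' ∈ K, k ≠ k' → ∀ y y', Reach G P (z k) 2 y → Reach G P (z k') 2 y' →
      y ≠ y' ∧ ¬ G.Adj y y' := by
    intro k hk k' hk' hkk y y' hy hy'
    constructor
    · intro he
      obtain ⟨W, c1, c2, c3, c4⟩ := hy.join hy' (Or.inl he)
      exact hconn k hk k' hk' hkk W c1 (by omega) (hP' W c3) c4
    · intro he
      obtain ⟨W, c1, c2, c3, c4⟩ := hy.join hy' (Or.inr he)
      exact hconn k hk k' hk' hkk W c1 (by omega) (hP' W c3) c4
  have hto : ∀ k ∈ K, ∀ k' ∈ K, k ≠ k' → ∀ y, Reach G P (z k) 2 y → ¬ G.Adj y (z k') := by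
    intro k hk k' hk' hkk y hy hyq
    obtain ⟨W, c1, c2, c3, c4⟩ := hy.to hyq
    exact hconn k hk k' hk' hkk W c1 (by omega) (hP' W c3) c4
  have hQmem : ∀ k x, x ∈ (K.erase k).image z ↔ ∃ k', k' ∈ K ∧ k' ≠ k ∧ z k' = x := by
    intro k x
    rw [Finset.mem_image]
    constructor
    · rintro ⟨k', hk', rfl⟩
      rw [Finset.mem_erase] at hk'
      exact ⟨k', hk'.2, hk'.1, rfl⟩
    · rintro ⟨k', h1, h2, rfl⟩
      exact ⟨k', Finset.mem_erase.2 ⟨h2, h1⟩, rfl⟩
  -- the exceptional ports
  let exc : V → Prop := fun k => ∀ p q, Reach G P (z k) 2 p → Reach G P (z k) 2 q → p ≠ q →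
      G.Adj p q
  have hexc : ∀ k ∈ K, exc k → F.card + 1 = m ∧
      (∃ y, Reach G P (z k) 2 y ∧ ∀ u ∈ F, u ∉ (K.erase k).image z → G.Adj y u) ∧
      ∃ x, Reach G P (z k) 2 x ∧ ¬ G.Adj (z k) x := by
    intro k hk he
    refine exc_facts G m hdeg K.card hmax F ((K.erase k).image z) (by omega) (z k)
        ((hFmem _).2 (hzF k hk)) ?_ ?_ ?_ ?_ he
    · intro x hx
      obtain ⟨k', hk', -, rfl⟩ := (hQmem k x).1 hx
      exact (hFmem _).2 (hzF k' hk')
    · intro hx
      obtain ⟨k', hk', hne, he⟩ := (hQmem k _).1 hx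
      exact hne (hzinj k' hk' k hk he)
    · rw [Finset.card_image_of_injOn (by
        intro x hx y hy he
        exact hzinj x (Finset.mem_of_mem_erase hx) y (Finset.mem_of_mem_erase hy) he),
        Finset.card_erase_of_mem hk]
      omega
    · intro y hy q hq hyq
      obtain ⟨k', hk', hne, rfl⟩ := (hQmem k q).1 hq
      exact hto k hk k' hk' (Ne.symm hne) y hy hyq
  -- vertices outside `K` are ports
  have hout : ∀ k ∈ K, exc k → ∀ u ∈ F, u ∉ K → u ∈ (K.erase k).image z := by
    intro k hk he u huF huK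
    by_contra huQ
    obtain ⟨-, ⟨y, hyR, hyadj⟩, -⟩ := hexc k hk he
    have hyF : y ∉ bl.flatten := fun hh => hyR.prop ((hFmem y).2 hh)
    obtain ⟨b, hb, hub⟩ := List.mem_flatten.1 ((hFmem u).1 huF)
    obtain ⟨A, B, rfl⟩ := List.append_of_mem hub
    rcases List.eq_nil_or_concat' A with rfl | ⟨A', p, rfl⟩
    · obtain ⟨x, hx, hxK⟩ := h.head _ hb
      simp only [List.nil_append, List.head?_cons, Option.mem_def, Option.some.injEq] at hx
      rw [← hx] at hxK
      exact huK hxK
    · have hpb : p ∈ A' ++ [p] ++ u :: B := by simp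
      have hpF : p ∈ F := (hFmem p).2 (List.mem_flatten.2 ⟨_, hb, hpb⟩)
      have hpQ : p ∉ (K.erase k).image z := by
        intro hpQ
        obtain ⟨k', hk', hne, hzk⟩ := (hQmem k p).1 hpQ
        obtain ⟨C, E, h1, h2⟩ := hz k' hk'
        rw [hzk] at h2
        have hbe : A' ++ [p] ++ u :: B = C ++ E :=
          h.eq_of_mem hb h1.1 hpb (List.mem_append_left _ (List.mem_of_getLast? h2))
        obtain ⟨e1, e2⟩ := cut_unique (h.block_nodup hb) rfl hbe (by simp) (by
          rw [List.getLast?_concat, h2])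
        rcases h1.2.2 with h3 | ⟨h3, -⟩
        · rw [← e2] at h3
          simp only [List.head?_cons, Option.some.injEq] at h3
          rw [h3] at huK
          exact huK hk'
        · rw [← e2] at h3
          simp at h3
      have hpy := hyadj p hpF hpQ
      have hyu := hyadj u huF huQ
      have e3 : A' ++ [p] ++ u :: B = A' ++ (p :: u :: B) := by simp
      rw [e3] at hb
      have hperm := List.perm_cons_erase hb
      obtain ⟨r1, r2⟩ := Sys.insert_vertex (h.perm hperm) (fun hh =>
        hyF (hperm.flatten.mem_iff.2 hh)) hpy.symm hyu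
      have r3 := r2.trans ((hperm.flatten.symm).cons y)
      refine hno _ r1 ?_ 1 le_rfl (by norm_num) ?_
      · intro x hx
        exact r3.mem_iff.2 (List.mem_cons_of_mem _ (hc x hx))
      · rw [r3.length_eq, List.length_cons]
  have hzK : ∀ k ∈ K, exc k → z k ∈ K := by
    intro k hk he
    by_contra hcon
    obtain ⟨k', hk', hne, hzk⟩ := (hQmem k _).1 (hout k hk he (z k) ((hFmem _).2 (hzF k hk)) hcon)
    exact hne (hzinj k' hk' k hk hzk)
  set S := K.filter exc with hS
  have hSK : ∀ k ∈ S, k ∈ K ∧ exc k := by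
    intro k hk
    rw [hS, Finset.mem_filter] at hk
    exact hk
  have hnS : ∀ k ∈ K, k ∉ S → ∃ p q, Reach G P (z k) 2 p ∧ Reach G P (z k) 2 q ∧ p ≠ q ∧
      ¬ G.Adj p q := by
    intro k hk hkS
    have : ¬ exc k := fun he => hkS (by rw [hS, Finset.mem_filter]; exact ⟨hk, he⟩)
    simp only [exc] at this
    push Not at this
    exact this
  -- a general way to put the pieces together
  have hglue : ∀ J : V → Finset V, (∀ k ∈ K, G.IsIndepSet (J k : Set V)) →
      (∀ k ∈ K, ∀ k' ∈ K, k ≠ k' → ∀ x ∈ J k, ∀ y ∈ J k', x ≠ y ∧ ¬ G.Adj x y) →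
      G.IsIndepSet ((K.biUnion J : Finset V) : Set V) ∧
        (K.biUnion J).card = ∑ k ∈ K, (J k).card := by
    intro J hJ1 hJ2
    constructor
    · intro x hx y hy hxy
      rw [Finset.mem_coe, Finset.mem_biUnion] at hx hy
      obtain ⟨k, hk, hx⟩ := hx
      obtain ⟨k', hk', hy⟩ := hy
      by_cases hkk : k = k'
      · subst hkk
        exact hJ1 k hk hx hy hxy
      · exact (hJ2 k hk k' hk' hkk x hx y hy).2
    · apply Finset.card_biUnion
      intro k hk k' hk' hkk
      rw [Function.onFun, Finset.disjoint_left]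
      intro x hx hx'
      exact (hJ2 k hk k' hk' hkk x hx x hx').1 rfl
  -- the pieces away from the special port
  have hbase : ∀ k : V, ∃ J : Finset V, k ∈ K → G.IsIndepSet (J : Set V) ∧
      (∀ x ∈ J, Reach G P (z k) 2 x) ∧ (k ∉ S → J.card = 2) ∧ (k ∈ S → J.card = 1) := by
    intro k
    by_cases hk : k ∈ K
    · by_cases hkS : k ∈ S
      · obtain ⟨-, ⟨y, hy, -⟩, -⟩ := hexc k hk (hSK k hkS).2
        refine ⟨{y}, fun _ => ⟨by simp, ?_, fun hh => absurd hkS hh, fun _ => by simp⟩⟩
        intro x hx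
        rw [Finset.mem_singleton] at hx
        rw [hx]
        exact hy
      · obtain ⟨p, q, hp, hq, hpq, hadj⟩ := hnS k hk hkS
        refine ⟨{p, q}, fun _ => ⟨?_, ?_, fun _ => Finset.card_pair hpq,
          fun hh => absurd hh hkS⟩⟩
        · intro x hx y hy hxy
          simp only [Finset.coe_insert, Finset.coe_singleton, Set.mem_insert_iff,
            Set.mem_singleton_iff] at hx hy
          rcases hx with rfl | rfl <;> rcases hy with rfl | rfl
          · exact absurd rfl hxy
          · exact hadj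
          · exact fun hh => hadj hh.symm
          · exact absurd rfl hxy
        · intro x hx
          rw [Finset.mem_insert, Finset.mem_singleton] at hx
          rcases hx with rfl | rfl
          · exact hp
          · exact hq
    · exact ⟨∅, fun hk' => absurd hk' hk⟩
  choose J hJ using hbase
  rcases S.eq_empty_or_nonempty with hSe | ⟨k₀, hk₀⟩
  · obtain ⟨g1, g2⟩ := hglue J (fun k hk => (hJ k hk).1) (by
      intro k hk k' hk' hkk x hx y hy
      exact hsep k hk k' hk' hkk x y ((hJ k hk).2.1 x hx) ((hJ k' hk').2.1 y hy))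
    refine ⟨_, g1, ?_⟩
    rw [g2, Finset.sum_congr rfl (fun k hk => (hJ k hk).2.2.1 (by rw [hSe]; simp)),
      Finset.sum_const, smul_eq_mul]
    omega
  · obtain ⟨hk₀K, hk₀e⟩ := hSK k₀ hk₀
    obtain ⟨hFm, -, ⟨x₀, hx₀, hx₀adj⟩⟩ := hexc k₀ hk₀K hk₀e
    have hzx : z k₀ ≠ x₀ := by
      intro he
      exact hx₀.prop (by rw [← he]; exact (hFmem _).2 (hzF k₀ hk₀K))
    obtain ⟨g1, g2⟩ := hglue (fun k => if k = k₀ then {z k₀, x₀} else J k) (by
      intro k hk
      by_cases hkk : k = k₀
      · simp only [hkk, if_true]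
        intro x hx y hy hxy
        simp only [Finset.coe_insert, Finset.coe_singleton, Set.mem_insert_iff,
          Set.mem_singleton_iff] at hx hy
        rcases hx with rfl | rfl <;> rcases hy with rfl | rfl
        · exact absurd rfl hxy
        · exact hx₀adj
        · exact fun hh => hx₀adj hh.symm
        · exact absurd rfl hxy
      · simp only [hkk, if_false]
        exact (hJ k hk).1) (by
      have hk0 : ∀ k ∈ K, k ≠ k₀ → ∀ x ∈ ({z k₀, x₀} : Finset V), ∀ y ∈ J k,
          x ≠ y ∧ ¬ G.Adj x y := by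
        intro k hk hkk x hx y hy
        have hyR := (hJ k hk).2.1 y hy
        rw [Finset.mem_insert, Finset.mem_singleton] at hx
        rcases hx with rfl | rfl
        · refine ⟨?_, fun hh => hto k hk k₀ hk₀K hkk y hyR hh.symm⟩
          intro he
          exact hyR.prop (by rw [← he]; exact (hFmem _).2 (hzF k₀ hk₀K))
        · exact hsep k₀ hk₀K k hk (Ne.symm hkk) _ y hx₀ hyR
      intro k hk k' hk' hkk x hx y hy
      by_cases h1 : k = k₀
      · have h2 : k' ≠ k₀ := fun hh => hkk (h1.trans hh.symm)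
        simp only [h1, if_true] at hx
        simp only [h2, if_false] at hy
        exact hk0 k' hk' h2 x hx y hy
      · simp only [h1, if_false] at hx
        by_cases h2 : k' = k₀
        · simp only [h2, if_true] at hy
          have := hk0 k hk h1 y hy x hx
          exact ⟨this.1.symm, fun hh => this.2 hh.symm⟩
        · simp only [h2, if_false] at hy
          exact hsep k hk k' hk' hkk x y ((hJ k hk).2.1 x hx) ((hJ k' hk').2.1 y hy))
    refine ⟨_, g1, ?_⟩
    rw [g2]
    -- the number of exceptional ports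
    have hKF : K ⊆ F := fun x hx => (hFmem x).2 (hc x hx)
    have hcount : (F \ K).card ≤ (K \ S).card := by
      have hsub : F \ K ⊆ (K \ S).image z := by
        intro u hu
        rw [Finset.mem_sdiff] at hu
        obtain ⟨k', hk', hne, hzk⟩ := (hQmem k₀ u).1 (hout k₀ hk₀K hk₀e u hu.1 hu.2)
        rw [Finset.mem_image]
        refine ⟨k', Finset.mem_sdiff.2 ⟨hk', ?_⟩, hzk⟩
        intro hk'S
        apply hu.2
        rw [← hzk]
        exact hzK k' hk' (hSK k' hk'S).2
      exact (Finset.card_le_card hsub).trans Finset.card_image_le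
    have hSsub : S ⊆ K := fun k hk => (hSK k hk).1
    have e1 : (F \ K).card + K.card = F.card := Finset.card_sdiff_add_card_eq_card hKF
    have e2 : (K \ S).card + S.card = K.card := Finset.card_sdiff_add_card_eq_card hSsub
    have e3 : ∑ k ∈ K, (if k = k₀ then ({z k₀, x₀} : Finset V) else J k).card =
        ∑ k ∈ K \ S, (if k = k₀ then ({z k₀, x₀} : Finset V) else J k).card +
        ∑ k ∈ S, (if k = k₀ then ({z k₀, x₀} : Finset V) else J k).card :=
      (Finset.sum_sdiff hSsub).symm
    have e4 : ∑ k ∈ K \ S, (if k = k₀ then ({z k₀, x₀} : Finset V) else J k).card =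
        (K \ S).card * 2 := by
      rw [Finset.sum_congr rfl (g := fun _ => 2), Finset.sum_const, smul_eq_mul]
      intro k hk
      rw [Finset.mem_sdiff] at hk
      have : k ≠ k₀ := fun hh => hk.2 (by rw [hh]; exact hk₀)
      rw [if_neg this]
      exact (hJ k hk.1).2.2.1 hk.2
    have e5 : ∑ k ∈ S, (if k = k₀ then ({z k₀, x₀} : Finset V) else J k).card =
        S.card + 1 := by
      rw [← Finset.add_sum_erase S _ hk₀, if_pos rfl, Finset.card_pair hzx,
        Finset.sum_congr rfl (g := fun _ => 1), Finset.sum_const, smul_eq_mul, mul_one,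
        Finset.card_erase_of_mem hk₀]
      · have := Finset.card_pos.2 ⟨k₀, hk₀⟩
        omega
      · intro k hk
        rw [Finset.mem_erase] at hk
        rw [if_neg hk.1]
        exact (hJ k (hSsub hk.2)).2.2.2 hk.2
    rw [e3, e4, e5]
    omega

end Vale.Agent.P048
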