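import Vale.Agent.P048.Certs

/-!
# P048: every small configuration gives an independent set with `m` vertices
-/

namespace Vale.Agent.P048

open Finset

variable {V : Type*}

theorem exists_cert {m r : ℕ} {pat : List Bool} (h : (m, r, pat) ∈ cfgs) :
    ∃ ports T, certb m r pat ports T = true := by
  simp only [cfgs, List.mem_cons, Prod.mk.injEq, List.not_mem_nil, or_false] at h
  rcases h with h | h | h | h | h | h | h | h | h | h | h | h | h <;>
    obtain ⟨rfl, rfl, rfl⟩ := h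
  · exact ⟨_, _, cert0⟩
  · exact ⟨_, _, cert1⟩
  · exact ⟨_, _, cert2⟩
  · exact ⟨_, _, cert3⟩
  · exact ⟨_, _, cert4⟩
  · exact ⟨_, _, cert5⟩
  · exact ⟨_, _, cert6⟩
  · exact ⟨_, _, cert7⟩
  · exact ⟨_, _, cert8⟩
  · exact ⟨_, _, cert9⟩
  · exact ⟨_, _, cert10⟩
  · exact ⟨_, _, cert11⟩
  · exact ⟨_, _, cert12⟩

theorem indep_of_cfg [Fintype V] [DecidableEq V] (G : SimpleGraph V) [DecidableRel G.Adj]
    {m : ℕ} (hm : 5 ≤ m) (hdeg : ∀ v, m - 1 ≤ G.degree v)
    (hfree : ∀ l, CycL G l → l.length ≠ m) (K : Finset V) (hK : G.IsClique (K : Set V))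
    (hmax : ∀ K' : Finset V, G.IsClique (K' : Set V) → K'.card ≤ K.card)
    {bl : List (List V)} (h : Sys G K bl) {pat : List Bool} (hpat : (m, K.card, pat) ∈ cfgs)
    (hp : PatOk K pat bl.flatten) :
    ∃ I : Finset V, G.IsIndepSet (I : Set V) ∧ m ≤ I.card := by
  obtain ⟨ports, T, hc⟩ := exists_cert hpat
  exact engine G hm hdeg hfree K hK hmax bl.flatten h.nodup (Sys.flatten_facts bl hK h).1 hp
    ports T hc

end Vale.Agent.P048
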