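import Vale.Agent.P048.SysDef

/-!
# P048: the small configurations

`tt` marks a vertex of `K`, `ff` another vertex.
-/

namespace Vale.Agent.P048

variable {V : Type*}

/-- `F` has a vertex of `K` wherever `pat` is `true`. -/
def PatOk (K : Finset V) (pat : List Bool) (F : List V) : Prop :=
  List.Forall₂ (fun b x => b = true → x ∈ K) pat F

/-- pattern of an ear block with `g` inner vertices -/
def earPat (g : ℕ) : List Bool := true :: (List.replicate g false ++ [true])

/-- pattern of a block with two ears with `g` and `g'` inner vertices -/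
def earPat2 (g g' : ℕ) : List Bool :=
  true :: (List.replicate g false ++ (true :: (List.replicate g' false ++ [true])))

/-- The configurations `(m, |K|, pattern)` with `9 ≤ m ≤ 16`. -/
def cfgs : List (ℕ × ℕ × List Bool) :=
  [(9, 5, earPat 3 ++ (earPat 3 ++ [true])),
   (10, 5, earPat 2 ++ earPat2 2 2),
   (10, 5, earPat 3 ++ (earPat 4 ++ [true])),
   (10, 5, earPat 4 ++ (earPat 4 ++ [true])),
   (10, 5, earPat2 4 4 ++ [true, true]),
   (11, 6, earPat 2 ++ (earPat 2 ++ earPat 2)),
   (11, 6, earPat 4 ++ (earPat 4 ++ [true, true])),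
   (12, 6, earPat 2 ++ (earPat 2 ++ earPat 3)),
   (12, 6, earPat 4 ++ (earPat 5 ++ [true, true])),
   (14, 7, earPat 2 ++ (earPat 2 ++ earPat2 2 2)),
   (14, 7, earPat 3 ++ (earPat 3 ++ (earPat 3 ++ [true]))),
   (15, 8, earPat 2 ++ (earPat 2 ++ (earPat 2 ++ earPat 2))),
   (16, 8, earPat 2 ++ (earPat 2 ++ (earPat 2 ++ earPat 3)))]

end Vale.Agent.P048
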