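import Vale.Agent.P048.Basic

/-!
# P048: no large cliques (step (B))
-/

namespace Vale.Agent.P048

variable {V : Type*}

/-- Cut a cycle `P Q R` before `Q` and before `R`, reverse `Q` and insert the path `W`
between `P` and the reversed `Q`. -/
theorem CycL.reroute {G : SimpleGraph V} {P W Q R : List V}
    (h : CycL G (P ++ (Q ++ R))) (hP : P ≠ []) (hQ : Q ≠ []) (hR : R ≠ [])
    (hW : W ≠ []) (hWn : W.Nodup) (hWd : ∀ x ∈ W, x ∉ P ++ (Q ++ R))
    (hWc : List.IsChain G.Adj W)
    (h1 : ∀ z ∈ P.getLast?, ∀ x ∈ W.head?, G.Adj z x)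
    (h2 : ∀ x ∈ W.getLast?, ∀ z ∈ Q.getLast?, G.Adj x z)
    (h3 : ∀ x ∈ Q.head?, ∀ y ∈ R.head?, G.Adj x y) :
    CycL G (P ++ (W ++ (Q.reverse ++ R))) := by
  obtain ⟨hn, hc, hl⟩ := h
  rw [List.isChain_append, List.isChain_append] at hc
  obtain ⟨cP, ⟨cQ, cR, cQR⟩, cPQ⟩ := hc
  refine ⟨?_, ?_, ?_⟩
  · have hperm : (P ++ (W ++ (Q.reverse ++ R))).Perm (W ++ (P ++ (Q ++ R))) := by
      refine List.Perm.trans ?_ (List.perm_append_comm_assoc P W (Q ++ R))
      refine List.Perm.append_left P (List.Perm.append_left W ?_)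
      exact List.Perm.append_right R (List.reverse_perm Q)
    rw [hperm.nodup_iff, List.nodup_append]
    refine ⟨hWn, hn, ?_⟩
    intro a ha b hb hab
    exact hWd a ha (hab ▸ hb)
  · rw [List.isChain_append, List.isChain_append, List.isChain_append]
    refine ⟨cP, ⟨hWc, ⟨?_, cR, ?_⟩, ?_⟩, ?_⟩
    · rw [List.isChain_reverse]
      exact cQ.imp (fun a b hab => hab.symm)
    · intro x hx y hy
      rw [List.getLast?_reverse] at hx
      exact h3 x hx y hy
    · intro x hx y hy
      rw [List.head?_append_of_ne_nil _ (by simpa using hQ), List.head?_reverse] at hy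
      exact h2 x hx y hy
    · intro x hx y hy
      rw [List.head?_append_of_ne_nil _ hW] at hy
      exact h1 x hx y hy
  · intro x hx y hy
    have e1 : (P ++ (W ++ (Q.reverse ++ R))).getLast? = (P ++ (Q ++ R)).getLast? := by
      simp [List.getLast?_append, List.getLast?_eq_some_getLast hR]
    have e2 : (P ++ (W ++ (Q.reverse ++ R))).head? = (P ++ (Q ++ R)).head? := by
      rw [List.head?_append_of_ne_nil _ hP, List.head?_append_of_ne_nil _ hP]
    rw [e1] at hx
    rw [e2] at hy
    exact hl x hx y hy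

/-- Dropping the last vertex of a cycle. -/
theorem CycL.dropLast {G : SimpleGraph V} {M : List V} {u v w : V}
    (h : CycL G (w :: (M ++ [u, v]))) (huw : G.Adj u w) :
    CycL G (w :: (M ++ [u])) := by
  obtain ⟨hn, hc, hl⟩ := h
  have e : w :: (M ++ [u, v]) = (w :: (M ++ [u])) ++ [v] := by simp
  rw [e] at hn hc
  refine ⟨(List.nodup_append.1 hn).1, (List.isChain_append.1 hc).1, ?_⟩
  intro x hx y hy
  have : x = u := by
    simp [List.getLast?_cons, List.getLast?_append] at hx
    exact hx.symm
  have h2 : y = w := by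
    simp at hy
    exact hy.symm
  rw [this, h2]
  exact huw

/-- A clique, listed in any order, is a path. -/
theorem isChain_of_clique {G : SimpleGraph V} {K : Set V} (hK : G.IsClique K) (l : List V)
    (hn : l.Nodup) (hl : ∀ x ∈ l, x ∈ K) : List.IsChain G.Adj l := by
  have : l.Pairwise G.Adj := by
    rw [List.nodup_iff_pairwise_ne] at hn
    refine hn.imp_of_mem ?_
    intro a b ha hb hab
    exact hK (hl a ha) (hl b hb) hab
  exact this.isChain

/-- The cycles considered in the maximality argument: they contain the clique `K`, and the last two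
vertices together with the first one form a triple of vertices of `K`. -/
structure GoodCyc (G : SimpleGraph V) (K : Finset V) (l : List V) : Prop where
  cyc : CycL G l
  sub : ∀ x ∈ K, x ∈ l
  ends : ∃ w M u v, l = w :: (M ++ [u, v]) ∧ w ∈ K ∧ u ∈ K ∧ v ∈ K

/-- Rerouting keeps the cycle good. -/
theorem GoodCyc.reroute {G : SimpleGraph V} {K : Finset V} {P W Q R : List V} {k k' : V}
    (hK : G.IsClique (K : Set V))
    (h : GoodCyc G K (P ++ (k :: Q ++ k' :: R))) (hP : P ≠ []) (hk : k ∈ K) (hk' : k' ∈ K)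
    (hW : W ≠ []) (hWn : W.Nodup) (hWd : ∀ x ∈ W, x ∉ P ++ (k :: Q ++ k' :: R))
    (hWc : List.IsChain G.Adj W)
    (h1 : ∀ z ∈ P.getLast?, ∀ x ∈ W.head?, G.Adj z x)
    (h2 : ∀ x ∈ W.getLast?, ∀ z ∈ (k :: Q).getLast?, G.Adj x z) :
    GoodCyc G K (P ++ (W ++ ((k :: Q).reverse ++ k' :: R))) := by
  have hkk' : k ≠ k' := by
    rintro rfl
    have := h.cyc.1
    simp [List.nodup_append] at this
  refine ⟨?_, ?_, ?_⟩
  · refine CycL.reroute h.cyc hP (by simp) (by simp) hW hWn hWd hWc h1 h2 ?_
    intro x hx y hy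
    simp at hx hy
    subst hx hy
    exact hK hk hk' hkk'
  · intro x hx
    have := h.sub x hx
    simp only [List.mem_append, List.mem_cons, List.mem_reverse] at this ⊢
    tauto
  · obtain ⟨w, M, u, v, he, hw, hu, hv⟩ := h.ends
    obtain ⟨w', P', rfl⟩ := List.exists_cons_of_ne_nil hP
    have hww : w' = w := by
      simpa using congrArg List.head? he
    subst hww
    by_cases hR : R = []
    · subst hR
      refine ⟨w', P' ++ (W ++ Q.reverse), k, k', ?_, hw, hk, hk'⟩
      simp
    · obtain ⟨R', hR'⟩ : ∃ R', k' :: R = R' ++ [u, v] := by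
        have he' : (w' :: P' ++ k :: Q) ++ k' :: R = (w' :: M) ++ [u, v] := by
          simpa using he
        rcases List.append_eq_append_iff.1 he' with ⟨as, h1, h2⟩ | ⟨bs, h1, h2⟩
        · exact ⟨as, h2⟩
        · have hlen := congrArg List.length h2
          have hRl : 0 < R.length := List.length_pos_iff.2 hR
          simp at hlen
          have hbs : bs = [] := by
            apply List.eq_nil_of_length_eq_zero
            omega
          subst hbs
          exact ⟨[], by simpa using h2.symm⟩
      refine ⟨w', P' ++ (W ++ ((k :: Q).reverse ++ R')), u, v, ?_, hw, hu, hv⟩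
      rw [hR']
      simp

/-- One step of the maximality argument. -/
theorem GoodCyc.pair_step {G : SimpleGraph V} {K : Finset V} {m : ℕ} {l : List V}
    (hK : G.IsClique (K : Set V)) (hfree : ∀ l, CycL G l → l.length ≠ m)
    (h : GoodCyc G K l) (hlm : l.length + 1 ≤ m)
    (hmax : ∀ l', GoodCyc G K l' → l'.length + 1 ≤ m → l'.length ≤ l.length)
    {P₁ R₁ P₂ R₂ : List V} {k k' x x' : V} (hk : k ∈ K) (hk' : k' ∈ K)
    (e₁ : l = P₁ ++ k :: R₁) (e₂ : l = P₂ ++ k' :: R₂) (hlt : P₁.length < P₂.length)
    (hP₁ : P₁ ≠ []) (hx : x ∉ l) (hx' : x' ∉ l)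
    (h1 : ∀ z ∈ P₁.getLast?, G.Adj z x) (h2 : ∀ z ∈ P₂.getLast?, G.Adj z x') :
    x ≠ x' ∧ ¬ G.Adj x x' := by
  obtain ⟨Q, rfl, rfl⟩ : ∃ Q, P₂ = P₁ ++ k :: Q ∧ R₁ = Q ++ k' :: R₂ := by
    rcases List.append_eq_append_iff.1 (e₁.symm.trans e₂) with ⟨as, h1, h2⟩ | ⟨bs, h1, h2⟩
    · cases as with
      | nil => simp [h1] at hlt
      | cons b as =>
        simp at h2
        obtain ⟨rfl, h2⟩ := h2
        exact ⟨as, h1, h2⟩
    · have := congrArg List.length h1
      simp at this
      omega
  have e : l = P₁ ++ (k :: Q ++ k' :: R₂) := by simpa using e₁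
  have key : ∀ W : List V, W ≠ [] → W.Nodup → (∀ y ∈ W, y ∉ l) → List.IsChain G.Adj W →
      W.head? = some x → W.getLast? = some x' → W.length ≤ 2 → False := by
    intro W hW hWn hWd hWc hh hl hWl
    have hg : GoodCyc G K (P₁ ++ (W ++ ((k :: Q).reverse ++ k' :: R₂))) := by
      refine GoodCyc.reroute hK (e ▸ h) hP₁ hk hk' hW hWn (e ▸ hWd) hWc ?_ ?_
      · intro z hz y hy
        rw [hh] at hy
        simp at hy
        subst hy
        exact h1 z hz
      · intro y hy z hz
        rw [hl] at hy
        simp at hy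
        subst hy
        refine (h2 z ?_).symm
        rw [List.getLast?_append_of_ne_nil _ (by simp)]
        exact hz
    have hlen : (P₁ ++ (W ++ ((k :: Q).reverse ++ k' :: R₂))).length = l.length + W.length := by
      rw [e]
      simp
      omega
    have hWp : 0 < W.length := List.length_pos_iff.2 hW
    by_cases c1 : l.length + W.length + 1 ≤ m
    · have := hmax _ hg (by omega)
      omega
    · by_cases c2 : l.length + W.length = m
      · exact hfree _ hg.cyc (by omega)
      · have c3 : l.length + W.length = m + 1 := by omega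
        obtain ⟨w, M, u, v, he, hw, hu, hv⟩ := hg.ends
        have hc := hg.cyc
        rw [he] at hc
        rw [he] at hlen
        have huw : u ≠ w := by
          rintro rfl
          have := hc.1
          simp at this
        refine hfree _ (hc.dropLast (hK hu hw huw)) ?_
        simp at hlen ⊢
        omega
  refine ⟨?_, ?_⟩
  · rintro rfl
    refine key [x] (by simp) (by simp) ?_ (by simp) (by simp) (by simp) (by simp)
    simpa using hx
  · intro hadj
    refine key [x, x'] (by simp) ?_ ?_ (by simpa using hadj) (by simp) (by simp) (by simp)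
    · simpa using hadj.ne
    · simp [hx, hx']

theorem no_clique_aux [Fintype V] [DecidableEq V] (G : SimpleGraph V)
    [DecidableRel G.Adj] (m a : ℕ) (hm : a + 3 ≤ m) (hfree : ∀ l, CycL G l → l.length ≠ m)
    (hdeg : ∀ v, m - 1 ≤ G.degree v)
    (hα : ∀ I : Finset V, G.IsIndepSet (I : Set V) → I.card ≤ a)
    (K : Finset V) (hK : G.IsClique (K : Set V)) (hcard : K.card = a + 2) : False := by
  classical
  have ha : 1 ≤ a := by
    obtain ⟨x, hx⟩ : K.Nonempty := Finset.card_pos.1 (by omega)
    have := hα {x} (by simp [SimpleGraph.IsIndepSet])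
    simpa using this
  -- a first good cycle
  have h0 : GoodCyc G K K.toList := by
    have hch : List.IsChain G.Adj K.toList :=
      isChain_of_clique hK _ K.nodup_toList (by simp)
    have hlen : K.toList.length = a + 2 := by simp [hcard]
    obtain ⟨w, L, hL⟩ : ∃ w L, K.toList = w :: L := by
      cases hKl : K.toList with
      | nil => rw [hKl] at hlen; simp at hlen
      | cons w L => exact ⟨w, L, rfl⟩
    obtain ⟨M, u, v, hM⟩ : ∃ M u v, L = M ++ [u, v] := by
      have hLl : L.length = a + 1 := by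
        rw [hL] at hlen
        simpa using hlen
      rcases List.eq_nil_or_concat L with h | ⟨L1, v, h⟩
      · rw [h] at hLl; simp at hLl
      · rcases List.eq_nil_or_concat L1 with h' | ⟨L2, u, h'⟩
        · rw [h, h'] at hLl
          simp at hLl
          omega
        · exact ⟨L2, u, v, by rw [h, h']; simp⟩
    have e : K.toList = w :: (M ++ [u, v]) := by rw [hL, hM]
    have mem : ∀ x, x ∈ K ↔ x ∈ w :: (M ++ [u, v]) := by
      intro x
      rw [← e]
      simp
    have hw : w ∈ K := by rw [mem]; simp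
    have hu : u ∈ K := by rw [mem]; simp
    have hv : v ∈ K := by rw [mem]; simp
    refine ⟨⟨K.nodup_toList, hch, ?_⟩, by simp, ⟨w, M, u, v, e, hw, hu, hv⟩⟩
    intro x hx y hy
    rw [e] at hx hy
    have hn := K.nodup_toList
    rw [e] at hn
    have hxv : x = v := by
      simp [List.getLast?_cons, List.getLast?_append] at hx
      exact hx.symm
    have hyw : y = w := by
      simp at hy
      exact hy.symm
    have hvw : v ≠ w := by
      rintro rfl
      simp at hn
    rw [hxv, hyw]
    exact hK hv hw hvw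
  -- the longest good cycle
  obtain ⟨l, h, hlm, hmax⟩ : ∃ l, GoodCyc G K l ∧ l.length + 1 ≤ m ∧
      ∀ l', GoodCyc G K l' → l'.length + 1 ≤ m → l'.length ≤ l.length := by
    let p : ℕ → Prop := fun n => ∃ l, GoodCyc G K l ∧ l.length + 1 ≤ m ∧ l.length = n
    have hp : p (a + 2) := ⟨K.toList, h0, by simp [hcard]; omega, by simp [hcard]⟩
    have hle : a + 2 ≤ m := by omega
    obtain ⟨l, hl1, hl2, hl3⟩ := Nat.findGreatest_spec (P := p) hle hp
    refine ⟨l, hl1, hl2, ?_⟩
    intro l' hl' hl'm
    rw [hl3]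
    exact Nat.le_findGreatest (by omega) ⟨l', hl', hl'm, rfl⟩
  obtain ⟨w, M, u, v, he, hw, hu, hv⟩ := h.ends
  -- private neighbours
  have hX : ∀ k : V, ∃ x : V, k ∈ K.erase w → (x ∉ l ∧ ∃ P R, P ≠ [] ∧ l = P ++ k :: R ∧
      ∀ z ∈ P.getLast?, G.Adj z x) := by
    intro k
    by_cases hk : k ∈ K.erase w
    swap
    · exact ⟨k, fun h => absurd h hk⟩
    have hk' := Finset.mem_erase.1 hk
    obtain ⟨P, R, hPR⟩ := List.append_of_mem (h.sub k hk'.2)
    have hP : P ≠ [] := by
      rintro rfl
      rw [he] at hPR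
      simp at hPR
      exact hk'.1 hPR.1.symm
    obtain ⟨z, hz⟩ : ∃ z, P.getLast? = some z := ⟨P.getLast hP, List.getLast?_eq_some_getLast hP⟩
    have hzl : z ∈ l := by
      rw [hPR]
      exact List.mem_append_left _ (List.mem_of_getLast? hz)
    have : ∃ x, x ∈ G.neighborFinset z ∧ x ∉ l.toFinset.erase z := by
      by_contra hcon
      push Not at hcon
      have hsub : G.neighborFinset z ⊆ l.toFinset.erase z := fun x hx => hcon x hx
      have hc := Finset.card_le_card hsub
      rw [Finset.card_erase_of_mem (by simpa using hzl), G.card_neighborFinset_eq_degree,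
        List.toFinset_card_of_nodup h.cyc.1] at hc
      have := hdeg z
      have hpos : 0 < l.length := List.length_pos_of_mem hzl
      omega
    obtain ⟨x, hx1, hx2⟩ := this
    rw [G.mem_neighborFinset] at hx1
    refine ⟨x, fun _ => ⟨?_, P, R, hP, hPR, ?_⟩⟩
    · intro hxl
      apply hx2
      rw [Finset.mem_erase]
      exact ⟨hx1.ne', by simpa using hxl⟩
    · intro z' hz'
      rw [hz] at hz'
      simp at hz'
      subst hz'
      exact hx1
  choose X hX using hX
  have hpair : ∀ k ∈ K.erase w, ∀ k' ∈ K.erase w, k ≠ k' → X k ≠ X k' ∧ ¬ G.Adj (X k) (X k') := by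
    intro k hk k' hk' hkk'
    obtain ⟨hx, P, R, hP, hPR, hz⟩ := hX k hk
    obtain ⟨hx', P', R', hP', hPR', hz'⟩ := hX k' hk'
    rcases lt_trichotomy P.length P'.length with hlt | heq | hgt
    · exact GoodCyc.pair_step hK hfree h hlm hmax (Finset.mem_erase.1 hk).2
        (Finset.mem_erase.1 hk').2 hPR hPR' hlt hP hx hx' hz hz'
    · exfalso
      have := (List.append_inj (hPR.symm.trans hPR') heq).2
      simp at this
      exact hkk' this.1
    · have := GoodCyc.pair_step hK hfree h hlm hmax (Finset.mem_erase.1 hk').2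
        (Finset.mem_erase.1 hk).2 hPR' hPR hgt hP' hx' hx hz' hz
      exact ⟨this.1.symm, fun hadj => this.2 hadj.symm⟩
  have hind : G.IsIndepSet ((K.erase w).image X : Set V) := by
    intro x hx y hy hxy
    simp only [Finset.coe_image, Set.mem_image] at hx hy
    obtain ⟨k, hk, rfl⟩ := hx
    obtain ⟨k', hk', rfl⟩ := hy
    exact (hpair k hk k' hk' (fun h => hxy (by rw [h]))).2
  have hcardX : ((K.erase w).image X).card = a + 1 := by
    rw [Finset.card_image_of_injOn, Finset.card_erase_of_mem hw, hcard]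
    · rfl
    · intro k hk k' hk' hkk'
      by_contra hne
      exact (hpair k hk k' hk' hne).1 hkk'
  have := hα _ hind
  omega

theorem clique_card_le [Fintype V] [DecidableEq V] (G : SimpleGraph V)
    [DecidableRel G.Adj] (m a : ℕ) (hm : a + 3 ≤ m) (hfree : ∀ l, CycL G l → l.length ≠ m)
    (hdeg : ∀ v, m - 1 ≤ G.degree v)
    (hα : ∀ I : Finset V, G.IsIndepSet (I : Set V) → I.card ≤ a)
    (K : Finset V) (hK : G.IsClique (K : Set V)) : K.card ≤ a + 1 := by
  by_contra hcon
  obtain ⟨K', hK', hc⟩ := Finset.exists_subset_card_eq (s := K) (n := a + 2) (by omega)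
  exact no_clique_aux G m a hm hfree hdeg hα K' (hK.subset (by exact_mod_cast hK')) hc

end Vale.Agent.P048
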