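import Vale.Agent.P048.Basic

/-!
# P048: two-coloured cycles with a chord

A cycle of length `c` all of whose independent sets have fewer than `⌊c/2⌋` vertices, with its
vertices coloured by two colours (both occurring), contains paths of every length whose ends have
different colours.
-/

namespace Vale.Agent.P048

variable {V : Type*}

/-- The arithmetic part of the argument. -/
theorem period_contra (χ : ℤ → Prop) (c ell r s : ℤ)
    (h1 : ∀ i, χ i ↔ χ (i + ell)) (hc : ∀ i, χ i ↔ χ (i + c))
    (hnc : ∃ i j, χ i ∧ ¬ χ j) (hell : 1 ≤ ell) (hellc : ell ≤ c - 1)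
    (hr : 2 ≤ r) (hrc : r ≤ c - 2) (hre : ∃ q, r = 2 * q)
    (hA : ∀ j, 0 ≤ j → j ≤ ell - 1 → r + ell ≤ c → (χ (s - j) ↔ χ (s + r + (ell - 1 - j))))
    (hA' : ∀ j, 0 ≤ j → j ≤ ell - 1 → (c - r) + ell ≤ c →
      (χ (s + r - j) ↔ χ (s + c + (ell - 1 - j))))
    (hB : ∀ j, 0 ≤ j → j ≤ ell - 1 → j < c - r → ell - 1 - j < r →
      (χ (s - j) ↔ χ (s + r - (ell - 1 - j))))
    (hC : ∀ j, 0 ≤ j → j ≤ ell - 1 → j < r → ell - 1 - j < c - r →
      (χ (s + j) ↔ χ (s + r + (ell - 1 - j)))) : False := by
  classical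
  -- minimal positive period
  have hex : ∃ d : ℕ, 0 < d ∧ ∀ i : ℤ, χ i ↔ χ (i + d) := by
    refine ⟨ell.toNat, by omega, fun i => ?_⟩
    have : ((ell.toNat : ℕ) : ℤ) = ell := Int.toNat_of_nonneg (by omega)
    rw [this]
    exact h1 i
  obtain ⟨d, ⟨hd0, hd⟩, hmin⟩ :
      ∃ d : ℕ, (0 < d ∧ ∀ i : ℤ, χ i ↔ χ (i + d)) ∧
        ∀ e : ℕ, e < d → ¬ (0 < e ∧ ∀ i : ℤ, χ i ↔ χ (i + e)) :=
    ⟨Nat.find hex, Nat.find_spec hex, fun e he => Nat.find_min hex he⟩
  -- multiples of the period
  have hmul : ∀ (k : ℕ) (i : ℤ), χ i ↔ χ (i + k * d) := by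
    intro k
    induction k with
    | zero => intro i; simp
    | succ k ih =>
      intro i
      rw [ih i, hd (i + k * d)]
      have : i + (k : ℤ) * d + d = i + ((k + 1 : ℕ) : ℤ) * d := by push_cast; ring
      rw [this]
  have hmulz : ∀ (k i : ℤ), χ i ↔ χ (i + k * d) := by
    intro k i
    rcases le_total 0 k with hk | hk
    · have := hmul k.toNat i
      rwa [Int.toNat_of_nonneg hk] at this
    · have := hmul (-k).toNat (i + k * d)
      rw [Int.toNat_of_nonneg (by omega)] at this
      have h2 : i + k * d + -k * d = i := by ring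
      rw [h2] at this
      exact this.symm
  have hdvd : ∀ t : ℤ, (∀ i, χ i ↔ χ (i + t)) → (d : ℤ) ∣ t := by
    intro t ht
    by_contra hnd
    have hd0' : (0 : ℤ) < d := by exact_mod_cast hd0
    have hmod0 : 0 ≤ t % d := Int.emod_nonneg _ (by omega)
    have hmodlt : t % d < d := Int.emod_lt_of_pos _ hd0'
    have hmodne : t % d ≠ 0 := fun h => hnd (Int.dvd_of_emod_eq_zero h)
    refine hmin (t % d).toNat (by omega) ⟨by omega, fun i => ?_⟩
    rw [Int.toNat_of_nonneg hmod0]
    have h3 : t % d = t + (-(t / d)) * d := by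
      have := Int.emod_add_mul_ediv t d
      linarith [mul_comm (d : ℤ) (t / d)]
    rw [h3, ht i, hmulz (-(t / d)) (i + t)]
    rw [add_assoc]
  have hcongr : ∀ a b : ℤ, (d : ℤ) ∣ a - b → (χ a ↔ χ b) := by
    rintro a b ⟨k, hk⟩
    have := hmulz k b
    rw [this]
    have h4 : b + k * d = a := by linarith [mul_comm k (d : ℤ)]
    rw [h4]
  have hd2 : 2 ≤ d := by
    by_contra hlt
    have hd1 : d = 1 := by omega
    obtain ⟨i, j, hi, hj⟩ := hnc
    exact hj ((hcongr i j (by rw [hd1]; simp)).1 hi)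
  have hdell : (d : ℤ) ∣ ell := hdvd ell h1
  have hdc : (d : ℤ) ∣ c := hdvd c hc
  have hd_le_ell : (d : ℤ) ≤ ell := Int.le_of_dvd (by omega) hdell
  have hell_le : (d : ℤ) ≤ c - ell := Int.le_of_dvd (by omega) (dvd_sub hdc hdell)
  have hd2' : (2 : ℤ) ≤ d := by exact_mod_cast hd2
  -- representation of residues
  have hres : ∀ (a m : ℤ), ∃ j, a ≤ j ∧ j < a + d ∧ (d : ℤ) ∣ j - m := by
    intro a m
    refine ⟨a + (m - a) % d, ?_, ?_, ?_⟩
    · have := Int.emod_nonneg (m - a) (b := (d : ℤ)) (by omega)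
      omega
    · have := Int.emod_lt_of_pos (m - a) (b := (d : ℤ)) (by omega)
      omega
    · have := Int.emod_add_mul_ediv (m - a) (d : ℤ)
      refine ⟨-((m - a) / d), ?_⟩
      linarith
  rcases lt_or_ge r (d : ℤ) with hrd | hrd
  · -- `r < d`
    have hper : ∀ i, χ i ↔ χ (i + (r - 1)) := by
      intro i
      obtain ⟨j, hj0, hj1, hj2⟩ := hres 0 (s - i)
      have h5 := hA j hj0 (by omega) (by omega)
      rw [hcongr i (s - j) (by
        obtain ⟨k, hk⟩ := hj2; exact ⟨k, by linarith⟩), h5]
      refine hcongr _ _ ?_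
      obtain ⟨k, hk⟩ := hj2
      obtain ⟨k', hk'⟩ := hdell
      exact ⟨k' - k, by rw [mul_sub]; linarith⟩
    have h6 := Int.le_of_dvd (by omega) (hdvd _ hper)
    omega
  rcases lt_or_ge (c - r) (d : ℤ) with hrd' | hrd'
  · have hper : ∀ i, χ i ↔ χ (i + (c - r - 1)) := by
      intro i
      obtain ⟨j, hj0, hj1, hj2⟩ := hres 0 (s + r - i)
      have h5 := hA' j hj0 (by omega) (by omega)
      rw [hcongr i (s + r - j) (by
        obtain ⟨k, hk⟩ := hj2; exact ⟨k, by linarith⟩), h5]
      refine hcongr _ _ ?_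
      obtain ⟨k, hk⟩ := hj2
      obtain ⟨k', hk'⟩ := hdell
      exact ⟨k' - k, by rw [mul_sub]; linarith⟩
    have h6 := Int.le_of_dvd (by omega) (hdvd _ hper)
    omega
  · -- main case
    have hB' : ∀ m, χ (s - m) ↔ χ (s + r + 1 + m) := by
      intro m
      obtain ⟨j, hj0, hj1, hj2⟩ := hres (max 0 (ell - r)) m
      have hj3 : 0 ≤ j := le_trans (le_max_left _ _) hj0
      have hj4 : ell - r ≤ j := le_trans (le_max_right _ _) hj0
      have hj5 : j < ell ∧ j < c - r := by
        rcases max_cases 0 (ell - r) with ⟨h, _⟩ | ⟨h, _⟩ <;> rw [h] at hj1 <;> omega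
      have h5 := hB j hj3 (by omega) (by omega) (by omega)
      rw [hcongr (s - m) (s - j) (by obtain ⟨k, hk⟩ := hj2; exact ⟨k, by linarith⟩), h5]
      refine hcongr _ _ ?_
      obtain ⟨k, hk⟩ := hj2
      obtain ⟨k', hk'⟩ := hdell
      exact ⟨k - k', by rw [mul_sub]; linarith⟩
    have hC' : ∀ m, χ (s + m) ↔ χ (s + r - 1 - m) := by
      intro m
      obtain ⟨j, hj0, hj1, hj2⟩ := hres (max 0 (ell - c + r)) m
      have hj3 : 0 ≤ j := le_trans (le_max_left _ _) hj0
      have hj4 : ell - c + r ≤ j := le_trans (le_max_right _ _) hj0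
      have hj5 : j < ell ∧ j < r := by
        rcases max_cases 0 (ell - c + r) with ⟨h, _⟩ | ⟨h, _⟩ <;> rw [h] at hj1 <;> omega
      have h5 := hC j hj3 (by omega) (by omega) (by omega)
      rw [hcongr (s + m) (s + j) (by obtain ⟨k, hk⟩ := hj2; exact ⟨-k, by rw [mul_neg]; linarith⟩),
        h5]
      refine hcongr _ _ ?_
      obtain ⟨k, hk⟩ := hj2
      obtain ⟨k', hk'⟩ := hdell
      exact ⟨k' - k, by rw [mul_sub]; linarith⟩
    have h2 : ∀ i, χ i ↔ χ (i + 2) := by
      intro i
      -- χ (s + r - 1 - m) ↔ χ (s + m) ↔ χ (s + r + 1 - m)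
      have e1 := hC' (s + r - 1 - i)
      have e2 := hB' (-(s + r - 1 - i))
      have e3 : s + r - 1 - (s + r - 1 - i) = i := by ring
      have e4 : s + r + 1 + -(s + r - 1 - i) = i + 2 := by ring
      have e5 : s - -(s + r - 1 - i) = s + (s + r - 1 - i) := by ring
      rw [e3] at e1
      rw [e4, e5] at e2
      rw [← e1, e2]
    have hd2eq : d = 2 := by
      have := Int.le_of_dvd (by omega) (hdvd 2 h2)
      omega
    have h0 := hC' 0
    have hper : ∀ i, χ i ↔ χ (i + (r - 1)) := by
      intro i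
      -- parity argument
      obtain ⟨q, hq⟩ := hre
      have hs : χ (s) ↔ χ (s + 1) := by
        have e1 : s + 0 = s := by ring
        rw [e1] at h0
        rw [h0]
        refine hcongr _ _ ?_
        rw [hd2eq]
        exact ⟨q - 1, by push_cast; rw [hq]; ring⟩
      rcases Int.even_or_odd' (i - s) with ⟨t, ht | ht⟩
      · rw [hcongr i s (by rw [hd2eq]; exact ⟨t, by push_cast; linarith⟩), hs]
        refine hcongr _ _ ?_
        rw [hd2eq]
        exact ⟨1 - t - q, by push_cast; rw [hq]; linarith⟩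
      · rw [hcongr i (s + 1) (by rw [hd2eq]; exact ⟨t, by push_cast; linarith⟩), ← hs]
        refine hcongr _ _ ?_
        rw [hd2eq]
        exact ⟨- t - q, by push_cast; rw [hq]; linarith⟩
    obtain ⟨q, hq⟩ := hre
    obtain ⟨k, hk⟩ := hdvd _ hper
    rw [hd2eq] at hk
    push_cast at hk
    omega

/-- The cyclic enumeration of a cycle by the integers. -/
theorem exists_cyc (G : SimpleGraph V) (l : List V) (hl : CycL G l) (hlen : 0 < l.length) :
    ∃ f : ℤ → V, (∀ i, f i ∈ l) ∧ (∀ x ∈ l, ∃ i, f i = x) ∧ (∀ i, G.Adj (f i) (f (i + 1))) ∧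
      (∀ i j, f i = f j ↔ (l.length : ℤ) ∣ i - j) := by
  obtain ⟨hnd, hch, hlast⟩ := hl
  have hc0 : (0 : ℤ) < l.length := by exact_mod_cast hlen
  have hlt : ∀ i : ℤ, (i % l.length).toNat < l.length := by
    intro i
    have h1 := Int.emod_nonneg i (b := (l.length : ℤ)) (by omega)
    have h2 := Int.emod_lt_of_pos i hc0
    omega
  refine ⟨fun i => l[(i % l.length).toNat]'(hlt i), fun i => List.getElem_mem _, ?_, ?_, ?_⟩
  · intro x hx
    obtain ⟨n, hn, rfl⟩ := List.getElem_of_mem hx
    refine ⟨(n : ℤ), ?_⟩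
    have : ((n : ℤ) % l.length).toNat = n := by
      rw [Int.emod_eq_of_lt (by omega) (by omega)]
      omega
    simp only [this]
  · intro i
    have h1 := Int.emod_nonneg i (b := (l.length : ℤ)) (by omega)
    have h2 := Int.emod_lt_of_pos i hc0
    rcases lt_or_ge (i % l.length + 1) (l.length : ℤ) with h | h
    · have e : ((i + 1) % l.length).toNat = (i % l.length).toNat + 1 := by
        have : (i + 1) % (l.length : ℤ) = i % l.length + 1 := by
          rw [Int.add_emod, Int.emod_eq_of_lt (a := 1) (by omega) (by omega),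
            Int.emod_eq_of_lt (by omega) h]
        rw [this]; omega
      simp only [e]
      exact List.isChain_iff_getElem.1 hch _ (by omega)
    · have e1 : (i % l.length).toNat = l.length - 1 := by omega
      have e2 : ((i + 1) % l.length).toNat = 0 := by
        have : (i + 1) % (l.length : ℤ) = 0 := by
          have h3 := Int.emod_add_mul_ediv i (l.length : ℤ)
          have h4 : i + 1 = (l.length : ℤ) * (i / l.length + 1) := by
            rw [mul_add]; omega
          rw [h4]
          simp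
        rw [this]; rfl
      simp only [e1, e2]
      refine hlast _ ?_ _ ?_
      · rw [List.getLast?_eq_getElem?]
        simp
      · rw [List.head?_eq_getElem?]
        simp
  · intro i j
    have h1 := Int.emod_nonneg i (b := (l.length : ℤ)) (by omega)
    have h1' := Int.emod_nonneg j (b := (l.length : ℤ)) (by omega)
    rw [hnd.getElem_inj_iff]
    constructor
    · intro h
      have : i % (l.length : ℤ) = j % l.length := by omega
      exact (Int.emod_eq_emod_iff_emod_sub_eq_zero.1 this) |> Int.dvd_of_emod_eq_zero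
    · intro h
      have : i % (l.length : ℤ) = j % l.length :=
        Int.emod_eq_emod_iff_emod_sub_eq_zero.2 (Int.emod_eq_zero_of_dvd h)
      rw [this]

/-- The list of vertices `F 0, …, F n`. -/
theorem path_of_fun (G : SimpleGraph V) (F : ℕ → V) (n : ℕ)
    (hadj : ∀ k < n, G.Adj (F k) (F (k + 1)))
    (hinj : ∀ k k', k < k' → k' ≤ n → F k ≠ F k') :
    PathL G ((List.range (n + 1)).map F) ∧ ((List.range (n + 1)).map F).length = n + 1 ∧
      ((List.range (n + 1)).map F).head? = some (F 0) ∧
      ((List.range (n + 1)).map F).getLast? = some (F n) := by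
  refine ⟨⟨?_, ?_⟩, by simp, by rw [List.head?_eq_getElem?]; simp, ?_⟩
  · refine List.Nodup.map_on ?_ List.nodup_range
    intro x hx y hy hxy
    rw [List.mem_range] at hx hy
    rcases lt_trichotomy x y with h | h | h
    · exact absurd hxy (hinj x y h (by omega))
    · exact h
    · exact absurd hxy.symm (hinj y x h (by omega))
  · rw [List.isChain_map, List.isChain_range]
    intro m hm
    exact hadj m (by omega)
  · rw [List.getLast?_eq_getElem?]
    simp

/-- A cycle (given by its list of vertices) all of whose independent sets have fewer than `⌊c/2⌋`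
vertices (`c` its length) and which meets both `A` and its complement contains a path on `p`
vertices from `A` to the complement of `A`, for every `2 ≤ p ≤ c`. -/
theorem exists_colored_path (G : SimpleGraph V) (l : List V) (hl : CycL G l) (A : Set V)
    (hA : ∃ x ∈ l, x ∈ A) (hB : ∃ x ∈ l, x ∉ A)
    (hα : ∀ I : Finset V, (∀ x ∈ I, x ∈ l) → G.IsIndepSet (I : Set V) →
      2 * I.card + 2 ≤ l.length)
    (p : ℕ) (hp : 2 ≤ p) (hpl : p ≤ l.length) :
    ∃ P : List V, PathL G P ∧ (∀ x ∈ P, x ∈ l) ∧ P.length = p ∧ (∃ x ∈ P.head?, x ∈ A) ∧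
      (∃ y ∈ P.getLast?, y ∉ A) := by
  classical
  by_contra hno
  have hlen : 0 < l.length := by omega
  obtain ⟨f, hfl, hsurj, hadj, hinj⟩ := exists_cyc G l hl hlen
  set c : ℤ := (l.length : ℤ) with hcdef
  obtain ⟨n, rfl⟩ : ∃ n, p = n + 1 := ⟨p - 1, by omega⟩
  -- no path of length `n` joins the two colours
  have key : ∀ g : ℕ → ℤ, (∀ k < n, G.Adj (f (g k)) (f (g (k + 1)))) →
      (∀ k k', k < k' → k' ≤ n → ¬ c ∣ g k - g k') → (f (g 0) ∈ A ↔ f (g n) ∈ A) := by
    intro g hg1 hg2
    obtain ⟨q1, q2, q3, q4⟩ := path_of_fun G (fun k => f (g k)) n hg1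
      (fun k k' h1 h2 h3 => hg2 k k' h1 h2 ((hinj _ _).1 h3))
    have hmem : ∀ x ∈ (List.range (n + 1)).map (fun k => f (g k)), x ∈ l := by
      intro x hx
      rw [List.mem_map] at hx
      obtain ⟨k, -, rfl⟩ := hx
      exact hfl _
    constructor
    · intro h0
      by_contra hn
      exact hno ⟨_, q1, hmem, q2, ⟨_, q3, h0⟩, ⟨_, q4, hn⟩⟩
    · intro hn
      by_contra h0
      refine hno ⟨((List.range (n + 1)).map (fun k => f (g k))).reverse, ⟨?_, ?_⟩, ?_, ?_,
        ⟨f (g n), ?_, hn⟩, ⟨f (g 0), ?_, h0⟩⟩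
      · exact List.nodup_reverse.2 q1.1
      · rw [List.isChain_reverse]
        exact q1.2.imp (fun a b h => h.symm)
      · intro x hx
        exact hmem x (List.mem_reverse.1 hx)
      · rw [List.length_reverse, q2]
      · rw [List.head?_reverse]; exact q4
      · rw [List.getLast?_reverse]; exact q3
  have hndvd : ∀ t : ℤ, 0 < t → t < c → ¬ c ∣ t := by
    intro t h1 h2 h3
    have := Int.le_of_dvd h1 h3
    omega
  have hndvd' : ∀ t : ℤ, 0 < t → t < c → ¬ c ∣ -t := by
    intro t h1 h2 h3
    exact hndvd t h1 h2 ((dvd_neg).1 h3)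
  have hndvd2 : ∀ t u : ℤ, t = -u → 0 < u → u < c → ¬ c ∣ t := by
    rintro t u rfl h1 h2; exact hndvd' u h1 h2
  have hadj' : ∀ i, G.Adj (f (i + 1)) (f i) := fun i => (hadj i).symm
  have hfc : ∀ i, f (i + c) = f i := by
    intro i
    rw [hinj]
    exact ⟨1, by ring⟩
  -- the cycle is long
  obtain ⟨x0, hx0, hx0A⟩ := hA
  obtain ⟨y0, hy0, hy0A⟩ := hB
  -- an even chord
  obtain ⟨s, r, hr2, hrc, hre, hchord⟩ : ∃ s r : ℤ, 2 ≤ r ∧ r ≤ c - 2 ∧ (∃ q, r = 2 * q) ∧
      G.Adj (f s) (f (s + r)) := by
    by_contra hnoc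
    have hI : ∀ k k' : ℕ, k < k' → k' < l.length / 2 →
        ¬ G.Adj (f (2 * (k : ℤ))) (f (2 * (k' : ℤ))) := by
      intro k k' h1 h2 h3
      refine hnoc ⟨2 * (k : ℤ), 2 * ((k' : ℤ) - k), by omega, by omega, ⟨_, rfl⟩, ?_⟩
      have : 2 * (k : ℤ) + 2 * ((k' : ℤ) - k) = 2 * k' := by ring
      rw [this]
      exact h3
    have hinjk : ∀ k k' : ℕ, k < k' → k' < l.length / 2 →
        f (2 * (k : ℤ)) ≠ f (2 * (k' : ℤ)) := by
      intro k k' h1 h2 h3
      rw [hinj] at h3
      exact hndvd2 _ (2 * (k' : ℤ) - 2 * k) (by ring) (by omega) (by omega) h3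
    have hcard : ((Finset.range (l.length / 2)).image (fun k : ℕ => f (2 * (k : ℤ)))).card
        = l.length / 2 := by
      rw [Finset.card_image_of_injOn, Finset.card_range]
      intro a ha b hb hab
      simp only [Finset.coe_range, Set.mem_Iio] at ha hb
      rcases lt_trichotomy a b with h | h | h
      · exact absurd hab (hinjk a b h hb)
      · exact h
      · exact absurd hab.symm (hinjk b a h ha)
    have := hα ((Finset.range (l.length / 2)).image (fun k : ℕ => f (2 * (k : ℤ)))) ?_ ?_
    · rw [hcard] at this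
      omega
    · intro x hx
      rw [Finset.mem_image] at hx
      obtain ⟨k, -, rfl⟩ := hx
      exact hfl _
    · intro x hx y hy hxy
      simp only [Finset.coe_image, Set.mem_image, Finset.coe_range, Set.mem_Iio] at hx hy
      obtain ⟨k, hk, rfl⟩ := hx
      obtain ⟨k', hk', rfl⟩ := hy
      rcases lt_trichotomy k k' with h | h | h
      · exact hI k k' h hk'
      · exact absurd (by rw [h]) hxy
      · exact fun h' => hI k' k h hk h'.symm
  have hchord' : G.Adj (f (s + r)) (f s) := hchord.symm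
  -- shortcut paths, for a chord `{s, s + r}`
  have short : ∀ s r : ℤ, 2 ≤ r → G.Adj (f s) (f (s + r)) → ∀ j, 0 ≤ j → j ≤ (n : ℤ) - 1 →
      r + n ≤ c → (f (s - j) ∈ A ↔ f (s + r + ((n : ℤ) - 1 - j)) ∈ A) := by
    intro s r hr2 hch j hj0 hj1 hrn
    have := key (fun k => if (k : ℤ) ≤ j then s - j + k else s - j + k + (r - 1)) ?_ ?_
    · simp only [Nat.cast_zero] at this
      rw [if_pos hj0, if_neg (by omega)] at this
      rw [show s - j = s - j + 0 by ring, this,
        show s - j + (n : ℤ) + (r - 1) = s + r + ((n : ℤ) - 1 - j) by ring]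
    · intro k hk
      rcases lt_trichotomy (k : ℤ) j with h | h | h
      · rw [if_pos h.le, if_pos (by push_cast; omega)]
        have := hadj (s - j + k)
        rwa [show s - j + (k : ℤ) + 1 = s - j + ((k + 1 : ℕ) : ℤ) by push_cast; ring] at this
      · rw [if_pos h.le, if_neg (by push_cast; omega), h,
          show s - j + j = s by ring,
          show s - j + ((k + 1 : ℕ) : ℤ) + (r - 1) = s + r by push_cast; rw [h]; ring]
        exact hch
      · rw [if_neg (by omega), if_neg (by push_cast; omega)]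
        have := hadj (s - j + k + (r - 1))
        rwa [show s - j + (k : ℤ) + (r - 1) + 1 = s - j + ((k + 1 : ℕ) : ℤ) + (r - 1) by
          push_cast; ring] at this
    · intro k k' h1 h2
      split_ifs with h3 h4 h4
      · exact hndvd2 _ ((k' : ℤ) - k) (by ring) (by omega) (by omega)
      · exact hndvd2 _ ((k' : ℤ) - k + (r - 1)) (by ring) (by omega) (by omega)
      · omega
      · exact hndvd2 _ ((k' : ℤ) - k) (by ring) (by omega) (by omega)
  refine period_contra (fun i => f i ∈ A) c n r s ?_ ?_ ?_ (by omega) (by omega) hr2 hrc hre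
    (short s r hr2 hchord) ?_ ?_ ?_
  · intro i
    have := key (fun k => i + k) ?_ ?_
    · simpa using this
    · intro k hk
      have := hadj (i + k)
      simpa [add_assoc] using this
    · intro k k' h1 h2
      exact hndvd2 _ ((k' : ℤ) - k) (by ring) (by omega) (by omega)
  · intro i
    simp only [hfc]
  · obtain ⟨i, rfl⟩ := hsurj x0 hx0
    obtain ⟨j, rfl⟩ := hsurj y0 hy0
    exact ⟨i, j, hx0A, hy0A⟩
  · intro j hj0 hj1 hj2
    have := short (s + r) (c - r) (by omega) (by
      rw [show s + r + (c - r) = s + c by ring, hfc]; exact hchord') j hj0 hj1 hj2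
    rwa [show s + r + (c - r) + ((n : ℤ) - 1 - j) = s + c + ((n : ℤ) - 1 - j) by ring] at this
  · -- paths `s - j, …, s, s + r, s + r - 1, …`
    intro j hj0 hj1 hj2 hj3
    have := key (fun k => if (k : ℤ) ≤ j then s - j + k else s + r - (k - j - 1)) ?_ ?_
    · simp only [Nat.cast_zero] at this
      rw [if_pos hj0, if_neg (by omega)] at this
      rw [show s - j = s - j + 0 by ring, this,
        show s + r - ((n : ℤ) - j - 1) = s + r - ((n : ℤ) - 1 - j) by ring]
    · intro k hk
      rcases lt_trichotomy (k : ℤ) j with h | h | h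
      · rw [if_pos h.le, if_pos (by push_cast; omega)]
        have := hadj (s - j + k)
        rwa [show s - j + (k : ℤ) + 1 = s - j + ((k + 1 : ℕ) : ℤ) by push_cast; ring] at this
      · rw [if_pos h.le, if_neg (by push_cast; omega), h,
          show s - j + j = s by ring,
          show s + r - (((k + 1 : ℕ) : ℤ) - j - 1) = s + r by push_cast; rw [h]; ring]
        exact hchord
      · rw [if_neg (by omega), if_neg (by push_cast; omega)]
        have := hadj' (s + r - (((k + 1 : ℕ) : ℤ) - j - 1))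
        rwa [show s + r - (((k + 1 : ℕ) : ℤ) - j - 1) + 1 = s + r - ((k : ℤ) - j - 1) by
          push_cast; ring] at this
    · intro k k' h1 h2
      split_ifs with h3 h4 h4
      · exact hndvd2 _ ((k' : ℤ) - k) (by ring) (by omega) (by omega)
      · exact hndvd2 _ (r - ((k' : ℤ) - j - 1) + (j - k)) (by ring) (by omega) (by omega)
      · omega
      · have := hndvd ((k' : ℤ) - k) (by omega) (by omega)
        rwa [show s + r - ((k : ℤ) - j - 1) - (s + r - ((k' : ℤ) - j - 1)) = (k' : ℤ) - k by ring]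
  · -- paths `s + j, …, s, s + r, s + r + 1, …`
    intro j hj0 hj1 hj2 hj3
    have := key (fun k => if (k : ℤ) ≤ j then s + j - k else s + r + (k - j - 1)) ?_ ?_
    · simp only [Nat.cast_zero] at this
      rw [if_pos hj0, if_neg (by omega)] at this
      rw [show s + j = s + j - 0 by ring, this,
        show s + r + ((n : ℤ) - j - 1) = s + r + ((n : ℤ) - 1 - j) by ring]
    · intro k hk
      rcases lt_trichotomy (k : ℤ) j with h | h | h
      · rw [if_pos h.le, if_pos (by push_cast; omega)]
        have := hadj' (s + j - ((k + 1 : ℕ) : ℤ))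
        rwa [show s + j - ((k + 1 : ℕ) : ℤ) + 1 = s + j - (k : ℤ) by push_cast; ring] at this
      · rw [if_pos h.le, if_neg (by push_cast; omega), h,
          show s + j - j = s by ring,
          show s + r + (((k + 1 : ℕ) : ℤ) - j - 1) = s + r by push_cast; rw [h]; ring]
        exact hchord
      · rw [if_neg (by omega), if_neg (by push_cast; omega)]
        have := hadj (s + r + ((k : ℤ) - j - 1))
        rwa [show s + r + ((k : ℤ) - j - 1) + 1 = s + r + (((k + 1 : ℕ) : ℤ) - j - 1) by
          push_cast; ring] at this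
    · intro k k' h1 h2
      split_ifs with h3 h4 h4
      · have := hndvd ((k' : ℤ) - k) (by omega) (by omega)
        rwa [show s + j - (k : ℤ) - (s + j - k') = (k' : ℤ) - k by ring]
      · exact hndvd2 _ (r + ((k' : ℤ) - j - 1) - (j - k)) (by ring) (by omega) (by omega)
      · omega
      · exact hndvd2 _ ((k' : ℤ) - k) (by ring) (by omega) (by omega)

end Vale.Agent.P048
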