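import Vale.Agent.P048.Colored

/-!
# P048: the two-colour lemma for a cycle with an even chord
-/

namespace Vale.Agent.P048

variable {V : Type*}

/-- The cyclic enumeration of a cycle by the integers. -/
theorem exists_cyc2 (G : SimpleGraph V) (l : List V) (hl : CycL G l) (hlen : 0 < l.length) :
    ∃ f : ℤ → V, (∀ i, f i ∈ l) ∧ (∀ x ∈ l, ∃ i, f i = x) ∧ (∀ i, G.Adj (f i) (f (i + 1))) ∧
      (∀ i j, f i = f j ↔ (l.length : ℤ) ∣ i - j) ∧
      ∀ n (hn : n < l.length), f (n : ℤ) = l[n] := by
  obtain ⟨hnd, hch, hlast⟩ := hl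
  have hc0 : (0 : ℤ) < l.length := by exact_mod_cast hlen
  have hlt : ∀ i : ℤ, (i % l.length).toNat < l.length := by
    intro i
    have h1 := Int.emod_nonneg i (b := (l.length : ℤ)) (by omega)
    have h2 := Int.emod_lt_of_pos i hc0
    omega
  refine ⟨fun i => l[(i % l.length).toNat]'(hlt i), fun i => List.getElem_mem _, ?_, ?_, ?_, ?_⟩
  · intro x hx
    obtain ⟨n, hn, rfl⟩ := List.getElem_of_mem hx
    refine ⟨(n : ℤ), ?_⟩
    have : ((n : ℤ) % l.length).toNat = n := by
      rw [Int.emod_eq_of_lt (by omega) (by omega)]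
      omega
    simp only [this]
  · intro i
    have h1 := Int.emod_nonneg i (b := (l.length : ℤ)) (by omega)
    have h2 := Int.emod_lt_of_pos i hc0
    rcases lt_or_ge (i % l.length + 1) (l.length : ℤ) with h | h
    · have e : ((i + 1) % l.length).toNat = (i % l.length).toNat + 1 := by
        have : (i + 1) % (l.length : ℤ) = i % l.length + 1 := by
          rw [Int.add_emod, Int.emod_eq_of_lt (a := 1) (by omega) (by omega),
            Int.emod_eq_of_lt (by omega) h]
        rw [this]; omega
      simp only [e]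
      exact List.isChain_iff_getElem.1 hch _ (by omega)
    · have e1 : (i % l.length).toNat = l.length - 1 := by omega
      have e2 : ((i + 1) % l.length).toNat = 0 := by
        have : (i + 1) % (l.length : ℤ) = 0 := by
          have h3 := Int.emod_add_mul_ediv i (l.length : ℤ)
          have h4 : i + 1 = (l.length : ℤ) * (i / l.length + 1) := by
            rw [mul_add]; omega
          rw [h4]
          simp
        rw [this]; rfl
      simp only [e1, e2]
      refine hlast _ ?_ _ ?_
      · rw [List.getLast?_eq_getElem?]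
        simp
      · rw [List.head?_eq_getElem?]
        simp
  · intro i j
    have h1 := Int.emod_nonneg i (b := (l.length : ℤ)) (by omega)
    have h1' := Int.emod_nonneg j (b := (l.length : ℤ)) (by omega)
    rw [hnd.getElem_inj_iff]
    constructor
    · intro h
      have : i % (l.length : ℤ) = j % l.length := by omega
      exact (Int.emod_eq_emod_iff_emod_sub_eq_zero.1 this) |> Int.dvd_of_emod_eq_zero
    · intro h
      have : i % (l.length : ℤ) = j % l.length :=
        Int.emod_eq_emod_iff_emod_sub_eq_zero.2 (Int.emod_eq_zero_of_dvd h)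
      rw [this]
  · intro n hn
    have : ((n : ℤ) % l.length).toNat = n := by
      rw [Int.emod_eq_of_lt (by omega) (by omega)]
      omega
    simp only [this]

/-- A cycle with an even chord (any chord, if its length is odd) which meets both `A` and its
complement contains a path on `p` vertices from `A` to the complement of `A`, for every
`2 ≤ p ≤ length`. -/
theorem exists_colored_path2 (G : SimpleGraph V) (l : List V) (hl : CycL G l) (A : Set V)
    (hA : ∃ x ∈ l, x ∈ A) (hB : ∃ x ∈ l, x ∉ A)
    (hchd : ∃ i j, ∃ (hij : i < j) (hj : j < l.length), G.Adj (l[i]'(by omega)) l[j] ∧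
      2 ≤ j - i ∧ j - i ≤ l.length - 2 ∧ ((j - i) % 2 = 0 ∨ l.length % 2 = 1))
    (p : ℕ) (hp : 2 ≤ p) (hpl : p ≤ l.length) :
    ∃ P : List V, PathL G P ∧ (∀ x ∈ P, x ∈ l) ∧ P.length = p ∧ (∃ x ∈ P.head?, x ∈ A) ∧
      (∃ y ∈ P.getLast?, y ∉ A) := by
  classical
  by_contra hno
  have hlen : 0 < l.length := by omega
  obtain ⟨f, hfl, hsurj, hadj, hinj, hfn⟩ := exists_cyc2 G l hl hlen
  set c : ℤ := (l.length : ℤ) with hcdef
  obtain ⟨n, rfl⟩ : ∃ n, p = n + 1 := ⟨p - 1, by omega⟩
  -- no path of length `n` joins the two colours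
  have key : ∀ g : ℕ → ℤ, (∀ k < n, G.Adj (f (g k)) (f (g (k + 1)))) →
      (∀ k k', k < k' → k' ≤ n → ¬ c ∣ g k - g k') → (f (g 0) ∈ A ↔ f (g n) ∈ A) := by
    intro g hg1 hg2
    obtain ⟨q1, q2, q3, q4⟩ := path_of_fun G (fun k => f (g k)) n hg1
      (fun k k' h1 h2 h3 => hg2 k k' h1 h2 ((hinj _ _).1 h3))
    have hmem : ∀ x ∈ (List.range (n + 1)).map (fun k => f (g k)), x ∈ l := by
      intro x hx
      rw [List.mem_map] at hx
      obtain ⟨k, -, rfl⟩ := hx
      exact hfl _
    constructor
    · intro h0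
      by_contra hn
      exact hno ⟨_, q1, hmem, q2, ⟨_, q3, h0⟩, ⟨_, q4, hn⟩⟩
    · intro hn
      by_contra h0
      refine hno ⟨((List.range (n + 1)).map (fun k => f (g k))).reverse, ⟨?_, ?_⟩, ?_, ?_,
        ⟨f (g n), ?_, hn⟩, ⟨f (g 0), ?_, h0⟩⟩
      · exact List.nodup_reverse.2 q1.1
      · rw [List.isChain_reverse]
        exact q1.2.imp (fun a b h => h.symm)
      · intro x hx
        exact hmem x (List.mem_reverse.1 hx)
      · rw [List.length_reverse, q2]
      · rw [List.head?_reverse]; exact q4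
      · rw [List.getLast?_reverse]; exact q3
  have hndvd : ∀ t : ℤ, 0 < t → t < c → ¬ c ∣ t := by
    intro t h1 h2 h3
    have := Int.le_of_dvd h1 h3
    omega
  have hndvd' : ∀ t : ℤ, 0 < t → t < c → ¬ c ∣ -t := by
    intro t h1 h2 h3
    exact hndvd t h1 h2 ((dvd_neg).1 h3)
  have hndvd2 : ∀ t u : ℤ, t = -u → 0 < u → u < c → ¬ c ∣ t := by
    rintro t u rfl h1 h2; exact hndvd' u h1 h2
  have hadj' : ∀ i, G.Adj (f (i + 1)) (f i) := fun i => (hadj i).symm
  have hfc : ∀ i, f (i + c) = f i := by
    intro i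
    rw [hinj]
    exact ⟨1, by ring⟩
  -- the cycle is long
  obtain ⟨x0, hx0, hx0A⟩ := hA
  obtain ⟨y0, hy0, hy0A⟩ := hB
  -- an even chord
  obtain ⟨s, r, hr2, hrc, hre, hchord⟩ : ∃ s r : ℤ, 2 ≤ r ∧ r ≤ c - 2 ∧ (∃ q, r = 2 * q) ∧
      G.Adj (f s) (f (s + r)) := by
    obtain ⟨i, j, hij, hj, hadjij, h2, h3, h4⟩ := hchd
    rw [← hfn i (by omega), ← hfn j hj] at hadjij
    by_cases hpar : (j - i) % 2 = 0
    · refine ⟨(i : ℤ), ((j - i : ℕ) : ℤ), by omega, by omega, ⟨((j - i) / 2 : ℕ), by omega⟩, ?_⟩
      rw [show (i : ℤ) + ((j - i : ℕ) : ℤ) = j by omega]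
      exact hadjij
    · have h5 : l.length % 2 = 1 := by
        rcases h4 with h4 | h4
        · exact absurd h4 hpar
        · exact h4
      refine ⟨(j : ℤ), (l.length : ℤ) - ((j - i : ℕ) : ℤ), by omega, by omega,
        ⟨((l.length - (j - i)) / 2 : ℕ), by omega⟩, ?_⟩
      rw [show (j : ℤ) + ((l.length : ℤ) - ((j - i : ℕ) : ℤ)) = i + c by omega, hfc]
      exact hadjij.symm
  have hchord' : G.Adj (f (s + r)) (f s) := hchord.symm
  -- shortcut paths, for a chord `{s, s + r}`
  have short : ∀ s r : ℤ, 2 ≤ r → G.Adj (f s) (f (s + r)) → ∀ j, 0 ≤ j → j ≤ (n : ℤ) - 1 →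
      r + n ≤ c → (f (s - j) ∈ A ↔ f (s + r + ((n : ℤ) - 1 - j)) ∈ A) := by
    intro s r hr2 hch j hj0 hj1 hrn
    have := key (fun k => if (k : ℤ) ≤ j then s - j + k else s - j + k + (r - 1)) ?_ ?_
    · simp only [Nat.cast_zero] at this
      rw [if_pos hj0, if_neg (by omega)] at this
      rw [show s - j = s - j + 0 by ring, this,
        show s - j + (n : ℤ) + (r - 1) = s + r + ((n : ℤ) - 1 - j) by ring]
    · intro k hk
      rcases lt_trichotomy (k : ℤ) j with h | h | h
      · rw [if_pos h.le, if_pos (by push_cast; omega)]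
        have := hadj (s - j + k)
        rwa [show s - j + (k : ℤ) + 1 = s - j + ((k + 1 : ℕ) : ℤ) by push_cast; ring] at this
      · rw [if_pos h.le, if_neg (by push_cast; omega), h,
          show s - j + j = s by ring,
          show s - j + ((k + 1 : ℕ) : ℤ) + (r - 1) = s + r by push_cast; rw [h]; ring]
        exact hch
      · rw [if_neg (by omega), if_neg (by push_cast; omega)]
        have := hadj (s - j + k + (r - 1))
        rwa [show s - j + (k : ℤ) + (r - 1) + 1 = s - j + ((k + 1 : ℕ) : ℤ) + (r - 1) by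
          push_cast; ring] at this
    · intro k k' h1 h2
      split_ifs with h3 h4 h4
      · exact hndvd2 _ ((k' : ℤ) - k) (by ring) (by omega) (by omega)
      · exact hndvd2 _ ((k' : ℤ) - k + (r - 1)) (by ring) (by omega) (by omega)
      · omega
      · exact hndvd2 _ ((k' : ℤ) - k) (by ring) (by omega) (by omega)
  refine period_contra (fun i => f i ∈ A) c n r s ?_ ?_ ?_ (by omega) (by omega) hr2 hrc hre
    (short s r hr2 hchord) ?_ ?_ ?_
  · intro i
    have := key (fun k => i + k) ?_ ?_
    · simpa using this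
    · intro k hk
      have := hadj (i + k)
      simpa [add_assoc] using this
    · intro k k' h1 h2
      exact hndvd2 _ ((k' : ℤ) - k) (by ring) (by omega) (by omega)
  · intro i
    simp only [hfc]
  · obtain ⟨i, rfl⟩ := hsurj x0 hx0
    obtain ⟨j, rfl⟩ := hsurj y0 hy0
    exact ⟨i, j, hx0A, hy0A⟩
  · intro j hj0 hj1 hj2
    have := short (s + r) (c - r) (by omega) (by
      rw [show s + r + (c - r) = s + c by ring, hfc]; exact hchord') j hj0 hj1 hj2
    rwa [show s + r + (c - r) + ((n : ℤ) - 1 - j) = s + c + ((n : ℤ) - 1 - j) by ring] at this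
  · -- paths `s - j, …, s, s + r, s + r - 1, …`
    intro j hj0 hj1 hj2 hj3
    have := key (fun k => if (k : ℤ) ≤ j then s - j + k else s + r - (k - j - 1)) ?_ ?_
    · simp only [Nat.cast_zero] at this
      rw [if_pos hj0, if_neg (by omega)] at this
      rw [show s - j = s - j + 0 by ring, this,
        show s + r - ((n : ℤ) - j - 1) = s + r - ((n : ℤ) - 1 - j) by ring]
    · intro k hk
      rcases lt_trichotomy (k : ℤ) j with h | h | h
      · rw [if_pos h.le, if_pos (by push_cast; omega)]
        have := hadj (s - j + k)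
        rwa [show s - j + (k : ℤ) + 1 = s - j + ((k + 1 : ℕ) : ℤ) by push_cast; ring] at this
      · rw [if_pos h.le, if_neg (by push_cast; omega), h,
          show s - j + j = s by ring,
          show s + r - (((k + 1 : ℕ) : ℤ) - j - 1) = s + r by push_cast; rw [h]; ring]
        exact hchord
      · rw [if_neg (by omega), if_neg (by push_cast; omega)]
        have := hadj' (s + r - (((k + 1 : ℕ) : ℤ) - j - 1))
        rwa [show s + r - (((k + 1 : ℕ) : ℤ) - j - 1) + 1 = s + r - ((k : ℤ) - j - 1) by
          push_cast; ring] at this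
    · intro k k' h1 h2
      split_ifs with h3 h4 h4
      · exact hndvd2 _ ((k' : ℤ) - k) (by ring) (by omega) (by omega)
      · exact hndvd2 _ (r - ((k' : ℤ) - j - 1) + (j - k)) (by ring) (by omega) (by omega)
      · omega
      · have := hndvd ((k' : ℤ) - k) (by omega) (by omega)
        rwa [show s + r - ((k : ℤ) - j - 1) - (s + r - ((k' : ℤ) - j - 1)) = (k' : ℤ) - k by ring]
  · -- paths `s + j, …, s, s + r, s + r + 1, …`
    intro j hj0 hj1 hj2 hj3
    have := key (fun k => if (k : ℤ) ≤ j then s + j - k else s + r + (k - j - 1)) ?_ ?_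
    · simp only [Nat.cast_zero] at this
      rw [if_pos hj0, if_neg (by omega)] at this
      rw [show s + j = s + j - 0 by ring, this,
        show s + r + ((n : ℤ) - j - 1) = s + r + ((n : ℤ) - 1 - j) by ring]
    · intro k hk
      rcases lt_trichotomy (k : ℤ) j with h | h | h
      · rw [if_pos h.le, if_pos (by push_cast; omega)]
        have := hadj' (s + j - ((k + 1 : ℕ) : ℤ))
        rwa [show s + j - ((k + 1 : ℕ) : ℤ) + 1 = s + j - (k : ℤ) by push_cast; ring] at this
      · rw [if_pos h.le, if_neg (by push_cast; omega), h,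
          show s + j - j = s by ring,
          show s + r + (((k + 1 : ℕ) : ℤ) - j - 1) = s + r by push_cast; rw [h]; ring]
        exact hchord
      · rw [if_neg (by omega), if_neg (by push_cast; omega)]
        have := hadj (s + r + ((k : ℤ) - j - 1))
        rwa [show s + r + ((k : ℤ) - j - 1) + 1 = s + r + (((k + 1 : ℕ) : ℤ) - j - 1) by
          push_cast; ring] at this
    · intro k k' h1 h2
      split_ifs with h3 h4 h4
      · have := hndvd ((k' : ℤ) - k) (by omega) (by omega)
        rwa [show s + j - (k : ℤ) - (s + j - k') = (k' : ℤ) - k by ring]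
      · exact hndvd2 _ (r + ((k' : ℤ) - j - 1) - (j - k)) (by ring) (by omega) (by omega)
      · omega
      · exact hndvd2 _ ((k' : ℤ) - k) (by ring) (by omega) (by omega)

end Vale.Agent.P048
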