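import Vale.Agent.P048.Six

/-!
# P048: no minimal counterexample for `m = 8` without large cliques
-/

namespace Vale.Agent.P048

open Finset

variable {V : Type*}

theorem exists_four {l : List V} (h : l.length = 4) : ∃ a b c d, l = [a, b, c, d] := by
  match l, h with
  | [a, b, c, d], _ => exact ⟨a, b, c, d, rfl⟩

/-- small independence number: `m = 8`. -/
theorem card_le_of_ind_le_two8 [DecidableEq V] {G : SimpleGraph V} [DecidableRel G.Adj]
    (hfree : ∀ l, CycL G l → l.length ≠ 8)
    (hω : ∀ K : Finset V, G.IsClique (K : Set V) → K.card ≤ 4) (T : Finset V)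
    (hT : ind G T ≤ 2) : T.card ≤ 4 * ind G T := by
  by_cases h1 : ind G T ≤ 1
  · have h2 := hω T (clique_of_ind_le_one h1)
    by_cases h3 : T = ∅
    · subst h3
      simp
    · have := ind_pos (G := G) (Finset.nonempty_iff_ne_empty.2 h3)
      omega
  · by_contra hcon
    obtain ⟨T', hT', hc⟩ := Finset.exists_subset_card_eq (s := T) (n := 9) (by omega)
    have hne : T'.Nonempty := by
      rw [← Finset.card_pos]
      omega
    obtain ⟨x, hx⟩ := hne
    have hN : 4 ≤ (T'.filter (G.Adj x)).card := by
      have hD := hω (T'.filter (fun y => y ≠ x ∧ ¬ G.Adj x y)) (by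
        intro y hy z hz hyz
        rw [Finset.mem_coe, Finset.mem_filter] at hy hz
        by_contra hadj
        have h4 := card_le_ind (G := G) (S := T) (I := {x, y, z}) (by
          intro t ht
          simp only [Finset.mem_insert, Finset.mem_singleton] at ht
          rcases ht with rfl | rfl | rfl
          · exact hT' hx
          · exact hT' hy.1
          · exact hT' hz.1) (by
          intro p hp q hq hpq
          simp only [Finset.coe_insert, Finset.coe_singleton, Set.mem_insert_iff,
            Set.mem_singleton_iff] at hp hq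
          rcases hp with rfl | rfl | rfl <;> rcases hq with rfl | rfl | rfl
          · exact absurd rfl hpq
          · exact hy.2.2
          · exact hz.2.2
          · exact fun h => hy.2.2 h.symm
          · exact absurd rfl hpq
          · exact hadj
          · exact fun h => hz.2.2 h.symm
          · exact fun h => hadj h.symm
          · exact absurd rfl hpq)
        rw [Finset.card_insert_of_notMem, Finset.card_pair hyz] at h4
        · omega
        · simp only [Finset.mem_insert, Finset.mem_singleton, not_or]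
          exact ⟨fun h => hy.2.1 h.symm, fun h => hz.2.1 h.symm⟩)
      have hcov : T' ⊆ ({x} ∪ T'.filter (G.Adj x)) ∪
          T'.filter (fun y => y ≠ x ∧ ¬ G.Adj x y) := by
        intro y hy
        simp only [Finset.mem_union, Finset.mem_singleton, Finset.mem_filter]
        by_cases h5 : y = x
        · exact Or.inl (Or.inl h5)
        · by_cases h6 : G.Adj x y
          · exact Or.inl (Or.inr ⟨hy, h6⟩)
          · exact Or.inr ⟨hy, h5, h6⟩
      have h7 := Finset.card_le_card hcov
      have h8 := Finset.card_union_le ({x} ∪ T'.filter (G.Adj x))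
        (T'.filter (fun y => y ≠ x ∧ ¬ G.Adj x y))
      have h9 := Finset.card_union_le {x} (T'.filter (G.Adj x))
      rw [Finset.card_singleton] at h9
      omega
    obtain ⟨N, hNs, hNc⟩ := Finset.exists_subset_card_eq hN
    obtain ⟨a, b, c, d, hl⟩ := exists_four (l := N.toList) (by rw [Finset.length_toList, hNc])
    have hmem : ∀ y ∈ [a, b, c, d], y ∈ T' ∧ G.Adj x y := by
      intro y hy
      rw [← hl, Finset.mem_toList] at hy
      have := hNs hy
      rwa [Finset.mem_filter] at this
    have hxN : x ∉ N := fun h => by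
      have := hNs h
      rw [Finset.mem_filter] at this
      exact this.2.ne rfl
    have hsub : insert x N ⊆ T' := by
      intro y hy
      rw [Finset.mem_insert] at hy
      rcases hy with rfl | hy
      · exact hx
      · exact (Finset.mem_filter.1 (hNs hy)).1
    refine Tr.false_of_list G (by omega) hfree T (fun K _ hK => ?_) (fun I hIT hI => ?_)
      [(0, 1), (0, 2), (0, 3), (0, 4)] treeF8 x
      (x :: (N.toList ++ (T' \ insert x N).toList)) ?_ ?_ ?_ ?_
    · have := hω K hK
      omega
    · have := card_le_ind hIT hI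
      omega
    · rw [List.nodup_cons, List.nodup_append']
      refine ⟨?_, N.nodup_toList, Finset.nodup_toList _, ?_⟩
      · rw [List.mem_append, Finset.mem_toList, Finset.mem_toList, Finset.mem_sdiff, not_or]
        exact ⟨hxN, fun h => h.2 (Finset.mem_insert_self _ _)⟩
      · intro y hy hy'
        rw [Finset.mem_toList] at hy
        rw [Finset.mem_toList, Finset.mem_sdiff] at hy'
        exact hy'.2 (Finset.mem_insert_of_mem hy)
    · rw [List.length_cons, List.length_append, Finset.length_toList, Finset.length_toList,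
        Finset.card_sdiff_of_subset hsub, Finset.card_insert_of_notMem hxN]
      omega
    · intro y hy
      rw [List.mem_cons, List.mem_append, Finset.mem_toList, Finset.mem_toList,
        Finset.mem_sdiff] at hy
      rcases hy with rfl | hy | hy
      · exact hT' hx
      · exact hT' (Finset.mem_filter.1 (hNs hy)).1
      · exact hT' hy.1
    · rw [hl]
      intro q hq
      simp only [List.mem_cons, List.not_mem_nil, or_false] at hq
      rcases hq with rfl | rfl | rfl | rfl
      · exact ⟨by omega, by omega, (hmem a (by simp)).2⟩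
      · exact ⟨by omega, by omega, (hmem b (by simp)).2⟩
      · exact ⟨by omega, by omega, (hmem c (by simp)).2⟩
      · exact ⟨by omega, by omega, (hmem d (by simp)).2⟩

namespace MinCx

variable [Fintype V] [DecidableEq V] {G : SimpleGraph V} [DecidableRel G.Adj] {m : ℕ}

/-- a `K_4` in the second level makes the first one smaller -/
theorem Lv_one_bound8 (h : MinCx G 8)
    (hω : ∀ K : Finset V, G.IsClique (K : Set V) → K.card ≤ 4) (v : V) (Q : Finset V)
    (hQ : Q ⊆ Lv G v 2) (hQc : G.IsClique (Q : Set V)) (hQ4 : Q.card = 4) :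
    (Lv G v 1).card + 1 ≤ 3 * ind G (Lv G v 1) := by
  have hconn := h.connected
  have hpar : ∀ q ∈ Q, ∃ w, G.Adj w q ∧ G.dist v w = 1 := fun q hq =>
    exists_parent hconn (mem_Lv.1 (hQ hq))
  -- two parents
  obtain ⟨q, hq, q', hq', hqq, w, w', hwq, hw, hwq', hw', hww⟩ : ∃ q ∈ Q, ∃ q' ∈ Q, q ≠ q' ∧
      ∃ w w', G.Adj w q ∧ G.dist v w = 1 ∧ G.Adj w' q' ∧ G.dist v w' = 1 ∧ w ≠ w' := by
    by_contra hcon
    obtain ⟨q0, hq0⟩ : Q.Nonempty := by rw [← Finset.card_pos]; omega
    obtain ⟨w0, hw0, hw0'⟩ := hpar q0 hq0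
    have hall : ∀ q ∈ Q, G.Adj w0 q := by
      intro q hq
      by_cases hqq : q0 = q
      · rw [← hqq]
        exact hw0
      · obtain ⟨w, hw, hw'⟩ := hpar q hq
        by_cases hww : w0 = w
        · rw [hww]
          exact hw
        · exact (hcon ⟨q0, hq0, q, hq, hqq, w0, w, hw0, hw0', hw, hw', hww⟩).elim
    have hw0Q : w0 ∉ Q := by
      intro hw
      have := mem_Lv.1 (hQ hw)
      omega
    have h1 := hω (insert w0 Q) (by
      rw [Finset.coe_insert, SimpleGraph.isClique_insert]
      exact ⟨hQc, fun x hx _ => hall x hx⟩)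
    rw [Finset.card_insert_of_notMem hw0Q] at h1
    omega
  -- the other two vertices of `Q`
  have hc2 : ((Q.erase q).erase q').card = 2 := by
    rw [Finset.card_erase_of_mem, Finset.card_erase_of_mem hq]
    · omega
    · rw [Finset.mem_erase]
      exact ⟨hqq.symm, hq'⟩
  obtain ⟨r, s, hrs, hR⟩ := Finset.card_eq_two.1 hc2
  have hr : r ≠ q' ∧ r ≠ q ∧ r ∈ Q := by
    have : r ∈ (Q.erase q).erase q' := by rw [hR]; simp
    simpa only [Finset.mem_erase] using this
  have hs : s ≠ q' ∧ s ≠ q ∧ s ∈ Q := by
    have : s ∈ (Q.erase q).erase q' := by rw [hR]; simp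
    simpa only [Finset.mem_erase] using this
  have dq := mem_Lv.1 (hQ hq)
  have dq' := mem_Lv.1 (hQ hq')
  have dr := mem_Lv.1 (hQ hr.2.2)
  have ds := mem_Lv.1 (hQ hs.2.2)
  have hne : ∀ x y, G.dist v x ≠ G.dist v y → x ≠ y := by
    intro x y h1 h2
    rw [h2] at h1
    exact h1 rfl
  have hno : ∀ u, G.dist v u = 1 → u ≠ w → u ≠ w' → ¬ G.Adj u w := by
    intro u hu huw huw' hadj
    have dv : G.dist v v = 0 := SimpleGraph.dist_self
    refine h.free [v, u, w, q, r, s, q', w'] ⟨?_, ?_, ?_⟩ rfl
    · simp only [List.nodup_cons, List.mem_cons, List.not_mem_nil, or_false, not_or,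
        not_false_eq_true, List.nodup_nil, and_true]
      refine ⟨⟨?_, ?_, ?_, ?_, ?_, ?_, ?_⟩, ⟨huw, ?_, ?_, ?_, ?_, huw'⟩, ⟨?_, ?_, ?_, ?_, hww⟩,
        ⟨hr.2.1.symm, hs.2.1.symm, hqq, ?_⟩, ⟨hrs, hr.1, ?_⟩, ⟨hs.1, ?_⟩, ?_⟩
      all_goals
        apply hne
        omega
    · simp only [List.isChain_cons_cons, List.isChain_singleton, and_true]
      exact ⟨SimpleGraph.dist_eq_one_iff_adj.1 hu, hadj, hwq,
        hQc hq hr.2.2 hr.2.1.symm, hQc hr.2.2 hs.2.2 hrs, hQc hs.2.2 hq' hs.1, hwq'.symm⟩
    · intro x hx y hy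
      simp only [List.getLast?_cons_cons, List.getLast?_singleton, List.head?_cons,
        Option.mem_def, Option.some.injEq] at hx hy
      subst hx hy
      exact (SimpleGraph.dist_eq_one_iff_adj.1 hw').symm
  -- the rest of the neighbourhood
  set R := (Lv G v 1) \ {w, w'} with hR'
  have h1 := nbr_bound G hconn v 8 6 (by omega) (by omega) h.free
    (fun K hK => by have := hω K hK; omega) R (fun x hx =>
      SimpleGraph.dist_eq_one_iff_adj.1 (mem_Lv.1 (Finset.mem_sdiff.1 hx).1))
  have h2 := ind_add_le (G := G) (S := {w}) (S' := R) (by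
    rw [Finset.disjoint_left]
    intro x hx hx'
    rw [Finset.mem_singleton] at hx
    subst hx
    rw [hR', Finset.mem_sdiff] at hx'
    exact hx'.2 (by simp)) (by
    intro x hx y hy hadj
    rw [Finset.mem_singleton] at hx
    subst hx
    rw [hR', Finset.mem_sdiff, mem_Lv, Finset.mem_insert, Finset.mem_singleton, not_or] at hy
    exact hno y hy.1 hy.2.1 hy.2.2 hadj.symm)
  have h3 : 1 ≤ ind G {w} := ind_pos (by simp)
  have h4 : ind G ({w} ∪ R) ≤ ind G (Lv G v 1) := ind_mono (by
    intro x hx
    rw [Finset.mem_union, Finset.mem_singleton] at hx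
    rcases hx with rfl | hx
    · exact mem_Lv.2 hw
    · exact (Finset.mem_sdiff.1 hx).1)
  have h5 : (Lv G v 1).card ≤ R.card + ({w, w'} : Finset V).card :=
    Finset.card_le_card_sdiff_add_card
  have h6 : ({w, w'} : Finset V).card ≤ 2 := Finset.card_le_two
  omega

theorem false_eight (h : MinCx G 8) (ha : ind G univ ≤ 7)
    (hω : ∀ K : Finset V, G.IsClique (K : Set V) → K.card ≤ 4) : False := by
  obtain ⟨v⟩ := h.nonempty
  have h1 := h.le_card_Lv_one v
  have h2 := h.Lv_one_bound v 6 (by omega) (by omega) (fun K hK => by have := hω K hK; omega)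
  have h3 := h.Lv_bound v 8 2 (by omega) (by omega) (by omega) (by omega) (by omega) (by omega)
    (fun K _ hK => hω K hK)
  have h3' := h.Lv_bound v 8 3 (by omega) (by omega) (by omega) (by omega) (by omega) (by omega)
    (fun K _ hK => hω K hK)
  have h8 := h.mul_ind_Lv_one v
  have hkey : (Lv G v 1).card + 1 ≤ 3 * ind G (Lv G v 1) ∨
      2 * (Lv G v 2).card ≤ 6 * ind G (Lv G v 2) := by
    by_cases hQ : ∀ K ⊆ Lv G v 2, G.IsClique (K : Set V) → K.card ≤ 6 / 2
    · exact Or.inr (h.Lv_bound v 6 2 (by omega) (by omega) (by omega) (by omega) (by omega)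
        (by omega) hQ)
    · push Not at hQ
      obtain ⟨K, hK, hKc, hK4⟩ := hQ
      have := hω K hKc
      exact Or.inl (h.Lv_one_bound8 hω v K hK hKc (by omega))
  obtain ⟨p, q, h4, h5, h6⟩ := h.count_levels v 4 (by
    intro j hj
    by_cases hj3 : j = 3
    · subst hj3
      omega
    · have h7 := h.ind_even v (U := Lv G v j) (by
        intro x hx
        rw [mem_Lv] at hx
        omega)
      apply card_le_of_ind_le_two8 h.free hω
      omega)
  omega

end MinCx

end Vale.Agent.P048
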