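import Vale.Agent.P048.Reroute
import Vale.Agent.P048.Cfg

/-!
# P048: the certificate engine for small configurations

`f : ℕ → V` lists the `n` vertices of a long cycle (as positions `0, …, n - 1`), the pattern says
which positions belong to the clique.  A path of positions from `a` to `b` with `m - q` positions
excludes outside paths with `q` inner vertices from `f a` to `f b`.
-/

namespace Vale.Agent.P048

open Finset

variable {V : Type*}

/-- adjacency of positions which is guaranteed by the pattern -/
def adjb (p : List Bool) (i j : ℕ) : Bool :=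
  (i + 1).beq j || ((j + 1).beq i || (p.getD i false && p.getD j false))

def chainb (p : List Bool) : ℕ → List ℕ → Bool
  | _, [] => true
  | i, j :: l => adjb p i j && chainb p j l

def memb (a : ℕ) : List ℕ → Bool
  | [] => false
  | b :: l => a.beq b || memb a l

def nodupb : List ℕ → Bool
  | [] => true
  | a :: l => !(memb a l) && nodupb l

def allltb (n : ℕ) : List ℕ → Bool
  | [] => true
  | a :: l => Nat.blt a n && allltb n l

def lastb : ℕ → List ℕ → ℕ
  | a, [] => a
  | _, b :: l => lastb b l

def lenb : List ℕ → ℕ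
  | [] => 0
  | _ :: l => (lenb l).succ

/-- A table entry `(a, b, L, l)` is correct: `a :: l` is a path of positions which ends in `b` and
has `L` positions. -/
def entryb (p : List Bool) (n : ℕ) (t : ℕ × ℕ × ℕ × List ℕ) : Bool :=
  chainb p t.1 t.2.2.2 && (nodupb (t.1 :: t.2.2.2) && (allltb n (t.1 :: t.2.2.2) &&
    ((lastb t.1 t.2.2.2).beq t.2.1 && (lenb t.2.2.2).succ.beq t.2.2.1)))

/-- the table has an entry for the pair `a, b` and length `L` -/
def hasb (a b L : ℕ) : List (ℕ × ℕ × ℕ × List ℕ) → Bool
  | [] => false
  | t :: T => (L.beq t.2.2.1 && ((a.beq t.1 && b.beq t.2.1) || (b.beq t.1 && a.beq t.2.1))) ||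
      hasb a b L T

/-- number of positions `b < k`, `b ≠ a`, without an entry for `a, b, L` -/
def cntb (T : List (ℕ × ℕ × ℕ × List ℕ)) (a L : ℕ) : ℕ → ℕ
  | 0 => 0
  | k + 1 => if (a.beq k || hasb a k L T) = true then cntb T a L k else (cntb T a L k).succ

/-- a port `(a, ρ, w)`: position, radius, weight -/
def portb (T : List (ℕ × ℕ × ℕ × List ℕ)) (m r n : ℕ) (q : ℕ × ℕ × ℕ) : Bool :=
  Nat.blt q.1 n &&
  match q.2.1 with
  | 0 => q.2.2.beq 1
  | 1 => (q.2.2.beq 1 && Nat.ble (cntb T q.1 m n + 2) m) ||
      (q.2.2.beq 2 && Nat.ble (cntb T q.1 m n + 1 + r) m)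
  | 2 => q.2.2.beq 2 && (Nat.ble (cntb T q.1 m n + 2) m &&
      Nat.ble (cntb T q.1 (m - 1) n + 2 + r) m)
  | _ => false

/-- entries for `a, b` and the lengths `m - 1, …, m - k` -/
def rangeb (T : List (ℕ × ℕ × ℕ × List ℕ)) (m a b : ℕ) : ℕ → Bool
  | 0 => true
  | k + 1 => hasb a b (m - (k + 1)) T && rangeb T m a b k

def pairb (T : List (ℕ × ℕ × ℕ × List ℕ)) (m : ℕ) (q q' : ℕ × ℕ × ℕ) : Bool :=
  !(q.1.beq q'.1) && (rangeb T m q.1 q'.1 (q.2.1 + q'.2.1) &&
    (!((q.2.1 + q'.2.1).beq 0) || hasb q.1 q'.1 m T))

def pairsb (T : List (ℕ × ℕ × ℕ × List ℕ)) (m : ℕ) : List (ℕ × ℕ × ℕ) → Bool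
  | [] => true
  | q :: l => l.all (fun q' => pairb T m q q') && pairsb T m l

def weightb : List (ℕ × ℕ × ℕ) → ℕ
  | [] => 0
  | q :: l => q.2.2 + weightb l

/-- the whole certificate -/
def certb (m r : ℕ) (p : List Bool) (ports : List (ℕ × ℕ × ℕ))
    (T : List (ℕ × ℕ × ℕ × List ℕ)) : Bool :=
  T.all (entryb p p.length) && (ports.all (portb T m r p.length) &&
    (pairsb T m ports && Nat.ble m (weightb ports)))

section core

variable [Fintype V] [DecidableEq V] (G : SimpleGraph V) [DecidableRel G.Adj] {m r n : ℕ}
  {p : List Bool} {f : ℕ → V}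

omit [Fintype V] [DecidableEq V] [DecidableRel G.Adj] in
theorem chainb_spec (hadj : ∀ i j, i < n → j < n → i ≠ j → adjb p i j = true → G.Adj (f i) (f j)) :
    ∀ (l : List ℕ) (a : ℕ), chainb p a l = true → nodupb (a :: l) = true →
      allltb n (a :: l) = true →
      List.IsChain G.Adj ((a :: l).map f) := by
  intro l
  induction l with
  | nil => intro a _ _ _; simp
  | cons b l ih =>
    intro a h1 h2 h3
    simp only [chainb, nodupb, allltb, memb, Bool.and_eq_true, Bool.not_eq_true',
      Bool.or_eq_false_iff, Nat.blt_eq] at h1 h2 h3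
    rw [List.map_cons, List.map_cons, List.isChain_cons_cons]
    refine ⟨hadj a b h3.1 h3.2.1 ?_ h1.1, ?_⟩
    · intro hab
      rw [hab] at h2
      simp at h2
    · have := ih b h1.2 (by simp only [nodupb, Bool.and_eq_true, Bool.not_eq_true']; exact h2.2)
        (by simp only [allltb, Bool.and_eq_true, Nat.blt_eq]; exact h3.2)
      rwa [List.map_cons] at this

theorem memb_spec : ∀ (l : List ℕ) (a : ℕ), memb a l = true ↔ a ∈ l := by
  intro l
  induction l with
  | nil => intro a; simp [memb]
  | cons b l ih =>
    intro a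
    simp only [memb, Bool.or_eq_true, List.mem_cons, ih, Nat.beq_eq]

theorem nodupb_spec : ∀ (l : List ℕ), nodupb l = true → l.Nodup := by
  intro l
  induction l with
  | nil => intro _; simp
  | cons b l ih =>
    intro h
    simp only [nodupb, Bool.and_eq_true, Bool.not_eq_true'] at h
    rw [List.nodup_cons]
    refine ⟨?_, ih h.2⟩
    intro hb
    rw [← memb_spec] at hb
    rw [hb] at h
    simp at h

theorem allltb_spec : ∀ (l : List ℕ), allltb n l = true → ∀ i ∈ l, i < n := by
  intro l
  induction l with
  | nil => intro _ i hi; simp at hi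
  | cons b l ih =>
    intro h i hi
    simp only [allltb, Bool.and_eq_true, Nat.blt_eq] at h
    rcases List.mem_cons.1 hi with rfl | hi
    · exact h.1
    · exact ih h.2 i hi

theorem lastb_spec : ∀ (l : List ℕ) (a : ℕ), (a :: l).getLast? = some (lastb a l) := by
  intro l
  induction l with
  | nil => intro a; rfl
  | cons b l ih =>
    intro a
    rw [List.getLast?_cons_cons, ih b, lastb]

theorem lenb_spec : ∀ (l : List ℕ), lenb l = l.length := by
  intro l
  induction l with
  | nil => rfl
  | cons b l ih => rw [lenb, ih, List.length_cons]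

/-- no outside path with `q` inner vertices from `f a` to `f b` -/
def NoConn (G : SimpleGraph V) (f : ℕ → V) (n a b q : ℕ) : Prop :=
  ∀ W : List V, W.length = q → W.Nodup → (∀ w ∈ W, ∀ i, i < n → w ≠ f i) →
    ¬ List.IsChain G.Adj (f a :: (W ++ [f b]))

omit [Fintype V] [DecidableEq V] [DecidableRel G.Adj] in
theorem NoConn.symm {a b q : ℕ} (h : NoConn G f n a b q) : NoConn G f n b a q := by
  intro W h1 h2 h3 h4
  exact h W.reverse (by rw [List.length_reverse]; exact h1) (List.nodup_reverse.2 h2)
    (fun w hw => h3 w (List.mem_reverse.1 hw)) (chain_cons_concat_reverse h4)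

omit [Fintype V] [DecidableEq V] [DecidableRel G.Adj] in
theorem noConn_of_entry (hfree : ∀ l, CycL G l → l.length ≠ m)
    (hinj : ∀ i j, i < n → j < n → f i = f j → i = j)
    (hadj : ∀ i j, i < n → j < n → i ≠ j → adjb p i j = true → G.Adj (f i) (f j))
    (t : ℕ × ℕ × ℕ × List ℕ) (ht : entryb p n t = true) (q : ℕ) (hq : t.2.2.1 + q = m) :
    NoConn G f n t.1 t.2.1 q := by
  obtain ⟨a, b, L, l⟩ := t
  simp only [entryb, Bool.and_eq_true, Nat.beq_eq] at ht
  obtain ⟨h1, h2, h3, h4, h5⟩ := ht
  intro W hW hWn hWo hWc
  dsimp only at hWc hq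
  have hch := chainb_spec G hadj l a h1 h2 h3
  have hnd := nodupb_spec _ h2
  have hlt := allltb_spec _ h3
  have hlast := lastb_spec l a
  rw [h4] at hlast
  have hmn : ((a :: l).map f).Nodup := by
    rw [List.nodup_map_iff_inj_on hnd]
    intro x hx y hy hxy
    exact hinj x y (hlt x hx) (hlt y hy) hxy
  have hlast' : ((a :: l).map f).getLast? = some (f b) := by
    rw [List.getLast?_map, hlast]; rfl
  have hrev := chain_cons_concat_reverse hWc
  rw [← List.cons_append, List.isChain_append] at hrev
  obtain ⟨hr1, -, hr3⟩ := hrev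
  refine hfree ((a :: l).map f ++ W.reverse) ⟨?_, ?_, ?_⟩ ?_
  · rw [List.nodup_append']
    refine ⟨hmn, List.nodup_reverse.2 hWn, ?_⟩
    intro x hx hx'
    obtain ⟨i, hi, rfl⟩ := List.mem_map.1 hx
    exact hWo _ (List.mem_reverse.1 hx') i (hlt i hi) rfl
  · rw [List.isChain_append]
    refine ⟨hch, hr1.tail, ?_⟩
    intro x hx y hy
    rw [hlast'] at hx
    simp only [Option.mem_def, Option.some.injEq] at hx
    subst hx
    rcases hWr : W.reverse with _ | ⟨w, W'⟩
    · rw [hWr] at hy
      simp at hy
    · rw [hWr] at hy hr1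
      simp only [List.head?_cons, Option.mem_def, Option.some.injEq] at hy
      subst hy
      exact (List.isChain_cons_cons.1 hr1).1
  · intro x hx y hy
    rw [List.head?_append_of_ne_nil _ (by simp)] at hy
    simp only [List.map_cons, List.head?_cons, Option.mem_def, Option.some.injEq] at hy
    subst hy
    have hx2 : x ∈ (f b :: W.reverse).getLast? := by
      rcases hWr : W.reverse with _ | ⟨w, W'⟩
      · rw [hWr, List.append_nil, hlast'] at hx
        simpa using hx
      · rw [hWr, List.getLast?_append_of_ne_nil _ (by simp)] at hx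
        rw [List.getLast?_cons_cons]
        exact hx
    exact hr3 x hx2 (f a) (by simp)
  · rw [List.length_append, List.length_map, List.length_cons, List.length_reverse, hW,
      ← lenb_spec]
    omega

omit [Fintype V] [DecidableEq V] [DecidableRel G.Adj] in
theorem noConn_of_has (hfree : ∀ l, CycL G l → l.length ≠ m)
    (hinj : ∀ i j, i < n → j < n → f i = f j → i = j)
    (hadj : ∀ i j, i < n → j < n → i ≠ j → adjb p i j = true → G.Adj (f i) (f j)) :
    ∀ (T : List (ℕ × ℕ × ℕ × List ℕ)), T.all (entryb p n) = true →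
      ∀ (a b L q : ℕ), hasb a b L T = true → L + q = m →
      NoConn G f n a b q := by
  intro T
  induction T with
  | nil => intro _ a b L q h; simp [hasb] at h
  | cons t T ih =>
    intro hT a b L q h hq
    simp only [List.all_cons, Bool.and_eq_true] at hT
    simp only [hasb, Bool.or_eq_true, Bool.and_eq_true, Nat.beq_eq] at h
    rcases h with ⟨h1, h2 | h2⟩ | h
    · have := noConn_of_entry G hfree hinj hadj t hT.1 q (by omega)
      rw [h2.1, h2.2]
      exact this
    · have := noConn_of_entry G hfree hinj hadj t hT.1 q (by omega)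
      rw [h2.1, h2.2]
      exact NoConn.symm G this
    · exact ih hT.2 a b L q h hq

theorem rangeb_spec (T : List (ℕ × ℕ × ℕ × List ℕ)) (a b : ℕ) : ∀ (k : ℕ),
    rangeb T m a b k = true → ∀ q, 1 ≤ q → q ≤ k → hasb a b (m - q) T = true := by
  intro k
  induction k with
  | zero => intro _ q h1 h2; omega
  | succ k ih =>
    intro h q h1 h2
    simp only [rangeb, Bool.and_eq_true] at h
    rcases Nat.lt_or_ge q (k + 1) with hlt | hge
    · exact ih h.2 q h1 (by omega)
    · have : q = k + 1 := by omega
      rw [this]
      exact h.1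

/-- the vertices `f b` with `b < n`, `b ≠ a` and without an entry are few -/
theorem cntb_spec (T : List (ℕ × ℕ × ℕ × List ℕ)) (a L : ℕ) (k : ℕ) :
    (((Finset.range k).filter (fun b => b ≠ a ∧ hasb a b L T = false)).card) = cntb T a L k := by
  induction k with
  | zero => simp [cntb]
  | succ k ih =>
    rw [Finset.range_add_one, Finset.filter_insert, cntb]
    by_cases h : (a.beq k || hasb a k L T) = true
    · rw [if_pos h, if_neg, ih]
      rintro ⟨h1, h2⟩
      simp only [Bool.or_eq_true, Nat.beq_eq] at h
      rcases h with h | h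
      · exact h1 h.symm
      · rw [h] at h2
        simp at h2
    · rw [if_neg h, if_pos, Finset.card_insert_of_notMem (by simp), ih]
      simp only [Bool.or_eq_true, Nat.beq_eq, not_or] at h
      exact ⟨fun h' => h.1 h'.symm, by simpa using h.2⟩

/-- the vertices of the cycle -/
def fset (f : ℕ → V) (n : ℕ) : Finset V := (Finset.range n).image f

omit [Fintype V] in
theorem mem_fset {x : V} : x ∈ fset f n ↔ ∃ i, i < n ∧ f i = x := by
  simp [fset]

/-- number of neighbours on the cycle of a vertex `x` which is only joined to allowed positions -/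
theorem card_outside_ge (hdeg : ∀ v, m - 1 ≤ G.degree v) (x : V) (c : ℕ)
    (S : Finset ℕ) (hS : S.card ≤ c)
    (hx : ∀ i, i < n → G.Adj x (f i) → i ∈ S) :
    m - 1 ≤ (G.neighborFinset x \ fset f n).card + c := by
  have h1 : G.neighborFinset x ⊆ (G.neighborFinset x \ fset f n) ∪ S.image f := by
    intro y hy
    by_cases hyF : y ∈ fset f n
    · obtain ⟨i, hi, rfl⟩ := mem_fset.1 hyF
      rw [SimpleGraph.mem_neighborFinset] at hy
      exact Finset.mem_union_right _ (Finset.mem_image_of_mem f (hx i hi hy))
    · exact Finset.mem_union_left _ (Finset.mem_sdiff.2 ⟨hy, hyF⟩)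
  have h2 := Finset.card_le_card h1
  have h3 := Finset.card_union_le (G.neighborFinset x \ fset f n) (S.image f)
  have h4 : (S.image f).card ≤ S.card := Finset.card_image_le
  have h5 := hdeg x
  rw [SimpleGraph.card_neighborFinset_eq_degree] at h2
  omega

/-- `x` is reached from the position `a` with radius `ρ` -/
def Reach (G : SimpleGraph V) (f : ℕ → V) (n a ρ : ℕ) (x : V) : Prop :=
  ∃ W : List V, W.length ≤ ρ ∧ (W = [] ↔ ρ = 0) ∧ (∀ w ∈ W, ∀ i, i < n → w ≠ f i) ∧
    List.IsChain G.Adj (f a :: W) ∧ (f a :: W).getLast? = some x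

omit [Fintype V] [DecidableEq V] [DecidableRel G.Adj] in
theorem reach_ne_adj (hinj : ∀ i j, i < n → j < n → f i = f j → i = j) {a b ρ ρ' : ℕ}
    (ha : a < n) (hb : b < n) (hab : a ≠ b)
    (h0 : ρ + ρ' = 0 → NoConn G f n a b 0)
    (h1 : ∀ q, 1 ≤ q → q ≤ ρ + ρ' → NoConn G f n a b q) {x y : V}
    (hx : Reach G f n a ρ x) (hy : Reach G f n b ρ' y) : x ≠ y ∧ ¬ G.Adj x y := by
  obtain ⟨W, w1, w2, w3, w4, w5⟩ := hx
  obtain ⟨W', u1, u2, u3, u4, u5⟩ := hy
  -- a general consequence: no outside walk
  have key : ∀ X : List V, X.length ≤ ρ + ρ' → (∀ w ∈ X, ∀ i, i < n → w ≠ f i) →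
      (X = [] → ρ + ρ' = 0) → ¬ List.IsChain G.Adj (f a :: (X ++ [f b])) := by
    intro X hX hXo hX0 hXc
    by_cases hne : X = []
    · subst hne
      exact h0 (hX0 rfl) [] rfl List.nodup_nil (by simp) hXc
    · obtain ⟨X', x1, x2, x3, x4, x5⟩ := exists_simple_chain (G := G) (z := f a) (z' := f b)
        (P := fun w => ∀ i, i < n → w ≠ f i) X hXo hXc hne
      have : X'.length ≠ 0 := fun h => x4 (List.length_eq_zero_iff.1 h)
      exact h1 X'.length (by omega) (by omega) X' rfl x1 x2 x3
  have hlastW : ∀ (a : ℕ) (W : List V) (x : V), W ≠ [] → (f a :: W).getLast? = some x →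
      ∃ X, W = X ++ [x] := by
    intro a W x hW h
    obtain ⟨X, z, rfl⟩ := (List.eq_nil_or_concat' W).resolve_left hW
    refine ⟨X, ?_⟩
    rw [← List.cons_append, List.getLast?_concat] at h
    simp only [Option.some.injEq] at h
    rw [h]
  constructor
  · intro hxy
    subst hxy
    by_cases hW : W = []
    · by_cases hW' : W' = []
      · subst hW hW'
        simp only [List.getLast?_singleton, Option.some.injEq] at w5 u5
        exact hab (hinj a b ha hb (w5.trans u5.symm))
      · subst hW
        simp only [List.getLast?_singleton, Option.some.injEq] at w5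
        obtain ⟨X, rfl⟩ := hlastW b W' x hW' u5
        exact u3 x (by simp) a ha w5.symm
    · by_cases hW' : W' = []
      · subst hW'
        simp only [List.getLast?_singleton, Option.some.injEq] at u5
        obtain ⟨X, rfl⟩ := hlastW a W x hW w5
        exact w3 x (by simp) b hb u5.symm
      · obtain ⟨X, rfl⟩ := hlastW a W x hW w5
        obtain ⟨X', rfl⟩ := hlastW b W' x hW' u5
        apply key (X ++ x :: X'.reverse)
        · simp only [List.length_append, List.length_cons, List.length_nil,
            List.length_reverse] at w1 u1 ⊢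
          omega
        · intro w hw
          simp only [List.mem_append, List.mem_cons, List.mem_reverse] at hw
          rcases hw with hw | hw | hw
          · exact w3 w (by simp [hw])
          · exact w3 w (by simp [hw])
          · exact u3 w (by simp [hw])
        · intro h
          simp at h
        · have e : f a :: (X ++ x :: X'.reverse ++ [f b]) =
              (f a :: X) ++ x :: (X'.reverse ++ [f b]) := by simp
          rw [e, List.isChain_split]
          refine ⟨by simpa using w4, ?_⟩
          have := isChain_reverse u4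
          simpa using this
  · intro hadj
    apply key (W ++ W'.reverse)
    · rw [List.length_append, List.length_reverse]
      omega
    · intro w hw
      simp only [List.mem_append, List.mem_reverse] at hw
      rcases hw with hw | hw
      · exact w3 w hw
      · exact u3 w hw
    · intro h
      rw [List.append_eq_nil_iff, List.reverse_eq_nil_iff] at h
      rw [w2.1 h.1, u2.1 h.2]
    · have e : f a :: (W ++ W'.reverse ++ [f b]) = (f a :: W) ++ (f b :: W').reverse := by simp
      rw [e, List.isChain_append]
      refine ⟨w4, isChain_reverse u4, ?_⟩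
      intro z hz z' hz'
      rw [w5] at hz
      rw [List.head?_reverse, u5] at hz'
      simp only [Option.mem_def, Option.some.injEq] at hz hz'
      rw [← hz, ← hz']
      exact hadj

/-- a set with more than `ω - 1` vertices in a neighbourhood has two nonadjacent vertices -/
theorem exists_nonadj (hmax : ∀ K' : Finset V, G.IsClique (K' : Set V) → K'.card ≤ r) (x : V)
    (D : Finset V) (hD : D ⊆ G.neighborFinset x) (hr : r ≤ D.card) :
    ∃ u ∈ D, ∃ v ∈ D, u ≠ v ∧ ¬ G.Adj u v := by
  by_contra hcon
  push Not at hcon
  have hx : x ∉ D := by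
    intro h
    have := hD h
    rw [SimpleGraph.mem_neighborFinset] at this
    exact this.ne rfl
  have hcl : G.IsClique ((insert x D : Finset V) : Set V) := by
    rw [Finset.coe_insert, SimpleGraph.isClique_insert]
    refine ⟨fun u hu v hv huv => hcon u hu v hv huv, ?_⟩
    intro u hu _
    have := hD hu
    rwa [SimpleGraph.mem_neighborFinset] at this
  have := hmax _ hcl
  rw [Finset.card_insert_of_notMem hx] at this
  omega

/-- the independent set found at a port -/
theorem port_set (hdeg : ∀ v, m - 1 ≤ G.degree v)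
    (hmax : ∀ K' : Finset V, G.IsClique (K' : Set V) → K'.card ≤ r)
    (hfree : ∀ l, CycL G l → l.length ≠ m) (hm : 1 ≤ m)
    (hinj : ∀ i j, i < n → j < n → f i = f j → i = j)
    (hadj : ∀ i j, i < n → j < n → i ≠ j → adjb p i j = true → G.Adj (f i) (f j))
    (T : List (ℕ × ℕ × ℕ × List ℕ)) (hT : T.all (entryb p n) = true) (q : ℕ × ℕ × ℕ)
    (hq : portb T m r n q = true) :
    q.1 < n ∧ ∃ I : Finset V, G.IsIndepSet (I : Set V) ∧ I.card = q.2.2 ∧
      ∀ x ∈ I, Reach G f n q.1 q.2.1 x := by
  obtain ⟨a, ρ, w⟩ := q
  simp only [portb, Bool.and_eq_true, Nat.blt_eq] at hq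
  obtain ⟨ha, hq⟩ := hq
  refine ⟨ha, ?_⟩
  dsimp only at hq ⊢
  -- neighbours on the cycle of `f a`
  have hN0 : m - 1 ≤ (G.neighborFinset (f a) \ fset f n).card + cntb T a m n := by
    apply card_outside_ge G hdeg (f a) _
      ((Finset.range n).filter (fun b => b ≠ a ∧ hasb a b m T = false))
      (le_of_eq (cntb_spec T a m n))
    intro i hi hai
    rw [Finset.mem_filter, Finset.mem_range]
    refine ⟨hi, fun h => ?_, ?_⟩
    · rw [h] at hai
      exact hai.ne rfl
    · by_contra hcon
      rw [Bool.not_eq_false] at hcon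
      refine noConn_of_has G hfree hinj hadj T hT a i m 0 hcon (by omega) [] rfl List.nodup_nil
        (by simp) ?_
      simpa using hai
  have hN1 : ∀ y ∈ G.neighborFinset (f a) \ fset f n,
      m - 1 ≤ (G.neighborFinset y \ fset f n).card + (cntb T a (m - 1) n + 1) := by
    intro y hy
    rw [Finset.mem_sdiff, SimpleGraph.mem_neighborFinset] at hy
    apply card_outside_ge G hdeg y _
      (insert a ((Finset.range n).filter (fun b => b ≠ a ∧ hasb a b (m - 1) T = false)))
      ((Finset.card_insert_le _ _).trans (by rw [cntb_spec]))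
    intro i hi hyi
    rw [Finset.mem_insert, Finset.mem_filter, Finset.mem_range]
    by_cases hia : i = a
    · exact Or.inl hia
    · refine Or.inr ⟨hi, hia, ?_⟩
      by_contra hcon
      rw [Bool.not_eq_false] at hcon
      refine noConn_of_has G hfree hinj hadj T hT a i (m - 1) 1 hcon (by omega) [y] rfl
        (List.nodup_singleton y) ?_ ?_
      · intro w hw j hj hwj
        rw [List.mem_singleton] at hw
        subst hw
        exact hy.2 (mem_fset.2 ⟨j, hj, hwj.symm⟩)
      · simp only [List.cons_append, List.nil_append, List.isChain_cons_cons,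
          List.isChain_singleton, and_true]
        exact ⟨hy.1, hyi⟩
  have hr1 : ∀ x ∈ G.neighborFinset (f a) \ fset f n, Reach G f n a 1 x := by
    intro x hx
    rw [Finset.mem_sdiff, SimpleGraph.mem_neighborFinset] at hx
    refine ⟨[x], by simp, by simp, ?_, ?_, by simp⟩
    · intro w hw j hj hwj
      rw [List.mem_singleton] at hw
      subst hw
      exact hx.2 (mem_fset.2 ⟨j, hj, hwj.symm⟩)
    · rw [List.isChain_cons_cons]
      exact ⟨hx.1, List.isChain_singleton _⟩
  rcases ρ with _ | _ | _ | ρ
  · -- radius 0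
    simp only [Nat.beq_eq] at hq
    refine ⟨{f a}, by simp, by rw [Finset.card_singleton, hq], ?_⟩
    intro x hx
    rw [Finset.mem_singleton] at hx
    subst hx
    exact ⟨[], by simp, by simp, by simp, List.isChain_singleton _, by simp⟩
  · -- radius 1
    simp only [Bool.or_eq_true, Bool.and_eq_true, Nat.beq_eq, Nat.ble_eq] at hq
    rcases hq with ⟨h1, h2⟩ | ⟨h1, h2⟩
    · obtain ⟨y, hy⟩ : (G.neighborFinset (f a) \ fset f n).Nonempty := by
        rw [← Finset.card_pos]; omega
      refine ⟨{y}, by simp, by rw [Finset.card_singleton, h1], ?_⟩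
      intro x hx
      rw [Finset.mem_singleton] at hx
      subst hx
      exact hr1 x hy
    · obtain ⟨u, hu, v, hv, huv, hnadj⟩ := exists_nonadj G hmax (f a)
        (G.neighborFinset (f a) \ fset f n) Finset.sdiff_subset (by omega)
      refine ⟨{u, v}, ?_, by rw [Finset.card_pair huv, h1], ?_⟩
      · intro x hx y hy hxy
        simp only [Finset.coe_insert, Finset.coe_singleton, Set.mem_insert_iff,
          Set.mem_singleton_iff] at hx hy
        rcases hx with rfl | rfl <;> rcases hy with rfl | rfl
        · exact absurd rfl hxy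
        · exact hnadj
        · exact fun h => hnadj h.symm
        · exact absurd rfl hxy
      · intro x hx
        rw [Finset.mem_insert, Finset.mem_singleton] at hx
        rcases hx with rfl | rfl
        · exact hr1 _ hu
        · exact hr1 _ hv
  · -- radius 2
    simp only [Bool.and_eq_true, Nat.beq_eq, Nat.ble_eq] at hq
    obtain ⟨h1, h2, h3⟩ := hq
    obtain ⟨y, hy⟩ : (G.neighborFinset (f a) \ fset f n).Nonempty := by
      rw [← Finset.card_pos]; omega
    have hy1 := hN1 y hy
    obtain ⟨u, hu, v, hv, huv, hnadj⟩ := exists_nonadj G hmax y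
      (G.neighborFinset y \ fset f n) Finset.sdiff_subset (by omega)
    have hr2 : ∀ x ∈ G.neighborFinset y \ fset f n, Reach G f n a 2 x := by
      intro x hx
      rw [Finset.mem_sdiff, SimpleGraph.mem_neighborFinset] at hx hy
      refine ⟨[y, x], by simp, by simp, ?_, ?_, by simp⟩
      · intro w hw j hj hwj
        simp only [List.mem_cons, List.not_mem_nil, or_false] at hw
        rcases hw with rfl | rfl
        · exact hy.2 (mem_fset.2 ⟨j, hj, hwj.symm⟩)
        · exact hx.2 (mem_fset.2 ⟨j, hj, hwj.symm⟩)
      · simp only [List.isChain_cons_cons, List.isChain_singleton, and_true]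
        exact ⟨hy.1, hx.1⟩
    refine ⟨{u, v}, ?_, by rw [Finset.card_pair huv, h1], ?_⟩
    · intro x hx y hy hxy
      simp only [Finset.coe_insert, Finset.coe_singleton, Set.mem_insert_iff,
        Set.mem_singleton_iff] at hx hy
      rcases hx with rfl | rfl <;> rcases hy with rfl | rfl
      · exact absurd rfl hxy
      · exact hnadj
      · exact fun h => hnadj h.symm
      · exact absurd rfl hxy
    · intro x hx
      rw [Finset.mem_insert, Finset.mem_singleton] at hx
      rcases hx with rfl | rfl
      · exact hr2 _ hu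
      · exact hr2 _ hv
  · simp at hq

theorem ports_set (hdeg : ∀ v, m - 1 ≤ G.degree v)
    (hmax : ∀ K' : Finset V, G.IsClique (K' : Set V) → K'.card ≤ r)
    (hfree : ∀ l, CycL G l → l.length ≠ m) (hm : 5 ≤ m)
    (hinj : ∀ i j, i < n → j < n → f i = f j → i = j)
    (hadj : ∀ i j, i < n → j < n → i ≠ j → adjb p i j = true → G.Adj (f i) (f j))
    (T : List (ℕ × ℕ × ℕ × List ℕ)) (hT : T.all (entryb p n) = true) :
    ∀ (ports : List (ℕ × ℕ × ℕ)), ports.all (portb T m r n) = true →
      pairsb T m ports = true →
      ∃ I : Finset V, G.IsIndepSet (I : Set V) ∧ I.card = weightb ports ∧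
        ∀ x ∈ I, ∃ q ∈ ports, Reach G f n q.1 q.2.1 x := by
  intro ports
  induction ports with
  | nil =>
    intro _ _
    exact ⟨∅, by simp, by simp [weightb], by simp⟩
  | cons q l ih =>
    intro h1 h2
    simp only [List.all_cons, Bool.and_eq_true] at h1
    simp only [pairsb, Bool.and_eq_true, List.all_eq_true] at h2
    obtain ⟨I, i1, i2, i3⟩ := ih h1.2 h2.2
    obtain ⟨hqn, J, j1, j2, j3⟩ := port_set G hdeg hmax hfree (by omega) hinj hadj T hT q h1.1
    have hsep : ∀ x ∈ J, ∀ y ∈ I, x ≠ y ∧ ¬ G.Adj x y := by
      intro x hx y hy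
      obtain ⟨q', hq', hy'⟩ := i3 y hy
      have hp := h2.1 q' hq'
      have hp' := List.all_eq_true.1 h1.2 q' hq'
      have hqn' : q'.1 < n := (port_set G hdeg hmax hfree (by omega) hinj hadj T hT q' hp').1
      simp only [pairb, Bool.and_eq_true, Bool.not_eq_true', Bool.or_eq_true] at hp
      obtain ⟨p1, p2, p3⟩ := hp
      have hρ : q.2.1 + q'.2.1 ≤ 4 := by
        have a1 : q.2.1 ≤ 2 := by
          have := h1.1
          simp only [portb, Bool.and_eq_true] at this
          have h := this.2
          rcases h' : q.2.1 with _ | _ | _ | k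
          · omega
          · omega
          · omega
          · rw [h'] at h
            simp at h
        have a2 : q'.2.1 ≤ 2 := by
          have := hp'
          simp only [portb, Bool.and_eq_true] at this
          have h := this.2
          rcases h' : q'.2.1 with _ | _ | _ | k
          · omega
          · omega
          · omega
          · rw [h'] at h
            simp at h
        omega
      refine reach_ne_adj G hinj hqn hqn' ?_ ?_ ?_ (j3 x hx) hy'
      · intro h
        rw [← Nat.beq_eq] at h
        rw [h] at p1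
        simp at p1
      · intro h0
        rcases p3 with p3 | p3
        · rw [← Nat.beq_eq] at h0
          rw [h0] at p3
          simp at p3
        · exact noConn_of_has G hfree hinj hadj T hT _ _ m 0 p3 (by omega)
      · intro k hk1 hk2
        exact noConn_of_has G hfree hinj hadj T hT _ _ (m - k) k
          (rangeb_spec T _ _ _ p2 k hk1 hk2) (by omega)
    refine ⟨J ∪ I, ?_, ?_, ?_⟩
    · rw [Finset.coe_union]
      intro x hx y hy hxy
      rcases hx with hx | hx <;> rcases hy with hy | hy
      · exact j1 hx hy hxy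
      · exact (hsep x hx y hy).2
      · exact fun h => (hsep y hy x hx).2 h.symm
      · exact i1 hx hy hxy
    · rw [Finset.card_union_of_disjoint, j2, i2, weightb]
      rw [Finset.disjoint_left]
      intro x hx hx'
      exact (hsep x hx x hx').1 rfl
    · intro x hx
      rw [Finset.mem_union] at hx
      rcases hx with hx | hx
      · exact ⟨q, by simp, j3 x hx⟩
      · obtain ⟨q', hq', h⟩ := i3 x hx
        exact ⟨q', by simp [hq'], h⟩

/-- The engine. -/
theorem engine (hm : 5 ≤ m) (hdeg : ∀ v, m - 1 ≤ G.degree v)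
    (hfree : ∀ l, CycL G l → l.length ≠ m) (K : Finset V) (hK : G.IsClique (K : Set V))
    (hmax : ∀ K' : Finset V, G.IsClique (K' : Set V) → K'.card ≤ r)
    (F : List V) (hF : F.Nodup) (hFc : List.IsChain G.Adj F) (hp : PatOk K p F)
    (ports : List (ℕ × ℕ × ℕ)) (T : List (ℕ × ℕ × ℕ × List ℕ))
    (hc : certb m r p ports T = true) :
    ∃ I : Finset V, G.IsIndepSet (I : Set V) ∧ m ≤ I.card := by
  simp only [certb, Bool.and_eq_true, Nat.ble_eq] at hc
  obtain ⟨c1, c2, c3, c4⟩ := hc
  have hlen : p.length = F.length := hp.length_eq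
  have hFne : F ≠ [] := by
    rintro rfl
    simp only [List.length_nil] at hlen
    rcases ports with _ | ⟨q, l⟩
    · simp [weightb] at c4
      omega
    · simp only [List.all_cons, Bool.and_eq_true, portb, hlen] at c2
      simp at c2
  obtain ⟨v0, hv0⟩ : ∃ v0, v0 ∈ F := List.exists_mem_of_ne_nil F hFne
  have hget : ∀ i, ∀ hi : i < F.length, F.getD i v0 = F[i] := by
    intro i hi
    rw [List.getD_eq_getElem _ _ hi]
  obtain ⟨I, i1, i2, -⟩ := ports_set (n := p.length) (f := fun i => F.getD i v0) (p := p) G hdeg
    hmax hfree hm (by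
      intro i j hi hj hij
      rw [hlen] at hi hj
      rw [hget i hi, hget j hj] at hij
      exact (List.Nodup.getElem_inj_iff hF).1 hij) (by
      intro i j hi hj hne hij
      rw [hlen] at hi hj
      rw [hget i hi, hget j hj]
      simp only [adjb, Bool.or_eq_true, Bool.and_eq_true, Nat.beq_eq] at hij
      rcases hij with h | h | h
      · subst h
        exact List.isChain_iff_getElem.1 hFc i hj
      · subst h
        exact (List.isChain_iff_getElem.1 hFc j hi).symm
      · have hi' : i < p.length := by rw [hlen]; exact hi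
        have hj' : j < p.length := by rw [hlen]; exact hj
        rw [List.getD_eq_getElem _ _ hi', List.getD_eq_getElem _ _ hj'] at h
        have k1 := (List.forall₂_iff_get.1 hp).2 i hi' hi (by simpa using h.1)
        have k2 := (List.forall₂_iff_get.1 hp).2 j hj' hj (by simpa using h.2)
        refine hK k1 k2 ?_
        intro heq
        exact hne ((List.Nodup.getElem_inj_iff hF).1 heq)) T c1 ports c2 c3
  exact ⟨I, i1, by omega⟩

end core

end Vale.Agent.P048
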