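import Vale.Agent.P048.Engine

/-!
# P048: the certificate engine with excluded covering systems

As `Engine`, but the facts may also come from paths of positions which would close up to a covering
system with a forbidden number of vertices.
-/

namespace Vale.Agent.P048

open Finset

variable {V : Type*}

/-- all `true` positions below `k` are on `l` -/
def trueb (p : List Bool) (l : List ℕ) : ℕ → Bool
  | 0 => true
  | k + 1 => (!(p.getD k false) || memb k l) && trueb p l k

/-- A covering entry `(a, b, q, A, B)`: `a :: A ++ B` is a path of positions which ends in `b`,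
contains all `true` positions, and `A`, `B` end and start in `true` positions. -/
def centryb (p : List Bool) (n c0 c1 : ℕ) (t : ℕ × ℕ × ℕ × List ℕ × List ℕ) : Bool :=
  match t.2.2.2.2 with
  | [] => false
  | c :: B => chainb p t.1 t.2.2.2.1 && (chainb p c B &&
      (nodupb (t.1 :: (t.2.2.2.1 ++ (c :: B))) && (allltb n (t.1 :: (t.2.2.2.1 ++ (c :: B))) &&
      (p.getD (lastb t.1 t.2.2.2.1) false && (p.getD c false && ((lastb c B).beq t.2.1 &&
      (trueb p (t.1 :: (t.2.2.2.1 ++ (c :: B))) n &&
      (Nat.blt c0 (lenb (t.1 :: (t.2.2.2.1 ++ (c :: B))) + t.2.2.1) &&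
      Nat.blt (lenb (t.1 :: (t.2.2.2.1 ++ (c :: B))) + t.2.2.1) c1))))))))

/-- the table with the covering entries -/
def tabC (m : ℕ) (T : List (ℕ × ℕ × ℕ × List ℕ)) :
    List (ℕ × ℕ × ℕ × List ℕ × List ℕ) → List (ℕ × ℕ × ℕ × List ℕ)
  | [] => T
  | t :: C => (t.1, t.2.1, m - t.2.2.1, []) :: tabC m T C

/-- the whole certificate -/
def certb2 (m r c0 c1 : ℕ) (p : List Bool) (ports : List (ℕ × ℕ × ℕ))
    (T : List (ℕ × ℕ × ℕ × List ℕ)) (C : List (ℕ × ℕ × ℕ × List ℕ × List ℕ)) : Bool :=
  T.all (entryb p p.length) && (C.all (fun t => centryb p p.length c0 c1 t && Nat.ble t.2.2.1 m) &&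
    (ports.all (portb (tabC m T C) m r p.length) &&
    (pairsb (tabC m T C) m ports && Nat.ble m (weightb ports))))

theorem trueb_spec (p : List Bool) (l : List ℕ) : ∀ k, trueb p l k = true →
    ∀ i, i < k → p.getD i false = true → i ∈ l := by
  intro k
  induction k with
  | zero => intro _ i hi; omega
  | succ k ih =>
    intro h i hi hp
    simp only [trueb, Bool.and_eq_true, Bool.or_eq_true, Bool.not_eq_true'] at h
    rcases Nat.lt_or_ge i k with h1 | h1
    · exact ih h.2 i h1 hp
    · have : i = k := by omega
      subst this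
      rcases h.1 with h2 | h2
      · rw [h2] at hp
        simp at hp
      · exact (memb_spec _ _).1 h2

section core

variable [Fintype V] [DecidableEq V] (G : SimpleGraph V) [DecidableRel G.Adj] {m r n : ℕ}
  {p : List Bool} {f : ℕ → V}

omit [Fintype V] [DecidableEq V] [DecidableRel G.Adj] in
theorem chainb_spec' (hadj : ∀ i j, i < n → j < n → i ≠ j → adjb p i j = true → G.Adj (f i) (f j)) :
    ∀ (l : List ℕ) (a : ℕ), chainb p a l = true → (a :: l).Nodup →
      (∀ i ∈ a :: l, i < n) → List.IsChain G.Adj ((a :: l).map f) := by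
  intro l
  induction l with
  | nil => intro a _ _ _; simp
  | cons b l ih =>
    intro a h1 h2 h3
    simp only [chainb, Bool.and_eq_true] at h1
    rw [List.map_cons, List.map_cons, List.isChain_cons_cons]
    refine ⟨hadj a b (h3 a (by simp)) (h3 b (by simp)) ?_ h1.1, ?_⟩
    · intro hab
      rw [List.nodup_cons] at h2
      exact h2.1 (by rw [hab]; simp)
    · have := ih b h1.2 (List.nodup_cons.1 h2).2 (fun i hi => h3 i (List.mem_cons_of_mem _ hi))
      rwa [List.map_cons] at this

omit [Fintype V] [DecidableEq V] [DecidableRel G.Adj] in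
theorem noConn_of_centry {K : Finset V} {c0 c1 : ℕ}
    (hgap : ∀ bl, Sys G K bl → Cov K bl → c0 < bl.flatten.length → bl.flatten.length < c1 → False)
    (hinj : ∀ i j, i < n → j < n → f i = f j → i = j)
    (hadj : ∀ i j, i < n → j < n → i ≠ j → adjb p i j = true → G.Adj (f i) (f j))
    (hin : ∀ i, i < n → p.getD i false = true → f i ∈ K)
    (hcov : ∀ x ∈ K, ∃ i, i < n ∧ p.getD i false = true ∧ f i = x)
    (t : ℕ × ℕ × ℕ × List ℕ × List ℕ) (ht : centryb p n c0 c1 t = true) :
    NoConn G f n t.1 t.2.1 t.2.2.1 := by
  obtain ⟨a, b, q, A, B'⟩ := t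
  rcases B' with _ | ⟨c, B⟩
  · simp [centryb] at ht
  simp only [centryb, Bool.and_eq_true, Nat.beq_eq, Nat.blt_eq] at ht
  obtain ⟨h1, h2, h3, h4, h5, h6, h7, h8, h9, h10⟩ := ht
  intro W hW hWn hWo hWc
  dsimp only at hWc hW h9 h10
  have hnd := nodupb_spec _ h3
  have hlt := allltb_spec _ h4
  rw [← List.cons_append, List.nodup_append'] at hnd
  obtain ⟨n1, n2, n3⟩ := hnd
  have hltA : ∀ i ∈ a :: A, i < n := fun i hi => hlt i (by
    rw [← List.cons_append]
    exact List.mem_append_left _ hi)
  have hltB : ∀ i ∈ c :: B, i < n := fun i hi => hlt i (by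
    rw [← List.cons_append]
    exact List.mem_append_right _ hi)
  have hcA := chainb_spec' G hadj A a h1 n1 hltA
  have hcB := chainb_spec' G hadj B c h2 n2 hltB
  have hlB : ((c :: B).map f).getLast? = some (f b) := by
    rw [List.getLast?_map, lastb_spec, h7]
    rfl
  have hlA : ((a :: A).map f).getLast? = some (f (lastb a A)) := by
    rw [List.getLast?_map, lastb_spec]
    rfl
  have hltLast : lastb a A < n := hltA _ (List.mem_of_getLast? (lastb_spec A a))
  have hrev := chain_cons_concat_reverse hWc
  set P : List V := (c :: B).map f ++ (W.reverse ++ (a :: A).map f) with hP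
  have hnodup : P.Nodup := by
    rw [hP, List.nodup_append', List.nodup_append']
    refine ⟨?_, ⟨List.nodup_reverse.2 hWn, ?_, ?_⟩, ?_⟩
    · rw [List.nodup_map_iff_inj_on n2]
      intro x hx y hy hxy
      exact hinj x y (hltB x hx) (hltB y hy) hxy
    · rw [List.nodup_map_iff_inj_on n1]
      intro x hx y hy hxy
      exact hinj x y (hltA x hx) (hltA y hy) hxy
    · intro x hx hx'
      obtain ⟨i, hi, rfl⟩ := List.mem_map.1 hx'
      exact hWo _ (List.mem_reverse.1 hx) i (hltA i hi) rfl
    · intro x hx hx'
      obtain ⟨i, hi, rfl⟩ := List.mem_map.1 hx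
      rw [List.mem_append] at hx'
      rcases hx' with hx1 | hx1
      · exact hWo _ (List.mem_reverse.1 hx1) i (hltB i hi) rfl
      · obtain ⟨j, hj, hji⟩ := List.mem_map.1 hx1
        have := hinj j i (hltA j hj) (hltB i hi) hji
        subst this
        exact n3 hj hi
  have hchain : List.IsChain G.Adj P := by
    obtain ⟨X, hX⟩ : ∃ X, (c :: B).map f = X ++ [f b] := by
      obtain ⟨X, z, hXz⟩ := (List.eq_nil_or_concat' ((c :: B).map f)).resolve_left (by simp)
      rw [hXz, List.getLast?_concat] at hlB
      simp only [Option.some.injEq] at hlB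
      exact ⟨X, by rw [hXz, hlB]⟩
    have e : P = X ++ f b :: (W.reverse ++ (a :: A).map f) := by
      rw [hP, hX]
      simp
    rw [e, List.isChain_split, ← hX]
    refine ⟨hcB, ?_⟩
    have e2 : f b :: (W.reverse ++ (a :: A).map f) = (f b :: W.reverse) ++ f a :: A.map f := by
      simp
    rw [e2, List.isChain_split]
    refine ⟨hrev, ?_⟩
    rw [List.map_cons] at hcA
    exact hcA
  have hsys : Sys G K [P] := by
    refine ⟨?_, ?_, ?_, ?_⟩
    · simpa using hnodup
    · intro b' hb'
      rw [List.mem_singleton] at hb'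
      subst hb'
      exact hchain
    · intro b' hb'
      rw [List.mem_singleton] at hb'
      subst hb'
      exact ⟨f c, by rw [hP]; simp, hin c (hltB c (by simp)) h6⟩
    · intro b' hb'
      rw [List.mem_singleton] at hb'
      subst hb'
      refine ⟨f (lastb a A), ?_, hin _ hltLast h5⟩
      rw [hP, List.getLast?_append_of_ne_nil _ (by simp),
        List.getLast?_append_of_ne_nil _ (by simp)]
      exact hlA
  have hC : Cov K [P] := by
    intro x hx
    obtain ⟨i, hi, hpi, rfl⟩ := hcov x hx
    have := trueb_spec p _ n h8 i hi hpi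
    rw [← List.cons_append, List.mem_append] at this
    rw [List.flatten_cons, List.flatten_nil, List.append_nil, hP, List.mem_append,
      List.mem_append]
    rcases this with h | h
    · exact Or.inr (Or.inr (List.mem_map_of_mem h))
    · exact Or.inl (List.mem_map_of_mem h)
  have hlen : P.length = lenb (a :: (A ++ c :: B)) + q := by
    rw [hP, lenb_spec]
    simp only [List.length_append, List.length_map, List.length_cons, List.length_reverse, hW]
    omega
  refine hgap [P] hsys hC ?_ ?_
  · rw [List.flatten_cons, List.flatten_nil, List.append_nil, hlen]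
    exact h9
  · rw [List.flatten_cons, List.flatten_nil, List.append_nil, hlen]
    exact h10

omit [Fintype V] [DecidableEq V] [DecidableRel G.Adj] in
theorem noConn_of_tabC {K : Finset V} {c0 c1 : ℕ} (hfree : ∀ l, CycL G l → l.length ≠ m)
    (hgap : ∀ bl, Sys G K bl → Cov K bl → c0 < bl.flatten.length → bl.flatten.length < c1 → False)
    (hinj : ∀ i j, i < n → j < n → f i = f j → i = j)
    (hadj : ∀ i j, i < n → j < n → i ≠ j → adjb p i j = true → G.Adj (f i) (f j))
    (hin : ∀ i, i < n → p.getD i false = true → f i ∈ K)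
    (hcov : ∀ x ∈ K, ∃ i, i < n ∧ p.getD i false = true ∧ f i = x)
    (T : List (ℕ × ℕ × ℕ × List ℕ)) (hT : T.all (entryb p n) = true) :
    ∀ (C : List (ℕ × ℕ × ℕ × List ℕ × List ℕ)),
      C.all (fun t => centryb p n c0 c1 t && Nat.ble t.2.2.1 m) = true →
      ∀ (a b L q : ℕ), hasb a b L (tabC m T C) = true → L + q = m → NoConn G f n a b q := by
  intro C
  induction C with
  | nil =>
    intro _ a b L q h hq
    exact noConn_of_has G hfree hinj hadj T hT a b L q h hq
  | cons t C ih =>
    intro hC a b L q h hq
    simp only [List.all_cons, Bool.and_eq_true, Nat.ble_eq] at hC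
    simp only [tabC, hasb, Bool.or_eq_true, Bool.and_eq_true, Nat.beq_eq] at h
    rcases h with ⟨h1, h2 | h2⟩ | h
    · have := noConn_of_centry G hgap hinj hadj hin hcov t hC.1.1
      have hq' : q = t.2.2.1 := by omega
      rw [hq', h2.1, h2.2]
      exact this
    · have := noConn_of_centry G hgap hinj hadj hin hcov t hC.1.1
      have hq' : q = t.2.2.1 := by omega
      rw [hq', h2.1, h2.2]
      exact NoConn.symm G this
    · exact ih (by simpa only [Bool.and_eq_true, Nat.ble_eq] using hC.2) a b L q h hq

/-- the independent set found at a port -/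
theorem port_set2 (hdeg : ∀ v, m - 1 ≤ G.degree v)
    (hmax : ∀ K' : Finset V, G.IsClique (K' : Set V) → K'.card ≤ r)
    (hm : 1 ≤ m)
    (T : List (ℕ × ℕ × ℕ × List ℕ))
    (hT : ∀ a b L q, hasb a b L T = true → L + q = m → NoConn G f n a b q) (q : ℕ × ℕ × ℕ)
    (hq : portb T m r n q = true) :
    q.1 < n ∧ ∃ I : Finset V, G.IsIndepSet (I : Set V) ∧ I.card = q.2.2 ∧
      ∀ x ∈ I, Reach G f n q.1 q.2.1 x := by
  obtain ⟨a, ρ, w⟩ := q
  simp only [portb, Bool.and_eq_true, Nat.blt_eq] at hq
  obtain ⟨ha, hq⟩ := hq
  refine ⟨ha, ?_⟩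
  dsimp only at hq ⊢
  -- neighbours on the cycle of `f a`
  have hN0 : m - 1 ≤ (G.neighborFinset (f a) \ fset f n).card + cntb T a m n := by
    apply card_outside_ge G hdeg (f a) _
      ((Finset.range n).filter (fun b => b ≠ a ∧ hasb a b m T = false))
      (le_of_eq (cntb_spec T a m n))
    intro i hi hai
    rw [Finset.mem_filter, Finset.mem_range]
    refine ⟨hi, fun h => ?_, ?_⟩
    · rw [h] at hai
      exact hai.ne rfl
    · by_contra hcon
      rw [Bool.not_eq_false] at hcon
      refine hT a i m 0 hcon (by omega) [] rfl List.nodup_nil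
        (by simp) ?_
      simpa using hai
  have hN1 : ∀ y ∈ G.neighborFinset (f a) \ fset f n,
      m - 1 ≤ (G.neighborFinset y \ fset f n).card + (cntb T a (m - 1) n + 1) := by
    intro y hy
    rw [Finset.mem_sdiff, SimpleGraph.mem_neighborFinset] at hy
    apply card_outside_ge G hdeg y _
      (insert a ((Finset.range n).filter (fun b => b ≠ a ∧ hasb a b (m - 1) T = false)))
      ((Finset.card_insert_le _ _).trans (by rw [cntb_spec]))
    intro i hi hyi
    rw [Finset.mem_insert, Finset.mem_filter, Finset.mem_range]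
    by_cases hia : i = a
    · exact Or.inl hia
    · refine Or.inr ⟨hi, hia, ?_⟩
      by_contra hcon
      rw [Bool.not_eq_false] at hcon
      refine hT a i (m - 1) 1 hcon (by omega) [y] rfl
        (List.nodup_singleton y) ?_ ?_
      · intro w hw j hj hwj
        rw [List.mem_singleton] at hw
        subst hw
        exact hy.2 (mem_fset.2 ⟨j, hj, hwj.symm⟩)
      · simp only [List.cons_append, List.nil_append, List.isChain_cons_cons,
          List.isChain_singleton, and_true]
        exact ⟨hy.1, hyi⟩
  have hr1 : ∀ x ∈ G.neighborFinset (f a) \ fset f n, Reach G f n a 1 x := by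
    intro x hx
    rw [Finset.mem_sdiff, SimpleGraph.mem_neighborFinset] at hx
    refine ⟨[x], by simp, by simp, ?_, ?_, by simp⟩
    · intro w hw j hj hwj
      rw [List.mem_singleton] at hw
      subst hw
      exact hx.2 (mem_fset.2 ⟨j, hj, hwj.symm⟩)
    · rw [List.isChain_cons_cons]
      exact ⟨hx.1, List.isChain_singleton _⟩
  rcases ρ with _ | _ | _ | ρ
  · -- radius 0
    simp only [Nat.beq_eq] at hq
    refine ⟨{f a}, by simp, by rw [Finset.card_singleton, hq], ?_⟩
    intro x hx
    rw [Finset.mem_singleton] at hx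
    subst hx
    exact ⟨[], by simp, by simp, by simp, List.isChain_singleton _, by simp⟩
  · -- radius 1
    simp only [Bool.or_eq_true, Bool.and_eq_true, Nat.beq_eq, Nat.ble_eq] at hq
    rcases hq with ⟨h1, h2⟩ | ⟨h1, h2⟩
    · obtain ⟨y, hy⟩ : (G.neighborFinset (f a) \ fset f n).Nonempty := by
        rw [← Finset.card_pos]; omega
      refine ⟨{y}, by simp, by rw [Finset.card_singleton, h1], ?_⟩
      intro x hx
      rw [Finset.mem_singleton] at hx
      subst hx
      exact hr1 x hy
    · obtain ⟨u, hu, v, hv, huv, hnadj⟩ := exists_nonadj G hmax (f a)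
        (G.neighborFinset (f a) \ fset f n) Finset.sdiff_subset (by omega)
      refine ⟨{u, v}, ?_, by rw [Finset.card_pair huv, h1], ?_⟩
      · intro x hx y hy hxy
        simp only [Finset.coe_insert, Finset.coe_singleton, Set.mem_insert_iff,
          Set.mem_singleton_iff] at hx hy
        rcases hx with rfl | rfl <;> rcases hy with rfl | rfl
        · exact absurd rfl hxy
        · exact hnadj
        · exact fun h => hnadj h.symm
        · exact absurd rfl hxy
      · intro x hx
        rw [Finset.mem_insert, Finset.mem_singleton] at hx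
        rcases hx with rfl | rfl
        · exact hr1 _ hu
        · exact hr1 _ hv
  · -- radius 2
    simp only [Bool.and_eq_true, Nat.beq_eq, Nat.ble_eq] at hq
    obtain ⟨h1, h2, h3⟩ := hq
    obtain ⟨y, hy⟩ : (G.neighborFinset (f a) \ fset f n).Nonempty := by
      rw [← Finset.card_pos]; omega
    have hy1 := hN1 y hy
    obtain ⟨u, hu, v, hv, huv, hnadj⟩ := exists_nonadj G hmax y
      (G.neighborFinset y \ fset f n) Finset.sdiff_subset (by omega)
    have hr2 : ∀ x ∈ G.neighborFinset y \ fset f n, Reach G f n a 2 x := by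
      intro x hx
      rw [Finset.mem_sdiff, SimpleGraph.mem_neighborFinset] at hx hy
      refine ⟨[y, x], by simp, by simp, ?_, ?_, by simp⟩
      · intro w hw j hj hwj
        simp only [List.mem_cons, List.not_mem_nil, or_false] at hw
        rcases hw with rfl | rfl
        · exact hy.2 (mem_fset.2 ⟨j, hj, hwj.symm⟩)
        · exact hx.2 (mem_fset.2 ⟨j, hj, hwj.symm⟩)
      · simp only [List.isChain_cons_cons, List.isChain_singleton, and_true]
        exact ⟨hy.1, hx.1⟩
    refine ⟨{u, v}, ?_, by rw [Finset.card_pair huv, h1], ?_⟩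
    · intro x hx y hy hxy
      simp only [Finset.coe_insert, Finset.coe_singleton, Set.mem_insert_iff,
        Set.mem_singleton_iff] at hx hy
      rcases hx with rfl | rfl <;> rcases hy with rfl | rfl
      · exact absurd rfl hxy
      · exact hnadj
      · exact fun h => hnadj h.symm
      · exact absurd rfl hxy
    · intro x hx
      rw [Finset.mem_insert, Finset.mem_singleton] at hx
      rcases hx with rfl | rfl
      · exact hr2 _ hu
      · exact hr2 _ hv
  · simp at hq

theorem ports_set2 (hdeg : ∀ v, m - 1 ≤ G.degree v)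
    (hmax : ∀ K' : Finset V, G.IsClique (K' : Set V) → K'.card ≤ r)
    (hm : 5 ≤ m)
    (hinj : ∀ i j, i < n → j < n → f i = f j → i = j)
    (T : List (ℕ × ℕ × ℕ × List ℕ))
    (hT : ∀ a b L q, hasb a b L T = true → L + q = m → NoConn G f n a b q) :
    ∀ (ports : List (ℕ × ℕ × ℕ)), ports.all (portb T m r n) = true →
      pairsb T m ports = true →
      ∃ I : Finset V, G.IsIndepSet (I : Set V) ∧ I.card = weightb ports ∧
        ∀ x ∈ I, ∃ q ∈ ports, Reach G f n q.1 q.2.1 x := by
  intro ports
  induction ports with
  | nil =>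
    intro _ _
    exact ⟨∅, by simp, by simp [weightb], by simp⟩
  | cons q l ih =>
    intro h1 h2
    simp only [List.all_cons, Bool.and_eq_true] at h1
    simp only [pairsb, Bool.and_eq_true, List.all_eq_true] at h2
    obtain ⟨I, i1, i2, i3⟩ := ih h1.2 h2.2
    obtain ⟨hqn, J, j1, j2, j3⟩ := port_set2 G hdeg hmax (by omega) T hT q h1.1
    have hsep : ∀ x ∈ J, ∀ y ∈ I, x ≠ y ∧ ¬ G.Adj x y := by
      intro x hx y hy
      obtain ⟨q', hq', hy'⟩ := i3 y hy
      have hp := h2.1 q' hq'
      have hp' := List.all_eq_true.1 h1.2 q' hq'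
      have hqn' : q'.1 < n := (port_set2 G hdeg hmax (by omega) T hT q' hp').1
      simp only [pairb, Bool.and_eq_true, Bool.not_eq_true', Bool.or_eq_true] at hp
      obtain ⟨p1, p2, p3⟩ := hp
      have hρ : q.2.1 + q'.2.1 ≤ 4 := by
        have a1 : q.2.1 ≤ 2 := by
          have := h1.1
          simp only [portb, Bool.and_eq_true] at this
          have h := this.2
          rcases h' : q.2.1 with _ | _ | _ | k
          · omega
          · omega
          · omega
          · rw [h'] at h
            simp at h
        have a2 : q'.2.1 ≤ 2 := by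
          have := hp'
          simp only [portb, Bool.and_eq_true] at this
          have h := this.2
          rcases h' : q'.2.1 with _ | _ | _ | k
          · omega
          · omega
          · omega
          · rw [h'] at h
            simp at h
        omega
      refine reach_ne_adj G hinj hqn hqn' ?_ ?_ ?_ (j3 x hx) hy'
      · intro h
        rw [← Nat.beq_eq] at h
        rw [h] at p1
        simp at p1
      · intro h0
        rcases p3 with p3 | p3
        · rw [← Nat.beq_eq] at h0
          rw [h0] at p3
          simp at p3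
        · exact hT _ _ m 0 p3 (by omega)
      · intro k hk1 hk2
        exact hT _ _ (m - k) k
          (rangeb_spec T _ _ _ p2 k hk1 hk2) (by omega)
    refine ⟨J ∪ I, ?_, ?_, ?_⟩
    · rw [Finset.coe_union]
      intro x hx y hy hxy
      rcases hx with hx | hx <;> rcases hy with hy | hy
      · exact j1 hx hy hxy
      · exact (hsep x hx y hy).2
      · exact fun h => (hsep y hy x hx).2 h.symm
      · exact i1 hx hy hxy
    · rw [Finset.card_union_of_disjoint, j2, i2, weightb]
      rw [Finset.disjoint_left]
      intro x hx hx'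
      exact (hsep x hx x hx').1 rfl
    · intro x hx
      rw [Finset.mem_union] at hx
      rcases hx with hx | hx
      · exact ⟨q, by simp, j3 x hx⟩
      · obtain ⟨q', hq', h⟩ := i3 x hx
        exact ⟨q', by simp [hq'], h⟩

/-- The engine with covering entries. -/
theorem engine2 (hm : 5 ≤ m) (hdeg : ∀ v, m - 1 ≤ G.degree v)
    (hfree : ∀ l, CycL G l → l.length ≠ m) (K : Finset V) (hK : G.IsClique (K : Set V))
    (hmax : ∀ K' : Finset V, G.IsClique (K' : Set V) → K'.card ≤ r) {c0 c1 : ℕ}
    (hgap : ∀ bl, Sys G K bl → Cov K bl → c0 < bl.flatten.length → bl.flatten.length < c1 → False)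
    (F : List V) (hF : F.Nodup) (hFc : List.IsChain G.Adj F) (hp : PatOk K p F)
    (hcount : K.card ≤ ((Finset.range p.length).filter (fun i => p.getD i false = true)).card)
    (ports : List (ℕ × ℕ × ℕ)) (T : List (ℕ × ℕ × ℕ × List ℕ))
    (C : List (ℕ × ℕ × ℕ × List ℕ × List ℕ))
    (hc : certb2 m r c0 c1 p ports T C = true) :
    ∃ I : Finset V, G.IsIndepSet (I : Set V) ∧ m ≤ I.card := by
  simp only [certb2, Bool.and_eq_true, Nat.ble_eq] at hc
  obtain ⟨d1, d2, d3, d4, d5⟩ := hc
  have hlen : p.length = F.length := hp.length_eq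
  have hFne : F ≠ [] := by
    rintro rfl
    simp only [List.length_nil] at hlen
    rcases ports with _ | ⟨q, l⟩
    · simp [weightb] at d5
      omega
    · simp only [List.all_cons, Bool.and_eq_true, portb, hlen] at d3
      simp at d3
  obtain ⟨v0, hv0⟩ : ∃ v0, v0 ∈ F := List.exists_mem_of_ne_nil F hFne
  have hget : ∀ i, ∀ hi : i < F.length, F.getD i v0 = F[i] := by
    intro i hi
    rw [List.getD_eq_getElem _ _ hi]
  have hinj : ∀ i j, i < p.length → j < p.length → F.getD i v0 = F.getD j v0 → i = j := by
    intro i j hi hj hij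
    rw [hlen] at hi hj
    rw [hget i hi, hget j hj] at hij
    exact (List.Nodup.getElem_inj_iff hF).1 hij
  have hin : ∀ i, i < p.length → p.getD i false = true → F.getD i v0 ∈ K := by
    intro i hi h
    have hi' : i < F.length := by omega
    rw [hget i hi']
    rw [List.getD_eq_getElem _ _ hi] at h
    exact (List.forall₂_iff_get.1 hp).2 i hi hi' (by simpa using h)
  have hadj : ∀ i j, i < p.length → j < p.length → i ≠ j → adjb p i j = true →
      G.Adj (F.getD i v0) (F.getD j v0) := by
    intro i j hi hj hne hij
    have hi' : i < F.length := by omega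
    have hj' : j < F.length := by omega
    simp only [adjb, Bool.or_eq_true, Bool.and_eq_true, Nat.beq_eq] at hij
    rcases hij with h | h | h
    · rw [hget i hi', hget j hj']
      subst h
      exact List.isChain_iff_getElem.1 hFc i hj'
    · rw [hget i hi', hget j hj']
      subst h
      exact (List.isChain_iff_getElem.1 hFc j hi').symm
    · refine hK (hin i hi h.1) (hin j hj h.2) ?_
      intro heq
      exact hne (hinj i j hi hj heq)
  have hcov : ∀ x ∈ K, ∃ i, i < p.length ∧ p.getD i false = true ∧ F.getD i v0 = x := by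
    have h1 : ((Finset.range p.length).filter (fun i => p.getD i false = true)).image
        (fun i => F.getD i v0) ⊆ K := by
      intro x hx
      rw [Finset.mem_image] at hx
      obtain ⟨i, hi, rfl⟩ := hx
      rw [Finset.mem_filter, Finset.mem_range] at hi
      exact hin i hi.1 hi.2
    have h2 := Finset.eq_of_subset_of_card_le h1 (by
      rw [Finset.card_image_of_injOn]
      · exact hcount
      · intro i hi j hj hij
        rw [Finset.mem_coe, Finset.mem_filter, Finset.mem_range] at hi hj
        exact hinj i j hi.1 hj.1 hij)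
    intro x hx
    rw [← h2, Finset.mem_image] at hx
    obtain ⟨i, hi, rfl⟩ := hx
    rw [Finset.mem_filter, Finset.mem_range] at hi
    exact ⟨i, hi.1, hi.2, rfl⟩
  obtain ⟨I, i1, i2, -⟩ := ports_set2 (n := p.length) (f := fun i => F.getD i v0) G hdeg
    hmax hm hinj (tabC m T C) (noConn_of_tabC (p := p) G hfree hgap hinj hadj hin hcov T d1 C
      d2) ports d3 d4
  exact ⟨I, i1, by omega⟩

end core

end Vale.Agent.P048
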