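import Vale.Agent.P048.Ind
import Vale.Agent.P048.Colored2

namespace Vale.Agent.P048

open Finset

variable {V : Type*}

/-- A cycle whose head (and the vertices before its neighbours) have no neighbours in `T` off the
cycle has an even chord, if `T` is dense compared with its independence number. -/
theorem even_chord [DecidableEq V] (G : SimpleGraph V) [DecidableRel G.Adj] (T : Finset V)
    (M k : ℕ) (hk : 3 ≤ k) (l : List V) (hl : CycL G l) (hlT : ∀ x ∈ l, x ∈ T)
    (hlen : 4 ≤ l.length)
    (hdeg : ∀ y ∈ T, k ≤ (T.filter (G.Adj y)).card)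
    (h0 : ∀ x ∈ l.head?, ∀ y ∈ T, G.Adj x y → y ∈ l)
    (hrot : ∀ j (hj1 : 1 ≤ j) (hj : j < l.length), (∀ x ∈ l.head?, G.Adj x (l[j]'hj)) →
        ∀ y ∈ T, G.Adj (l[j-1]'(by omega)) y → y ∈ l)
    (hexp : ∀ I N : Finset V, I ⊆ T → G.IsIndepSet (I : Set V) → I.Nonempty →
      (∀ x ∈ T, ∀ y ∈ I, G.Adj y x → x ∈ N) → M * I.card < 2 * (I.card + N.card))
    (hα : 2 * ind G T ≤ (M - 2) * k) :
    ∃ i j, ∃ (hij : i < j) (hj : j < l.length), G.Adj (l[i]'(by omega)) l[j] ∧
      2 ≤ j - i ∧ j - i ≤ l.length - 2 ∧ ((j - i) % 2 = 0 ∨ l.length % 2 = 1) := by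
  classical
  by_contra hno
  obtain ⟨hnd, hch, hlast⟩ := hl
  have hh : l.head? = some (l[0]'(by omega)) := by
    rw [List.head?_eq_getElem?]; simp
  have hlastE : l.getLast? = some (l[l.length - 1]'(by omega)) := by
    rw [List.getLast?_eq_getElem?]; simp
  -- every edge of the cycle graph joins indices of different parity, and the length is even
  have hodd : ∀ i j (hij : i < j) (hj : j < l.length), G.Adj (l[i]'(by omega)) l[j] →
      2 ≤ j - i → j - i ≤ l.length - 2 → (j - i) % 2 = 1 ∧ l.length % 2 = 0 := by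
    intro i j hij hj hadj h2 h3
    by_contra hcon
    exact hno ⟨i, j, hij, hj, hadj, h2, h3, by omega⟩
  -- the head has a neighbour off its two cycle neighbours
  have h0T : l[0]'(by omega) ∈ T := hlT _ (List.getElem_mem _)
  have heven : l.length % 2 = 0 := by
    by_contra hcon
    have hsub : T.filter (G.Adj (l[0]'(by omega))) ⊆
        {l[1]'(by omega), l[l.length - 1]'(by omega)} := by
      intro y hy
      rw [Finset.mem_filter] at hy
      have hyl := h0 (l[0]'(by omega)) (by rw [hh]; simp) y hy.1 hy.2
      obtain ⟨j, hj, rfl⟩ := List.getElem_of_mem hyl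
      rw [Finset.mem_insert, Finset.mem_singleton]
      by_contra hc
      rw [not_or] at hc
      have hj0 : j ≠ 0 := by
        rintro rfl
        exact G.irrefl hy.2
      have hj1 : j ≠ 1 := by
        rintro rfl
        exact hc.1 rfl
      have hj2 : j ≠ l.length - 1 := by
        intro h
        apply hc.2
        congr 1
      have := hodd 0 j (by omega) hj hy.2 (by omega) (by omega)
      omega
    have h1 := Finset.card_le_card hsub
    have h2 := hdeg _ h0T
    have h3 : ({l[1]'(by omega), l[l.length - 1]'(by omega)} : Finset V).card ≤ 2 :=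
      Finset.card_le_two
    omega
  have hpar : ∀ i j (hi : i < l.length) (hj : j < l.length), G.Adj (l[i]'hi) (l[j]'hj) →
      (i + j) % 2 = 1 := by
    have hlt : ∀ i j (hij : i < j) (hj : j < l.length), G.Adj (l[i]'(by omega)) l[j] →
        (i + j) % 2 = 1 := by
      intro i j hij hj hadj
      by_cases h1 : j = i + 1
      · omega
      · by_cases h2 : j - i ≤ l.length - 2
        · have := hodd i j hij hj hadj (by omega) h2
          omega
        · omega
    intro i j hi hj hadj
    rcases lt_trichotomy i j with h | h | h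
    · exact hlt i j h hj hadj
    · subst h; exact absurd hadj (G.irrefl)
    · have := hlt j i h hi hadj.symm
      omega
  -- the set `W`
  let W : Finset V := (Finset.univ.filter (fun j : Fin l.length =>
      1 ≤ j.1 ∧ G.Adj (l[0]'(by omega)) l[j.1])).image (fun j => l[j.1 - 1]'(by omega))
  let N : Finset V := (Finset.univ.filter (fun j : Fin l.length => j.1 % 2 = 1)).image
    (fun j => l[j.1])
  have hinj : ∀ i j (hi : i < l.length) (hj : j < l.length), l[i]'hi = l[j]'hj → i = j := by
    intro i j hi hj h
    exact (List.Nodup.getElem_inj_iff hnd).1 h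
  have hWmem : ∀ w ∈ W, ∃ i, ∃ hi : i + 1 < l.length, i % 2 = 0 ∧
      G.Adj (l[0]'(by omega)) (l[i+1]'hi) ∧ l[i]'(by omega) = w := by
    intro w hw
    simp only [W, Finset.mem_image, Finset.mem_filter, Finset.mem_univ, true_and] at hw
    obtain ⟨j, ⟨h1, h2⟩, h3⟩ := hw
    have := hpar 0 j.1 (by omega) j.2 h2
    refine ⟨j.1 - 1, by omega, by omega, ?_, h3⟩
    have e : j.1 - 1 + 1 = j.1 := by omega
    simp only [e]
    exact h2
  have hWT : W ⊆ T := by
    intro w hw
    obtain ⟨i, hi, -, -, rfl⟩ := hWmem w hw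
    exact hlT _ (List.getElem_mem _)
  have hWi : G.IsIndepSet (W : Set V) := by
    intro w hw w' hw' hne hadj
    obtain ⟨i, hi, hi2, -, rfl⟩ := hWmem w hw
    obtain ⟨j, hj, hj2, -, rfl⟩ := hWmem w' hw'
    have := hpar i j (by omega) (by omega) hadj
    omega
  have hWN : ∀ x ∈ T, ∀ y ∈ W, G.Adj y x → x ∈ N := by
    intro x hx y hy hadj
    obtain ⟨i, hi, hi2, h0i, rfl⟩ := hWmem y hy
    have hxl : x ∈ l := by
      apply hrot (i + 1) (by omega) hi _ x hx
      · simpa using hadj
      · intro x' hx'
        rw [hh] at hx'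
        simp only [Option.mem_def, Option.some.injEq] at hx'
        rw [← hx']
        exact h0i
    obtain ⟨j, hj, rfl⟩ := List.getElem_of_mem hxl
    have := hpar i j (by omega) hj hadj
    simp only [N, Finset.mem_image, Finset.mem_filter, Finset.mem_univ, true_and]
    exact ⟨⟨j, hj⟩, by simp only; omega, rfl⟩
  have hWc : k ≤ W.card := by
    have h1 : (T.filter (G.Adj (l[0]'(by omega)))).card ≤ W.card := by
      have : T.filter (G.Adj (l[0]'(by omega))) ⊆ (Finset.univ.filter (fun j : Fin l.length =>
          1 ≤ j.1 ∧ G.Adj (l[0]'(by omega)) l[j.1])).image (fun j => l[j.1]) := by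
        intro y hy
        rw [Finset.mem_filter] at hy
        have hyl := h0 (l[0]'(by omega)) (by rw [hh]; simp) y hy.1 hy.2
        obtain ⟨j, hj, rfl⟩ := List.getElem_of_mem hyl
        rw [Finset.mem_image]
        refine ⟨⟨j, hj⟩, ?_, rfl⟩
        rw [Finset.mem_filter]
        refine ⟨Finset.mem_univ _, ?_, hy.2⟩
        by_contra hc
        have : j = 0 := by simpa using hc
        subst this
        exact G.irrefl hy.2
      refine le_trans (Finset.card_le_card this) (le_trans Finset.card_image_le (le_of_eq ?_))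
      symm
      apply Finset.card_image_of_injOn
      intro i hi j hj hij
      simp only [Finset.coe_filter, Finset.mem_univ, true_and, Set.mem_ofPred_eq] at hi hj
      have := hinj _ _ (by omega) (by omega) hij
      ext
      omega
    exact le_trans (hdeg _ h0T) h1
  have hNi : N.card ≤ ind G T := by
    apply card_le_ind
    · intro x hx
      simp only [N, Finset.mem_image, Finset.mem_filter, Finset.mem_univ, true_and] at hx
      obtain ⟨j, -, rfl⟩ := hx
      exact hlT _ (List.getElem_mem _)
    · intro x hx y hy hne hadj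
      simp only [N, Finset.coe_image, Set.mem_image, Finset.coe_filter, Finset.mem_univ, true_and,
        Set.mem_ofPred_eq] at hx hy
      obtain ⟨i, hi, rfl⟩ := hx
      obtain ⟨j, hj, rfl⟩ := hy
      have := hpar i.1 j.1 i.2 j.2 hadj
      omega
  have hWne : W.Nonempty := by
    rw [← Finset.card_pos]; omega
  have h1 := hexp W N hWT hWi hWne hWN
  have h2 : (M - 2) * k ≤ (M - 2) * W.card := Nat.mul_le_mul_left _ hWc
  by_cases hM : 2 ≤ M
  · obtain ⟨M', rfl⟩ : ∃ M', M = M' + 2 := ⟨M - 2, by omega⟩
    rw [Nat.add_sub_cancel] at h2 hα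
    rw [Nat.add_mul] at h1
    omega
  · have h3 : M - 2 = 0 := by omega
    rw [h3, Nat.zero_mul] at hα
    have := ind_pos (G := G) (S := T) ⟨_, h0T⟩
    omega

end Vale.Agent.P048
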