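import Mathlib

namespace Vale.Agent.P048

/-- The disjoint union of cliques of order `k` on `Fin N`. -/
def blockGraph (k N : ℕ) : SimpleGraph (Fin N) where
  Adj i j := i ≠ j ∧ i.val / k = j.val / k
  symm := ⟨fun _ _ h => ⟨h.1.symm, h.2.symm⟩⟩
  loopless := ⟨fun _ h => h.1 rfl⟩

theorem blockGraph_no_cycle (m N : ℕ) (hm : 3 ≤ m) :
    ¬ (SimpleGraph.cycleGraph m).IsContained (blockGraph (m - 1) N) := by
  rintro ⟨f⟩
  have hadj : ∀ i j : Fin m, (SimpleGraph.cycleGraph m).Adj i j →
      (f i).val / (m - 1) = (f j).val / (m - 1) := fun i j hij => (f.toHom.map_adj hij).2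
  have hstep : ∀ k : ℕ, ∀ hk : k < m, (f ⟨k, hk⟩).val / (m - 1)
      = (f ⟨0, by omega⟩).val / (m - 1) := by
    intro k
    induction k with
    | zero => intro _; rfl
    | succ k ih =>
      intro hk
      rw [← ih (by omega)]
      apply hadj
      rw [SimpleGraph.cycleGraph_adj']
      left
      rw [Fin.val_sub]
      change (m - k + (k + 1)) % m = 1
      rw [show m - k + (k + 1) = 1 + m by omega, Nat.add_mod_right]
      exact Nat.mod_eq_of_lt (by omega)
  have hinj : Function.Injective (fun i : Fin m =>
      (⟨(f i).val % (m - 1), Nat.mod_lt _ (by omega)⟩ : Fin (m - 1))) := by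
    intro i j hij
    have h1 : (f i).val % (m - 1) = (f j).val % (m - 1) := by
      have := congrArg Fin.val hij
      exact this
    have h2 := hstep i.val i.isLt
    have h3 := hstep j.val j.isLt
    have h4 : (f i).val = (f j).val := by
      rw [← Nat.div_add_mod (f i).val (m - 1), ← Nat.div_add_mod (f j).val (m - 1), h1]
      congr 2
      rw [show (f i).val / (m - 1) = _ from h2, show (f j).val / (m - 1) = _ from h3]
    exact f.injective (Fin.ext h4)
  have := Fintype.card_le_of_injective _ hinj
  rw [Fintype.card_fin, Fintype.card_fin] at this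
  omega

theorem blockGraph_no_indep (k n N : ℕ) (hk : 1 ≤ k) (hn : 1 ≤ n) (hN : N ≤ k * (n - 1)) :
    ¬ (⊤ : SimpleGraph (Fin n)).IsContained (blockGraph k N)ᶜ := by
  rintro ⟨f⟩
  have hlt : ∀ i : Fin n, (f i).val / k < n - 1 := by
    intro i
    rw [Nat.div_lt_iff_lt_mul (by omega)]
    have := (f i).isLt
    rw [Nat.mul_comm] at hN
    omega
  have hinj : Function.Injective (fun i : Fin n => (⟨(f i).val / k, hlt i⟩ : Fin (n - 1))) := by
    intro i j hij
    by_contra hne
    have h1 : (f i).val / k = (f j).val / k := by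
      have := congrArg Fin.val hij
      exact this
    have h2 : (⊤ : SimpleGraph (Fin n)).Adj i j := hne
    have h3 := f.toHom.map_adj h2
    rw [SimpleGraph.compl_adj] at h3
    exact h3.2 ⟨h3.1, h1⟩
  have := Fintype.card_le_of_injective _ hinj
  rw [Fintype.card_fin, Fintype.card_fin] at this
  omega

end Vale.Agent.P048
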