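import Vale.Agent.P048.MinCx

namespace Vale.Agent.P048

open Finset

variable {V : Type*}

namespace MinCx

variable [Fintype V] [DecidableEq V] {G : SimpleGraph V} [DecidableRel G.Adj] {m : ℕ}

/-- The final count: from a bound on the two parity classes around `v`. -/
theorem parity_count (h : MinCx G m) (v : V) (M : ℕ) (hm : 2 ≤ m)
    (hM : M = m - 1 ∨ (M = m ∧ 2 * ind G univ + 1 ≤ m))
    (hpar : ∀ U : Finset V, (∀ x ∈ U, ∀ y ∈ U, G.Adj x y → G.dist v x = G.dist v y) →
      (∀ x ∈ U, 1 ≤ G.dist v x) → 2 * U.card ≤ M * ind G U) : False := by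
  have hconn := h.connected
  have hstep : ∀ x y, G.Adj x y → G.dist v y ≤ G.dist v x + 1 :=
    fun x y hxy => dist_adj_le hconn v hxy
  set O := univ.filter (fun x => G.dist v x % 2 = 1) with hO
  set E := univ.filter (fun x => G.dist v x % 2 = 0 ∧ G.dist v x ≠ 0) with hE
  have hOb := hpar O (by
    intro x hx y hy hadj
    rw [hO, Finset.mem_filter] at hx hy
    have h1 := hstep x y hadj
    have h2 := hstep y x hadj.symm
    omega) (by
    intro x hx
    rw [hO, Finset.mem_filter] at hx
    omega)
  have hEb := hpar E (by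
    intro x hx y hy hadj
    rw [hE, Finset.mem_filter] at hx hy
    have h1 := hstep x y hadj
    have h2 := hstep y x hadj.symm
    omega) (by
    intro x hx
    rw [hE, Finset.mem_filter] at hx
    omega)
  have hcard : Fintype.card V ≤ 1 + O.card + E.card := by
    have : (univ : Finset V) ⊆ ({v} ∪ O) ∪ E := by
      intro x _
      rw [Finset.mem_union, Finset.mem_union, Finset.mem_singleton, hO, hE, Finset.mem_filter,
        Finset.mem_filter]
      by_cases hx : x = v
      · exact Or.inl (Or.inl hx)
      · have : G.dist v x ≠ 0 := by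
          intro h0
          exact hx (hconn.dist_eq_zero_iff.1 h0).symm
        rcases Nat.mod_two_eq_zero_or_one (G.dist v x) with h2 | h2
        · exact Or.inr ⟨Finset.mem_univ _, h2, this⟩
        · exact Or.inl (Or.inr ⟨Finset.mem_univ _, h2⟩)
    rw [← Finset.card_univ]
    calc (univ : Finset V).card ≤ (({v} ∪ O) ∪ E).card := Finset.card_le_card this
      _ ≤ ({v} ∪ O).card + E.card := Finset.card_union_le _ _
      _ ≤ ({v} : Finset V).card + O.card + E.card := by
        have := Finset.card_union_le ({v} : Finset V) O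
        omega
      _ = _ := by rw [Finset.card_singleton]
  have hindO : ind G O ≤ ind G univ := ind_mono (Finset.subset_univ _)
  have hindE : 1 + ind G E ≤ ind G univ := by
    have h1 : 1 ≤ ind G {v} := ind_pos (by simp)
    have h2 := ind_add_le (G := G) (S := {v}) (S' := E) (by
      rw [Finset.disjoint_left]
      intro x hx hx'
      rw [Finset.mem_singleton] at hx
      subst hx
      rw [hE, Finset.mem_filter] at hx'
      simp at hx') (by
      intro x hx y hy hadj
      rw [Finset.mem_singleton] at hx
      subst hx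
      rw [hE, Finset.mem_filter] at hy
      have := hstep x y hadj
      rw [SimpleGraph.dist_self] at this
      omega)
    have h3 : ind G ({v} ∪ E) ≤ ind G univ := ind_mono (Finset.subset_univ _)
    omega
  have hbig := h.big
  have h1 : M * ind G O ≤ M * ind G univ := Nat.mul_le_mul_left _ hindO
  have h2 : M * (1 + ind G E) ≤ M * ind G univ := Nat.mul_le_mul_left _ hindE
  rw [Nat.mul_add] at h2
  rcases hM with rfl | ⟨rfl, hM⟩
  · omega
  · obtain ⟨k, rfl⟩ : ∃ k, M = k + 1 := ⟨M - 1, by omega⟩
    rw [Nat.add_sub_cancel] at hbig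
    have e1 : (k + 1) * ind G univ = k * ind G univ + ind G univ := by ring
    omega

/-- No minimal counterexample with `m ≥ 2 ind + 2`. -/
theorem false_of_two_mul (h : MinCx G m) (hm : 2 * ind G univ + 2 ≤ m) : False := by
  have hne := h.nonempty
  obtain ⟨v⟩ := hne
  have hpos : 1 ≤ ind G univ := ind_pos ⟨v, Finset.mem_univ _⟩
  have hcl : ∀ K : Finset V, G.IsClique (K : Set V) → K.card ≤ m / 2 := by
    intro K hK
    have := clique_card_le G m (ind G univ) (by omega) h.free h.degree_ge
      (fun I hI => h.indep_le hI) K hK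
    omega
  apply h.parity_count v m (by omega) (Or.inr ⟨rfl, by omega⟩)
  intro U hU hvU
  refine parity_bound G h.connected v m m (by omega) (by omega) h.free hcl ?_ U hU hvU U
    (Finset.Subset.refl _)
  intro j hj T hT hTj
  have h1 := h.level_bound v j hj T hT hTj
  have h2 : 1 ≤ ind G T := ind_pos hT
  omega

end MinCx

/-- The Ramsey bound in the list form. -/
theorem card_le_of_free [DecidableEq V] (G : SimpleGraph V) [DecidableRel G.Adj] (m : ℕ)
    (hfree : ∀ l, CycL G l → l.length ≠ m) (S : Finset V) (hm : 2 * ind G S + 2 ≤ m) :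
    S.card ≤ (m - 1) * ind G S := by
  by_contra hcon
  push Not at hcon
  obtain ⟨T, hT, h⟩ := exists_minCx G m hfree S hcon
  apply h.false_of_two_mul
  rw [ind_comap]
  have : (univ : Finset {x // x ∈ T}).map
      ⟨fun x : {x // x ∈ T} => x.1, Subtype.val_injective⟩ = T := by
    ext x
    simp
  rw [this]
  have := ind_mono (G := G) hT
  omega

/-- A cyclic list gives a copy of the cycle graph. -/
theorem CycL.isContained {G : SimpleGraph V} {l : List V} (hl : CycL G l) (h3 : 3 ≤ l.length) :
    (SimpleGraph.cycleGraph l.length).IsContained G := by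
  obtain ⟨f, -, -, hadj, hinj⟩ := exists_cyc G l hl (by omega)
  have key : ∀ i j : Fin l.length, ((i - j : Fin l.length) : ℕ) = 1 →
      f ((i : ℕ) : ℤ) = f ((j : ℕ) + 1 : ℤ) := by
    intro i j hij
    rw [hinj]
    rw [Fin.val_sub] at hij
    have h1 := Nat.div_add_mod (l.length - (j : ℕ) + (i : ℕ)) l.length
    rw [hij] at h1
    have h2 := i.isLt
    have h3 := j.isLt
    refine ⟨(((l.length - (j : ℕ) + (i : ℕ)) / l.length : ℕ) : ℤ) - 1, ?_⟩
    have h4 : ((l.length * ((l.length - (j : ℕ) + (i : ℕ)) / l.length) + 1 : ℕ) : ℤ)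
        = ((l.length - (j : ℕ) + (i : ℕ) : ℕ) : ℤ) := by rw [h1]
    rw [Nat.cast_add, Nat.cast_mul, Nat.cast_add, Nat.cast_sub h3.le] at h4
    rw [mul_sub]
    push_cast at h4 ⊢
    omega
  refine ⟨⟨⟨fun i => f (i.val : ℤ), ?_⟩, ?_⟩⟩
  · intro i j hij
    rw [SimpleGraph.cycleGraph_adj'] at hij
    rcases hij with hij | hij
    · rw [key i j hij]
      exact (hadj _).symm
    · rw [key j i hij]
      exact hadj _
  · intro i j hij
    change f ((i : ℕ) : ℤ) = f ((j : ℕ) : ℤ) at hij
    rw [hinj] at hij
    have h2 := i.isLt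
    have h3 := j.isLt
    have h4 := Int.eq_zero_of_abs_lt_dvd hij (by rw [abs_lt]; constructor <;> omega)
    exact Fin.ext (by omega)

end Vale.Agent.P048
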