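import Vale.Agent.P048.Growth
import Vale.Agent.P048.Assembly
import Vale.Agent.P048.Main
import Vale.Agent.P048.Lower

/-!
# P048: the bound for all `m ≥ 17`
-/

namespace Vale.Agent.P048

open Finset

variable {V : Type*}

/-- a maximum clique -/
theorem exists_max_clique [Fintype V] (G : SimpleGraph V) : ∃ K : Finset V,
    G.IsClique (K : Set V) ∧ ∀ K' : Finset V, G.IsClique (K' : Set V) → K'.card ≤ K.card := by
  classical
  obtain ⟨K, hK, hmax⟩ := Finset.exists_max_image
    ((univ : Finset (Finset V)).filter (fun K : Finset V => G.IsClique (K : Set V))) Finset.card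
    ⟨∅, by simp⟩
  rw [Finset.mem_filter] at hK
  refine ⟨K, hK.2, fun K' hK' => hmax K' ?_⟩
  rw [Finset.mem_filter]
  exact ⟨Finset.mem_univ _, hK'⟩

theorem MinCx.false_of_seventeen [Fintype V] [DecidableEq V] {G : SimpleGraph V}
    [DecidableRel G.Adj] {m : ℕ} (h : MinCx G m) (hm : 17 ≤ m) (ha : ind G univ + 1 ≤ m) :
    False := by
  obtain ⟨K, hK, hmax⟩ := exists_max_clique G
  by_cases hmr : m ≤ 2 * K.card
  · obtain ⟨I, hI, hIc⟩ := clique_case G m hm h.free (fun v => h.degree_ge v) K hK hmax hmr
    have := h.indep_le hI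
    omega
  · apply h.false_of_cliques (by omega) ha
    intro K' hK'
    have := hmax K' hK'
    omega

/-- The Ramsey bound in the list form, `m ≥ 17`. -/
theorem card_le_of_free17 [DecidableEq V] (G : SimpleGraph V) [DecidableRel G.Adj] (m : ℕ)
    (hfree : ∀ l, CycL G l → l.length ≠ m) (S : Finset V) (hm : 17 ≤ m)
    (ha : ind G S + 1 ≤ m) : S.card ≤ (m - 1) * ind G S := by
  by_contra hcon
  push Not at hcon
  obtain ⟨T, hT, h⟩ := exists_minCx G m hfree S hcon
  apply h.false_of_seventeen hm
  rw [ind_comap]
  have : (univ : Finset {x // x ∈ T}).map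
      ⟨fun x : {x // x ∈ T} => x.1, Subtype.val_injective⟩ = T := by
    ext x
    simp
  rw [this]
  have := ind_mono (G := G) hT
  omega

/-- From the list form to the Ramsey number. -/
theorem isLeast_of_bound (m n : ℕ) (hn : 3 ≤ n) (hnm : n ≤ m)
    (hb : ∀ N : ℕ, ∀ G : SimpleGraph (Fin N), (∀ l, CycL G l → l.length ≠ m) →
      ind G univ ≤ n - 1 → N ≤ (m - 1) * ind G univ) :
    IsLeast {N : ℕ | ∀ G : SimpleGraph (Fin N),
      (SimpleGraph.cycleGraph m).IsContained G ∨ (⊤ : SimpleGraph (Fin n)).IsContained Gᶜ}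
      ((m - 1) * (n - 1) + 1) := by
  classical
  constructor
  · intro G
    by_contra hcon
    rw [not_or] at hcon
    obtain ⟨hc, hi⟩ := hcon
    have hfree : ∀ l, CycL G l → l.length ≠ m := by
      intro l hl hlm
      apply hc
      have := CycL.isContained hl (by omega)
      rwa [hlm] at this
    have hind : ind G Finset.univ ≤ n - 1 := by
      by_contra hcon
      push Not at hcon
      obtain ⟨I, -, hI, hIc⟩ := exists_ind G Finset.univ
      obtain ⟨J, hJI, hJ⟩ := Finset.exists_subset_card_eq (s := I) (n := n) (by omega)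
      apply hi
      let e : Fin n ≃ {x // x ∈ J} := (Fintype.equivFinOfCardEq (by simp [hJ])).symm
      refine ⟨⟨⟨fun i => (e i).1, ?_⟩, ?_⟩⟩
      · intro i j hij
        rw [SimpleGraph.compl_adj]
        have hne : (e i).1 ≠ (e j).1 := by
          intro h
          exact hij (e.injective (Subtype.ext h))
        exact ⟨hne, hI (hJI (e i).2) (hJI (e j).2) hne⟩
      · intro i j hij
        exact e.injective (Subtype.ext hij)
    have h1 := hb _ G hfree hind
    have h2 : (m - 1) * ind G Finset.univ ≤ (m - 1) * (n - 1) :=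
      Nat.mul_le_mul_left _ hind
    omega
  · intro N hN
    by_contra hcon
    push Not at hcon
    rcases hN (blockGraph (m - 1) N) with h | h
    · exact blockGraph_no_cycle m N (by omega) h
    · exact blockGraph_no_indep (m - 1) n N (by omega) (by omega) (by omega) h

end Vale.Agent.P048
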