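import Vale.Agent.P048.Gaps
import Vale.Agent.P048.Cfg

/-!
# P048: the small configurations
-/

namespace Vale.Agent.P048

open Finset GapsAux

variable {V : Type*}

namespace SmallAux

theorem patOk_append {K : Finset V} {p q : List Bool} {F F' : List V} (h : PatOk K p F)
    (h' : PatOk K q F') : PatOk K (p ++ q) (F ++ F') :=
  List.rel_append h h'

theorem patOk_nil {K : Finset V} : PatOk K [] [] := List.Forall₂.nil

theorem patOk_cons {K : Finset V} {p : List Bool} {F : List V} {x : V} (hx : x ∈ K)
    (h : PatOk K p F) : PatOk K (true :: p) (x :: F) :=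
  List.Forall₂.cons (fun _ => hx) h

theorem patOk_replicate {K : Finset V} : ∀ (U : List V),
    PatOk K (List.replicate U.length false) U := by
  intro U
  induction U with
  | nil => exact List.Forall₂.nil
  | cons u U ih =>
    rw [List.length_cons, List.replicate_succ]
    exact List.Forall₂.cons (fun h => by simp at h) ih

theorem patOk_ear {K : Finset V} {k k' : V} {U : List V} {g : ℕ} (hk : k ∈ K) (hk' : k' ∈ K)
    (hg : U.length = g) : PatOk K (earPat g) (k :: (U ++ [k'])) := by
  subst hg
  exact patOk_cons hk (patOk_append (patOk_replicate U) (patOk_cons hk' patOk_nil))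

theorem patOk_ear2 {K : Finset V} {k k' k'' : V} {U U' : List V} {g g' : ℕ} (hk : k ∈ K)
    (hk' : k' ∈ K) (hk'' : k'' ∈ K) (hg : U.length = g) (hg' : U'.length = g') :
    PatOk K (earPat2 g g') (k :: (U ++ (k' :: (U' ++ [k''])))) := by
  subst hg hg'
  exact patOk_cons hk (patOk_append (patOk_replicate U) (patOk_cons hk'
    (patOk_append (patOk_replicate U') (patOk_cons hk'' patOk_nil))))

/-- a gapped block with two vertices in `K` is an ear -/
theorem patOk_of_two [DecidableEq V] {K : Finset V} {δ : ℕ} {b : List V} (h : Gapped K δ b)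
    (h2 : cK K b = 2) {g : ℕ} (hg : cN K b = g) : PatOk K (earPat g) b := by
  obtain ⟨k, hk, rfl | ⟨U, B, rfl, hU, hδ, hB⟩⟩ := gapped_cases h
  · rw [cK_cons_mem hk, cK_nil] at h2
    omega
  · rw [cK_cons_mem hk, cK_append, cK_of_notMem hU] at h2
    rw [cN_cons_mem hk, cN_append, cN_of_notMem hU] at hg
    obtain ⟨k', hk', rfl | ⟨U', B', rfl, hU', hδ', hB'⟩⟩ := gapped_cases hB
    · rw [cN_cons_mem hk', cN_nil] at hg
      exact patOk_ear hk hk' (by omega)
    · rw [cK_cons_mem hk', cK_append, cK_of_notMem hU'] at h2
      have := hB'.count.2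
      omega

/-- a gapped block with three vertices in `K` and as few others as possible -/
theorem patOk_of_three [DecidableEq V] {K : Finset V} {δ : ℕ} {b : List V} (h : Gapped K δ b)
    (h2 : cK K b = 3) (hg : cN K b = 2 * δ) : PatOk K (earPat2 δ δ) b := by
  obtain ⟨k, hk, rfl | ⟨U, B, rfl, hU, hδ, hB⟩⟩ := gapped_cases h
  · rw [cK_cons_mem hk, cK_nil] at h2
    omega
  · rw [cK_cons_mem hk, cK_append, cK_of_notMem hU] at h2
    rw [cN_cons_mem hk, cN_append, cN_of_notMem hU] at hg
    obtain ⟨k', hk', rfl | ⟨U', B', rfl, hU', hδ', hB'⟩⟩ := gapped_cases hB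
    · rw [cK_cons_mem hk', cK_nil] at h2
      omega
    · rw [cK_cons_mem hk', cK_append, cK_of_notMem hU'] at h2
      rw [cN_cons_mem hk', cN_append, cN_of_notMem hU'] at hg
      obtain ⟨k'', hk'', rfl | ⟨U'', B'', rfl, hU'', hδ'', hB''⟩⟩ := gapped_cases hB'
      · rw [cN_cons_mem hk'', cN_nil] at hg
        exact patOk_ear2 hk hk' hk'' (by omega) (by omega)
      · rw [cK_cons_mem hk'', cK_append, cK_of_notMem hU''] at h2
        have := hB''.count.2
        omega

theorem patOk_four {K : Finset V} {b : List V} (h : IsFour K b) : PatOk K (earPat 2) b := by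
  obtain ⟨k, u, u', k', rfl, hk, -, -, hk'⟩ := h
  exact patOk_ear (U := [u, u']) hk hk' rfl

theorem patOk_five {K : Finset V} {b : List V} (h : IsFive K b) : PatOk K (earPat 3) b := by
  obtain ⟨k, u, u', u'', k', rfl, hk, -, -, -, hk'⟩ := h
  exact patOk_ear (U := [u, u', u'']) hk hk' rfl

theorem patOk_seven {K : Finset V} {b : List V} (h : IsSeven K b) : PatOk K (earPat2 2 2) b := by
  obtain ⟨k, u, u', k', v, v', k'', rfl, hk, -, -, hk', -, -, hk''⟩ := h
  exact patOk_ear2 (U := [u, u']) (U' := [v, v']) hk hk' hk'' rfl rfl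

theorem four_count [DecidableEq V] {K : Finset V} {b : List V} (h : IsFour K b) :
    cK K b = 2 ∧ b.length = 4 := by
  obtain ⟨k, u, u', k', rfl, hk, hu, hu', hk'⟩ := h
  simp [cK, hk, hu, hu', hk']

theorem five_count [DecidableEq V] {K : Finset V} {b : List V} (h : IsFive K b) :
    cK K b = 2 ∧ b.length = 5 := by
  obtain ⟨k, u, u', u'', k', rfl, hk, hu, hu', hu'', hk'⟩ := h
  simp [cK, hk, hu, hu', hu'', hk']

theorem seven_count [DecidableEq V] {K : Finset V} {b : List V} (h : IsSeven K b) :
    cK K b = 3 ∧ b.length = 7 := by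
  obtain ⟨k, u, u', k', v, v', k'', rfl, hk, hu, hu', hk', hv, hv', hk''⟩ := h
  simp [cK, hk, hu, hu', hk', hv, hv', hk'']

theorem fours_count [DecidableEq V] {K : Finset V} {fours : List (List V)}
    (h : ∀ b ∈ fours, IsFour K b) :
    cK K fours.flatten = 2 * fours.length ∧ fours.flatten.length = 4 * fours.length := by
  induction fours with
  | nil => simp [cK_nil]
  | cons b l ih =>
    obtain ⟨i1, i2⟩ := ih (fun b' hb' => h b' (List.mem_cons_of_mem _ hb'))
    obtain ⟨j1, j2⟩ := four_count (h b List.mem_cons_self)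
    rw [cK_flatten_cons, List.flatten_cons, List.length_append, List.length_cons, i1, i2, j1, j2]
    omega

end SmallAux

open SmallAux

theorem small_structure_two [DecidableEq V] {G : SimpleGraph V} {K : Finset V} {m : ℕ}
    {bl : List (List V)} (h : Sys G K bl) (hc : Cov K bl)
    (hm : ∀ bl', Sys G K bl' → bl'.flatten.length ≠ m) (hlen : bl.flatten.length = m + 1)
    (hm9 : 9 ≤ m) (hm16 : m ≤ 16) (hmr : m ≤ 2 * K.card) :
    ∃ bl' pat, Sys G K bl' ∧ (m, K.card, pat) ∈ cfgs ∧ PatOk K pat bl'.flatten := by
  obtain ⟨exc, fours, k1, k2, k3, k4, k5⟩ := structure_two h hc hm hlen hmr (by omega)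
  obtain ⟨c1, c2⟩ := fours_count k4
  have c3 := cK_eq_card k1 k2
  rw [List.flatten_append, cK_append] at c3
  rw [List.flatten_append, List.length_append] at k3
  have k1' : Sys G K (fours ++ exc) := k1.perm List.perm_append_comm
  rcases k5 with rfl | ⟨b, rfl, hb⟩
  · -- no exceptional block
    rw [List.flatten_nil, cK_nil] at c3
    rw [List.flatten_nil, List.length_nil] at k3
    rw [List.append_nil] at k1'
    have hcase : fours.length = 3 ∨ fours.length = 4 := by omega
    rcases hcase with hl | hl
    · match fours, hl, k4, k1', c1, c2 with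
      | [b1, b2, b3], _, k4, k1', c1, c2 =>
        refine ⟨_, earPat 2 ++ (earPat 2 ++ earPat 2), k1', ?_, ?_⟩
        · have e1 : m = 11 := by simp only [List.length_cons, List.length_nil] at c2; omega
          have e2 : K.card = 6 := by simp only [List.length_cons, List.length_nil] at c1; omega
          rw [e1, e2]
          simp [cfgs]
        · simp only [List.flatten_cons, List.flatten_nil, List.append_nil]
          exact patOk_append (patOk_four (k4 _ (by simp))) (patOk_append
            (patOk_four (k4 _ (by simp))) (patOk_four (k4 _ (by simp))))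
    · match fours, hl, k4, k1', c1, c2 with
      | [b1, b2, b3, b4], _, k4, k1', c1, c2 =>
        refine ⟨_, earPat 2 ++ (earPat 2 ++ (earPat 2 ++ earPat 2)), k1', ?_, ?_⟩
        · have e1 : m = 15 := by simp only [List.length_cons, List.length_nil] at c2; omega
          have e2 : K.card = 8 := by simp only [List.length_cons, List.length_nil] at c1; omega
          rw [e1, e2]
          simp [cfgs]
        · simp only [List.flatten_cons, List.flatten_nil, List.append_nil]
          exact patOk_append (patOk_four (k4 _ (by simp))) (patOk_append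
            (patOk_four (k4 _ (by simp))) (patOk_append (patOk_four (k4 _ (by simp)))
              (patOk_four (k4 _ (by simp)))))
  · simp only [List.flatten_cons, List.flatten_nil, List.append_nil] at c3 k3
    rcases hb with hb | hb
    · obtain ⟨f1, f2⟩ := five_count hb
      have hcase : fours.length = 2 ∨ fours.length = 3 := by omega
      rcases hcase with hl | hl
      · match fours, hl, k4, k1', c1, c2 with
        | [b1, b2], _, k4, k1', c1, c2 =>
          refine ⟨_, earPat 2 ++ (earPat 2 ++ earPat 3), k1', ?_, ?_⟩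
          · have e1 : m = 12 := by simp only [List.length_cons, List.length_nil] at c2; omega
            have e2 : K.card = 6 := by simp only [List.length_cons, List.length_nil] at c1; omega
            rw [e1, e2]
            simp [cfgs]
          · simp only [List.cons_append, List.nil_append, List.flatten_cons, List.flatten_nil,
              List.append_nil]
            exact patOk_append (patOk_four (k4 _ (by simp))) (patOk_append
              (patOk_four (k4 _ (by simp))) (patOk_five hb))
      · match fours, hl, k4, k1', c1, c2 with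
        | [b1, b2, b3], _, k4, k1', c1, c2 =>
          refine ⟨_, earPat 2 ++ (earPat 2 ++ (earPat 2 ++ earPat 3)), k1', ?_, ?_⟩
          · have e1 : m = 16 := by simp only [List.length_cons, List.length_nil] at c2; omega
            have e2 : K.card = 8 := by simp only [List.length_cons, List.length_nil] at c1; omega
            rw [e1, e2]
            simp [cfgs]
          · simp only [List.cons_append, List.nil_append, List.flatten_cons, List.flatten_nil,
              List.append_nil]
            exact patOk_append (patOk_four (k4 _ (by simp))) (patOk_append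
              (patOk_four (k4 _ (by simp))) (patOk_append (patOk_four (k4 _ (by simp)))
                (patOk_five hb)))
    · obtain ⟨f1, f2⟩ := seven_count hb
      have hcase : fours.length = 1 ∨ fours.length = 2 := by omega
      rcases hcase with hl | hl
      · match fours, hl, k4, k1', c1, c2 with
        | [b1], _, k4, k1', c1, c2 =>
          refine ⟨_, earPat 2 ++ earPat2 2 2, k1', ?_, ?_⟩
          · have e1 : m = 10 := by simp only [List.length_cons, List.length_nil] at c2; omega
            have e2 : K.card = 5 := by simp only [List.length_cons, List.length_nil] at c1; omega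
            rw [e1, e2]
            simp [cfgs]
          · simp only [List.cons_append, List.nil_append, List.flatten_cons, List.flatten_nil,
              List.append_nil]
            exact patOk_append (patOk_four (k4 _ (by simp))) (patOk_seven hb)
      · match fours, hl, k4, k1', c1, c2 with
        | [b1, b2], _, k4, k1', c1, c2 =>
          refine ⟨_, earPat 2 ++ (earPat 2 ++ earPat2 2 2), k1', ?_, ?_⟩
          · have e1 : m = 14 := by simp only [List.length_cons, List.length_nil] at c2; omega
            have e2 : K.card = 7 := by simp only [List.length_cons, List.length_nil] at c1; omega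
            rw [e1, e2]
            simp [cfgs]
          · simp only [List.cons_append, List.nil_append, List.flatten_cons, List.flatten_nil,
              List.append_nil]
            exact patOk_append (patOk_four (k4 _ (by simp))) (patOk_append
              (patOk_four (k4 _ (by simp))) (patOk_seven hb))

namespace SmallAux

theorem singles_count [DecidableEq V] {K : Finset V} {δ : ℕ} {S : List (List V)}
    (h : ∀ b ∈ S, Gapped K δ b) (h1 : ∀ b ∈ S, b.length = 1) :
    cK K S.flatten = S.length ∧ cN K S.flatten = 0 ∧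
      PatOk K (List.replicate S.length true) S.flatten := by
  induction S with
  | nil => exact ⟨by simp [cK_nil], by simp [cN_nil], List.Forall₂.nil⟩
  | cons b l ih =>
    obtain ⟨i1, i2, i3⟩ := ih (fun b' hb' => h b' (List.mem_cons_of_mem _ hb'))
      (fun b' hb' => h1 b' (List.mem_cons_of_mem _ hb'))
    have hb := h b List.mem_cons_self
    have hb1 := h1 b List.mem_cons_self
    obtain ⟨k, hk, rfl | ⟨U, B, rfl, hU, hδ, hB⟩⟩ := gapped_cases hb
    · rw [cK_flatten_cons, cN_flatten_cons, i1, i2, cK_cons_mem hk, cN_cons_mem hk, cK_nil,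
        cN_nil, List.length_cons, List.flatten_cons, List.replicate_succ]
      exact ⟨by omega, rfl, patOk_cons hk i3⟩
    · exfalso
      obtain ⟨x, hx, -⟩ := hB.1
      have : B ≠ [] := by rintro rfl; simp at hx
      have := List.length_pos_iff.2 this
      rw [List.length_cons, List.length_append] at hb1
      omega

theorem others_count [DecidableEq V] {K : Finset V} {δ : ℕ} {N : List (List V)}
    (h : ∀ b ∈ N, Gapped K δ b) (h1 : ∀ b ∈ N, b.length ≠ 1) :
    2 * N.length ≤ cK K N.flatten ∧
      δ * cK K N.flatten ≤ cN K N.flatten + δ * N.length := by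
  induction N with
  | nil => simp [cK_nil]
  | cons b l ih =>
    obtain ⟨i1, i2⟩ := ih (fun b' hb' => h b' (List.mem_cons_of_mem _ hb'))
      (fun b' hb' => h1 b' (List.mem_cons_of_mem _ hb'))
    have hb := h b List.mem_cons_self
    have h2 := (gapped_two hb).resolve_left (h1 b List.mem_cons_self)
    have h3 := hb.count.1
    rw [cK_flatten_cons, cN_flatten_cons, List.length_cons]
    obtain ⟨c, hc⟩ : ∃ c, cK K b = c + 1 := ⟨cK K b - 1, by omega⟩
    rw [hc] at h3 h2 ⊢
    rw [Nat.add_sub_cancel] at h3
    refine ⟨by omega, ?_⟩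
    have e1 : δ * (c + 1 + cK K l.flatten) = δ * c + δ + δ * cK K l.flatten := by ring
    have e2 : δ * (l.length + 1) = δ * l.length + δ := by ring
    rw [e1, e2]
    omega

theorem arith3 {m r s t e a b : ℕ} (h1 : s + 1 ≤ e) (h2 : e + 1 ≤ 3) (h3 : s + a = r)
    (h4 : r + b = m + e) (h5 : 2 * t ≤ a) (h6 : 3 * a ≤ b + 3 * t) (h7 : m ≤ 2 * r)
    (h8 : 9 ≤ m) : e = 2 ∧ s = 1 ∧ ((r = 5 ∧ t = 2 ∧ (m = 9 ∨ m = 10)) ∨
      (r = 7 ∧ t = 3 ∧ m = 14)) := by
  have hr : 5 ≤ r := by omega
  have e1 : 3 * a ≤ 2 * b := by omega
  have he : e = 2 := by omega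
  subst he
  have hs : s = 1 := by omega
  subst hs
  have hr7 : r ≤ 7 := by omega
  refine ⟨rfl, rfl, ?_⟩
  interval_cases r
  · have : t ≤ 2 := by omega
    interval_cases t <;> omega
  · have : t ≤ 2 := by omega
    interval_cases t <;> omega
  · have : t ≤ 3 := by omega
    interval_cases t <;> omega

theorem arith4 {m r s t e a b : ℕ} (h1 : s + 1 ≤ e) (h2 : e + 1 ≤ 4) (h3 : s + a = r)
    (h4 : r + b = m + e) (h5 : 2 * t ≤ a) (h6 : 4 * a ≤ b + 4 * t) (h7 : m ≤ 2 * r)
    (h8 : 9 ≤ m) : e = 3 ∧ ((s = 1 ∧ r = 5 ∧ t = 2 ∧ m = 10) ∨ (s = 2 ∧ r = 5 ∧ t = 1 ∧ m = 10) ∨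
      (s = 2 ∧ r = 6 ∧ t = 2 ∧ (m = 11 ∨ m = 12))) := by
  have hr : 5 ≤ r := by omega
  have e1 : 2 * a ≤ b := by omega
  have he : e = 3 := by omega
  subst he
  refine ⟨rfl, ?_⟩
  have hs : s = 1 ∨ s = 2 := by omega
  rcases hs with rfl | rfl
  · have hr5 : r = 5 := by omega
    subst hr5
    have : t ≤ 2 := by omega
    interval_cases t <;> omega
  · have hr7 : r ≤ 7 := by omega
    interval_cases r
    · have : t ≤ 1 := by omega
      interval_cases t <;> omega
    · have : t ≤ 2 := by omega
      interval_cases t <;> omega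
    · have : t ≤ 2 := by omega
      interval_cases t <;> omega

end SmallAux

theorem small_structure [DecidableEq V] {G : SimpleGraph V} {K : Finset V} {m e δ : ℕ}
    {bl : List (List V)} (h : Sys G K bl) (hc : Cov K bl)
    (hm : ∀ bl', Sys G K bl' → bl'.flatten.length ≠ m) (hlen : bl.flatten.length = m + e)
    (he : 1 ≤ e) (heδ : e + 1 ≤ δ) (hδ4 : δ ≤ 4) (hm9 : 9 ≤ m) (hm16 : m ≤ 16)
    (hmr : m ≤ 2 * K.card) (hno : ∀ bl', Sys G K bl' → Cov K bl' → ∀ d, 1 ≤ d → d < δ →
      bl'.flatten.length + d ≠ bl.flatten.length) :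
    ∃ bl' pat, Sys G K bl' ∧ (m, K.card, pat) ∈ cfgs ∧ PatOk K pat bl'.flatten := by
  by_cases hδ2 : δ ≤ 2
  · have he1 : e = 1 := by omega
    subst he1
    exact small_structure_two h hc hm hlen hm9 hm16 hmr
  obtain ⟨bl', h1, h2, h3, h4⟩ := exists_gapped_system h hc (by omega) hno
  have e2 := cK_eq_card h1 h2
  have e3 := cK_add_cN K bl'.flatten
  set S := bl'.filter (fun b => decide (b.length = 1)) with hS
  set N := bl'.filter (fun b => !decide (b.length = 1)) with hN
  have hp : (S ++ N).Perm bl' := List.filter_append_perm _ _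
  have hs : S.length + 1 ≤ e := by
    by_contra hcon
    obtain ⟨bl'', k1, k2⟩ := delete_singletons (e := e) h1 (by
      rw [List.countP_eq_length_filter, ← hS]
      omega)
    exact hm bl'' k1 (by omega)
  have hSg : ∀ b ∈ S, Gapped K δ b := fun b hb => h4 b (List.mem_of_mem_filter hb)
  have hNg : ∀ b ∈ N, Gapped K δ b := fun b hb => h4 b (List.mem_of_mem_filter hb)
  have hS1 : ∀ b ∈ S, b.length = 1 := by
    intro b hb
    rw [hS, List.mem_filter] at hb
    simpa using hb.2
  have hN1 : ∀ b ∈ N, b.length ≠ 1 := by
    intro b hb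
    rw [hN, List.mem_filter] at hb
    simpa using hb.2
  obtain ⟨s1, s2, s3⟩ := singles_count hSg hS1
  obtain ⟨n1, n2⟩ := others_count hNg hN1
  have c1 := cK_perm (K := K) hp.flatten
  have c2 := cN_perm (K := K) hp.flatten
  rw [List.flatten_append, cK_append, s1] at c1
  rw [List.flatten_append, cN_append, s2] at c2
  have hsys : Sys G K (N ++ S) := h1.perm (hp.symm.trans List.perm_append_comm)
  clear_value S N
  clear hp hS hN
  -- the possible numbers
  have hcases : (δ = 3 ∧ e = 2 ∧ S.length = 1 ∧ K.card = 5 ∧ N.length = 2 ∧ (m = 9 ∨ m = 10)) ∨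
      (δ = 3 ∧ e = 2 ∧ S.length = 1 ∧ K.card = 7 ∧ N.length = 3 ∧ m = 14) ∨
      (δ = 4 ∧ e = 3 ∧ S.length = 1 ∧ K.card = 5 ∧ N.length = 2 ∧ m = 10) ∨
      (δ = 4 ∧ e = 3 ∧ S.length = 2 ∧ K.card = 5 ∧ N.length = 1 ∧ m = 10) ∨
      (δ = 4 ∧ e = 3 ∧ S.length = 2 ∧ K.card = 6 ∧ N.length = 2 ∧ (m = 11 ∨ m = 12)) := by
    have a3 : S.length + cK K N.flatten = K.card := by rw [c1, e2]
    have a4 : K.card + cN K N.flatten = m + e := by
      rw [Nat.zero_add] at c2
      rw [c2, ← e2, e3, h3, hlen]
    have hδ34 : δ = 3 ∨ δ = 4 := by omega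
    rcases hδ34 with rfl | rfl
    · obtain ⟨r1, r2, r3⟩ := arith3 hs heδ a3 a4 n1 n2 hmr hm9
      rcases r3 with ⟨q1, q2, q3⟩ | ⟨q1, q2, q3⟩
      · exact Or.inl ⟨rfl, r1, r2, q1, q2, q3⟩
      · exact Or.inr (Or.inl ⟨rfl, r1, r2, q1, q2, q3⟩)
    · obtain ⟨r1, r3⟩ := arith4 hs heδ a3 a4 n1 n2 hmr hm9
      rcases r3 with ⟨q0, q1, q2, q3⟩ | ⟨q0, q1, q2, q3⟩ | ⟨q0, q1, q2, q3⟩
      · exact Or.inr (Or.inr (Or.inl ⟨rfl, r1, q0, q1, q2, q3⟩))
      · exact Or.inr (Or.inr (Or.inr (Or.inl ⟨rfl, r1, q0, q1, q2, q3⟩)))
      · exact Or.inr (Or.inr (Or.inr (Or.inr ⟨rfl, r1, q0, q1, q2, q3⟩)))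
  rcases hcases with ⟨rfl, rfl, hs', hr, hn, hm'⟩ | ⟨rfl, rfl, hs', hr, hn, hm'⟩ |
    ⟨rfl, rfl, hs', hr, hn, hm'⟩ | ⟨rfl, rfl, hs', hr, hn, hm'⟩ | ⟨rfl, rfl, hs', hr, hn, hm'⟩
  · rw [hs'] at s3
    match N, hn, hNg, hN1, n1, n2, c1, c2, hsys with
    | [b1, b2], _, hNg, hN1, n1, n2, c1, c2, hsys =>
      simp only [List.flatten_cons, List.flatten_nil, List.append_nil, List.length_cons,
        List.length_nil, cK_append, cN_append] at n1 n2 c1 c2
      have g1 := hNg b1 (by simp)
      have g2 := hNg b2 (by simp)
      have d1 := (gapped_two g1).resolve_left (hN1 b1 (by simp))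
      have d2 := (gapped_two g2).resolve_left (hN1 b2 (by simp))
      have f1 : cK K b1 = 2 := by omega
      have f2 : cK K b2 = 2 := by omega
      have f3 := g1.count.1
      have f4 := g2.count.1
      rw [f1] at f3
      rw [f2] at f4
      have hsys2 : Sys G K ([b2, b1] ++ S) :=
        hsys.perm ((List.Perm.swap b2 b1 []).append_right S)
      rcases hm' with rfl | rfl
      · refine ⟨_, earPat 3 ++ (earPat 3 ++ [true]), hsys, by rw [hr]; simp [cfgs], ?_⟩
        simp only [List.cons_append, List.nil_append, List.flatten_cons]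
        exact patOk_append (patOk_of_two g1 f1 (by omega)) (patOk_append
          (patOk_of_two g2 f2 (by omega)) s3)
      · by_cases hb : cN K b1 = 3
        · refine ⟨_, earPat 3 ++ (earPat 4 ++ [true]), hsys, by rw [hr]; simp [cfgs], ?_⟩
          simp only [List.cons_append, List.nil_append, List.flatten_cons]
          exact patOk_append (patOk_of_two g1 f1 (by omega)) (patOk_append
            (patOk_of_two g2 f2 (by omega)) s3)
        · refine ⟨_, earPat 3 ++ (earPat 4 ++ [true]), hsys2, by rw [hr]; simp [cfgs], ?_⟩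
          simp only [List.cons_append, List.nil_append, List.flatten_cons]
          exact patOk_append (patOk_of_two g2 f2 (by omega)) (patOk_append
            (patOk_of_two g1 f1 (by omega)) s3)
  · rw [hs'] at s3
    match N, hn, hNg, hN1, n1, n2, c1, c2, hsys with
    | [b1, b2, b3], _, hNg, hN1, n1, n2, c1, c2, hsys =>
      simp only [List.flatten_cons, List.flatten_nil, List.append_nil, List.length_cons,
        List.length_nil, cK_append, cN_append] at n1 n2 c1 c2
      have g1 := hNg b1 (by simp)
      have g2 := hNg b2 (by simp)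
      have g3 := hNg b3 (by simp)
      have d1 := (gapped_two g1).resolve_left (hN1 b1 (by simp))
      have d2 := (gapped_two g2).resolve_left (hN1 b2 (by simp))
      have d3 := (gapped_two g3).resolve_left (hN1 b3 (by simp))
      have f1 : cK K b1 = 2 := by omega
      have f2 : cK K b2 = 2 := by omega
      have f3 : cK K b3 = 2 := by omega
      have f4 := g1.count.1
      have f5 := g2.count.1
      have f6 := g3.count.1
      rw [f1] at f4
      rw [f2] at f5
      rw [f3] at f6
      subst hm'
      refine ⟨_, earPat 3 ++ (earPat 3 ++ (earPat 3 ++ [true])), hsys,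
        by rw [hr]; simp [cfgs], ?_⟩
      simp only [List.cons_append, List.nil_append, List.flatten_cons]
      exact patOk_append (patOk_of_two g1 f1 (by omega)) (patOk_append
        (patOk_of_two g2 f2 (by omega)) (patOk_append (patOk_of_two g3 f3 (by omega)) s3))
  · rw [hs'] at s3
    match N, hn, hNg, hN1, n1, n2, c1, c2, hsys with
    | [b1, b2], _, hNg, hN1, n1, n2, c1, c2, hsys =>
      simp only [List.flatten_cons, List.flatten_nil, List.append_nil, List.length_cons,
        List.length_nil, cK_append, cN_append] at n1 n2 c1 c2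
      have g1 := hNg b1 (by simp)
      have g2 := hNg b2 (by simp)
      have d1 := (gapped_two g1).resolve_left (hN1 b1 (by simp))
      have d2 := (gapped_two g2).resolve_left (hN1 b2 (by simp))
      have f1 : cK K b1 = 2 := by omega
      have f2 : cK K b2 = 2 := by omega
      have f3 := g1.count.1
      have f4 := g2.count.1
      rw [f1] at f3
      rw [f2] at f4
      subst hm'
      refine ⟨_, earPat 4 ++ (earPat 4 ++ [true]), hsys, by rw [hr]; simp [cfgs], ?_⟩
      simp only [List.cons_append, List.nil_append, List.flatten_cons]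
      exact patOk_append (patOk_of_two g1 f1 (by omega)) (patOk_append
        (patOk_of_two g2 f2 (by omega)) s3)
  · rw [hs'] at s3
    match N, hn, hNg, hN1, n1, n2, c1, c2, hsys with
    | [b1], _, hNg, hN1, n1, n2, c1, c2, hsys =>
      simp only [List.flatten_cons, List.flatten_nil, List.append_nil, List.length_cons,
        List.length_nil, cK_append, cN_append] at n1 n2 c1 c2
      have g1 := hNg b1 (by simp)
      subst hm'
      refine ⟨_, earPat2 4 4 ++ [true, true], hsys, by rw [hr]; simp [cfgs], ?_⟩
      simp only [List.cons_append, List.nil_append, List.flatten_cons]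
      exact patOk_append (patOk_of_three g1 (by omega) (by omega)) s3
  · rw [hs'] at s3
    match N, hn, hNg, hN1, n1, n2, c1, c2, hsys with
    | [b1, b2], _, hNg, hN1, n1, n2, c1, c2, hsys =>
      simp only [List.flatten_cons, List.flatten_nil, List.append_nil, List.length_cons,
        List.length_nil, cK_append, cN_append] at n1 n2 c1 c2
      have g1 := hNg b1 (by simp)
      have g2 := hNg b2 (by simp)
      have d1 := (gapped_two g1).resolve_left (hN1 b1 (by simp))
      have d2 := (gapped_two g2).resolve_left (hN1 b2 (by simp))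
      have f1 : cK K b1 = 2 := by omega
      have f2 : cK K b2 = 2 := by omega
      have f3 := g1.count.1
      have f4 := g2.count.1
      rw [f1] at f3
      rw [f2] at f4
      have hsys2 : Sys G K ([b2, b1] ++ S) :=
        hsys.perm ((List.Perm.swap b2 b1 []).append_right S)
      rcases hm' with rfl | rfl
      · refine ⟨_, earPat 4 ++ (earPat 4 ++ [true, true]), hsys, by rw [hr]; simp [cfgs], ?_⟩
        simp only [List.cons_append, List.nil_append, List.flatten_cons]
        exact patOk_append (patOk_of_two g1 f1 (by omega)) (patOk_append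
          (patOk_of_two g2 f2 (by omega)) s3)
      · by_cases hb : cN K b1 = 4
        · refine ⟨_, earPat 4 ++ (earPat 5 ++ [true, true]), hsys, by rw [hr]; simp [cfgs], ?_⟩
          simp only [List.cons_append, List.nil_append, List.flatten_cons]
          exact patOk_append (patOk_of_two g1 f1 (by omega)) (patOk_append
            (patOk_of_two g2 f2 (by omega)) s3)
        · refine ⟨_, earPat 4 ++ (earPat 5 ++ [true, true]), hsys2, by rw [hr]; simp [cfgs], ?_⟩
          simp only [List.cons_append, List.nil_append, List.flatten_cons]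
          exact patOk_append (patOk_of_two g2 f2 (by omega)) (patOk_append
            (patOk_of_two g1 f1 (by omega)) s3)

end Vale.Agent.P048
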