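import Vale.Agent.P048.Final17
import Vale.Agent.P048.CertMain
import Vale.Agent.P048.CaseA5
import Vale.Agent.P048.SmallStructure

/-!
# P048: the bound for all `m ≥ 9`
-/

namespace Vale.Agent.P048

open Finset

variable {V : Type*}

theorem clique_case_small [Fintype V] [DecidableEq V] (G : SimpleGraph V) [DecidableRel G.Adj]
    (m : ℕ) (hm9 : 9 ≤ m) (hm16 : m ≤ 16) (hfree : ∀ l, CycL G l → l.length ≠ m)
    (hdeg : ∀ v, m - 1 ≤ G.degree v)
    (K : Finset V) (hK : G.IsClique (K : Set V))
    (hmax : ∀ K' : Finset V, G.IsClique (K' : Set V) → K'.card ≤ K.card)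
    (hmr : m ≤ 2 * K.card) : ∃ I : Finset V, G.IsIndepSet (I : Set V) ∧ m ≤ I.card := by
  classical
  have hno : ∀ bl : List (List V), Sys G K bl → bl.flatten.length ≠ m := by
    intro bl h hl
    exact hfree _ (h.cyc hK (by omega)) hl
  have hKm : K.card + 1 ≤ m := by
    by_contra hcon
    obtain ⟨L, hL, hLc⟩ := Finset.exists_subset_card_eq (s := K) (n := m) (by omega)
    refine hno _ (Sys.singletons (G := G) L.toList L.nodup_toList
      (fun x hx => hL (Finset.mem_toList.1 hx))) ?_
    rw [flatten_map_singleton, Finset.length_toList, hLc]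
  let P : ℕ → Prop := fun c => ∃ bl, Sys G K bl ∧ Cov K bl ∧ bl.flatten.length = c
  have hPr : P K.card := by
    refine ⟨K.toList.map (fun x => [x]), Sys.singletons _ K.nodup_toList
      (fun x hx => Finset.mem_toList.1 hx), ?_, ?_⟩
    · intro x hx
      rw [flatten_map_singleton]
      exact Finset.mem_toList.2 hx
    · rw [flatten_map_singleton, Finset.length_toList]
  have hPm : ¬ P m := fun ⟨bl, h1, _, h3⟩ => hno bl h1 h3
  obtain ⟨c0, hc0m, hc0, hc0max⟩ : ∃ c0, c0 + 1 ≤ m ∧ P c0 ∧ ∀ c, c0 < c → c + 1 ≤ m → ¬ P c := by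
    refine ⟨Nat.findGreatest P (m - 1), ?_, ?_, ?_⟩
    · have := Nat.findGreatest_le (P := P) (m - 1)
      omega
    · exact Nat.findGreatest_spec (P := P) (m := K.card) (by omega) hPr
    · intro c h1 h2
      exact Nat.findGreatest_is_greatest h1 (by omega)
  obtain ⟨bl0, h0s, h0c, h0l⟩ := hc0
  by_cases hA : ∀ bl', Sys G K bl' → Cov K bl' → ∀ q, 1 ≤ q → q ≤ 4 →
      bl'.flatten.length ≠ bl0.flatten.length + q
  · exact caseA5 G m hdeg K hK hmax (by omega) hmr bl0 h0s h0c (by omega) hA
  · have hex : ∃ c, m < c ∧ P c := by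
      by_contra hcon
      apply hA
      intro bl' h1 h2 q hq hq' hl
      by_cases hlt : bl'.flatten.length + 1 ≤ m
      · exact hc0max bl'.flatten.length (by omega) hlt ⟨bl', h1, h2, rfl⟩
      · have : bl'.flatten.length ≠ m := hno bl' h1
        exact hcon ⟨bl'.flatten.length, by omega, bl', h1, h2, rfl⟩
    have hc1 := Nat.find_spec hex
    have hc1min : ∀ c, c < Nat.find hex → ¬ (m < c ∧ P c) := fun c hc => Nat.find_min hex hc
    generalize Nat.find hex = c1 at hc1 hc1min
    obtain ⟨hmc1, bl1, h1s, h1c, h1l⟩ := hc1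
    have hc16 : c1 ≤ c0 + 4 := by
      by_contra hcon
      apply hA
      intro bl' h1 h2 q hq hq' hl
      by_cases hlt : bl'.flatten.length + 1 ≤ m
      · exact hc0max bl'.flatten.length (by omega) hlt ⟨bl', h1, h2, rfl⟩
      · have : bl'.flatten.length ≠ m := hno bl' h1
        exact hc1min bl'.flatten.length (by omega) ⟨by omega, bl', h1, h2, rfl⟩
    have hgap : ∀ bl', Sys G K bl' → Cov K bl' → ∀ d, 1 ≤ d → d < c1 - c0 →
        bl'.flatten.length + d ≠ bl1.flatten.length := by
      intro bl' h1 h2 d hd hd' hl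
      by_cases hlt : bl'.flatten.length + 1 ≤ m
      · exact hc0max bl'.flatten.length (by omega) hlt ⟨bl', h1, h2, rfl⟩
      · have : bl'.flatten.length ≠ m := hno bl' h1
        exact hc1min bl'.flatten.length (by omega) ⟨by omega, bl', h1, h2, rfl⟩
    obtain ⟨bl', pat, k1, k2, k3⟩ := small_structure (e := c1 - m) (δ := c1 - c0) h1s h1c hno
      (by omega) (by omega) (by omega) (by omega) hm9 hm16 hmr hgap
    exact indep_of_cfg G (by omega) hdeg hfree K hK hmax k1 k2 k3

theorem MinCx.false_of_nine [Fintype V] [DecidableEq V] {G : SimpleGraph V}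
    [DecidableRel G.Adj] {m : ℕ} (h : MinCx G m) (hm : 9 ≤ m) (ha : ind G univ + 1 ≤ m) :
    False := by
  by_cases hm17 : 17 ≤ m
  · exact h.false_of_seventeen hm17 ha
  obtain ⟨K, hK, hmax⟩ := exists_max_clique G
  by_cases hmr : m ≤ 2 * K.card
  · obtain ⟨I, hI, hIc⟩ := clique_case_small G m hm (by omega) h.free (fun v => h.degree_ge v)
      K hK hmax hmr
    have := h.indep_le hI
    omega
  · apply h.false_of_cliques (by omega) ha
    intro K' hK'
    have := hmax K' hK'
    omega

/-- The Ramsey bound in the list form, `m ≥ 9`. -/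
theorem card_le_of_free9 [DecidableEq V] (G : SimpleGraph V) [DecidableRel G.Adj] (m : ℕ)
    (hfree : ∀ l, CycL G l → l.length ≠ m) (S : Finset V) (hm : 9 ≤ m)
    (ha : ind G S + 1 ≤ m) : S.card ≤ (m - 1) * ind G S := by
  by_contra hcon
  push Not at hcon
  obtain ⟨T, hT, h⟩ := exists_minCx G m hfree S hcon
  apply h.false_of_nine hm
  rw [ind_comap]
  have : (univ : Finset {x // x ∈ T}).map
      ⟨fun x : {x // x ∈ T} => x.1, Subtype.val_injective⟩ = T := by
    ext x
    simp
  rw [this]
  have := ind_mono (G := G) hT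
  omega

end Vale.Agent.P048
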