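import Vale.Agent.P048.Six

/-!
# P048: no minimal counterexample for `m = 5` without `K_4`
-/

namespace Vale.Agent.P048

open Finset

variable {V : Type*}

namespace MinCx

variable [Fintype V] [DecidableEq V] {G : SimpleGraph V} [DecidableRel G.Adj] {m : ℕ}

omit [DecidableRel G.Adj] in
/-- adjacent vertices of the second level have a unique common parent -/
theorem parent_unique (h : MinCx G 5) {v x y w w' : V} (hx : G.dist v x = 2) (hy : G.dist v y = 2)
    (hxy : G.Adj x y) (hw : G.dist v w = 1) (hw' : G.dist v w' = 1) (hwx : G.Adj w x)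
    (hwy : G.Adj w' y) : w = w' := by
  by_contra hne
  have hnd : ∀ x y, G.dist v x ≠ G.dist v y → x ≠ y := by
    intro x y h1 h2
    rw [h2] at h1
    exact h1 rfl
  have dv : G.dist v v = 0 := SimpleGraph.dist_self
  refine h.free [v, w, x, y, w'] ⟨?_, ?_, ?_⟩ rfl
  · simp only [List.nodup_cons, List.mem_cons, List.not_mem_nil, or_false, not_or,
      not_false_eq_true, List.nodup_nil, and_true]
    refine ⟨⟨?_, ?_, ?_, ?_⟩, ⟨?_, ?_, hne⟩, ⟨hxy.ne, ?_⟩, ?_⟩
    all_goals
      apply hnd
      omega
  · simp only [List.isChain_cons_cons, List.isChain_singleton, and_true]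
    exact ⟨SimpleGraph.dist_eq_one_iff_adj.1 hw, hwx, hxy, hwy.symm⟩
  · intro a ha b hb
    simp only [List.getLast?_cons_cons, List.getLast?_singleton, List.head?_cons,
      Option.mem_def, Option.some.injEq] at ha hb
    subst ha hb
    exact (SimpleGraph.dist_eq_one_iff_adj.1 hw').symm

/-- the second level -/
theorem Lv_two_bound5 (h : MinCx G 5)
    (hω : ∀ K : Finset V, G.IsClique (K : Set V) → K.card ≤ 3) (v : V) :
    ∀ U : Finset V, U ⊆ Lv G v 2 → U.card ≤ 2 * ind G U := by
  have hconn := h.connected
  intro U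
  induction U using Finset.strongInduction with
  | H U ih =>
  intro hU
  by_cases hne : U = ∅
  · subst hne
    simp
  obtain ⟨x0, hx0⟩ := Finset.nonempty_iff_ne_empty.2 hne
  obtain ⟨w0, hw0, hw0'⟩ := exists_parent hconn (mem_Lv.1 (hU hx0))
  set S := U.filter (G.Adj w0) with hS
  have hSU : S ⊆ U := Finset.filter_subset _ _
  have hSne : S.Nonempty := ⟨x0, by rw [hS, Finset.mem_filter]; exact ⟨hx0, hw0⟩⟩
  have h1 := ih (U \ S) (Finset.sdiff_ssubset hSU hSne) (Finset.sdiff_subset.trans hU)
  have h2 := nbr_bound G hconn w0 5 4 (by omega) (by omega) h.free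
    (fun K hK => by have := hω K hK; omega) S (fun x hx => by
      rw [hS, Finset.mem_filter] at hx
      exact hx.2)
  have h3 := ind_add_le (G := G) (S := S) (S' := U \ S) Finset.disjoint_sdiff (by
    intro x hx y hy hadj
    rw [hS, Finset.mem_filter] at hx
    rw [Finset.mem_sdiff, hS, Finset.mem_filter] at hy
    obtain ⟨w', hw', hw''⟩ := exists_parent hconn (mem_Lv.1 (hU hy.1))
    have := h.parent_unique (mem_Lv.1 (hU hx.1)) (mem_Lv.1 (hU hy.1)) hadj hw0' hw'' hx.2 hw'
    rw [← this] at hw'
    exact hy.2 ⟨hy.1, hw'⟩)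
  rw [Finset.union_sdiff_of_subset hSU] at h3
  have h4 : (U \ S).card + S.card = U.card := Finset.card_sdiff_add_card_eq_card hSU
  omega

theorem false_five (h : MinCx G 5) (ha : ind G univ ≤ 4)
    (hω : ∀ K : Finset V, G.IsClique (K : Set V) → K.card ≤ 3) : False := by
  have hconn := h.connected
  obtain ⟨v⟩ := h.nonempty
  have h1 := h.le_card_Lv_one v
  have h2 := h.Lv_one_bound v 4 (by omega) (by omega) (fun K hK => by have := hω K hK; omega)
  have h3 := h.Lv_two_bound5 hω v (Lv G v 2) (Finset.Subset.refl _)
  have h8 := h.mul_ind_Lv_one v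
  obtain ⟨p, q, h4, h5, h6⟩ := h.count_levels v 3 (by
    intro j hj
    apply card_le_of_ind_le_two h.free treeF5 hω
    have h7 := h.ind_odd v (U := Lv G v j) (by
      intro x hx
      rw [mem_Lv] at hx
      omega)
    omega)
  have e1 : (Lv G v 1).card = 4 := by omega
  have e2 : ind G (Lv G v 1) = 2 := by omega
  have e3 : (Lv G v 2).card = 2 * ind G (Lv G v 2) := by omega
  have e4 : (Lv G v 2).card ≤ 6 := by omega
  -- no isolated vertices in the second level
  have hniso : ∀ x, G.dist v x = 2 → ∃ y, G.dist v y = 2 ∧ G.Adj x y := by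
    intro x hx
    by_contra hcon
    push Not at hcon
    have h9 := h.Lv_two_bound5 hω v ((Lv G v 2).erase x) (Finset.erase_subset _ _)
    have h10 := ind_add_le (G := G) (S := {x}) (S' := (Lv G v 2).erase x) (by
      rw [Finset.disjoint_left]
      intro y hy hy'
      rw [Finset.mem_singleton] at hy
      rw [Finset.mem_erase] at hy'
      exact hy'.1 hy) (by
      intro y hy z hz
      rw [Finset.mem_singleton] at hy
      rw [Finset.mem_erase, mem_Lv] at hz
      rw [hy]
      exact hcon z hz.2)
    have h11 : 1 ≤ ind G {x} := ind_pos (by simp)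
    have h12 : ind G ({x} ∪ (Lv G v 2).erase x) ≤ ind G (Lv G v 2) := ind_mono (by
      intro y hy
      rw [Finset.mem_union, Finset.mem_singleton, Finset.mem_erase] at hy
      rcases hy with rfl | hy
      · exact mem_Lv.2 hx
      · exact hy.2)
    have h13 := Finset.card_erase_of_mem (mem_Lv.2 hx)
    omega
  have huniq : ∀ x w w', G.dist v x = 2 → G.dist v w = 1 → G.dist v w' = 1 → G.Adj w x →
      G.Adj w' x → w = w' := by
    intro x w w' hx hw hw' hwx hwx'
    obtain ⟨y, hy, hxy⟩ := hniso x hx
    obtain ⟨w'', hw'', hw'''⟩ := exists_parent hconn hy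
    exact (h.parent_unique hx hy hxy hw hw''' hwx hw'').trans
      (h.parent_unique hx hy hxy hw' hw''' hwx' hw'').symm
  -- one neighbour in the first level
  have hone : ∀ w ∈ Lv G v 1, ((Lv G v 1).filter (G.Adj w)).card ≤ 1 := by
    intro w hw
    by_contra hcon
    push Not at hcon
    obtain ⟨u, hu, u', hu', huu⟩ := Finset.one_lt_card.1 hcon
    rw [Finset.mem_filter] at hu hu'
    have a1 := SimpleGraph.dist_eq_one_iff_adj.1 (mem_Lv.1 hw)
    have a2 := SimpleGraph.dist_eq_one_iff_adj.1 (mem_Lv.1 hu.1)
    have a3 := SimpleGraph.dist_eq_one_iff_adj.1 (mem_Lv.1 hu'.1)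
    have huu' : ¬ G.Adj u u' := by
      intro hadj
      have := hω {v, w, u, u'} (by
        intro a ha b hb hab
        simp only [Finset.coe_insert, Finset.coe_singleton, Set.mem_insert_iff,
          Set.mem_singleton_iff] at ha hb
        rcases ha with rfl | rfl | rfl | rfl <;> rcases hb with rfl | rfl | rfl | rfl <;>
          first
            | exact absurd rfl hab
            | assumption
            | exact a1.symm
            | exact a2.symm
            | exact a3.symm
            | exact hu.2
            | exact hu'.2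
            | exact hu.2.symm
            | exact hu'.2.symm
            | exact hadj.symm)
      rw [Finset.card_insert_of_notMem, Finset.card_insert_of_notMem, Finset.card_pair huu] at this
      · omega
      · simp only [Finset.mem_insert, Finset.mem_singleton, not_or]
        exact ⟨hu.2.ne, hu'.2.ne⟩
      · simp only [Finset.mem_insert, Finset.mem_singleton, not_or]
        exact ⟨a1.ne, a2.ne, a3.ne⟩
    obtain ⟨z, hz, hz'⟩ : ∃ z ∈ Lv G v 1, z ∉ ({w, u, u'} : Finset V) := by
      by_contra hcon2
      push Not at hcon2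
      have b1 := Finset.card_le_card (show Lv G v 1 ⊆ {w, u, u'} from hcon2)
      have b2 : ({w, u, u'} : Finset V).card ≤ 3 := Finset.card_le_three
      omega
    simp only [Finset.mem_insert, Finset.mem_singleton, not_or] at hz'
    have a4 := SimpleGraph.dist_eq_one_iff_adj.1 (mem_Lv.1 hz)
    have hzz : G.Adj z u ∨ G.Adj z u' := by
      by_contra hcon2
      rw [not_or] at hcon2
      have c1 := card_le_ind (G := G) (S := Lv G v 1) (I := {z, u, u'}) (by
        intro t ht
        simp only [Finset.mem_insert, Finset.mem_singleton] at ht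
        rcases ht with rfl | rfl | rfl
        · exact hz
        · exact hu.1
        · exact hu'.1) (by
        intro a ha b hb hab
        simp only [Finset.coe_insert, Finset.coe_singleton, Set.mem_insert_iff,
          Set.mem_singleton_iff] at ha hb
        rcases ha with rfl | rfl | rfl <;> rcases hb with rfl | rfl | rfl
        · exact absurd rfl hab
        · exact hcon2.1
        · exact hcon2.2
        · exact fun h => hcon2.1 h.symm
        · exact absurd rfl hab
        · exact huu'
        · exact fun h => hcon2.2 h.symm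
        · exact fun h => huu' h.symm
        · exact absurd rfl hab)
      rw [Finset.card_insert_of_notMem, Finset.card_pair huu] at c1
      · omega
      · simp only [Finset.mem_insert, Finset.mem_singleton, not_or]
        exact ⟨hz'.2.1, hz'.2.2⟩
    have hcyc : ∀ u u', G.Adj v u → G.Adj v u' → G.Adj w u → G.Adj w u' → u ≠ u' →
        z ≠ u → z ≠ u' → ¬ G.Adj z u := by
      intro u u' b2 b3 b4 b5 b6 b7 b8 b9
      refine h.free [v, z, u, w, u'] ⟨?_, ?_, ?_⟩ rfl
      · simp only [List.nodup_cons, List.mem_cons, List.not_mem_nil, or_false, not_or,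
          not_false_eq_true, List.nodup_nil, and_true]
        exact ⟨⟨a4.ne, b2.ne, a1.ne, b3.ne⟩, ⟨b7, hz'.1, b8⟩, ⟨b4.ne.symm, b6⟩, b5.ne⟩
      · simp only [List.isChain_cons_cons, List.isChain_singleton, and_true]
        exact ⟨a4, b9, b4.symm, b5⟩
      · intro a ha b hb
        simp only [List.getLast?_cons_cons, List.getLast?_singleton, List.head?_cons,
          Option.mem_def, Option.some.injEq] at ha hb
        subst ha hb
        exact b3.symm
    rcases hzz with hzz | hzz
    · exact hcyc u u' a2 a3 hu.2 hu'.2 huu hz'.2.1 hz'.2.2 hzz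
    · exact hcyc u' u a3 a2 hu'.2 hu.2 huu.symm hz'.2.2 hz'.2.1 hzz
  -- two neighbours in the second level
  have htwo : ∀ w ∈ Lv G v 1, 2 ≤ ((Lv G v 2).filter (G.Adj w)).card := by
    intro w hw
    have b1 := h.degree_ge w
    have b2 : G.neighborFinset w ⊆ ({v} ∪ (Lv G v 1).filter (G.Adj w)) ∪
        (Lv G v 2).filter (G.Adj w) := by
      intro x hx
      rw [SimpleGraph.mem_neighborFinset] at hx
      simp only [Finset.mem_union, Finset.mem_singleton, Finset.mem_filter, mem_Lv]
      have c1 := dist_adj_le hconn v hx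
      rw [mem_Lv] at hw
      by_cases hxv : x = v
      · exact Or.inl (Or.inl hxv)
      · have h0 : G.dist v x ≠ 0 := by
          intro h0
          exact hxv (hconn.dist_eq_zero_iff.1 h0).symm
        by_cases hx1 : G.dist v x = 1
        · exact Or.inl (Or.inr ⟨hx1, hx⟩)
        · exact Or.inr ⟨by omega, hx⟩
    have b3 := Finset.card_le_card b2
    have b4 := Finset.card_union_le ({v} ∪ (Lv G v 1).filter (G.Adj w))
      ((Lv G v 2).filter (G.Adj w))
    have b5 := Finset.card_union_le {v} ((Lv G v 1).filter (G.Adj w))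
    rw [Finset.card_singleton] at b5
    have b6 := hone w hw
    rw [SimpleGraph.card_neighborFinset_eq_degree] at b3
    omega
  have hdisj : (Lv G v 1 : Set V).PairwiseDisjoint (fun w => (Lv G v 2).filter (G.Adj w)) := by
    intro w hw w' hw' hww
    rw [Function.onFun, Finset.disjoint_left]
    intro x hx hx'
    rw [Finset.mem_filter, mem_Lv] at hx hx'
    exact hww (huniq x w w' hx.1 (mem_Lv.1 hw) (mem_Lv.1 hw') hx.2 hx'.2)
  have hb := Finset.card_biUnion hdisj
  have hb2 : ((Lv G v 1).biUnion (fun w => (Lv G v 2).filter (G.Adj w))).card ≤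
      (Lv G v 2).card := by
    apply Finset.card_le_card
    intro x hx
    rw [Finset.mem_biUnion] at hx
    obtain ⟨w, -, hx⟩ := hx
    exact (Finset.mem_filter.1 hx).1
  have hb3 : (Lv G v 1).card • 2 ≤
      ∑ w ∈ Lv G v 1, ((Lv G v 2).filter (G.Adj w)).card :=
    Finset.card_nsmul_le_sum _ _ _ htwo
  rw [e1, smul_eq_mul] at hb3
  omega

end MinCx

end Vale.Agent.P048
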