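import Vale.Agent.P048.Levels

/-!
# P048: no minimal counterexample for `m = 4`
-/

namespace Vale.Agent.P048

open Finset

variable {V : Type*}

theorem no_c4 {G : SimpleGraph V} (hfree : ∀ l, CycL G l → l.length ≠ 4) {a b c d : V}
    (h1 : G.Adj a b) (h2 : G.Adj b c) (h3 : G.Adj c d) (h4 : G.Adj d a) (hac : a ≠ c)
    (hbd : b ≠ d) : False := by
  refine hfree [a, b, c, d] ⟨?_, ?_, ?_⟩ rfl
  · simp only [List.nodup_cons, List.mem_cons, List.not_mem_nil, or_false, not_or,
      not_false_eq_true, List.nodup_nil, and_true]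
    exact ⟨⟨h1.ne, hac, h4.ne.symm⟩, ⟨h2.ne, hbd⟩, h3.ne⟩
  · simp only [List.isChain_cons_cons, List.isChain_singleton, and_true]
    exact ⟨h1, h2, h3⟩
  · intro x hx y hy
    simp only [List.getLast?_cons_cons, List.getLast?_singleton, List.head?_cons,
      Option.mem_def, Option.some.injEq] at hx hy
    subst hx hy
    exact h4

theorem exists_three {l : List V} (h : l.length = 3) : ∃ a b c, l = [a, b, c] := by
  match l, h with
  | [a, b, c], _ => exact ⟨a, b, c, rfl⟩

namespace MinCx

variable [Fintype V] [DecidableEq V] {G : SimpleGraph V} [DecidableRel G.Adj] {m : ℕ}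

theorem exists_outer4 (h : MinCx G 4) {v a b c : V} (ha : G.Adj v a) (hb : G.Adj v b)
    (hc : G.Adj v c) (hbc : b ≠ c) :
    ∃ x, G.Adj a x ∧ x ≠ v ∧ x ≠ b ∧ x ≠ c := by
  by_contra hcon
  have h1 := h.degree_ge a
  have h2 : G.neighborFinset a ⊆ {v, b, c} := by
    intro x hx
    rw [SimpleGraph.mem_neighborFinset] at hx
    simp only [Finset.mem_insert, Finset.mem_singleton]
    by_contra hcon2
    rw [not_or, not_or] at hcon2
    exact hcon ⟨x, hx, hcon2.1, hcon2.2.1, hcon2.2.2⟩
  have h3 : ({v, b, c} : Finset V).card ≤ 3 := Finset.card_le_three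
  have h4 := Finset.eq_of_subset_of_card_le h2 (by
    rw [SimpleGraph.card_neighborFinset_eq_degree]
    omega)
  have hab : G.Adj a b := by
    rw [← SimpleGraph.mem_neighborFinset, h4]
    simp
  have hac : G.Adj a c := by
    rw [← SimpleGraph.mem_neighborFinset, h4]
    simp
  exact no_c4 h.free hb hab.symm hac hc.symm ha.ne hbc

theorem false_four (h : MinCx G 4) (ha : ind G univ ≤ 3) : False := by
  obtain ⟨v⟩ := h.nonempty
  have hdeg := h.degree_ge v
  rw [← SimpleGraph.card_neighborFinset_eq_degree] at hdeg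
  obtain ⟨S, hS, hS3⟩ := Finset.exists_subset_card_eq hdeg
  obtain ⟨a, b, c, hl⟩ := exists_three (l := S.toList) (by rw [Finset.length_toList, hS3])
  have hnd := S.nodup_toList
  rw [hl] at hnd
  simp only [List.nodup_cons, List.mem_cons, List.not_mem_nil, or_false, not_or,
    not_false_eq_true, List.nodup_nil, and_true] at hnd
  obtain ⟨⟨hab, hac⟩, hbc⟩ := hnd
  have hmem : ∀ y ∈ [a, b, c], G.Adj v y := by
    intro y hy
    rw [← hl, Finset.mem_toList] at hy
    have := hS hy
    rwa [SimpleGraph.mem_neighborFinset] at this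
  have va := hmem a (by simp)
  have vb := hmem b (by simp)
  have vc := hmem c (by simp)
  obtain ⟨x, hx, xv, xb, xc⟩ := h.exists_outer4 va vb vc hbc
  obtain ⟨y, hy, yv, ya, yc⟩ := h.exists_outer4 vb va vc hac
  obtain ⟨z, hz, zv, za, zb⟩ := h.exists_outer4 vc va vb hab
  have xy : x ≠ y := by
    rintro rfl
    exact no_c4 h.free va hx hy.symm vb.symm xv.symm hab
  have xz : x ≠ z := by
    rintro rfl
    exact no_c4 h.free va hx hz.symm vc.symm xv.symm hac
  have yz : y ≠ z := by
    rintro rfl
    exact no_c4 h.free vb hy hz.symm vc.symm yv.symm hbc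
  have hnd4 : [v, a, b, c].Nodup := by
    simp only [List.nodup_cons, List.mem_cons, List.not_mem_nil, or_false, not_or,
      not_false_eq_true, List.nodup_nil, and_true]
    exact ⟨⟨va.ne, vb.ne, vc.ne⟩, ⟨hab, hac⟩, hbc⟩
  have hnd7 : [v, a, b, c, x, y, z].Nodup := by
    simp only [List.nodup_cons, List.mem_cons, List.not_mem_nil, or_false, not_or,
      not_false_eq_true, List.nodup_nil, and_true]
    exact ⟨⟨va.ne, vb.ne, vc.ne, xv.symm, yv.symm, zv.symm⟩,
      ⟨hab, hac, hx.ne, ya.symm, za.symm⟩, ⟨hbc, xb.symm, hy.ne, zb.symm⟩,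
      ⟨xc.symm, yc.symm, hz.ne⟩, ⟨xy, xz⟩, yz⟩
  have hbig := h.big
  have hα : ∀ I ⊆ (univ : Finset V), G.IsIndepSet (I : Set V) → I.card ≤ ind G univ :=
    fun I hI hi => card_le_ind hI hi
  have hpos : 1 ≤ ind G univ := ind_pos ⟨v, Finset.mem_univ v⟩
  have hcase : ind G univ = 1 ∨ ind G univ = 2 ∨ ind G univ = 3 := by omega
  -- cliques are small
  have hcl : ∀ K : Finset V, G.IsClique (K : Set V) → K.card < 11 := by
    intro K hK
    by_contra hcon
    push Not at hcon
    obtain ⟨K', hK', hc⟩ := Finset.exists_subset_card_eq (s := K) (n := 4) (by omega)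
    obtain ⟨p, q, r, s, hpq⟩ : ∃ p q r s, K'.toList = [p, q, r, s] := by
      have : K'.toList.length = 4 := by rw [Finset.length_toList, hc]
      match hKl : K'.toList, this with
      | [p, q, r, s], _ => exact ⟨p, q, r, s, rfl⟩
    have hnd' := K'.nodup_toList
    rw [hpq] at hnd'
    simp only [List.nodup_cons, List.mem_cons, List.not_mem_nil, or_false, not_or,
      not_false_eq_true, List.nodup_nil, and_true] at hnd'
    have hm : ∀ t ∈ [p, q, r, s], t ∈ K := by
      intro t ht
      rw [← hpq, Finset.mem_toList] at ht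
      exact hK' ht
    have kp := hm p (by simp)
    have kq := hm q (by simp)
    have kr := hm r (by simp)
    have ks := hm s (by simp)
    exact no_c4 h.free (hK kp kq hnd'.1.1) (hK kq kr hnd'.2.1.1) (hK kr ks hnd'.2.2)
      (hK ks kp (Ne.symm hnd'.1.2.2)) hnd'.1.2.1 hnd'.2.1.2
  rcases hcase with h1 | h2 | h3
  · refine Tr.false_of_list G (by omega) h.free univ (fun K _ hK => hcl K hK)
      (fun I hI hi => ?_) [(0, 1), (0, 2), (0, 3)] tree41 v [v, a, b, c] hnd4 rfl
      (fun _ _ => Finset.mem_univ _) ?_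
    · have := hα I hI hi
      omega
    · intro q hq
      simp only [List.mem_cons, List.not_mem_nil, or_false] at hq
      rcases hq with rfl | rfl | rfl
      · exact ⟨by omega, by omega, va⟩
      · exact ⟨by omega, by omega, vb⟩
      · exact ⟨by omega, by omega, vc⟩
  · refine Tr.false_of_list G (by omega) h.free univ (fun K _ hK => hcl K hK)
      (fun I hI hi => ?_) [(0, 1), (0, 2), (0, 3), (1, 4), (2, 5), (3, 6)] tree42 v
      [v, a, b, c, x, y, z] hnd7 rfl (fun _ _ => Finset.mem_univ _) ?_
    · have := hα I hI hi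
      omega
    · intro q hq
      simp only [List.mem_cons, List.not_mem_nil, or_false] at hq
      rcases hq with rfl | rfl | rfl | rfl | rfl | rfl
      · exact ⟨by omega, by omega, va⟩
      · exact ⟨by omega, by omega, vb⟩
      · exact ⟨by omega, by omega, vc⟩
      · exact ⟨by omega, by omega, hx⟩
      · exact ⟨by omega, by omega, hy⟩
      · exact ⟨by omega, by omega, hz⟩
  · have hc7 : ([v, a, b, c, x, y, z].toFinset).card = 7 := List.toFinset_card_of_nodup hnd7
    have hR : 3 ≤ (univ \ [v, a, b, c, x, y, z].toFinset).card := by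
      rw [Finset.card_sdiff_of_subset (Finset.subset_univ _), Finset.card_univ, hc7]
      omega
    obtain ⟨R, hR, hR3⟩ := Finset.exists_subset_card_eq hR
    obtain ⟨p, q, r, hlR⟩ := exists_three (l := R.toList) (by rw [Finset.length_toList, hR3])
    have hnd10 : ([v, a, b, c, x, y, z] ++ R.toList).Nodup := by
      rw [List.nodup_append']
      refine ⟨hnd7, R.nodup_toList, ?_⟩
      intro t ht ht'
      rw [Finset.mem_toList] at ht'
      have := hR ht'
      rw [Finset.mem_sdiff, List.mem_toFinset] at this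
      exact this.2 ht
    rw [hlR] at hnd10
    refine Tr.false_of_list G (by omega) h.free univ (fun K _ hK => hcl K hK)
      (fun I hI hi => ?_) [(0, 1), (0, 2), (0, 3), (1, 4), (2, 5), (3, 6)] tree43 v
      ([v, a, b, c, x, y, z] ++ [p, q, r]) hnd10 rfl (fun _ _ => Finset.mem_univ _) ?_
    · have := hα I hI hi
      omega
    · intro q hq
      simp only [List.mem_cons, List.not_mem_nil, or_false] at hq
      rcases hq with rfl | rfl | rfl | rfl | rfl | rfl
      · exact ⟨by omega, by omega, va⟩
      · exact ⟨by omega, by omega, vb⟩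
      · exact ⟨by omega, by omega, vc⟩
      · exact ⟨by omega, by omega, hx⟩
      · exact ⟨by omega, by omega, hy⟩
      · exact ⟨by omega, by omega, hz⟩

end MinCx

end Vale.Agent.P048
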