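import Vale.Agent.P048.Certs2
import Vale.Agent.P048.CaseA5
import Vale.Agent.P048.SmallStructure
import Vale.Agent.P048.Assembly

/-!
# P048: large cliques for `5 ≤ m ≤ 8`
-/

namespace Vale.Agent.P048

open Finset GapsAux SmallAux

variable {V : Type*}

/-- the ears and the singletons of a gapped system -/
theorem split_gapped [DecidableEq V] {G : SimpleGraph V} {K : Finset V} {δ : ℕ}
    {bl : List (List V)} (h : Sys G K bl) (hc : Cov K bl) (hδ : 1 ≤ δ)
    (hno : ∀ bl', Sys G K bl' → Cov K bl' → ∀ d, 1 ≤ d → d < δ →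
      bl'.flatten.length + d ≠ bl.flatten.length) :
    ∃ S N : List (List V), Sys G K (N ++ S) ∧ (∀ b ∈ N, Gapped K δ b) ∧
      (∀ b ∈ N, b.length ≠ 1) ∧ PatOk K (List.replicate S.length true) S.flatten ∧
      S.length + cK K N.flatten = K.card ∧ K.card + cN K N.flatten = bl.flatten.length ∧
      2 * N.length ≤ cK K N.flatten ∧
      δ * cK K N.flatten ≤ cN K N.flatten + δ * N.length ∧
      (∀ e, e ≤ S.length → ∃ bl'', Sys G K bl'' ∧ bl''.flatten.length + e = bl.flatten.length) := by
  obtain ⟨bl', h1, h2, h3, h4⟩ := exists_gapped_system h hc hδ hno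
  have e2 := cK_eq_card h1 h2
  have e3 := cK_add_cN K bl'.flatten
  set S := bl'.filter (fun b => decide (b.length = 1)) with hS
  set N := bl'.filter (fun b => !decide (b.length = 1)) with hN
  have hp : (S ++ N).Perm bl' := List.filter_append_perm _ _
  have hSg : ∀ b ∈ S, Gapped K δ b := fun b hb => h4 b (List.mem_of_mem_filter hb)
  have hNg : ∀ b ∈ N, Gapped K δ b := fun b hb => h4 b (List.mem_of_mem_filter hb)
  have hS1 : ∀ b ∈ S, b.length = 1 := by
    intro b hb
    rw [hS, List.mem_filter] at hb
    simpa using hb.2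
  have hN1 : ∀ b ∈ N, b.length ≠ 1 := by
    intro b hb
    rw [hN, List.mem_filter] at hb
    simpa using hb.2
  obtain ⟨s1, s2, s3⟩ := singles_count hSg hS1
  obtain ⟨n1, n2⟩ := others_count hNg hN1
  have c1 := cK_perm (K := K) hp.flatten
  have c2 := cN_perm (K := K) hp.flatten
  rw [List.flatten_append, cK_append, s1] at c1
  rw [List.flatten_append, cN_append, s2] at c2
  have hsys : Sys G K (N ++ S) := h1.perm (hp.symm.trans List.perm_append_comm)
  refine ⟨S, N, hsys, hNg, hN1, s3, by omega, by omega, n1, n2, ?_⟩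
  intro e he
  obtain ⟨bl'', k1, k2⟩ := delete_singletons (e := e) h1 (by
    rw [List.countP_eq_length_filter, ← hS]
    exact he)
  exact ⟨bl'', k1, by omega⟩

theorem one_block [DecidableEq V] {K : Finset V} {b : List V} :
    cK K [b].flatten = cK K b ∧ cN K [b].flatten = cN K b := by
  simp only [List.flatten_cons, List.flatten_nil, List.append_nil, and_self]

theorem two_blocks [DecidableEq V] {K : Finset V} {b b' : List V} :
    cK K [b, b'].flatten = cK K b + cK K b' ∧ cN K [b, b'].flatten = cN K b + cN K b' := by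
  simp only [List.flatten_cons, List.flatten_nil, List.append_nil, cK_append, cN_append, and_self]

theorem list_one {α : Type*} {l : List α} (h : l.length = 1) : ∃ a, l = [a] := by
  match l, h with
  | [a], _ => exact ⟨a, rfl⟩

theorem list_two {α : Type*} {l : List α} (h : l.length = 2) : ∃ a b, l = [a, b] := by
  match l, h with
  | [a, b], _ => exact ⟨a, b, rfl⟩

theorem tiny_arith {m r c0 c1 s t a b : ℕ} (h0 : c0 + 1 ≤ m) (h1 : m < c1) (h2 : c1 ≤ c0 + 4)
    (hs : s + 1 ≤ c1 - m) (h3 : s + a = r) (h4 : r + b = c1) (h5 : 2 * t ≤ a)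
    (h6 : (c1 - c0) * a ≤ b + (c1 - c0) * t) (h7 : m ≤ 2 * r) (h8 : m ≤ 8) (h9 : 4 ≤ r)
    (h10 : m = 8 → 5 ≤ r) :
    (m = 7 ∧ r = 4 ∧ s = 0 ∧ t = 2 ∧ a = 4 ∧ b = 4 ∧ c1 - c0 = 2) ∨
    (r = 4 ∧ s = 2 ∧ t = 1 ∧ a = 2 ∧ b + 1 = m ∧ c1 = m + 3 ∧ c0 + 1 = m) := by
  have hδ : c1 - c0 = 2 ∨ c1 - c0 = 3 ∨ c1 - c0 = 4 := by omega
  have hs2 : s ≤ 2 := by omega
  have ht5 : t ≤ 5 := by omega
  rcases hδ with h | h | h <;> rw [h] at h6 <;> interval_cases s <;> interval_cases t <;> omega

theorem clique_case_tiny [Fintype V] [DecidableEq V] (G : SimpleGraph V) [DecidableRel G.Adj]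
    (m : ℕ) (hm5 : 5 ≤ m) (hm8 : m ≤ 8) (hfree : ∀ l, CycL G l → l.length ≠ m)
    (hdeg : ∀ v, m - 1 ≤ G.degree v)
    (K : Finset V) (hK : G.IsClique (K : Set V))
    (hmax : ∀ K' : Finset V, G.IsClique (K' : Set V) → K'.card ≤ K.card)
    (hmr : m ≤ 2 * K.card) (hr4 : 4 ≤ K.card) (hr5 : m = 8 → 5 ≤ K.card) :
    ∃ I : Finset V, G.IsIndepSet (I : Set V) ∧ m ≤ I.card := by
  classical
  have hno : ∀ bl : List (List V), Sys G K bl → bl.flatten.length ≠ m := by
    intro bl h hl
    exact hfree _ (h.cyc hK (by omega)) hl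
  have hKm : K.card + 1 ≤ m := by
    by_contra hcon
    obtain ⟨L, hL, hLc⟩ := Finset.exists_subset_card_eq (s := K) (n := m) (by omega)
    refine hno _ (Sys.singletons (G := G) L.toList L.nodup_toList
      (fun x hx => hL (Finset.mem_toList.1 hx))) ?_
    rw [flatten_map_singleton, Finset.length_toList, hLc]
  let P : ℕ → Prop := fun c => ∃ bl, Sys G K bl ∧ Cov K bl ∧ bl.flatten.length = c
  have hPr : P K.card := by
    refine ⟨K.toList.map (fun x => [x]), Sys.singletons _ K.nodup_toList
      (fun x hx => Finset.mem_toList.1 hx), ?_, ?_⟩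
    · intro x hx
      rw [flatten_map_singleton]
      exact Finset.mem_toList.2 hx
    · rw [flatten_map_singleton, Finset.length_toList]
  have hPm : ¬ P m := fun ⟨bl, h1, _, h3⟩ => hno bl h1 h3
  obtain ⟨c0, hc0m, hc0, hc0max⟩ : ∃ c0, c0 + 1 ≤ m ∧ P c0 ∧ ∀ c, c0 < c → c + 1 ≤ m → ¬ P c := by
    refine ⟨Nat.findGreatest P (m - 1), ?_, ?_, ?_⟩
    · have := Nat.findGreatest_le (P := P) (m - 1)
      omega
    · exact Nat.findGreatest_spec (P := P) (m := K.card) (by omega) hPr
    · intro c h1 h2
      exact Nat.findGreatest_is_greatest h1 (by omega)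
  obtain ⟨bl0, h0s, h0c, h0l⟩ := hc0
  by_cases hA : ∀ bl', Sys G K bl' → Cov K bl' → ∀ q, 1 ≤ q → q ≤ 4 →
      bl'.flatten.length ≠ bl0.flatten.length + q
  · exact caseA5 G m hdeg K hK hmax (by omega) hmr bl0 h0s h0c (by omega) hA
  have hex : ∃ c, m < c ∧ P c := by
    by_contra hcon
    apply hA
    intro bl' h1 h2 q hq hq' hl
    by_cases hlt : bl'.flatten.length + 1 ≤ m
    · exact hc0max bl'.flatten.length (by omega) hlt ⟨bl', h1, h2, rfl⟩
    · have : bl'.flatten.length ≠ m := hno bl' h1
      exact hcon ⟨bl'.flatten.length, by omega, bl', h1, h2, rfl⟩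
  have hc1 := Nat.find_spec hex
  have hc1min : ∀ c, c < Nat.find hex → ¬ (m < c ∧ P c) := fun c hc => Nat.find_min hex hc
  generalize Nat.find hex = c1 at hc1 hc1min
  obtain ⟨hmc1, bl1, h1s, h1c, h1l⟩ := hc1
  have hc16 : c1 ≤ c0 + 4 := by
    by_contra hcon
    apply hA
    intro bl' h1 h2 q hq hq' hl
    by_cases hlt : bl'.flatten.length + 1 ≤ m
    · exact hc0max bl'.flatten.length (by omega) hlt ⟨bl', h1, h2, rfl⟩
    · have : bl'.flatten.length ≠ m := hno bl' h1
      exact hc1min bl'.flatten.length (by omega) ⟨by omega, bl', h1, h2, rfl⟩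
  have hbetween : ∀ bl', Sys G K bl' → Cov K bl' → c0 < bl'.flatten.length →
      bl'.flatten.length < c1 → False := by
    intro bl' h1 h2 h3 h4
    by_cases hlt : bl'.flatten.length + 1 ≤ m
    · exact hc0max bl'.flatten.length h3 hlt ⟨bl', h1, h2, rfl⟩
    · have : bl'.flatten.length ≠ m := hno bl' h1
      exact hc1min bl'.flatten.length (by omega) ⟨by omega, bl', h1, h2, rfl⟩
  obtain ⟨S, N, hsys, hNg, hN1, s3, a3, a4, n1, n2, hdel⟩ := split_gapped (δ := c1 - c0) h1s h1c
    (by omega) (by
      intro bl' h1 h2 d hd hd' hl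
      exact hbetween bl' h1 h2 (by omega) (by omega))
  have hs : S.length + 1 ≤ c1 - m := by
    by_contra hcon
    obtain ⟨bl'', k1, k2⟩ := hdel (c1 - m) (by omega)
    exact hno bl'' k1 (by omega)
  rw [h1l] at a4
  rcases tiny_arith hc0m hmc1 hc16 hs a3 a4 n1 n2 hmr hm8 hr4 hr5 with
    ⟨rfl, hr, hs0, ht, ha, hb, hδ⟩ | ⟨hr, hs2, ht, ha, hb, hc1', hc0'⟩
  · -- two short ears
    obtain ⟨b1, b2, rfl⟩ := list_two ht
    have hS0 : S = [] := List.length_eq_zero_iff.1 hs0
    subst hS0
    rw [hδ] at hNg
    rw [two_blocks.1] at ha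
    rw [two_blocks.2] at hb
    have g1 := hNg b1 (by simp)
    have g2 := hNg b2 (by simp)
    have d1 := (gapped_two g1).resolve_left (hN1 b1 (by simp))
    have d2 := (gapped_two g2).resolve_left (hN1 b2 (by simp))
    have f1 : cK K b1 = 2 := by omega
    have f2 : cK K b2 = 2 := by omega
    have f3 := g1.count.1
    have f4 := g2.count.1
    rw [f1] at f3
    rw [f2] at f4
    refine engine2 G (by omega) hdeg hfree K hK (r := 4) (by rw [← hr]; exact hmax)
      (c0 := 0) (c1 := 0) (fun bl _ _ _ h => by omega) _ hsys.nodup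
      (Sys.flatten_facts _ hK hsys).1 (p := earPat 2 ++ earPat 2) ?_ (by rw [hr]; decide) _ _ _
      tcert2
    simp only [List.flatten_cons, List.flatten_nil, List.append_nil]
    exact patOk_append (patOk_of_two g1 f1 (by omega)) (patOk_of_two g2 f2 (by omega))
  · have hm' : m = 5 ∨ m = 6 ∨ m = 7 := by omega
    rcases hm' with rfl | rfl | rfl
    · -- one long ear, `m = 5`
      obtain ⟨b1, rfl⟩ := list_one ht
      have hδ : c1 - c0 = 4 := by omega
      rw [hδ] at hNg
      rw [one_block.1] at ha
      rw [one_block.2] at hb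
      have g1 := hNg b1 (by simp)
      rw [hs2] at s3
      refine engine2 G (by omega) hdeg hfree K hK (r := 4) (by rw [← hr]; exact hmax)
        (c0 := 0) (c1 := 0) (fun bl _ _ _ h => by omega) _ hsys.nodup
        (Sys.flatten_facts _ hK hsys).1 (p := earPat 4 ++ [true, true]) ?_ (by rw [hr]; decide)
        _ _ _ tcert0
      simp only [List.cons_append, List.nil_append, List.flatten_cons]
      exact patOk_append (patOk_of_two g1 ha (by omega)) s3
    · -- `m = 6`
      obtain ⟨S', N', hsys', hNg', hN1', s3', a3', a4', n1', n2', -⟩ := split_gapped (δ := 1)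
        h0s h0c (by omega) (by
          intro bl' _ _ d hd hd'
          omega)
      have hc0 : c0 = 5 := by omega
      rw [h0l, hc0] at a4'
      have hN' : N'.length ≠ 0 := by
        intro h0
        rw [List.length_eq_zero_iff.1 h0] at a4'
        rw [List.flatten_nil, cN_nil] at a4'
        omega
      have ht' : N'.length = 1 := by omega
      have hs' : S'.length = 2 := by omega
      obtain ⟨b1, rfl⟩ := list_one ht'
      rw [one_block.1] at a3' n1' n2'
      rw [one_block.2] at a4' n2'
      rw [hs'] at s3'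
      refine engine2 G (by omega) hdeg hfree K hK (r := 4) (by rw [← hr]; exact hmax)
        (c0 := 0) (c1 := 0) (fun bl _ _ _ h => by omega) _ hsys'.nodup
        (Sys.flatten_facts _ hK hsys').1 (p := earPat 1 ++ [true, true]) ?_ (by rw [hr]; decide)
        _ _ _ tcert1
      simp only [List.cons_append, List.nil_append, List.flatten_cons]
      exact patOk_append (patOk_of_two (hNg' b1 (by simp)) (by omega) (by omega)) s3'
    · -- `m = 7`
      obtain ⟨S', N', hsys', hNg', hN1', s3', a3', a4', n1', n2', -⟩ := split_gapped (δ := 1)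
        h0s h0c (by omega) (by
          intro bl' _ _ d hd hd'
          omega)
      have hc0 : c0 = 6 := by omega
      have hc1e : c1 = 10 := by omega
      rw [h0l, hc0] at a4'
      have hN' : N'.length ≠ 0 := by
        intro h0
        rw [List.length_eq_zero_iff.1 h0] at a4'
        rw [List.flatten_nil, cN_nil] at a4'
        omega
      have ht' : N'.length = 1 ∨ N'.length = 2 := by omega
      rcases ht' with ht' | ht'
      · obtain ⟨b1, rfl⟩ := list_one ht'
        rw [one_block.1] at a3' n1' n2'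
        rw [one_block.2] at a4' n2'
        have ha' : cK K b1 = 2 ∨ cK K b1 = 3 := by
          have : [b1].length = 1 := rfl
          omega
        rcases ha' with ha' | ha'
        · have hs' : S'.length = 2 := by omega
          rw [hs'] at s3'
          refine engine2 G (by omega) hdeg hfree K hK (r := 4) (by rw [← hr]; exact hmax)
            (c0 := 6) (c1 := 10) (by rw [← hc0, ← hc1e]; exact hbetween) _ hsys'.nodup
            (Sys.flatten_facts _ hK hsys').1 (p := earPat 2 ++ [true, true]) ?_
            (by rw [hr]; decide) _ _ _ tcert3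
          simp only [List.cons_append, List.nil_append, List.flatten_cons]
          exact patOk_append (patOk_of_two (hNg' b1 (by simp)) (by omega) (by omega)) s3'
        · have hs' : S'.length = 1 := by omega
          rw [hs'] at s3'
          refine engine2 G (by omega) hdeg hfree K hK (r := 4) (by rw [← hr]; exact hmax)
            (c0 := 6) (c1 := 10) (by rw [← hc0, ← hc1e]; exact hbetween) _ hsys'.nodup
            (Sys.flatten_facts _ hK hsys').1 (p := earPat2 1 1 ++ [true]) ?_
            (by rw [hr]; decide) _ _ _ tcert5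
          simp only [List.cons_append, List.nil_append, List.flatten_cons]
          exact patOk_append (patOk_of_three (hNg' b1 (by simp)) (by omega) (by omega)) s3'
      · obtain ⟨b1, b2, rfl⟩ := list_two ht'
        rw [two_blocks.1] at a3' n1' n2'
        rw [two_blocks.2] at a4' n2'
        have hl2 : [b1, b2].length = 2 := rfl
        have g1 := hNg' b1 (by simp)
        have g2 := hNg' b2 (by simp)
        have d1 := (gapped_two g1).resolve_left (hN1' b1 (by simp))
        have d2 := (gapped_two g2).resolve_left (hN1' b2 (by simp))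
        have f1 : cK K b1 = 2 := by omega
        have f2 : cK K b2 = 2 := by omega
        have f3 := g1.count.1
        have f4 := g2.count.1
        rw [f1] at f3
        rw [f2] at f4
        have hS0 : S' = [] := List.length_eq_zero_iff.1 (by omega)
        subst hS0
        refine engine2 G (by omega) hdeg hfree K hK (r := 4) (by rw [← hr]; exact hmax)
          (c0 := 6) (c1 := 10) (by rw [← hc0, ← hc1e]; exact hbetween) _ hsys'.nodup
          (Sys.flatten_facts _ hK hsys').1 (p := earPat 1 ++ earPat 1) ?_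
          (by rw [hr]; decide) _ _ _ tcert4
        simp only [List.flatten_cons, List.flatten_nil, List.append_nil]
        exact patOk_append (patOk_of_two g1 f1 (by omega)) (patOk_of_two g2 f2 (by omega))

end Vale.Agent.P048
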