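import Vale.Agent.P048.Final9
import Vale.Agent.P048.Four
import Vale.Agent.P048.Five
import Vale.Agent.P048.Eight
import Vale.Agent.P048.Tiny

/-!
# P048: the bound for all `m ≥ 4`
-/

namespace Vale.Agent.P048

open Finset

variable {V : Type*}

theorem MinCx.false_of_all [Fintype V] [DecidableEq V] {G : SimpleGraph V}
    [DecidableRel G.Adj] {m : ℕ} (h : MinCx G m) (hm : 4 ≤ m) (ha : ind G univ + 1 ≤ m) :
    False := by
  by_cases hm9 : 9 ≤ m
  · exact h.false_of_nine hm9 ha
  obtain ⟨K, hK, hmax⟩ := exists_max_clique G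
  have htiny : ¬ (5 ≤ m ∧ m ≤ 2 * K.card ∧ 4 ≤ K.card ∧ (m = 8 → 5 ≤ K.card)) := by
    rintro ⟨h1, h2, h3, h4⟩
    obtain ⟨I, hI, hIc⟩ := clique_case_tiny G m h1 (by omega) h.free (fun v => h.degree_ge v)
      K hK hmax h2 h3 h4
    have := h.indep_le hI
    omega
  have hcases : m = 4 ∨ m = 5 ∨ m = 6 ∨ m = 7 ∨ m = 8 := by omega
  rcases hcases with rfl | rfl | rfl | rfl | rfl
  · exact h.false_four (by omega)
  · exact h.false_five (by omega) (fun K' hK' => by have := hmax K' hK'; omega)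
  · exact h.false_six (by omega) (fun K' hK' => by have := hmax K' hK'; omega)
  · exact h.false_seven (by omega) (fun K' hK' => by have := hmax K' hK'; omega)
  · exact h.false_eight (by omega) (fun K' hK' => by have := hmax K' hK'; omega)

/-- The Ramsey bound in the list form, `m ≥ 4`. -/
theorem card_le_of_free_all [DecidableEq V] (G : SimpleGraph V) [DecidableRel G.Adj] (m : ℕ)
    (hfree : ∀ l, CycL G l → l.length ≠ m) (S : Finset V) (hm : 4 ≤ m)
    (ha : ind G S + 1 ≤ m) : S.card ≤ (m - 1) * ind G S := by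
  by_contra hcon
  push Not at hcon
  obtain ⟨T, hT, h⟩ := exists_minCx G m hfree S hcon
  apply h.false_of_all hm
  rw [ind_comap]
  have : (univ : Finset {x // x ∈ T}).map
      ⟨fun x : {x // x ∈ T} => x.1, Subtype.val_injective⟩ = T := by
    ext x
    simp
  rw [this]
  have := ind_mono (G := G) hT
  omega

theorem pentagon_free : ¬ (SimpleGraph.cycleGraph 3).IsContained (SimpleGraph.cycleGraph 5) := by
  rintro ⟨⟨f, hf⟩⟩
  have key : ∀ a b c : Fin 5, ¬ ((SimpleGraph.cycleGraph 5).Adj a b ∧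
      (SimpleGraph.cycleGraph 5).Adj b c ∧ (SimpleGraph.cycleGraph 5).Adj a c) := by
    decide
  exact key (f 0) (f 1) (f 2) ⟨f.map_rel (by decide), f.map_rel (by decide),
    f.map_rel (by decide)⟩

theorem pentagon_indep : ¬ (⊤ : SimpleGraph (Fin 3)).IsContained
    (SimpleGraph.cycleGraph 5)ᶜ := by
  rintro ⟨⟨f, hf⟩⟩
  have key : ∀ a b c : Fin 5, ¬ ((SimpleGraph.cycleGraph 5)ᶜ.Adj a b ∧
      (SimpleGraph.cycleGraph 5)ᶜ.Adj b c ∧ (SimpleGraph.cycleGraph 5)ᶜ.Adj a c) := by
    decide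
  exact key (f 0) (f 1) (f 2) ⟨f.map_rel (by decide), f.map_rel (by decide),
    f.map_rel (by decide)⟩

end Vale.Agent.P048
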