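import Vale.Agent.P048.Parity2

namespace Vale.Agent.P048

open Finset

variable {V : Type*}

namespace MinCx

variable [Fintype V] [DecidableEq V] {G : SimpleGraph V} [DecidableRel G.Adj] {m : ℕ}

/-- The count of one ball. -/
theorem ball_card (h : MinCx G m) (hm : 8 ≤ m) (ha : ind G univ + 1 ≤ m)
    (hω : ∀ K : Finset V, G.IsClique (K : Set V) → 2 * K.card + 1 ≤ m) (v : V) (i : ℕ)
    (hi : 2 * (i + 1) + 1 ≤ m) (b b' : ℕ)
    (hb : b = ind G (univ.filter (fun x => G.dist v x ≤ i)))
    (hb' : b' = ind G (univ.filter (fun x => G.dist v x ≤ i + 1))) :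
    b + 2 ≤ b' ∧ (m % 2 = 0 → m - 2 < 2 * b → b + 3 ≤ b') := by
  have hconn := h.connected
  have hstep : ∀ x y, G.Adj x y → G.dist v y ≤ G.dist v x + 1 :=
    fun x y hxy => dist_adj_le hconn v hxy
  have hb1 : 1 ≤ b := by
    rw [hb]
    exact ind_pos ⟨v, by rw [Finset.mem_filter]; simp⟩
  -- lower bound
  have hlow : (m - 1) * b + 1 ≤ (univ.filter (fun x => G.dist v x ≤ i + 1)).card := by
    obtain ⟨I, hI1, hI2, hI3⟩ := exists_ind G (univ.filter (fun x => G.dist v x ≤ i))
    rw [← hb] at hI3
    have h1 := h.nbhd (I := I) (N := univ.filter (fun x => G.dist v x ≤ i + 1) \ I) hI2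
      (by rw [← Finset.card_pos]; omega) (by
        intro x y hy hadj
        rw [Finset.mem_sdiff, Finset.mem_filter]
        refine ⟨⟨Finset.mem_univ _, ?_⟩, ?_⟩
        · have := hI1 hy
          rw [Finset.mem_filter] at this
          have := hstep y x hadj
          omega
        · intro hxI
          exact hI2 hy hxI hadj.ne hadj)
    have hsub : I ⊆ univ.filter (fun x => G.dist v x ≤ i + 1) := by
      intro x hx
      have := hI1 hx
      rw [Finset.mem_filter] at this ⊢
      exact ⟨Finset.mem_univ _, by omega⟩
    have h2 : (univ.filter (fun x => G.dist v x ≤ i + 1) \ I).card + I.card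
        = (univ.filter (fun x => G.dist v x ≤ i + 1)).card := Finset.card_sdiff_add_card_eq_card hsub
    rw [hI3] at h1 h2
    omega
  -- the classes
  set O := univ.filter (fun x => G.dist v x % 2 = 1 ∧ G.dist v x ≤ i + 1) with hO
  set E := univ.filter (fun x => G.dist v x % 2 = 0 ∧ G.dist v x ≠ 0 ∧ G.dist v x ≤ i + 1) with hE
  set L := univ.filter (fun x => G.dist v x = 1) with hL
  set O' := univ.filter (fun x => G.dist v x % 2 = 1 ∧ 3 ≤ G.dist v x ∧ G.dist v x ≤ i + 1) with hO'
  have mO : ∀ x, x ∈ O ↔ G.dist v x % 2 = 1 ∧ G.dist v x ≤ i + 1 := by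
    intro x; rw [hO, Finset.mem_filter]; simp
  have mE : ∀ x, x ∈ E ↔ G.dist v x % 2 = 0 ∧ G.dist v x ≠ 0 ∧ G.dist v x ≤ i + 1 := by
    intro x; rw [hE, Finset.mem_filter]; simp
  have mL : ∀ x, x ∈ L ↔ G.dist v x = 1 := by
    intro x; rw [hL, Finset.mem_filter]; simp
  have mO' : ∀ x, x ∈ O' ↔ G.dist v x % 2 = 1 ∧ 3 ≤ G.dist v x ∧ G.dist v x ≤ i + 1 := by
    intro x; rw [hO', Finset.mem_filter]; simp
  have hcard : (univ.filter (fun x => G.dist v x ≤ i + 1)).card ≤ 1 + O.card + E.card := by
    have : univ.filter (fun x => G.dist v x ≤ i + 1) ⊆ ({v} ∪ O) ∪ E := by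
      intro x hx
      rw [Finset.mem_filter] at hx
      rw [Finset.mem_union, Finset.mem_union, Finset.mem_singleton, mO, mE]
      by_cases hxv : x = v
      · exact Or.inl (Or.inl hxv)
      · have : G.dist v x ≠ 0 := by
          intro h0
          exact hxv (hconn.dist_eq_zero_iff.1 h0).symm
        rcases Nat.mod_two_eq_zero_or_one (G.dist v x) with h2 | h2
        · exact Or.inr ⟨h2, this, hx.2⟩
        · exact Or.inl (Or.inr ⟨h2, hx.2⟩)
    calc _ ≤ (({v} ∪ O) ∪ E).card := Finset.card_le_card this
      _ ≤ ({v} ∪ O).card + E.card := Finset.card_union_le _ _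
      _ ≤ ({v} : Finset V).card + O.card + E.card := by
        have := Finset.card_union_le ({v} : Finset V) O
        omega
      _ = _ := by rw [Finset.card_singleton]
  have hvE : ∀ S : Finset V, v ∈ S → E ⊆ S → 1 + ind G E ≤ ind G S := by
    intro S hvS hES
    have h1 : 1 ≤ ind G {v} := ind_pos (by simp)
    have h2 := ind_add_le (G := G) (S := {v}) (S' := E) (by
      rw [Finset.disjoint_left]
      intro x hx hx'
      rw [Finset.mem_singleton] at hx
      subst hx
      rw [mE] at hx'
      simp at hx') (by
      intro x hx y hy hadj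
      rw [Finset.mem_singleton] at hx
      subst hx
      rw [mE] at hy
      have := hstep x y hadj
      rw [SimpleGraph.dist_self] at this
      omega)
    have h3 : ind G ({v} ∪ E) ≤ ind G S := ind_mono (by
      intro x hx
      rw [Finset.mem_union, Finset.mem_singleton] at hx
      rcases hx with rfl | hx
      · exact hvS
      · exact hES hx)
    omega
  have hind : ind G O + ind G E + 1 ≤ b + b' := by
    rcases Nat.mod_two_eq_zero_or_one (i + 1) with h2 | h2
    · have h3 : ind G O ≤ b := by
        rw [hb]
        apply ind_mono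
        intro x hx
        rw [mO] at hx
        rw [Finset.mem_filter]
        exact ⟨Finset.mem_univ _, by omega⟩
      have h4 : 1 + ind G E ≤ b' := by
        rw [hb']
        apply hvE
        · rw [Finset.mem_filter]; simp
        · intro x hx
          rw [mE] at hx
          rw [Finset.mem_filter]
          exact ⟨Finset.mem_univ _, by omega⟩
      omega
    · have h3 : ind G O ≤ b' := by
        rw [hb']
        apply ind_mono
        intro x hx
        rw [mO] at hx
        rw [Finset.mem_filter]
        exact ⟨Finset.mem_univ _, by omega⟩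
      have h4 : 1 + ind G E ≤ b := by
        rw [hb]
        apply hvE
        · rw [Finset.mem_filter]; simp
        · intro x hx
          rw [mE] at hx
          rw [Finset.mem_filter]
          exact ⟨Finset.mem_univ _, by omega⟩
      omega
  -- independence numbers of far sets
  have hfar : ∀ T : Finset V, (∀ x ∈ T, 2 ≤ G.dist v x) → ind G T + 1 ≤ ind G univ := by
    intro T hT
    have h1 : 1 ≤ ind G {v} := ind_pos (by simp)
    have h2 := ind_add_le (G := G) (S := {v}) (S' := T) (by
      rw [Finset.disjoint_left]
      intro x hx hx'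
      rw [Finset.mem_singleton] at hx
      subst hx
      have := hT _ hx'
      simp at this) (by
      intro x hx y hy hadj
      rw [Finset.mem_singleton] at hx
      subst hx
      have := hstep x y hadj
      rw [SimpleGraph.dist_self] at this
      have := hT _ hy
      omega)
    have h3 : ind G ({v} ∪ T) ≤ ind G univ := ind_mono (Finset.subset_univ _)
    omega
  -- adjacent vertices of the same parity are in the same level
  have hsame : ∀ x y, G.Adj x y → G.dist v x % 2 = G.dist v y % 2 → G.dist v x = G.dist v y := by
    intro x y hadj hpar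
    have h1 := hstep x y hadj
    have h2 := hstep y x hadj.symm
    omega
  have hEO : ∀ M : ℕ, m - 2 ≤ M → M % 2 = 0 → M + 1 ≤ m →
      (∀ U : Finset V, (∀ x ∈ U, 1 ≤ G.dist v x ∧ G.dist v x ≤ i + 1) →
        (∀ x ∈ U, ∀ y ∈ U, G.dist v x % 2 = G.dist v y % 2) → 2 * U.card ≤ M * ind G U) := by
    intro M hM hM2 hM3 U hU1 hU2
    refine parity_bound2 G hconn v m M hm hM h.free U ?_ ?_ (fun x hx => (hU1 x hx).1)
      (fun x hx => by have := (hU1 x hx).2; omega) ?_ U (Finset.Subset.refl _)
    · intro K _ hK
      have := hω K hK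
      omega
    · intro x hx y hy hadj
      exact hsame x y hadj (hU2 x hx y hy)
    · intro T _ hT
      have h1 := hfar T hT
      obtain ⟨k, rfl⟩ : ∃ k, M = 2 * k := ⟨M / 2, by omega⟩
      rw [show 2 * k / 2 = k by omega]
      have h2 : 2 * ind G T ≤ 4 * k := by omega
      have h3 : 4 * k ≤ (2 * k - 2) * k := Nat.mul_le_mul_right k (by omega)
      omega
  rcases Nat.mod_two_eq_zero_or_one m with hpar | hpar
  · -- even case
    have hOb := hEO (m - 2) le_rfl (by omega) (by omega) O (by
      intro x hx; rw [mO] at hx; omega) (by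
      intro x hx y hy; rw [mO] at hx hy; omega)
    have hEb := hEO (m - 2) le_rfl (by omega) (by omega) E (by
      intro x hx; rw [mE] at hx; omega) (by
      intro x hx y hy; rw [mE] at hx hy; omega)
    have hmul : (m - 2) * (ind G O + ind G E + 1) ≤ (m - 2) * (b + b') :=
      Nat.mul_le_mul_left _ hind
    obtain ⟨n, rfl⟩ : ∃ n, m = n + 2 := ⟨m - 2, by omega⟩
    rw [show n + 2 - 2 = n by omega] at *
    rw [show n + 2 - 1 = n + 1 by omega] at hlow
    rw [Nat.mul_add, Nat.mul_add, Nat.mul_one, Nat.mul_add] at hmul
    rw [Nat.add_mul, Nat.one_mul] at hlow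
    constructor
    · by_contra hcon
      have h1 : n * b' ≤ n * (b + 1) := Nat.mul_le_mul_left _ (by omega)
      rw [Nat.mul_add, Nat.mul_one] at h1
      omega
    · intro _ hbig
      by_contra hcon
      have h1 : n * b' ≤ n * (b + 2) := Nat.mul_le_mul_left _ (by omega)
      rw [Nat.mul_add] at h1
      omega
  · -- odd case
    refine ⟨?_, fun h0 => by omega⟩
    have hEb := hEO (m - 1) (by omega) (by omega) (by omega) E (by
      intro x hx; rw [mE] at hx; omega) (by
      intro x hx y hy; rw [mE] at hx hy; omega)
    have hO'b := hEO (m - 1) (by omega) (by omega) (by omega) O' (by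
      intro x hx; rw [mO'] at hx; omega) (by
      intro x hx y hy; rw [mO'] at hx hy; omega)
    have hLb : 2 * L.card ≤ (m - 2) * ind G L := by
      refine parity_bound2 G hconn v m (m - 2) hm le_rfl h.free L ?_ ?_ ?_ ?_ ?_ L
        (Finset.Subset.refl _)
      · intro K hKL hK
        have h1 : G.IsClique ((insert v K : Finset V) : Set V) := by
          rw [Finset.coe_insert, SimpleGraph.isClique_insert]
          refine ⟨hK, ?_⟩
          intro x hx _
          have := hKL hx
          rw [mL] at this
          exact SimpleGraph.dist_eq_one_iff_adj.1 this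
        have h2 : v ∉ K := by
          intro hv
          have := hKL hv
          rw [mL] at this
          simp at this
        have h3 := hω _ h1
        rw [Finset.card_insert_of_notMem h2] at h3
        omega
      · intro x hx y hy _
        rw [mL] at hx hy
        omega
      · intro x hx; rw [mL] at hx; omega
      · intro x hx; rw [mL] at hx; omega
      · intro T hTL hT
        have : T = ∅ := by
          rw [Finset.eq_empty_iff_forall_notMem]
          intro x hx
          have h1 := hTL hx
          rw [mL] at h1
          have h2 := hT x hx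
          omega
        subst this
        have : ind G (∅ : Finset V) = 0 := by
          obtain ⟨I, hI, -, hI'⟩ := exists_ind G (∅ : Finset V)
          rw [← hI', Finset.subset_empty.1 hI, Finset.card_empty]
        rw [this]
        omega
    have hOcard : O.card ≤ L.card + O'.card := by
      have : O ⊆ L ∪ O' := by
        intro x hx
        rw [mO] at hx
        rw [Finset.mem_union, mL, mO']
        omega
      exact le_trans (Finset.card_le_card this) (Finset.card_union_le _ _)
    have hOind : ind G L + ind G O' ≤ ind G O := by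
      have h1 := ind_add_le (G := G) (S := L) (S' := O') (by
        rw [Finset.disjoint_left]
        intro x hx hx'
        rw [mL] at hx
        rw [mO'] at hx'
        omega) (by
        intro x hx y hy hadj
        rw [mL] at hx
        rw [mO'] at hy
        have := hstep x y hadj
        omega)
      have h2 : ind G (L ∪ O') ≤ ind G O := ind_mono (by
        intro x hx
        rw [Finset.mem_union, mL, mO'] at hx
        rw [mO]
        omega)
      omega
    have hLpos : 1 ≤ ind G L := by
      apply ind_pos
      have h1 := h.degree_ge v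
      have h2 : 0 < (G.neighborFinset v).card := by
        rw [SimpleGraph.card_neighborFinset_eq_degree]; omega
      obtain ⟨x, hx⟩ := Finset.card_pos.1 h2
      rw [SimpleGraph.mem_neighborFinset] at hx
      exact ⟨x, by rw [mL]; exact SimpleGraph.dist_eq_one_iff_adj.2 hx⟩
    by_contra hcon
    obtain ⟨n, rfl⟩ : ∃ n, m = n + 2 := ⟨m - 2, by omega⟩
    rw [show n + 2 - 2 = n by omega] at *
    rw [show n + 2 - 1 = n + 1 by omega] at *
    have h1 : (n + 1) * (ind G O + ind G E + 1) ≤ (n + 1) * (b + (b + 1)) :=
      Nat.mul_le_mul_left _ (by omega)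
    have h2 : (n + 1) * (ind G L + ind G O') ≤ (n + 1) * ind G O := Nat.mul_le_mul_left _ hOind
    have e1 : (n + 1) * (ind G O + ind G E + 1) = (n + 1) * ind G O + (n + 1) * ind G E + (n + 1) := by
      ring
    have e2 : (n + 1) * (b + (b + 1)) = 2 * ((n + 1) * b) + (n + 1) := by ring
    have e3 : (n + 1) * (ind G L + ind G O') = n * ind G L + ind G L + (n + 1) * ind G O' := by ring
    omega

/-- No minimal counterexample without large cliques. -/
theorem false_of_cliques (h : MinCx G m) (hm : 8 ≤ m) (ha : ind G univ + 1 ≤ m)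
    (hω : ∀ K : Finset V, G.IsClique (K : Set V) → 2 * K.card + 1 ≤ m) : False := by
  have hne := h.nonempty
  obtain ⟨v⟩ := hne
  have key : ∀ i, 2 * i + 1 ≤ m → 2 * i + 1 ≤ ind G (univ.filter (fun x => G.dist v x ≤ i)) := by
    intro i
    induction i with
    | zero =>
      intro _
      exact ind_pos ⟨v, by rw [Finset.mem_filter]; simp⟩
    | succ i ih =>
      intro hi
      have h1 := ih (by omega)
      have h2 := (h.ball_card hm ha hω v i hi _ _ rfl rfl).1
      omega
  have hle : ∀ i, ind G (univ.filter (fun x => G.dist v x ≤ i)) ≤ ind G univ :=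
    fun i => ind_mono (Finset.subset_univ _)
  rcases Nat.mod_two_eq_zero_or_one m with hpar | hpar
  · obtain ⟨k, rfl⟩ : ∃ k, m = 2 * (k + 1) + 2 := ⟨(m - 4) / 2, by omega⟩
    have h1 := key k (by omega)
    have h2 := (h.ball_card hm ha hω v k (by omega) _ _ rfl rfl).2 (by omega) (by omega)
    have h3 := hle (k + 1)
    omega
  · obtain ⟨k, rfl⟩ : ∃ k, m = 2 * k + 1 := ⟨m / 2, by omega⟩
    have h1 := key k (by omega)
    have h3 := hle k
    omega

end MinCx

end Vale.Agent.P048
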