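import Vale.Agent.P048.Ind
import Vale.Agent.P048.LongCycle
import Vale.Agent.P048.Colored

namespace Vale.Agent.P048

open Finset

variable {V : Type*}

theorem exists_geodesic {G : SimpleGraph V} (hconn : G.Connected) (u x : V) :
    ∃ g : ℕ → V, g 0 = u ∧ g (G.dist u x) = x ∧ (∀ i < G.dist u x, G.Adj (g i) (g (i + 1))) ∧
      ∀ i ≤ G.dist u x, G.dist (g i) x = G.dist u x - i ∧ G.dist u (g i) = i := by
  obtain ⟨p, hp⟩ := hconn.exists_walk_length_eq_dist u x
  refine ⟨p.getVert, by simp, by rw [← hp]; simp, ?_, ?_⟩
  · intro i hi
    exact p.adj_getVert_succ (by omega)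
  · intro i hi
    have h1 : G.dist (p.getVert i) x ≤ G.dist u x - i := by
      have := SimpleGraph.dist_le (p.drop i)
      rw [SimpleGraph.Walk.drop_length, hp] at this
      exact this
    have h2 : G.dist u (p.getVert i) ≤ i := by
      have := SimpleGraph.dist_le (p.take i)
      rw [SimpleGraph.Walk.take_length] at this
      omega
    have h3 := hconn.dist_triangle (u := u) (v := p.getVert i) (w := x)
    omega

/-- a set is called connected here if it cannot be split into two nonempty parts without edges
between them -/
def Conn (G : SimpleGraph V) (T : Finset V) : Prop :=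
  ∀ S ⊆ T, S.Nonempty → (∀ x ∈ S, ∀ y ∈ T, y ∉ S → ¬ G.Adj x y) → S = T

theorem PathL.reverse {G : SimpleGraph V} {l : List V} (h : PathL G l) : PathL G l.reverse := by
  refine ⟨List.nodup_reverse.2 h.1, ?_⟩
  rw [List.isChain_reverse]
  exact h.2.imp (fun a b h => h.symm)

theorem dist_adj_le {G : SimpleGraph V} (hconn : G.Connected) (v : V) {x y : V}
    (h : G.Adj x y) : G.dist v y ≤ G.dist v x + 1 := by
  have h3 := hconn.dist_triangle (u := v) (v := x) (w := y)
  have : G.dist x y = 1 := SimpleGraph.dist_eq_one_iff_adj.2 h
  omega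

/-- Closing a path inside a level by two geodesics. -/
theorem close_path {G : SimpleGraph V} (hconn : G.Connected) (v w c0 : V) (j h : ℕ)
    (h2 : 2 ≤ h) (hhj : h ≤ j) (hw : G.dist v w = j - h) (hc0 : G.dist v c0 = j - h + 1)
    (hwc : G.Adj w c0) (P : List V) (hP : PathL G P) (hPj : ∀ x ∈ P, G.dist v x = j)
    (a b : V) (ha : a ∈ P.head?) (hb : b ∈ P.getLast?) (hwb : G.dist w b = h)
    (hca : G.dist c0 a = h - 1) (hcb : G.dist c0 b ≠ h - 1) :
    ∃ l, CycL G l ∧ l.length = P.length + 2 * h - 1 := by
  have haP : a ∈ P := List.mem_of_mem_head? ha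
  have hbP : b ∈ P := List.mem_of_mem_getLast? hb
  obtain ⟨g, g0, g1, gadj, gd⟩ := exists_geodesic hconn c0 a
  obtain ⟨g', g0', g1', gadj', gd'⟩ := exists_geodesic hconn w b
  rw [hca] at g1 gadj gd
  rw [hwb] at g1' gadj' gd'
  -- levels
  have hlev : ∀ i ≤ h - 1, G.dist v (g i) = j - h + 1 + i := by
    intro i hi
    have h1 := hconn.dist_triangle (u := v) (v := c0) (w := g i)
    have h3 := hconn.dist_triangle (u := v) (v := g i) (w := a)
    have h4 := gd i hi
    have h5 := hPj a haP
    omega
  have hlev' : ∀ i ≤ h, G.dist v (g' i) = j - h + i := by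
    intro i hi
    have h1 := hconn.dist_triangle (u := v) (v := w) (w := g' i)
    have h3 := hconn.dist_triangle (u := v) (v := g' i) (w := b)
    have h4 := gd' i hi
    have h5 := hPj b hbP
    omega
  have hdisj : ∀ i ≤ h - 1, ∀ i' ≤ h, g i ≠ g' i' := by
    intro i hi i' hi' he
    have e1 := hlev i hi
    have e2 := hlev' i' hi'
    rw [he] at e1
    have h4 := gd' i' hi'
    have h6 := gd i hi
    rw [he] at h6
    have h5 := hconn.dist_triangle (u := c0) (v := g' i') (w := b)
    have h7 := hconn.dist_triangle (u := w) (v := c0) (w := b)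
    have h8 : G.dist w c0 = 1 := SimpleGraph.dist_eq_one_iff_adj.2 hwc
    omega
  obtain ⟨q1, q2, q3, q4⟩ := path_of_fun G g (h - 2) (fun k hk => gadj k (by omega))
    (fun k k' hkk hk' he => by
      have e1 := hlev k (by omega)
      have e2 := hlev k' (by omega)
      rw [he] at e1
      omega)
  obtain ⟨r1, r2, r3, r4⟩ := path_of_fun G g' (h - 1) (fun k hk => gadj' k (by omega))
    (fun k k' hkk hk' he => by
      have e1 := hlev' k (by omega)
      have e2 := hlev' k' (by omega)
      rw [he] at e1
      omega)
  set Q := (List.range (h - 2 + 1)).map g with hQ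
  set R := (List.range (h - 1 + 1)).map g' with hR
  have hQmem : ∀ x ∈ Q, ∃ i ≤ h - 2, g i = x := by
    intro x hx
    rw [hQ, List.mem_map] at hx
    obtain ⟨i, hi, rfl⟩ := hx
    rw [List.mem_range] at hi
    exact ⟨i, by omega, rfl⟩
  have hRmem : ∀ x ∈ R, ∃ i ≤ h - 1, g' i = x := by
    intro x hx
    rw [hR, List.mem_map] at hx
    obtain ⟨i, hi, rfl⟩ := hx
    rw [List.mem_range] at hi
    exact ⟨i, by omega, rfl⟩
  refine ⟨P ++ (R.reverse ++ Q), ⟨?_, ?_, ?_⟩, ?_⟩
  · rw [List.nodup_append']
    refine ⟨hP.1, ?_, ?_⟩
    · rw [List.nodup_append']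
      refine ⟨List.nodup_reverse.2 r1.1, q1.1, ?_⟩
      intro x hx hx'
      rw [List.mem_reverse] at hx
      obtain ⟨i', hi', rfl⟩ := hRmem x hx
      obtain ⟨i, hi, he⟩ := hQmem _ hx'
      exact hdisj i (by omega) i' (by omega) he
    · intro x hx hx'
      have e0 := hPj x hx
      rw [List.mem_append, List.mem_reverse] at hx'
      rcases hx' with hx' | hx'
      · obtain ⟨i', hi', rfl⟩ := hRmem x hx'
        have := hlev' i' (by omega)
        omega
      · obtain ⟨i', hi', rfl⟩ := hQmem x hx'
        have := hlev i' (by omega)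
        omega
  · rw [List.isChain_append, List.isChain_append]
    refine ⟨hP.2, ⟨?_, q1.2, ?_⟩, ?_⟩
    · exact (PathL.reverse r1).2
    · intro x hx y hy
      rw [List.getLast?_reverse, r3] at hx
      rw [q3] at hy
      simp only [Option.mem_def, Option.some.injEq] at hx hy
      subst hx hy
      rw [g0, g0']
      exact hwc
    · intro x hx y hy
      rw [List.head?_append, List.head?_reverse, r4] at hy
      simp only [Option.some_or, Option.mem_def, Option.some.injEq] at hy
      have hxb : x = b := by
        rw [Option.mem_def] at hx hb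
        rw [hb] at hx
        simpa using hx.symm
      subst hxb
      rw [← hy]
      have := gadj' (h - 1) (by omega)
      rw [show h - 1 + 1 = h by omega, g1'] at this
      exact this.symm
  · intro x hx y hy
    have hx' : g (h - 2) = x := by
      rw [List.getLast?_append, List.getLast?_append, q4] at hx
      simpa using hx
    have hy' : y = a := by
      rw [List.head?_append] at hy
      rw [Option.mem_def] at ha
      rw [ha] at hy
      simpa using hy.symm
    rw [← hx', hy']
    have := gadj (h - 2) (by omega)
    rw [show h - 2 + 1 = h - 1 by omega, g1] at this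
    exact this
  · rw [List.length_append, List.length_append, List.length_reverse, r2, q2]
    omega

/-- From a monochromatic cycle to the other colour. -/
theorem mono_path [DecidableEq V] {G : SimpleGraph V} {T : Finset V} (hT : Conn G T) (l : List V)
    (hl : CycL G l) (hlT : ∀ x ∈ l, x ∈ T) (A : Set V) (hlA : ∀ x ∈ l, x ∈ A)
    (hB : ∃ y ∈ T, y ∉ A) (p : ℕ) (hp : 2 ≤ p) (hpl : p ≤ l.length) :
    ∃ P : List V, PathL G P ∧ (∀ x ∈ P, x ∈ T) ∧ P.length = p ∧
      (∃ x ∈ P.head?, x ∉ A) ∧ (∃ y ∈ P.getLast?, y ∈ A) := by
  classical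
  -- good paths
  let Good : List V → Prop := fun P => PathL G P ∧ (∀ x ∈ P, x ∈ T) ∧
    (∃ y ∈ P.getLast?, y ∈ l) ∧ ∀ y ∈ P, y ∈ l → y ∈ P.getLast?
  let R : Finset V := T.filter (fun x => ∃ P, Good P ∧ x ∈ P.head?)
  obtain ⟨c, hc⟩ : ∃ c, c ∈ l := by
    cases l with
    | nil => simp at hpl; omega
    | cons c l => exact ⟨c, by simp⟩
  have hRT : R = T := by
    apply hT R (Finset.filter_subset _ _)
    · refine ⟨c, ?_⟩
      rw [Finset.mem_filter]
      refine ⟨hlT c hc, [c], ⟨⟨by simp, by simp⟩, ?_, ?_, ?_⟩, by simp⟩
      · intro x hx; rw [List.mem_singleton] at hx; subst hx; exact hlT _ hc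
      · exact ⟨c, by simp, hc⟩
      · intro y hy _; rw [List.mem_singleton] at hy; subst hy; simp
    · intro x hx y hy hyR hadj
      apply hyR
      rw [Finset.mem_filter] at hx ⊢
      obtain ⟨hxT, P, ⟨hP, hPT, hPl, hPu⟩, hxP⟩ := hx
      refine ⟨hy, ?_⟩
      by_cases hyl : y ∈ l
      · refine ⟨[y], ⟨⟨by simp, by simp⟩, ?_, ?_, ?_⟩, by simp⟩
        · intro x hx; rw [List.mem_singleton] at hx; subst hx; exact hlT _ hyl
        · exact ⟨y, by simp, hyl⟩
        · intro z hz _; rw [List.mem_singleton] at hz; subst hz; simp
      · by_cases hyP : y ∈ P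
        · obtain ⟨P1, P2, rfl⟩ := List.append_of_mem hyP
          refine ⟨y :: P2, ⟨⟨?_, ?_⟩, ?_, ?_, ?_⟩, by simp⟩
          · exact (List.nodup_append'.1 hP.1).2.1
          · exact hP.2.right_of_append
          · intro x hx; exact hPT x (by simp only [List.mem_append]; exact Or.inr hx)
          · obtain ⟨z, hz, hz'⟩ := hPl
            refine ⟨z, ?_, hz'⟩
            rw [List.getLast?_append] at hz
            rw [List.getLast?_cons] at hz ⊢
            simpa using hz
          · intro z hz hzl
            have := hPu z (by simp only [List.mem_append]; exact Or.inr hz) hzl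
            rw [List.getLast?_append] at this
            rw [List.getLast?_cons] at this ⊢
            simpa using this
        · refine ⟨y :: P, ⟨⟨?_, ?_⟩, ?_, ?_, ?_⟩, by simp⟩
          · rw [List.nodup_cons]; exact ⟨hyP, hP.1⟩
          · rw [List.isChain_cons]
            refine ⟨?_, hP.2⟩
            intro z hz
            rw [Option.mem_def] at hxP hz
            rw [hxP] at hz
            simp only [Option.some.injEq] at hz
            rw [← hz]
            exact hadj.symm
          · intro z hz
            rw [List.mem_cons] at hz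
            rcases hz with rfl | hz
            · exact hy
            · exact hPT z hz
          · obtain ⟨z, hz, hz'⟩ := hPl
            refine ⟨z, ?_, hz'⟩
            rw [Option.mem_def] at hz
            rw [List.getLast?_cons, hz]
            simp
          · intro z hz hzl
            rw [List.mem_cons] at hz
            rcases hz with rfl | hz
            · exact absurd hzl hyl
            · have h1 := hPu z hz hzl
              rw [Option.mem_def] at h1
              rw [List.getLast?_cons, h1]
              simp
  -- a shortest good path from the other colour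
  have hex : ∃ n, ∃ P, Good P ∧ (∃ x ∈ P.head?, x ∉ A) ∧ P.length = n := by
    obtain ⟨y, hyT, hyA⟩ := hB
    have : y ∈ R := by rw [hRT]; exact hyT
    rw [Finset.mem_filter] at this
    obtain ⟨_, P, hP, hyP⟩ := this
    exact ⟨_, P, hP, ⟨y, hyP, hyA⟩, rfl⟩
  obtain ⟨P, ⟨hP, hPT, ⟨z, hz, hzl⟩, hPu⟩, ⟨x, hx, hxA⟩, hPn⟩ := Nat.find_spec hex
  have hmin : ∀ P', Good P' → (∃ x ∈ P'.head?, x ∉ A) → P.length ≤ P'.length := by
    intro P' h1 h2
    rw [hPn]
    exact Nat.find_min' hex ⟨P', h1, h2, rfl⟩
  -- the other vertices of the path are in `A`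
  have hPA : ∀ i, ∀ hi : i < P.length, 1 ≤ i → P[i] ∈ A := by
    intro i hi h1
    by_contra hcon
    have hsub : P = P.take i ++ P.drop i := (List.take_append_drop i P).symm
    have hne : P.drop i ≠ [] := by
      intro h
      have := congrArg List.length h
      rw [List.length_drop] at this
      simp at this
      omega
    have hlast : (P.drop i).getLast? = P.getLast? := by
      conv_rhs => rw [hsub]
      rw [List.getLast?_append]
      cases hq : (P.drop i).getLast? with
      | none => rw [List.getLast?_eq_none_iff] at hq; exact absurd hq hne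
      | some q => simp
    have := hmin (P.drop i) ⟨⟨?_, ?_⟩, ?_, ?_, ?_⟩ ⟨P[i], by
      rw [List.head?_drop]; simp [hi], hcon⟩
    · rw [List.length_drop] at this; omega
    · have h2 := hP.1; rw [hsub] at h2; exact (List.nodup_append'.1 h2).2.1
    · have h2 := hP.2; rw [hsub] at h2; exact h2.right_of_append
    · intro x hx; exact hPT x (List.mem_of_mem_drop hx)
    · exact ⟨z, by rw [hlast]; exact hz, hzl⟩
    · intro y hy hyl
      rw [hlast]
      exact hPu y (List.mem_of_mem_drop hy) hyl
  have hPlen : 2 ≤ P.length := by
    by_contra hcon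
    have : P = [x] := by
      cases P with
      | nil => simp at hx
      | cons a P =>
        cases P with
        | nil => simp at hx; rw [hx]
        | cons b P => simp at hcon
    rw [this] at hz
    simp at hz
    subst hz
    exact hxA (hlA _ hzl)
  by_cases hpp : p ≤ P.length
  · refine ⟨P.take p, ⟨?_, ?_⟩, ?_, ?_, ?_, ?_⟩
    · exact hP.1.sublist (List.take_sublist _ _)
    · exact hP.2.take p
    · intro x hx; exact hPT x (List.mem_of_mem_take hx)
    · rw [List.length_take]; omega
    · refine ⟨x, ?_, hxA⟩
      rw [List.head?_take]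
      rw [if_neg (by omega)]
      exact hx
    · refine ⟨P[p - 1]'(by omega), ?_, hPA (p - 1) (by omega) (by omega)⟩
      rw [List.getLast?_eq_getElem?, List.length_take]
      rw [show min p P.length - 1 = p - 1 by omega, List.getElem?_take_of_lt (by omega)]
      simp
  · -- continue along the cycle
    obtain ⟨l1, l2, rfl⟩ := List.append_of_mem hzl
    set C := l2 ++ l1 with hC
    have hl' := hl
    obtain ⟨hnd, hch, hlast⟩ := hl'
    have hperm : List.Perm (l1 ++ z :: l2) (z :: C) := by
      rw [hC]
      exact List.perm_append_comm.trans (by simp)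
    have hnd' : (z :: C).Nodup := hperm.nodup_iff.1 hnd
    have hch' : List.IsChain G.Adj (z :: C) := by
      have e1 : z :: C = (z :: l2) ++ l1 := by rw [hC]; simp
      rw [e1, List.isChain_append]
      refine ⟨hch.right_of_append, hch.left_of_append, ?_⟩
      intro x hx y hy
      apply hlast
      · rw [List.getLast?_append]
        rw [Option.mem_def] at hx
        rw [hx]
        simp
      · rw [List.head?_append]
        rw [Option.mem_def] at hy
        rw [hy]
        simp
    have hClen : C.length + 1 = (l1 ++ z :: l2).length := by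
      rw [hperm.length_eq]; simp
    have hdis : ∀ y ∈ P, y ∈ C → False := by
      intro y hy hyC
      have : y ∈ P.getLast? := hPu y hy (by
        rw [hperm.mem_iff]; exact List.mem_cons_of_mem _ hyC)
      rw [Option.mem_def] at this hz
      rw [hz] at this
      simp only [Option.some.injEq] at this
      rw [← this] at hyC
      exact (List.nodup_cons.1 hnd').1 hyC
    have hq : 1 ≤ p - P.length := by omega
    refine ⟨P ++ C.take (p - P.length), ⟨?_, ?_⟩, ?_, ?_, ?_, ?_⟩
    · rw [List.nodup_append']
      refine ⟨hP.1, (List.nodup_cons.1 hnd').2.sublist (List.take_sublist _ _), ?_⟩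
      intro y hy hyC
      exact hdis y hy (List.mem_of_mem_take hyC)
    · rw [List.isChain_append]
      refine ⟨hP.2, (List.isChain_cons.1 hch').2.take _, ?_⟩
      intro x hx y hy
      rw [List.head?_take, if_neg (by omega)] at hy
      rw [Option.mem_def] at hx hz
      rw [hz] at hx
      simp only [Option.some.injEq] at hx
      rw [← hx]
      exact (List.isChain_cons.1 hch').1 y hy
    · intro y hy
      rw [List.mem_append] at hy
      rcases hy with hy | hy
      · exact hPT y hy
      · apply hlT
        rw [hperm.mem_iff]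
        exact List.mem_cons_of_mem _ (List.mem_of_mem_take hy)
    · rw [List.length_append, List.length_take]; omega
    · refine ⟨x, ?_, hxA⟩
      rw [List.head?_append]
      rw [Option.mem_def] at hx
      rw [hx]
      simp
    · have hlt : p - P.length - 1 < C.length := by omega
      refine ⟨C[p - P.length - 1]'hlt, ?_, ?_⟩
      · rw [List.getLast?_append]
        have : (C.take (p - P.length)).getLast? = some (C[p - P.length - 1]'hlt) := by
          rw [List.getLast?_eq_getElem?, List.length_take]
          rw [show min (p - P.length) C.length - 1 = p - P.length - 1 by omega,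
            List.getElem?_take_of_lt (by omega)]
          simp
        rw [this]
        simp
      · apply hlA
        rw [hperm.mem_iff]
        exact List.mem_cons_of_mem _ (List.getElem_mem _)

end Vale.Agent.P048
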