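import Vale.Agent.P048.Small
import Vale.Agent.P048.TreeData

/-!
# P048: counting the levels of a small minimal counterexample
-/

namespace Vale.Agent.P048

open Finset

variable {V : Type*}

/-- the vertices at distance `j` from `v` -/
noncomputable def Lv [Fintype V] (G : SimpleGraph V) (v : V) (j : ℕ) : Finset V := by
  classical
  exact univ.filter (fun x => G.dist v x = j)

theorem mem_Lv [Fintype V] {G : SimpleGraph V} {v x : V} {j : ℕ} :
    x ∈ Lv G v j ↔ G.dist v x = j := by
  simp [Lv]

/-- adding up the levels -/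
theorem card_le_of_levels [DecidableEq V] (G : SimpleGraph V) (v : V) (c : ℕ) : ∀ (U : Finset V),
    (∀ x ∈ U, ∀ y ∈ U, G.Adj x y → G.dist v x = G.dist v y) →
    (∀ j, (U.filter (fun x => G.dist v x = j)).card ≤
      c * ind G (U.filter (fun x => G.dist v x = j))) → U.card ≤ c * ind G U := by
  intro U
  induction U using Finset.strongInduction with
  | H U ih =>
  intro hU hj
  by_cases hne : U = ∅
  · subst hne
    simp
  obtain ⟨x0, hx0⟩ := Finset.nonempty_iff_ne_empty.2 hne
  set S := U.filter (fun x => G.dist v x = G.dist v x0) with hS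
  have hSU : S ⊆ U := Finset.filter_subset _ _
  have hSne : S.Nonempty := ⟨x0, by rw [hS, Finset.mem_filter]; exact ⟨hx0, rfl⟩⟩
  have h1 := ih (U \ S) (Finset.sdiff_ssubset hSU hSne) (by
    intro x hx y hy
    exact hU x (Finset.mem_sdiff.1 hx).1 y (Finset.mem_sdiff.1 hy).1) (by
    intro j
    by_cases hj0 : j = G.dist v x0
    · have : (U \ S).filter (fun x => G.dist v x = j) = ∅ := by
        rw [Finset.eq_empty_iff_forall_notMem]
        intro x hx
        rw [Finset.mem_filter, Finset.mem_sdiff, hS, Finset.mem_filter] at hx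
        exact hx.1.2 ⟨hx.1.1, hx.2.trans hj0⟩
      rw [this]
      simp
    · have : (U \ S).filter (fun x => G.dist v x = j) = U.filter (fun x => G.dist v x = j) := by
        ext x
        rw [Finset.mem_filter, Finset.mem_sdiff, hS, Finset.mem_filter, Finset.mem_filter]
        constructor
        · rintro ⟨⟨h1, -⟩, h2⟩
          exact ⟨h1, h2⟩
        · rintro ⟨h1, h2⟩
          exact ⟨⟨h1, fun h => hj0 (h2.symm.trans h.2)⟩, h2⟩
      rw [this]
      exact hj j)
  have h2 := hj (G.dist v x0)
  rw [← hS] at h2
  have h3 := ind_add_le (G := G) (S := S) (S' := U \ S) Finset.disjoint_sdiff (by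
    intro x hx y hy hadj
    rw [hS, Finset.mem_filter] at hx
    rw [Finset.mem_sdiff, hS, Finset.mem_filter] at hy
    exact hy.2 ⟨hy.1, (hU x hx.1 y hy.1 hadj) ▸ hx.2⟩)
  rw [Finset.union_sdiff_of_subset hSU] at h3
  have h4 : (U \ S).card + S.card = U.card := Finset.card_sdiff_add_card_eq_card hSU
  have h5 : c * (ind G S + ind G (U \ S)) ≤ c * ind G U := Nat.mul_le_mul_left c h3
  rw [Nat.mul_add] at h5
  omega

namespace MinCx

variable [Fintype V] [DecidableEq V] {G : SimpleGraph V} [DecidableRel G.Adj] {m : ℕ}

omit [DecidableEq V] in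
theorem Lv_one (_h : MinCx G m) (v : V) : Lv G v 1 = G.neighborFinset v := by
  ext x
  rw [mem_Lv, SimpleGraph.mem_neighborFinset, SimpleGraph.dist_eq_one_iff_adj]

theorem le_card_Lv_one (h : MinCx G m) (v : V) : m - 1 ≤ (Lv G v 1).card := by
  rw [h.Lv_one, SimpleGraph.card_neighborFinset_eq_degree]
  exact h.degree_ge v

theorem mul_ind_Lv_one (h : MinCx G m) (v : V) :
    (m - 1) * ind G (Lv G v 1) ≤ (Lv G v 1).card + (Lv G v 2).card := by
  have h1 := h.ball_two v
  have h2 : ind G (Lv G v 1) ≤ ind G (insert v (G.neighborFinset v)) := by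
    rw [h.Lv_one]
    exact ind_mono (Finset.subset_insert _ _)
  have h3 := Nat.mul_le_mul_left (m - 1) h2
  have h4 : (univ.filter (fun x => G.dist v x = 2)) = Lv G v 2 := by
    ext x
    rw [mem_Lv, Finset.mem_filter]
    simp
  have h5 : (Lv G v 1).card = (G.neighborFinset v).card := by rw [h.Lv_one]
  rw [h4] at h1
  omega

/-- independent sets in levels which are far apart -/
theorem ind_odd (h : MinCx G m) (v : V) {U : Finset V} (hU : ∀ x ∈ U, 3 ≤ G.dist v x) :
    ind G (Lv G v 1) + ind G U ≤ ind G univ := by
  have hconn := h.connected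
  have h1 := ind_add_le (G := G) (S := Lv G v 1) (S' := U) (by
    rw [Finset.disjoint_left]
    intro x hx hx'
    rw [mem_Lv] at hx
    have := hU x hx'
    omega) (by
    intro x hx y hy hadj
    rw [mem_Lv] at hx
    have := hU y hy
    have := dist_adj_le hconn v hadj
    omega)
  have h2 : ind G (Lv G v 1 ∪ U) ≤ ind G univ := ind_mono (Finset.subset_univ _)
  omega

theorem ind_even (h : MinCx G m) (v : V) {U : Finset V} (hU : ∀ x ∈ U, 4 ≤ G.dist v x) :
    1 + ind G (Lv G v 2) + ind G U ≤ ind G univ := by
  have hconn := h.connected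
  have h1 := ind_add_le (G := G) (S := Lv G v 2) (S' := U) (by
    rw [Finset.disjoint_left]
    intro x hx hx'
    rw [mem_Lv] at hx
    have := hU x hx'
    omega) (by
    intro x hx y hy hadj
    rw [mem_Lv] at hx
    have := hU y hy
    have := dist_adj_le hconn v hadj
    omega)
  have h2 : 1 ≤ ind G {v} := ind_pos (by simp)
  have h3 := ind_add_le (G := G) (S := {v}) (S' := Lv G v 2 ∪ U) (by
    rw [Finset.disjoint_left]
    intro x hx hx'
    rw [Finset.mem_singleton] at hx
    subst hx
    rw [Finset.mem_union, mem_Lv, SimpleGraph.dist_self] at hx'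
    rcases hx' with h4 | h4
    · omega
    · have := hU _ h4
      rw [SimpleGraph.dist_self] at this
      omega) (by
    intro x hx y hy hadj
    rw [Finset.mem_singleton] at hx
    subst hx
    have h5 := dist_adj_le hconn x hadj
    rw [SimpleGraph.dist_self] at h5
    rw [Finset.mem_union, mem_Lv] at hy
    rcases hy with h4 | h4
    · omega
    · have := hU _ h4
      omega)
  have h6 : ind G ({v} ∪ (Lv G v 2 ∪ U)) ≤ ind G univ := ind_mono (Finset.subset_univ _)
  omega

/-- The count of all the levels. -/
theorem count_levels (h : MinCx G m) (v : V) (c : ℕ)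
    (hlev : ∀ j, 3 ≤ j → (Lv G v j).card ≤ c * ind G (Lv G v j)) :
    ∃ p q, ind G (Lv G v 1) + p ≤ ind G univ ∧ 1 + ind G (Lv G v 2) + q ≤ ind G univ ∧
      (m - 1) * ind G univ ≤ (Lv G v 1).card + (Lv G v 2).card + c * p + c * q := by
  have hconn := h.connected
  set O := univ.filter (fun x => G.dist v x % 2 = 1 ∧ 3 ≤ G.dist v x) with hO
  set E := univ.filter (fun x => G.dist v x % 2 = 0 ∧ 4 ≤ G.dist v x) with hE
  have mO : ∀ x, x ∈ O ↔ G.dist v x % 2 = 1 ∧ 3 ≤ G.dist v x := by
    intro x; rw [hO, Finset.mem_filter]; simp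
  have mE : ∀ x, x ∈ E ↔ G.dist v x % 2 = 0 ∧ 4 ≤ G.dist v x := by
    intro x; rw [hE, Finset.mem_filter]; simp
  have hsame : ∀ x y, G.Adj x y → G.dist v x % 2 = G.dist v y % 2 → G.dist v x = G.dist v y := by
    intro x y hadj hpar
    have h1 := dist_adj_le hconn v hadj
    have h2 := dist_adj_le hconn v hadj.symm
    omega
  refine ⟨ind G O, ind G E, h.ind_odd v (fun x hx => ((mO x).1 hx).2),
    h.ind_even v (fun x hx => ((mE x).1 hx).2), ?_⟩
  have hOc : O.card ≤ c * ind G O := by
    apply card_le_of_levels G v c O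
    · intro x hx y hy hadj
      rw [mO] at hx hy
      exact hsame x y hadj (by omega)
    · intro j
      by_cases hj : j % 2 = 1 ∧ 3 ≤ j
      · have : O.filter (fun x => G.dist v x = j) = Lv G v j := by
          ext x
          rw [Finset.mem_filter, mO, mem_Lv]
          constructor
          · exact fun h => h.2
          · intro h
            rw [h]
            exact ⟨hj, rfl⟩
        rw [this]
        exact hlev j hj.2
      · have : O.filter (fun x => G.dist v x = j) = ∅ := by
          rw [Finset.eq_empty_iff_forall_notMem]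
          intro x hx
          rw [Finset.mem_filter, mO] at hx
          apply hj
          rw [← hx.2]
          exact hx.1
        rw [this]
        simp
  have hEc : E.card ≤ c * ind G E := by
    apply card_le_of_levels G v c E
    · intro x hx y hy hadj
      rw [mE] at hx hy
      exact hsame x y hadj (by omega)
    · intro j
      by_cases hj : j % 2 = 0 ∧ 4 ≤ j
      · have : E.filter (fun x => G.dist v x = j) = Lv G v j := by
          ext x
          rw [Finset.mem_filter, mE, mem_Lv]
          constructor
          · exact fun h => h.2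
          · intro h
            rw [h]
            exact ⟨hj, rfl⟩
        rw [this]
        exact hlev j (by omega)
      · have : E.filter (fun x => G.dist v x = j) = ∅ := by
          rw [Finset.eq_empty_iff_forall_notMem]
          intro x hx
          rw [Finset.mem_filter, mE] at hx
          apply hj
          rw [← hx.2]
          exact hx.1
        rw [this]
        simp
  have hcover : (univ : Finset V) ⊆ ((({v} ∪ Lv G v 1) ∪ Lv G v 2) ∪ O) ∪ E := by
    intro x _
    simp only [Finset.mem_union, Finset.mem_singleton, mem_Lv, mO, mE]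
    by_cases hxv : x = v
    · exact Or.inl (Or.inl (Or.inl (Or.inl hxv)))
    · have h0 : G.dist v x ≠ 0 := by
        intro h0
        exact hxv (hconn.dist_eq_zero_iff.1 h0).symm
      omega
  have h1 := Finset.card_le_card hcover
  have h2 := Finset.card_union_le ((({v} ∪ Lv G v 1) ∪ Lv G v 2) ∪ O) E
  have h3 := Finset.card_union_le (({v} ∪ Lv G v 1) ∪ Lv G v 2) O
  have h4 := Finset.card_union_le ({v} ∪ Lv G v 1) (Lv G v 2)
  have h5 := Finset.card_union_le {v} (Lv G v 1)
  rw [Finset.card_singleton] at h5
  rw [Finset.card_univ] at h1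
  have h6 := h.big
  omega

end MinCx

/-- a tree refutes a list of vertices -/
theorem Tr.false_of_list [DecidableEq V] (G : SimpleGraph V) {N m w s : ℕ} (hN : N ≤ 16)
    (hfree : ∀ l, CycL G l → l.length ≠ m) (T : Finset V)
    (hK : ∀ K ⊆ T, G.IsClique (K : Set V) → K.card < w)
    (hI : ∀ I ⊆ T, G.IsIndepSet (I : Set V) → I.card < s)
    (E : List (ℕ × ℕ)) (ht : ∃ t : Tr, t.check N m w s (mask E) 0 = true)
    (v0 : V) (l : List V) (hl : l.Nodup) (hlen : l.length = N) (hlT : ∀ x ∈ l, x ∈ T)
    (hE : ∀ q ∈ E, q.1 < 16 ∧ q.2 < 16 ∧ G.Adj (l.getD q.1 v0) (l.getD q.2 v0)) : False := by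
  obtain ⟨t, ht⟩ := ht
  have hget : ∀ i, ∀ hi : i < l.length, l.getD i v0 = l[i] := by
    intro i hi
    rw [List.getD_eq_getElem _ _ hi]
  have himg : (Finset.range N).image (fun i => l.getD i v0) ⊆ T := by
    intro x hx
    rw [Finset.mem_image] at hx
    obtain ⟨i, hi, rfl⟩ := hx
    rw [Finset.mem_range, ← hlen] at hi
    rw [hget i hi]
    exact hlT _ (List.getElem_mem hi)
  refine Tr.sound' G (fun i => l.getD i v0) N m w s hN ?_ hfree
    (fun K hKT => hK K (hKT.trans himg)) (fun I hIT => hI I (hIT.trans himg)) E hE t ht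
  intro i j hi hj hij
  rw [← hlen] at hi hj
  have hij' : l.getD i v0 = l.getD j v0 := hij
  rw [hget i hi, hget j hj] at hij'
  exact (List.Nodup.getElem_inj_iff hl).1 hij'

/-- a set without two nonadjacent vertices is a clique -/
theorem clique_of_ind_le_one [DecidableEq V] {G : SimpleGraph V} {T : Finset V}
    (h : ind G T ≤ 1) : G.IsClique (T : Set V) := by
  intro x hx y hy hxy
  by_contra hadj
  have h1 := card_le_ind (G := G) (S := T) (I := {x, y}) (by
    intro z hz
    rw [Finset.mem_insert, Finset.mem_singleton] at hz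
    rcases hz with rfl | rfl
    · exact hx
    · exact hy) (by
    intro p hp q hq hpq
    simp only [Finset.coe_insert, Finset.coe_singleton, Set.mem_insert_iff,
      Set.mem_singleton_iff] at hp hq
    rcases hp with rfl | rfl <;> rcases hq with rfl | rfl
    · exact absurd rfl hpq
    · exact hadj
    · exact fun h => hadj h.symm
    · exact absurd rfl hpq)
  rw [Finset.card_pair hxy] at h1
  omega

/-- small independence number: `m = 5, 6`. -/
theorem card_le_of_ind_le_two [DecidableEq V] {G : SimpleGraph V} {m : ℕ}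
    (hfree : ∀ l, CycL G l → l.length ≠ m)
    (ht : ∃ t : Tr, t.check 7 m 4 3 (mask []) 0 = true)
    (hω : ∀ K : Finset V, G.IsClique (K : Set V) → K.card ≤ 3) (T : Finset V)
    (hT : ind G T ≤ 2) : T.card ≤ 3 * ind G T := by
  by_cases h1 : ind G T ≤ 1
  · have h2 := hω T (clique_of_ind_le_one h1)
    by_cases h3 : T = ∅
    · subst h3
      simp
    · have := ind_pos (G := G) (Finset.nonempty_iff_ne_empty.2 h3)
      omega
  · by_contra hcon
    obtain ⟨T', hT', hc⟩ := Finset.exists_subset_card_eq (s := T) (n := 7) (by omega)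
    have hne : T'.Nonempty := by
      rw [← Finset.card_pos]
      omega
    obtain ⟨v0, -⟩ := hne
    refine Tr.false_of_list G (by omega) hfree T (fun K _ hK => ?_) (fun I hIT hI => ?_) [] ht
      v0 T'.toList T'.nodup_toList (by rw [Finset.length_toList, hc])
      (fun x hx => hT' (Finset.mem_toList.1 hx)) (by simp)
    · have := hω K hK
      omega
    · have := card_le_ind hIT hI
      omega

end Vale.Agent.P048
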