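import Vale.Agent.P048.LongCycle

namespace Vale.Agent.P048

variable {V : Type*}

/-- Version of `exists_long_cycle` with one more property of the cycle: if the head is adjacent to
the `j`-th vertex, then all `T`-neighbours of the vertex before it are on the cycle. -/
theorem exists_long_cycle2 [DecidableEq V] (G : SimpleGraph V) [DecidableRel G.Adj] (T : Finset V)
    (hT : T.Nonempty) (k s : ℕ) (hk : 1 ≤ k)
    (hdeg : ∀ y ∈ T, k ≤ (T.filter (G.Adj y)).card)
    (hun : ∀ y ∈ T, ∀ y' ∈ T, y ≠ y' → ¬ G.Adj y y' →
      s ≤ (T.filter (G.Adj y) ∪ T.filter (G.Adj y')).card)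
    (hcl : ∀ K ⊆ T, G.IsClique (K : Set V) → K.card ≤ k) :
    ∃ l : List V, CycL G l ∧ (∀ x ∈ l, x ∈ T) ∧ s + 2 ≤ l.length ∧
      (∀ x ∈ l.head?, ∀ y ∈ T, G.Adj x y → y ∈ l) ∧
      ∀ j (hj1 : 1 ≤ j) (hj : j < l.length), (∀ x ∈ l.head?, G.Adj x (l[j]'hj)) →
        ∀ y ∈ T, G.Adj (l[j-1]'(by omega)) y → y ∈ l := by
  classical
  -- a longest path
  obtain ⟨Lm, ⟨P0, hP0, hP0T, hP0l⟩, hLm⟩ := exists_max_nat
    (fun n => ∃ l : List V, PathL G l ∧ (∀ x ∈ l, x ∈ T) ∧ l.length = n) T.card
    (by
      obtain ⟨x, hx⟩ := hT
      exact ⟨1, [x], ⟨by simp, by simp⟩, by simpa using hx, rfl⟩)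
    (by
      rintro n ⟨l, hl, hlT, rfl⟩
      exact length_le_card_of_subset hl.1 hlT)
  have hLmax : ∀ l : List V, PathL G l → (∀ x ∈ l, x ∈ T) → l.length ≤ Lm :=
    fun l hl hlT => hLm _ ⟨l, hl, hlT, rfl⟩
  -- neighbours of the head of a longest path are on it
  have hnb : ∀ l : List V, PathL G l → (∀ x ∈ l, x ∈ T) → l.length = Lm →
      ∀ x ∈ l.head?, ∀ y ∈ T, G.Adj x y → y ∈ l := by
    intro l hl hlT hlen x hx y hy hxy
    by_contra hyl
    have := hLmax (y :: l) ⟨List.nodup_cons.2 ⟨hyl, hl.1⟩, by
      cases l with
      | nil => simp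
      | cons a l' =>
        simp at hx
        subst hx
        exact List.isChain_cons_cons.2 ⟨hxy.symm, hl.2⟩⟩ (by
      intro z hz
      rcases List.mem_cons.1 hz with rfl | hz
      · exact hy
      · exact hlT z hz)
    simp at this
    omega
  -- choose the pair (D, L)
  obtain ⟨nD, ⟨D, L, hDL, hDLT, hDLlen, hD2, hDadj, hDn⟩, hDmax'⟩ := exists_max_nat
    (fun n => ∃ D L : List V, PathL G (D ++ L) ∧ (∀ x ∈ D ++ L, x ∈ T) ∧
      (D ++ L).length = Lm ∧ 2 ≤ D.length ∧
      (∀ x ∈ D.head?, ∀ y ∈ D.getLast?, G.Adj x y) ∧ D.length = n) Lm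
    (by
      cases hP : P0 with
      | nil =>
        exfalso
        rw [hP] at hP0l
        obtain ⟨x, hx⟩ := hT
        have := hLmax [x] ⟨by simp, by simp⟩ (by simpa using hx)
        simp at this hP0l
        omega
      | cons a l' =>
        have haT : a ∈ T := hP0T a (by rw [hP]; simp)
        have := hdeg a haT
        obtain ⟨y, hy⟩ := Finset.card_pos.1 (show 0 < (T.filter (G.Adj a)).card by omega)
        rw [Finset.mem_filter] at hy
        have hyP := hnb P0 hP0 hP0T hP0l a (by rw [hP]; simp) y hy.1 hy.2
        rw [hP] at hyP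
        have hya : y ≠ a := hy.2.ne'
        have hyl' : y ∈ l' := by
          rcases List.mem_cons.1 hyP with h | h
          · exact absurd h hya
          · exact h
        obtain ⟨s1, s2, hs⟩ := List.append_of_mem hyl'
        refine ⟨_, a :: s1 ++ [y], s2, ?_, ?_, ?_, ?_, ?_, rfl⟩
        · have : a :: s1 ++ [y] ++ s2 = P0 := by rw [hP, hs]; simp
          rw [this]; exact hP0
        · have : a :: s1 ++ [y] ++ s2 = P0 := by rw [hP, hs]; simp
          rw [this]; exact hP0T
        · have : a :: s1 ++ [y] ++ s2 = P0 := by rw [hP, hs]; simp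
          rw [this]; exact hP0l
        · simp
        · intro x hx z hz
          rw [List.getLast?_concat] at hz
          simp at hx hz
          rw [← hx, ← hz]
          exact hy.2)
    (by
      rintro n ⟨D, L, _, _, h3, _, _, rfl⟩
      rw [List.length_append] at h3
      omega)
  have hDmax : ∀ D L : List V, PathL G (D ++ L) → (∀ x ∈ D ++ L, x ∈ T) →
      (D ++ L).length = Lm → 2 ≤ D.length →
      (∀ x ∈ D.head?, ∀ y ∈ D.getLast?, G.Adj x y) → D.length ≤ nD :=
    fun D L h1 h2 h3 h4 h5 => hDmax' _ ⟨D, L, h1, h2, h3, h4, h5, rfl⟩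
  -- neighbours of the head of any such maximal `D'` are in `D'`
  have hnbD : ∀ D' : List V, PathL G (D' ++ L) → (∀ x ∈ D' ++ L, x ∈ T) →
      (D' ++ L).length = Lm → D'.length = nD → 2 ≤ D'.length →
      ∀ x ∈ D'.head?, ∀ y ∈ T, G.Adj x y → y ∈ D' := by
    intro D' h1 h2 h3 h4 h5 x hx y hy hxy
    have hx' : x ∈ (D' ++ L).head? := by
      cases D' with
      | nil => simp at h5
      | cons a l => simpa using hx
    have := hnb (D' ++ L) h1 h2 h3 x hx' y hy hxy
    rcases List.mem_append.1 this with h | h
    · exact h
    · exfalso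
      obtain ⟨s1, s2, hs⟩ := List.append_of_mem h
      have hrew : (D' ++ s1 ++ [y]) ++ s2 = D' ++ L := by rw [hs]; simp
      have := hDmax (D' ++ s1 ++ [y]) s2 (by rw [hrew]; exact h1) (by rw [hrew]; exact h2)
        (by rw [hrew]; exact h3) (by simp; omega) (by
          intro x' hx'' z hz
          have : x' = x := by
            cases D' with
            | nil => simp at h5
            | cons a l =>
              simp at hx hx''
              rw [← hx, ← hx'']
          rw [this]
          simp at hz
          rw [← hz]; exact hxy)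
      simp at this
      omega
  have hDlen0 : 0 < D.length := by omega
  set z0 := D[0]'hDlen0 with hz0
  have hz0T : z0 ∈ T := hDLT z0 (List.mem_append_left _ (List.getElem_mem _))
  have hDnd : D.Nodup := (List.nodup_append.1 hDL.1).1
  have hDT : ∀ x ∈ D, x ∈ T := fun x hx => hDLT x (List.mem_append_left _ hx)
  have hheadD : D.head? = some z0 := by
    rw [List.head?_eq_getElem?]; simp [hz0]
  have hlastD : D.getLast? = some (D[D.length - 1]'(by omega)) := by
    rw [List.getLast?_eq_getElem?]; simp
  have hlastadj : G.Adj z0 (D[D.length - 1]'(by omega)) :=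
    hDadj z0 (by rw [hheadD]; simp) _ (by rw [hlastD]; simp)
  -- rotated versions
  have hrot : ∀ j (hj1 : 1 ≤ j) (hj : j < D.length), G.Adj z0 (D[j]'hj) →
      ∀ y ∈ T, G.Adj (D[j-1]'(by omega)) y → y ∈ D := by
    intro j hj1 hj hadj y hy hyadj
    have hp := rotate_perm D j
    have := hnbD ((D.take j).reverse ++ D.drop j) (hDL.rotate_cut j hj1 hj hadj) (by
        intro x hx
        rcases List.mem_append.1 hx with h | h
        · exact hDT x (hp.mem_iff.1 h)
        · exact hDLT x (List.mem_append_right _ h)) (by
        rw [List.length_append, hp.length_eq, ← List.length_append]; exact hDLlen)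
        (by rw [hp.length_eq]; exact hDn) (by rw [hp.length_eq]; exact hD2)
        (D[j-1]'(by omega)) (by
          have h1 : ((D.take j).reverse ++ D.drop j).head? = (D.take j).getLast? := by
            rw [List.head?_append, List.head?_reverse]
            cases h : (D.take j).getLast? with
            | none =>
              exfalso
              rw [List.getLast?_eq_none_iff] at h
              have := congrArg List.length h
              rw [List.length_take, Nat.min_eq_left hj.le] at this
              simp at this
              omega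
            | some a => simp
          rw [h1, List.getLast?_eq_getElem?]
          simp only [List.length_take, Nat.min_eq_left hj.le]
          rw [List.getElem?_take_of_lt (by omega)]
          simp) y hy hyadj
    exact hp.mem_iff.1 this
  refine ⟨D, ⟨hDnd, ?_, ?_⟩, hDT, ?_, ?_, ?_⟩
  · exact hDL.2.left_of_append
  · intro x hx y hy
    exact (hDadj y hy x hx).symm
  · -- main claim
    by_contra hlt
    push Not at hlt
    -- the set of indices
    let W : Finset V := (Finset.univ.filter (fun j : Fin D.length =>
      1 ≤ j.1 ∧ G.Adj z0 D[j.1])).image (fun j => D[j.1 - 1]'(by omega))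
    have hWmem : ∀ w, w ∈ W ↔ ∃ j, ∃ (hj1 : 1 ≤ j) (hj : j < D.length),
        G.Adj z0 (D[j]'hj) ∧ D[j-1]'(by omega) = w := by
      intro w
      simp only [W, Finset.mem_image, Finset.mem_filter, Finset.mem_univ, true_and]
      constructor
      · rintro ⟨j, ⟨h1, h2⟩, h3⟩
        exact ⟨j.1, h1, j.2, h2, h3⟩
      · rintro ⟨j, h1, hj, h2, h3⟩
        exact ⟨⟨j, hj⟩, ⟨h1, h2⟩, h3⟩
    have hWD : ∀ w ∈ W, w ∈ D := by
      intro w hw
      obtain ⟨j, h1, hj, h2, h3⟩ := (hWmem w).1 hw
      rw [← h3]; exact List.getElem_mem _
    have hWT : W ⊆ T := fun w hw => hDT w (hWD w hw)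
    have hWnb : ∀ w ∈ W, ∀ y ∈ T, G.Adj w y → y ∈ D := by
      intro w hw y hy hwy
      obtain ⟨j, h1, hj, h2, h3⟩ := (hWmem w).1 hw
      exact hrot j h1 hj h2 y hy (by rw [h3]; exact hwy)
    -- W is a clique
    have hWcl : G.IsClique (W : Set V) := by
      intro w hw w' hw' hne
      by_contra hnadj
      have h1 := hun w (hWT hw) w' (hWT hw') hne hnadj
      have h2 : T.filter (G.Adj w) ∪ T.filter (G.Adj w') ⊆ (D.toFinset.erase w).erase w' := by
        intro y hy
        rw [Finset.mem_union, Finset.mem_filter, Finset.mem_filter] at hy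
        rw [Finset.mem_erase, Finset.mem_erase, List.mem_toFinset]
        rcases hy with ⟨hyT, hy⟩ | ⟨hyT, hy⟩
        · refine ⟨?_, hy.ne', hWnb w hw y hyT hy⟩
          rintro rfl
          exact hnadj hy
        · refine ⟨hy.ne', ?_, hWnb w' hw' y hyT hy⟩
          rintro rfl
          exact hnadj hy.symm
      have h3 := Finset.card_le_card h2
      rw [Finset.card_erase_of_mem (by
          rw [Finset.mem_erase, List.mem_toFinset]; exact ⟨hne.symm, hWD w' hw'⟩),
        Finset.card_erase_of_mem (by rw [List.mem_toFinset]; exact hWD w hw),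
        List.toFinset_card_of_nodup hDnd] at h3
      omega
    -- card of W
    have hNcard : (T.filter (G.Adj z0)).card ≤ W.card := by
      have : T.filter (G.Adj z0) = (Finset.univ.filter (fun j : Fin D.length =>
          1 ≤ j.1 ∧ G.Adj z0 D[j.1])).image (fun j => D[j.1]) := by
        ext y
        simp only [Finset.mem_image, Finset.mem_filter, Finset.mem_univ, true_and]
        constructor
        · rintro ⟨hyT, hy⟩
          have hyD : y ∈ D := hnbD D hDL hDLT hDLlen hDn hD2 z0 (by rw [hheadD]; simp) y hyT hy
          obtain ⟨j, hj, rfl⟩ := List.getElem_of_mem hyD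
          refine ⟨⟨j, hj⟩, ⟨?_, hy⟩, rfl⟩
          by_contra h0
          have : j = 0 := by simpa using h0
          subst this
          exact hy.ne rfl
        · rintro ⟨j, ⟨_, h2⟩, rfl⟩
          exact ⟨hDT _ (List.getElem_mem _), h2⟩
      rw [this]
      refine le_trans Finset.card_image_le (le_of_eq ?_)
      symm
      apply Finset.card_image_of_injOn
      intro i hi j hj hij
      simp only [Finset.coe_filter, Finset.mem_univ, true_and, Set.mem_ofPred_eq] at hi hj
      have := (List.Nodup.getElem_inj_iff hDnd).1 hij
      ext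
      omega
    have hWk : W.card = k := by
      have h1 := hcl W hWT hWcl
      have h2 := hdeg z0 hz0T
      omega
    have hNk : (T.filter (G.Adj z0)).card = k := by
      have h2 := hdeg z0 hz0T
      omega
    have hz0W : z0 ∈ W := by
      rw [hWmem]
      refine ⟨1, le_refl _, by omega, ?_, by simp [hz0]⟩
      have := (List.isChain_iff_getElem.1 hDL.2.left_of_append) 0 (by omega)
      simpa [hz0] using this
    set xl := D[D.length - 1]'(by omega) with hxl
    have hxlW : xl ∉ W := by
      intro h
      obtain ⟨j, h1, hj, h2, h3⟩ := (hWmem xl).1 h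
      rw [hxl] at h3
      have := (List.Nodup.getElem_inj_iff hDnd).1 h3
      omega
    have hNeq : T.filter (G.Adj z0) = insert xl (W.erase z0) := by
      symm
      apply Finset.eq_of_subset_of_card_le
      · intro y hy
        rw [Finset.mem_insert, Finset.mem_erase] at hy
        rw [Finset.mem_filter]
        rcases hy with rfl | ⟨h1, h2⟩
        · exact ⟨hDT _ (List.getElem_mem _), hlastadj⟩
        · exact ⟨hWT h2, hWcl hz0W h2 (Ne.symm h1)⟩
      · rw [Finset.card_insert_of_notMem (by
          rw [Finset.mem_erase]; exact fun h => hxlW h.2), Finset.card_erase_of_mem hz0W]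
        omega
    -- all of D except the last is in W
    have hall : ∀ t, t ≤ D.length - 2 → D[D.length - 2 - t]'(by omega) ∈ W := by
      intro t
      induction t with
      | zero =>
        intro _
        rw [hWmem]
        refine ⟨D.length - 1, by omega, by omega, hlastadj, ?_⟩
        congr 1
      | succ t ih =>
        intro ht
        have h1 := ih (by omega)
        rw [hWmem]
        refine ⟨D.length - 2 - t, by omega, by omega, ?_, ?_⟩
        · apply hWcl hz0W h1
          intro h
          rw [hz0] at h
          have := (List.Nodup.getElem_inj_iff hDnd).1 h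
          omega
        · congr 1
    have hallW : ∀ i (hi : i < D.length - 1), D[i]'(by omega) ∈ W := by
      intro i hi
      have := hall (D.length - 2 - i) (by omega)
      have e : D.length - 2 - (D.length - 2 - i) = i := by omega
      simpa [e] using this
    have hDsub : D.toFinset ⊆ insert xl W := by
      intro y hy
      rw [List.mem_toFinset] at hy
      obtain ⟨i, hi, rfl⟩ := List.getElem_of_mem hy
      rw [Finset.mem_insert]
      by_cases h : i < D.length - 1
      · exact Or.inr (hallW i h)
      · left
        have : i = D.length - 1 := by omega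
        subst this
        rfl
    have hDcard : D.toFinset.card ≤ k + 1 := by
      refine le_trans (Finset.card_le_card hDsub) ?_
      rw [Finset.card_insert_of_notMem hxlW]
      omega
    -- every w in W is adjacent to xl
    have hWx : ∀ w ∈ W, G.Adj w xl := by
      intro w hw
      by_contra hn
      have h1 : T.filter (G.Adj w) ⊆ (W.erase w) := by
        intro y hy
        rw [Finset.mem_filter] at hy
        have h2 := hDsub (List.mem_toFinset.2 (hWnb w hw y hy.1 hy.2))
        rw [Finset.mem_insert] at h2
        rw [Finset.mem_erase]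
        refine ⟨hy.2.ne', ?_⟩
        rcases h2 with rfl | h2
        · exact absurd hy.2 hn
        · exact h2
      have h2 := Finset.card_le_card h1
      rw [Finset.card_erase_of_mem hw] at h2
      have h3 := hdeg w (hWT hw)
      omega
    have hbig : G.IsClique ((insert xl W : Finset V) : Set V) := by
      rw [Finset.coe_insert, SimpleGraph.isClique_insert]
      refine ⟨hWcl, ?_⟩
      intro w hw _
      exact (hWx w hw).symm
    have h1 := hcl (insert xl W) (by
      intro y hy
      rw [Finset.mem_insert] at hy
      rcases hy with rfl | hy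
      · exact hDT _ (List.getElem_mem _)
      · exact hWT hy) hbig
    rw [Finset.card_insert_of_notMem hxlW] at h1
    omega
  · intro x hx y hy hxy
    exact hnbD D hDL hDLT hDLlen hDn hD2 x hx y hy hxy
  · intro j hj1 hj hadj y hy hyadj
    exact hrot j hj1 hj (hadj z0 (by rw [hheadD]; simp)) y hy hyadj

end Vale.Agent.P048
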