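import Vale.Agent.P048.Parity
import Vale.Agent.P048.Clique

namespace Vale.Agent.P048

open Finset

variable {V : Type*}

/-- Removing the closed neighbourhood of an independent set. -/
theorem exists_rest [DecidableEq V] (G : SimpleGraph V) [DecidableRel G.Adj] (S I N : Finset V)
    (hI : I ⊆ S) (hi : G.IsIndepSet (I : Set V)) (hIne : I.Nonempty)
    (hN : ∀ x ∈ S, ∀ y ∈ I, G.Adj y x → x ∈ N) :
    ∃ T ⊂ S, ind G T + I.card ≤ ind G S ∧ S.card ≤ T.card + I.card + N.card := by
  refine ⟨S.filter (fun x => ∀ y ∈ I, x ≠ y ∧ ¬ G.Adj y x), ?_, ind_sdiff_add_le hI hi,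
    filter_count G S I N hN⟩
  rw [Finset.filter_ssubset]
  obtain ⟨y, hy⟩ := hIne
  exact ⟨y, hI hy, fun h => (h y hy).1 rfl⟩

/-- A minimal counterexample to the bound `|V| ≤ (m - 1) ind`. -/
structure MinCx [Fintype V] (G : SimpleGraph V) (m : ℕ) : Prop where
  free : ∀ l, CycL G l → l.length ≠ m
  big : (m - 1) * ind G univ + 1 ≤ Fintype.card V
  small : ∀ T : Finset V, T ≠ univ → T.card ≤ (m - 1) * ind G T

namespace MinCx

variable [Fintype V] [DecidableEq V] {G : SimpleGraph V} [DecidableRel G.Adj] {m : ℕ}

omit [DecidableEq V] [DecidableRel G.Adj] in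
theorem indep_le (_h : MinCx G m) {I : Finset V} (hI : G.IsIndepSet (I : Set V)) :
    I.card ≤ ind G univ := card_le_ind (Finset.subset_univ _) hI

theorem nbhd (h : MinCx G m) {I N : Finset V} (hi : G.IsIndepSet (I : Set V)) (hIne : I.Nonempty)
    (hN : ∀ x, ∀ y ∈ I, G.Adj y x → x ∈ N) : (m - 1) * I.card < I.card + N.card := by
  obtain ⟨T', hT', h1, h3⟩ := exists_rest G univ I N (Finset.subset_univ _) hi hIne
    (fun x _ => hN x)
  have h2 := h.small T' hT'.ne
  have h4 := h.big
  have h5 : (m - 1) * (ind G T' + I.card) ≤ (m - 1) * ind G univ := Nat.mul_le_mul_left _ h1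
  rw [Nat.mul_add] at h5
  rw [Finset.card_univ] at h3
  omega

theorem degree_ge (h : MinCx G m) (v : V) : m - 1 ≤ G.degree v := by
  have := h.nbhd (I := {v}) (N := G.neighborFinset v) (by simp) (by simp) (by
    intro x y hy hadj
    rw [Finset.mem_singleton] at hy
    subst hy
    rw [SimpleGraph.mem_neighborFinset]
    exact hadj)
  rw [Finset.card_singleton, SimpleGraph.card_neighborFinset_eq_degree] at this
  omega

omit [DecidableEq V] [DecidableRel G.Adj] in
theorem nonempty (h : MinCx G m) : Nonempty V := by
  have := h.big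
  rw [← Fintype.card_pos_iff]
  omega

omit [DecidableRel G.Adj] in
theorem conn (h : MinCx G m) : Conn G univ := by
  intro S _ hS hno
  by_contra hne
  have h1 := h.small S hne
  have h2 := h.small Sᶜ (by
    intro hcon
    obtain ⟨x, hx⟩ := hS
    have : x ∈ Sᶜ := by rw [hcon]; exact Finset.mem_univ _
    rw [Finset.mem_compl] at this
    exact this hx)
  have h3 := ind_add_le (G := G) (S := S) (S' := Sᶜ) disjoint_compl_right (by
    intro x hx y hy
    rw [Finset.mem_compl] at hy
    exact hno x hx y (Finset.mem_univ _) hy)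
  rw [Finset.union_compl] at h3
  have h4 := Finset.card_add_card_compl S
  have h5 : (m - 1) * (ind G S + ind G Sᶜ) ≤ (m - 1) * ind G univ := Nat.mul_le_mul_left _ h3
  rw [Nat.mul_add] at h5
  have h6 := h.big
  omega

theorem connected (h : MinCx G m) : G.Connected := by
  classical
  have := h.nonempty
  refine ⟨?_⟩
  intro u w
  have := h.conn (univ.filter (fun x => G.Reachable u x)) (Finset.subset_univ _)
    ⟨u, by rw [Finset.mem_filter]; exact ⟨Finset.mem_univ _, SimpleGraph.Reachable.refl _⟩⟩ (by
      intro x hx y _ hy hadj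
      rw [Finset.mem_filter] at hx hy
      exact hy ⟨Finset.mem_univ _, hx.2.trans hadj.reachable⟩)
  have hw : w ∈ univ.filter (fun x => G.Reachable u x) := by rw [this]; exact Finset.mem_univ _
  rw [Finset.mem_filter] at hw
  exact hw.2

/-- The balls of a minimal counterexample have growing independence number. -/
theorem ball_growth (h : MinCx G m) (v : V) (i : ℕ)
    (hi : univ.filter (fun x => G.dist v x ≤ i) ≠ univ) :
    i + 1 ≤ ind G (univ.filter (fun x => G.dist v x ≤ i)) := by
  have hconn := h.connected
  induction i with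
  | zero => exact ind_pos ⟨v, by rw [Finset.mem_filter]; simp⟩
  | succ i ih =>
    have hi' : univ.filter (fun x => G.dist v x ≤ i) ≠ univ := by
      intro hcon
      apply hi
      rw [Finset.eq_univ_iff_forall] at hcon ⊢
      intro x
      have := hcon x
      rw [Finset.mem_filter] at this ⊢
      exact ⟨Finset.mem_univ _, by omega⟩
    have ih' := ih hi'
    obtain ⟨I, hI1, hI2, hI3⟩ := exists_ind G (univ.filter (fun x => G.dist v x ≤ i))
    have h1 := h.nbhd (I := I) (N := univ.filter (fun x => G.dist v x ≤ i + 1) \ I) hI2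
      (by
        rw [← Finset.card_pos]; omega) (by
        intro x y hy hadj
        rw [Finset.mem_sdiff, Finset.mem_filter]
        refine ⟨⟨Finset.mem_univ _, ?_⟩, ?_⟩
        · have := hI1 hy
          rw [Finset.mem_filter] at this
          have := dist_adj_le hconn v hadj
          omega
        · intro hxI
          exact hI2 hy hxI hadj.ne hadj)
    have hsub : I ⊆ univ.filter (fun x => G.dist v x ≤ i + 1) := by
      intro x hx
      have := hI1 hx
      rw [Finset.mem_filter] at this ⊢
      exact ⟨Finset.mem_univ _, by omega⟩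
    have h2 : (univ.filter (fun x => G.dist v x ≤ i + 1) \ I).card + I.card
        = (univ.filter (fun x => G.dist v x ≤ i + 1)).card := Finset.card_sdiff_add_card_eq_card hsub
    have h3 := h.small _ hi
    rw [hI3] at h1 h2
    by_contra hcon
    have h4 : ind G (univ.filter (fun x => G.dist v x ≤ i + 1))
        ≤ ind G (univ.filter (fun x => G.dist v x ≤ i)) := by omega
    have h5 := Nat.mul_le_mul_left (m - 1) h4
    omega

theorem level_bound (h : MinCx G m) (v : V) (j : ℕ) (hj : 2 ≤ j) (T : Finset V)
    (hT : T.Nonempty) (hTj : ∀ x ∈ T, G.dist v x = j) : ind G T + (j - 1) ≤ ind G univ := by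
  have hconn := h.connected
  obtain ⟨x0, hx0⟩ := hT
  have h1 := h.ball_growth v (j - 2) (by
    intro hcon
    have : x0 ∈ univ.filter (fun x => G.dist v x ≤ j - 2) := by rw [hcon]; exact Finset.mem_univ _
    rw [Finset.mem_filter] at this
    have := hTj x0 hx0
    omega)
  have h2 := ind_add_le (G := G) (S := T) (S' := univ.filter (fun x => G.dist v x ≤ j - 2)) (by
    rw [Finset.disjoint_left]
    intro x hx hx'
    rw [Finset.mem_filter] at hx'
    have := hTj x hx
    omega) (by
    intro x hx y hy hadj
    rw [Finset.mem_filter] at hy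
    have := hTj x hx
    have := dist_adj_le hconn v hadj.symm
    omega)
  have h3 : ind G (T ∪ univ.filter (fun x => G.dist v x ≤ j - 2)) ≤ ind G univ :=
    ind_mono (Finset.subset_univ _)
  omega

end MinCx

/-- Every counterexample contains a minimal one. -/
theorem exists_minCx [DecidableEq V] (G : SimpleGraph V) (m : ℕ)
    (hfree : ∀ l, CycL G l → l.length ≠ m) (S : Finset V) (hS : (m - 1) * ind G S < S.card) :
    ∃ T ⊆ S, MinCx (G.comap (fun x : {x // x ∈ T} => x.1)) m := by
  induction S using Finset.strongInduction with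
  | H S ih =>
  by_cases hex : ∃ T ⊂ S, (m - 1) * ind G T < T.card
  · obtain ⟨T, hT, hT'⟩ := hex
    obtain ⟨T', hT'T, h⟩ := ih T hT hT'
    exact ⟨T', hT'T.trans hT.1, h⟩
  · push Not at hex
    refine ⟨S, Finset.Subset.refl _, ⟨?_, ?_, ?_⟩⟩
    · intro l hl hlm
      apply hfree (l.map (fun x => x.1)) _ (by rw [List.length_map]; exact hlm)
      obtain ⟨h1, h2, h3⟩ := hl
      refine ⟨h1.map Subtype.val_injective, ?_, ?_⟩
      · rw [List.isChain_map]
        exact h2
      · intro x hx y hy
        rw [List.getLast?_map] at hx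
        rw [List.head?_map] at hy
        rw [Option.mem_def, Option.map_eq_some_iff] at hx hy
        obtain ⟨x, hx, rfl⟩ := hx
        obtain ⟨y, hy, rfl⟩ := hy
        exact h3 x hx y hy
    · rw [ind_comap]
      have : (univ : Finset {x // x ∈ S}).map
          ⟨fun x : {x // x ∈ S} => x.1, Subtype.val_injective⟩ = S := by
        ext x
        simp
      rw [this, Fintype.card_coe]
      omega
    · intro T hT
      rw [ind_comap]
      have hTS : T.map ⟨fun x : {x // x ∈ S} => x.1, Subtype.val_injective⟩ ⊂ S := by
        rw [Finset.ssubset_iff_subset_ne]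
        refine ⟨?_, ?_⟩
        · intro x hx
          rw [Finset.mem_map] at hx
          obtain ⟨y, _, rfl⟩ := hx
          exact y.2
        · intro hcon
          apply hT
          rw [Finset.eq_univ_iff_forall]
          intro x
          have : x.1 ∈ T.map ⟨fun x : {x // x ∈ S} => x.1, Subtype.val_injective⟩ := by
            rw [hcon]; exact x.2
          rw [Finset.mem_map] at this
          obtain ⟨y, hy, hyx⟩ := this
          have : y = x := Subtype.ext hyx
          rw [← this]
          exact hy
      have := hex _ hTS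
      rw [Finset.card_map] at this
      exact this

end Vale.Agent.P048
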