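import Vale.Agent.P048.Level

namespace Vale.Agent.P048

open Finset

variable {V : Type*}

/-- One minimal counterexample inside a level: the structural part. -/
theorem exists_cycle_of_level [Fintype V] [DecidableEq V] (G : SimpleGraph V) [DecidableRel G.Adj]
    (hconn : G.Connected) (v : V) (m j : ℕ) (hm : 4 ≤ m) (hj : 1 ≤ j)
    (T : Finset V) (hT : T.Nonempty) (hTj : ∀ x ∈ T, G.dist v x = j) (hTc : Conn G T)
    (hlev : 2 ≤ j → 2 * ind G T + 2 ≤ m + 1 ∧ 2 * j + 1 ≤ m)
    (l : List V) (hl : CycL G l) (hlT : ∀ x ∈ l, x ∈ T) (hlm : m + 1 ≤ l.length) :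
    ∃ l', CycL G l' ∧ l'.length = m := by
  classical
  have hex : ∃ h, 1 ≤ h ∧ h ≤ j ∧ ∃ w, G.dist v w = j - h ∧ ∀ x ∈ T, G.dist w x = h :=
    ⟨j, hj, le_refl _, v, by simp, hTj⟩
  obtain ⟨hh1, hhj, w, hw, hwT⟩ := Nat.find_spec hex
  have hmin : ∀ h', h' < Nat.find hex →
      ¬ (1 ≤ h' ∧ h' ≤ j ∧ ∃ w, G.dist v w = j - h' ∧ ∀ x ∈ T, G.dist w x = h') :=
    fun h' hh' => Nat.find_min hex hh'
  set h := Nat.find hex with hdef
  clear_value h
  by_cases h1 : h = 1
  · -- a common neighbour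
    subst h1
    obtain ⟨hnd, hch, hlast⟩ := hl
    have hwadj : ∀ x ∈ T, G.Adj w x := fun x hx => SimpleGraph.dist_eq_one_iff_adj.1 (hwT x hx)
    refine ⟨l.take (m - 1) ++ [w], ⟨?_, ?_, ?_⟩, ?_⟩
    · rw [List.nodup_append']
      refine ⟨hnd.sublist (List.take_sublist _ _), by simp, ?_⟩
      intro x hx hx'
      rw [List.mem_singleton] at hx'
      subst hx'
      exact G.irrefl (hwadj x (hlT x (List.mem_of_mem_take hx)))
    · rw [List.isChain_append]
      refine ⟨hch.take _, by simp, ?_⟩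
      intro x hx y hy
      simp only [List.head?_cons, Option.mem_def, Option.some.injEq] at hy
      subst hy
      exact (hwadj x (hlT x (List.mem_of_mem_take (List.mem_of_mem_getLast? hx)))).symm
    · intro x hx y hy
      simp only [List.getLast?_append, List.getLast?_singleton, Option.some_or, Option.mem_def,
        Option.some.injEq] at hx
      subst hx
      rw [List.head?_append, List.head?_take, if_neg (by omega)] at hy
      cases hq : l.head? with
      | none =>
        rw [List.head?_eq_none_iff] at hq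
        subst hq
        simp at hlm
      | some q =>
        rw [hq] at hy
        simp only [Option.some_or, Option.mem_def, Option.some.injEq] at hy
        subst hy
        exact hwadj _ (hlT _ (List.mem_of_mem_head? hq))
    · rw [List.length_append, List.length_take, List.length_singleton]
      omega
  · have h2 : 2 ≤ h := by omega
    obtain ⟨hα, hjm⟩ := hlev (by omega)
    obtain ⟨x0, hx0⟩ := hT
    obtain ⟨g, g0, g1, gadj, gd⟩ := exists_geodesic hconn w x0
    rw [hwT x0 hx0] at g1 gadj gd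
    have hwc : G.Adj w (g 1) := by
      have := gadj 0 (by omega)
      rwa [g0] at this
    have hc0x0 : G.dist (g 1) x0 = h - 1 := (gd 1 (by omega)).1
    have hc0 : G.dist v (g 1) = j - h + 1 := by
      have e1 := dist_adj_le hconn v hwc
      have e2 := hconn.dist_triangle (u := v) (v := g 1) (w := x0)
      have e3 := hTj x0 hx0
      omega
    set c0 := g 1 with hc0def
    let A : Set V := {x | G.dist c0 x = h - 1}
    have hx0A : x0 ∈ A := hc0x0
    have hB : ∃ y ∈ T, y ∉ A := by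
      by_contra hcon
      push Not at hcon
      apply hmin (h - 1) (by omega)
      exact ⟨by omega, by omega, c0, by omega, hcon⟩
    have hpath : ∃ P : List V, PathL G P ∧ (∀ x ∈ P, x ∈ T) ∧ P.length = m - 2 * h + 1 ∧
        (∃ x ∈ P.head?, x ∈ A) ∧ (∃ y ∈ P.getLast?, y ∉ A) := by
      by_cases hc1 : ∃ x ∈ l, x ∈ A
      · by_cases hc2 : ∃ x ∈ l, x ∉ A
        · obtain ⟨P, hP, hPl, hPn, hPA, hPB⟩ := exists_colored_path G l hl A hc1 hc2 (by
            intro I hI hI'
            have := card_le_ind (S := T) (fun x hx => hlT x (hI x hx)) hI'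
            omega) (m - 2 * h + 1) (by omega) (by omega)
          exact ⟨P, hP, fun x hx => hlT x (hPl x hx), hPn, hPA, hPB⟩
        · push Not at hc2
          obtain ⟨P, hP, hPl, hPn, ⟨x, hx, hxA⟩, ⟨y, hy, hyA⟩⟩ := mono_path hTc l hl hlT A hc2 hB
            (m - 2 * h + 1) (by omega) (by omega)
          refine ⟨P.reverse, hP.reverse, fun x hx => hPl x (List.mem_reverse.1 hx), by simpa using hPn,
            ⟨y, ?_, hyA⟩, ⟨x, ?_, hxA⟩⟩
          · rw [List.head?_reverse]; exact hy
          · rw [List.getLast?_reverse]; exact hx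
      · push Not at hc1
        obtain ⟨P, hP, hPl, hPn, ⟨x, hx, hxA⟩, ⟨y, hy, hyA⟩⟩ := mono_path hTc l hl hlT Aᶜ
          (fun x hx => hc1 x hx) ⟨x0, hx0, fun h => h hx0A⟩ (m - 2 * h + 1) (by omega) (by omega)
        exact ⟨P, hP, hPl, hPn, ⟨x, hx, not_not.1 hxA⟩, ⟨y, hy, hyA⟩⟩
    obtain ⟨P, hP, hPT, hPn, ⟨a, ha, haA⟩, ⟨b, hb, hbA⟩⟩ := hpath
    have hbT : b ∈ T := hPT b (List.mem_of_mem_getLast? hb)
    obtain ⟨l', hl', hl'n⟩ := close_path hconn v w c0 j h h2 hhj hw hc0 hwc P hP
      (fun x hx => hTj x (hPT x hx)) a b ha hb (hwT b hbT) haA hbA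
    exact ⟨l', hl', by omega⟩

theorem filter_count [DecidableEq V] (G : SimpleGraph V) [DecidableRel G.Adj] (T I N : Finset V)
    (hN : ∀ x ∈ T, ∀ y ∈ I, G.Adj y x → x ∈ N) :
    T.card ≤ (T.filter (fun x => ∀ y ∈ I, x ≠ y ∧ ¬ G.Adj y x)).card + I.card + N.card := by
  have : T ⊆ (T.filter (fun x => ∀ y ∈ I, x ≠ y ∧ ¬ G.Adj y x) ∪ I) ∪ N := by
    intro x hx
    rw [Finset.mem_union, Finset.mem_union, Finset.mem_filter]
    by_cases hxI : x ∈ I
    · exact Or.inl (Or.inr hxI)
    · by_cases hxN : x ∈ N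
      · exact Or.inr hxN
      · refine Or.inl (Or.inl ⟨hx, fun y hy => ⟨fun h => hxI (h ▸ hy), fun h => hxN (hN x hx y hy h)⟩⟩)
  calc T.card ≤ _ := Finset.card_le_card this
    _ ≤ _ := Finset.card_union_le _ _
    _ ≤ _ := by
      have := Finset.card_union_le (T.filter (fun x => ∀ y ∈ I, x ≠ y ∧ ¬ G.Adj y x)) I
      omega

theorem nbhd_bound [DecidableEq V] (G : SimpleGraph V) [DecidableRel G.Adj] (T I N : Finset V)
    (M : ℕ) (hI : I ⊆ T) (hi : G.IsIndepSet (I : Set V)) (hIne : I.Nonempty)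
    (hN : ∀ x ∈ T, ∀ y ∈ I, G.Adj y x → x ∈ N) (hcon : M * ind G T < 2 * T.card)
    (ih : ∀ T' ⊂ T, 2 * T'.card ≤ M * ind G T') :
    M * I.card < 2 * (I.card + N.card) := by
  have h1 := ind_sdiff_add_le (G := G) (S := T) (I := I) hI hi
  have h3 := filter_count G T I N hN
  have hss : T.filter (fun x => ∀ z ∈ I, x ≠ z ∧ ¬ G.Adj z x) ⊂ T := by
    rw [Finset.filter_ssubset]
    obtain ⟨y, hy⟩ := hIne
    exact ⟨y, hI hy, fun h => (h y hy).1 rfl⟩
  have h2 := ih _ hss
  generalize T.filter (fun x => ∀ z ∈ I, x ≠ z ∧ ¬ G.Adj z x) = T' at h1 h2 h3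
  have h5 : M * (ind G T' + I.card) ≤ M * ind G T := Nat.mul_le_mul_left M h1
  rw [Nat.mul_add] at h5
  omega

theorem parity_bound [Fintype V] [DecidableEq V] (G : SimpleGraph V) [DecidableRel G.Adj]
    (hconn : G.Connected) (v : V) (m M : ℕ) (hm : 4 ≤ m) (hM : m - 1 ≤ M)
    (hfree : ∀ l, CycL G l → l.length ≠ m)
    (hK : ∀ K : Finset V, G.IsClique (K : Set V) → K.card ≤ M / 2)
    (hlev : ∀ j, 2 ≤ j → ∀ T : Finset V, T.Nonempty → (∀ x ∈ T, G.dist v x = j) →
      2 * ind G T + 2 ≤ m + 1 ∧ 2 * j + 1 ≤ m)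
    (U : Finset V) (hU : ∀ x ∈ U, ∀ y ∈ U, G.Adj x y → G.dist v x = G.dist v y)
    (hvU : ∀ x ∈ U, 1 ≤ G.dist v x) : ∀ T ⊆ U, 2 * T.card ≤ M * ind G T := by
  intro T
  induction T using Finset.strongInduction with
  | H T ih =>
  intro hTU
  by_contra hcon
  push Not at hcon
  have hT : T.Nonempty := by
    rw [Finset.nonempty_iff_ne_empty]
    rintro rfl
    simp at hcon
  have hTc : Conn G T := by
    intro S hS hSne hno
    by_contra hne
    have hss : S ⊂ T := Finset.ssubset_iff_subset_ne.2 ⟨hS, hne⟩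
    have h1 := ih S hss (hS.trans hTU)
    have h2 := ih (T \ S) (Finset.sdiff_ssubset hS hSne) (Finset.sdiff_subset.trans hTU)
    have h3 := ind_add_le (G := G) (S := S) (S' := T \ S) Finset.disjoint_sdiff (by
      intro x hx y hy
      rw [Finset.mem_sdiff] at hy
      exact hno x hx y hy.1 hy.2)
    rw [Finset.union_sdiff_of_subset hS] at h3
    have h4 : (T \ S).card + S.card = T.card := Finset.card_sdiff_add_card_eq_card hS
    have h5 : M * (ind G S + ind G (T \ S)) ≤ M * ind G T := Nat.mul_le_mul_left M h3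
    rw [Nat.mul_add] at h5
    omega
  obtain ⟨x0, hx0⟩ := hT
  have hTj : ∀ x ∈ T, G.dist v x = G.dist v x0 := by
    have := hTc (T.filter (fun x => G.dist v x = G.dist v x0)) (Finset.filter_subset _ _)
      ⟨x0, by rw [Finset.mem_filter]; exact ⟨hx0, rfl⟩⟩ (by
        intro x hx y hy hyn hadj
        rw [Finset.mem_filter] at hx hyn
        exact hyn ⟨hy, (hU x (hTU hx.1) y (hTU hy) hadj) ▸ hx.2⟩)
    intro x hx
    rw [← this, Finset.mem_filter] at hx
    exact hx.2
  have ih' : ∀ T' ⊂ T, 2 * T'.card ≤ M * ind G T' := fun T' h => ih T' h (h.1.trans hTU)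
  have hdeg : ∀ y ∈ T, M / 2 ≤ (T.filter (G.Adj y)).card := by
    intro y hy
    have h1 := nbhd_bound G T {y} (T.filter (G.Adj y)) M (by simpa using hy) (by simp) (by simp)
      (by
        intro x hx z hz hadj
        rw [Finset.mem_singleton] at hz
        subst hz
        rw [Finset.mem_filter]
        exact ⟨hx, hadj⟩) hcon ih'
    rw [Finset.card_singleton] at h1
    omega
  have hun : ∀ y ∈ T, ∀ y' ∈ T, y ≠ y' → ¬ G.Adj y y' →
      M - 1 ≤ (T.filter (G.Adj y) ∪ T.filter (G.Adj y')).card := by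
    intro y hy y' hy' hne hna
    have h1 := nbhd_bound G T {y, y'} (T.filter (G.Adj y) ∪ T.filter (G.Adj y')) M (by
        intro z hz
        rw [Finset.mem_insert, Finset.mem_singleton] at hz
        rcases hz with rfl | rfl
        · exact hy
        · exact hy') (by
        intro p hp q hq hpq
        simp only [Finset.coe_insert, Finset.coe_singleton, Set.mem_insert_iff,
          Set.mem_singleton_iff] at hp hq
        rcases hp with rfl | rfl <;> rcases hq with rfl | rfl
        · exact absurd rfl hpq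
        · exact hna
        · exact fun h => hna h.symm
        · exact absurd rfl hpq) ⟨y, by simp⟩ (by
        intro x hx z hz hadj
        rw [Finset.mem_insert, Finset.mem_singleton] at hz
        rw [Finset.mem_union, Finset.mem_filter, Finset.mem_filter]
        rcases hz with rfl | rfl
        · exact Or.inl ⟨hx, hadj⟩
        · exact Or.inr ⟨hx, hadj⟩) hcon ih'
    rw [Finset.card_pair hne] at h1
    omega
  obtain ⟨l, hl, hlT, hlen, -⟩ := exists_long_cycle G T ⟨x0, hx0⟩ (M / 2) (M - 1) (by omega) hdeg hun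
    (fun K _ hK' => hK K hK')
  have hne := hfree l hl
  obtain ⟨l', hl', hl'm⟩ := exists_cycle_of_level G hconn v m (G.dist v x0) hm (hvU x0 (hTU hx0))
    T ⟨x0, hx0⟩ hTj hTc (fun h => hlev _ h T ⟨x0, hx0⟩ hTj) l hl hlT (by omega)
  exact hfree l' hl' hl'm

end Vale.Agent.P048
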