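import Vale.Agent.P048.Levels

/-!
# P048: no minimal counterexample for `m = 6, 7, 8` without large cliques
-/

namespace Vale.Agent.P048

open Finset

variable {V : Type*}

namespace MinCx

variable [Fintype V] [DecidableEq V] {G : SimpleGraph V} [DecidableRel G.Adj] {m : ℕ}

theorem Lv_one_bound (h : MinCx G m) (v : V) (M : ℕ) (hm : 4 ≤ m) (hM : m - 2 ≤ M)
    (hK : ∀ K : Finset V, G.IsClique (K : Set V) → 2 * K.card ≤ M + 2) :
    2 * (Lv G v 1).card ≤ M * ind G (Lv G v 1) :=
  nbr_bound G h.connected v m M hm hM h.free hK _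
    (fun x hx => SimpleGraph.dist_eq_one_iff_adj.1 (mem_Lv.1 hx))

theorem Lv_bound (h : MinCx G m) (v : V) (M j : ℕ) (hm : 4 ≤ m) (hM : m - 2 ≤ M) (hj : 2 ≤ j)
    (hjm : 2 * j + 1 ≤ m) (hk : 3 ≤ M / 2) (hα : 2 * ind G univ ≤ (M - 2) * (M / 2) + 2)
    (hK : ∀ K ⊆ Lv G v j, G.IsClique (K : Set V) → K.card ≤ M / 2) :
    2 * (Lv G v j).card ≤ M * ind G (Lv G v j) := by
  refine parity_bound3 G h.connected v m M hm hM h.free (Lv G v j) hK ?_ ?_ ?_ ?_ ?_ (Lv G v j)
    (Finset.Subset.refl _)
  · intro x hx y hy _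
    rw [mem_Lv] at hx hy
    omega
  · intro x hx
    rw [mem_Lv] at hx
    omega
  · intro x hx _
    rw [mem_Lv] at hx
    omega
  · intro x hx _
    exact hk
  · intro T hT _
    have h1 := ind_far (G := G) (v := v) (T := T) (by
      intro x hx
      have h2 := mem_Lv.1 (hT hx)
      refine ⟨?_, ?_⟩
      · intro h3
        rw [h3, SimpleGraph.dist_self] at h2
        omega
      · intro h3
        rw [← SimpleGraph.dist_eq_one_iff_adj] at h3
        omega)
    omega

theorem false_six (h : MinCx G 6) (ha : ind G univ ≤ 5)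
    (hω : ∀ K : Finset V, G.IsClique (K : Set V) → K.card ≤ 3) : False := by
  obtain ⟨v⟩ := h.nonempty
  have h1 := h.le_card_Lv_one v
  have h2 := h.Lv_one_bound v 4 (by omega) (by omega) (fun K hK => by have := hω K hK; omega)
  have h3 := h.Lv_bound v 6 2 (by omega) (by omega) (by omega) (by omega) (by omega) (by omega)
    (fun K _ hK => hω K hK)
  obtain ⟨p, q, h4, h5, h6⟩ := h.count_levels v 3 (by
    intro j hj
    apply card_le_of_ind_le_two h.free treeF6 hω
    have h7 := h.ind_odd v (U := Lv G v j) (by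
      intro x hx
      rw [mem_Lv] at hx
      omega)
    omega)
  omega

theorem false_seven (h : MinCx G 7) (ha : ind G univ ≤ 6)
    (hω : ∀ K : Finset V, G.IsClique (K : Set V) → K.card ≤ 3) : False := by
  obtain ⟨v⟩ := h.nonempty
  have h1 := h.le_card_Lv_one v
  have h2 := h.Lv_one_bound v 5 (by omega) (by omega) (fun K hK => by have := hω K hK; omega)
  have h3 := h.Lv_bound v 6 2 (by omega) (by omega) (by omega) (by omega) (by omega) (by omega)
    (fun K _ hK => hω K hK)
  have h3' := h.Lv_bound v 6 3 (by omega) (by omega) (by omega) (by omega) (by omega) (by omega)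
    (fun K _ hK => hω K hK)
  have h8 := h.mul_ind_Lv_one v
  obtain ⟨p, q, h4, h5, h6⟩ := h.count_levels v 3 (by
    intro j hj
    by_cases hj3 : j = 3
    · subst hj3
      omega
    · have h7 := h.ind_even v (U := Lv G v j) (by
        intro x hx
        rw [mem_Lv] at hx
        omega)
      by_cases hne : Lv G v j = ∅
      · rw [hne]
        simp
      · have h9 := ind_pos (G := G) (Finset.nonempty_iff_ne_empty.2 hne)
        have h10 := hω _ (clique_of_ind_le_one (G := G) (T := Lv G v j) (by omega))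
        omega)
  omega

end MinCx

end Vale.Agent.P048
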