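import Vale.Agent.P048.Growth

/-!
# P048: tools for small cycle lengths
-/

namespace Vale.Agent.P048

open Finset

variable {V : Type*}

/-- `parity_bound2` for all `m ≥ 4`; the conditions on far vertices are only needed when there are
some. -/
theorem parity_bound3 [Fintype V] [DecidableEq V] (G : SimpleGraph V) [DecidableRel G.Adj]
    (hconn : G.Connected) (v : V) (m M : ℕ) (hm : 4 ≤ m) (hM : m - 2 ≤ M)
    (hfree : ∀ l, CycL G l → l.length ≠ m) (U : Finset V)
    (hK : ∀ K ⊆ U, G.IsClique (K : Set V) → K.card ≤ M / 2)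
    (hU : ∀ x ∈ U, ∀ y ∈ U, G.Adj x y → G.dist v x = G.dist v y)
    (hvU : ∀ x ∈ U, 1 ≤ G.dist v x) (hdep : ∀ x ∈ U, 2 ≤ G.dist v x → 2 * G.dist v x + 1 ≤ m)
    (hk : ∀ x ∈ U, 2 ≤ G.dist v x → 3 ≤ M / 2)
    (hα : ∀ T ⊆ U, (∀ x ∈ T, 2 ≤ G.dist v x) → 2 * ind G T ≤ (M - 2) * (M / 2)) :
    ∀ T ⊆ U, 2 * T.card ≤ M * ind G T := by
  intro T
  induction T using Finset.strongInduction with
  | H T ih =>
  intro hTU
  by_contra hcon
  push Not at hcon
  have hT : T.Nonempty := by
    rw [Finset.nonempty_iff_ne_empty]
    rintro rfl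
    simp at hcon
  have hTc : Conn G T := by
    intro S hS hSne hno
    by_contra hne
    have hss : S ⊂ T := Finset.ssubset_iff_subset_ne.2 ⟨hS, hne⟩
    have h1 := ih S hss (hS.trans hTU)
    have h2 := ih (T \ S) (Finset.sdiff_ssubset hS hSne) (Finset.sdiff_subset.trans hTU)
    have h3 := ind_add_le (G := G) (S := S) (S' := T \ S) Finset.disjoint_sdiff (by
      intro x hx y hy
      rw [Finset.mem_sdiff] at hy
      exact hno x hx y hy.1 hy.2)
    rw [Finset.union_sdiff_of_subset hS] at h3
    have h4 : (T \ S).card + S.card = T.card := Finset.card_sdiff_add_card_eq_card hS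
    have h5 : M * (ind G S + ind G (T \ S)) ≤ M * ind G T := Nat.mul_le_mul_left M h3
    rw [Nat.mul_add] at h5
    omega
  obtain ⟨x0, hx0⟩ := hT
  have hTj : ∀ x ∈ T, G.dist v x = G.dist v x0 := by
    have := hTc (T.filter (fun x => G.dist v x = G.dist v x0)) (Finset.filter_subset _ _)
      ⟨x0, by rw [Finset.mem_filter]; exact ⟨hx0, rfl⟩⟩ (by
        intro x hx y hy hyn hadj
        rw [Finset.mem_filter] at hx hyn
        exact hyn ⟨hy, (hU x (hTU hx.1) y (hTU hy) hadj) ▸ hx.2⟩)
    intro x hx
    rw [← this, Finset.mem_filter] at hx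
    exact hx.2
  have ih' : ∀ T' ⊂ T, 2 * T'.card ≤ M * ind G T' := fun T' h => ih T' h (h.1.trans hTU)
  have hdeg : ∀ y ∈ T, M / 2 ≤ (T.filter (G.Adj y)).card := by
    intro y hy
    have h1 := nbhd_bound G T {y} (T.filter (G.Adj y)) M (by simpa using hy) (by simp) (by simp)
      (by
        intro x hx z hz hadj
        rw [Finset.mem_singleton] at hz
        subst hz
        rw [Finset.mem_filter]
        exact ⟨hx, hadj⟩) hcon ih'
    rw [Finset.card_singleton] at h1
    omega
  have hun : ∀ y ∈ T, ∀ y' ∈ T, y ≠ y' → ¬ G.Adj y y' →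
      M - 1 ≤ (T.filter (G.Adj y) ∪ T.filter (G.Adj y')).card := by
    intro y hy y' hy' hne hna
    have h1 := nbhd_bound G T {y, y'} (T.filter (G.Adj y) ∪ T.filter (G.Adj y')) M (by
        intro z hz
        rw [Finset.mem_insert, Finset.mem_singleton] at hz
        rcases hz with rfl | rfl
        · exact hy
        · exact hy') (by
        intro p hp q hq hpq
        simp only [Finset.coe_insert, Finset.coe_singleton, Set.mem_insert_iff,
          Set.mem_singleton_iff] at hp hq
        rcases hp with rfl | rfl <;> rcases hq with rfl | rfl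
        · exact absurd rfl hpq
        · exact hna
        · exact fun h => hna h.symm
        · exact absurd rfl hpq) ⟨y, by simp⟩ (by
        intro x hx z hz hadj
        rw [Finset.mem_insert, Finset.mem_singleton] at hz
        rw [Finset.mem_union, Finset.mem_filter, Finset.mem_filter]
        rcases hz with rfl | rfl
        · exact Or.inl ⟨hx, hadj⟩
        · exact Or.inr ⟨hx, hadj⟩) hcon ih'
    rw [Finset.card_pair hne] at h1
    omega
  obtain ⟨l, hl, hlT, hlen, h0, hrot⟩ := exists_long_cycle2 G T ⟨x0, hx0⟩ (M / 2) (M - 1)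
    (by omega) hdeg hun (fun K hKT hK' => hK K (hKT.trans hTU) hK')
  obtain ⟨l', hl', hl'm⟩ := exists_cycle_of_level2 G hconn v m (G.dist v x0) (by omega)
    (hvU x0 (hTU hx0)) T ⟨x0, hx0⟩ hTj hTc l hl hlT (by omega) (by
      intro h2
      have hk2 := hk x0 (hTU hx0) h2
      refine ⟨hdep x0 (hTU hx0) h2, ?_⟩
      refine even_chord G T M (M / 2) (by omega) l hl hlT (by omega) hdeg h0 hrot ?_
        (hα T hTU (fun x hx => by rw [hTj x hx]; exact h2))
      intro I N hIT hI hIne hN
      exact nbhd_bound G T I N M hIT hI hIne hN hcon ih')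
  exact hfree l' hl' hl'm


/-- The bound inside a neighbourhood. -/
theorem nbr_bound [Fintype V] [DecidableEq V] (G : SimpleGraph V) [DecidableRel G.Adj]
    (hconn : G.Connected) (v : V) (m M : ℕ) (hm : 4 ≤ m) (hM : m - 2 ≤ M)
    (hfree : ∀ l, CycL G l → l.length ≠ m)
    (hK : ∀ K : Finset V, G.IsClique (K : Set V) → 2 * K.card ≤ M + 2)
    (U : Finset V) (hU : ∀ x ∈ U, G.Adj v x) : 2 * U.card ≤ M * ind G U := by
  have h1 : ∀ x ∈ U, G.dist v x = 1 := fun x hx => SimpleGraph.dist_eq_one_iff_adj.2 (hU x hx)
  refine parity_bound3 G hconn v m M hm hM hfree U ?_ ?_ ?_ ?_ ?_ ?_ U (Finset.Subset.refl _)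
  · intro K hKU hKc
    have hv : v ∉ K := by
      intro hv
      exact G.irrefl (hU v (hKU hv))
    have hcl : G.IsClique ((insert v K : Finset V) : Set V) := by
      rw [Finset.coe_insert, SimpleGraph.isClique_insert]
      exact ⟨hKc, fun x hx _ => hU x (hKU hx)⟩
    have h3 := hK _ hcl
    rw [Finset.card_insert_of_notMem hv] at h3
    omega
  · intro x hx y hy _
    rw [h1 x hx, h1 y hy]
  · intro x hx
    rw [h1 x hx]
  · intro x hx h2
    rw [h1 x hx] at h2
    omega
  · intro x hx h2
    rw [h1 x hx] at h2
    omega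
  · intro T hT hT2
    have : T = ∅ := by
      rw [Finset.eq_empty_iff_forall_notMem]
      intro x hx
      have h3 := h1 x (hT hx)
      have h4 := hT2 x hx
      omega
    subst this
    have : ind G (∅ : Finset V) = 0 := by
      obtain ⟨I, hI, -, hI'⟩ := exists_ind G (∅ : Finset V)
      rw [← hI', Finset.subset_empty.1 hI, Finset.card_empty]
    rw [this]
    omega

/-- A path `P` outside the closed neighbourhood of `v` whose ends are joined to different
neighbours of `v` gives a cycle with `|P| + 3` vertices. -/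
theorem no_path2 {G : SimpleGraph V} {m : ℕ} (hfree : ∀ l, CycL G l → l.length ≠ m)
    {v w w' : V} (hw : G.Adj v w) (hw' : G.Adj v w') (hne : w ≠ w') {P : List V}
    (hP : PathL G P) (hPv : ∀ x ∈ P, x ≠ v ∧ ¬ G.Adj v x) (hP0 : P ≠ [])
    (hx : ∀ x ∈ P.head?, G.Adj w x) (hy : ∀ y ∈ P.getLast?, G.Adj y w')
    (hlen : P.length + 3 = m) : False := by
  refine hfree (v :: w :: (P ++ [w'])) ⟨?_, ?_, ?_⟩ (by simp; omega)
  · rw [List.nodup_cons, List.nodup_cons, List.nodup_append']
    refine ⟨?_, ?_, hP.1, by simp, ?_⟩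
    · simp only [List.mem_cons, List.mem_append, List.not_mem_nil, or_false, not_or]
      exact ⟨hw.ne, fun h => (hPv v h).1 rfl, hw'.ne⟩
    · simp only [List.mem_append, List.mem_cons, List.not_mem_nil, or_false, not_or]
      exact ⟨fun h => (hPv w h).2 hw, hne⟩
    · intro x hx hx'
      rw [List.mem_singleton] at hx'
      subst hx'
      exact (hPv x hx).2 hw'
  · rw [List.isChain_cons_cons]
    refine ⟨hw, ?_⟩
    have h1 : List.IsChain G.Adj (w :: P) := by
      cases P with
      | nil => exact List.isChain_singleton _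
      | cons p P =>
        rw [List.isChain_cons_cons]
        exact ⟨hx p (by simp), hP.2⟩
    rw [← List.cons_append, List.isChain_append]
    refine ⟨h1, List.isChain_singleton _, ?_⟩
    intro a ha b hb
    simp only [List.head?_cons, Option.mem_def, Option.some.injEq] at hb
    subst hb
    apply hy
    cases P with
    | nil => exact absurd rfl hP0
    | cons p P =>
      rw [List.getLast?_cons_cons] at ha
      exact ha
  · intro a ha b hb
    simp only [List.head?_cons, Option.mem_def, Option.some.injEq] at hb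
    subst hb
    have : (v :: w :: (P ++ [w'])).getLast? = some w' := by
      rw [← List.cons_append, ← List.cons_append, List.getLast?_concat]
    rw [this] at ha
    simp only [Option.mem_def, Option.some.injEq] at ha
    subst ha
    exact hw'.symm

/-- the closed neighbourhood count for a set around `v` -/
theorem MinCx.ball_two [Fintype V] [DecidableEq V] {G : SimpleGraph V} [DecidableRel G.Adj] {m : ℕ}
    (h : MinCx G m) (v : V) :
    (m - 1) * ind G (insert v (G.neighborFinset v)) + 1 ≤
      1 + (G.neighborFinset v).card + (univ.filter (fun x => G.dist v x = 2)).card := by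
  have hconn := h.connected
  obtain ⟨I, hI1, hI2, hI3⟩ := exists_ind G (insert v (G.neighborFinset v))
  have hpos : 1 ≤ ind G (insert v (G.neighborFinset v)) := ind_pos ⟨v, by simp⟩
  have hdI : ∀ x ∈ I, G.dist v x ≤ 1 := by
    intro x hx
    have := hI1 hx
    rw [Finset.mem_insert, SimpleGraph.mem_neighborFinset] at this
    rcases this with rfl | h1
    · simp
    · rw [SimpleGraph.dist_eq_one_iff_adj.2 h1]
  have h1 := h.nbhd (I := I) (N := univ.filter (fun x => G.dist v x ≤ 2) \ I) hI2
    (by rw [← Finset.card_pos]; omega) (by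
      intro x y hy hadj
      rw [Finset.mem_sdiff, Finset.mem_filter]
      refine ⟨⟨Finset.mem_univ _, ?_⟩, ?_⟩
      · have h3 := hdI y hy
        have h4 := dist_adj_le hconn v hadj
        omega
      · intro hxI
        exact hI2 hy hxI hadj.ne hadj)
  have hsub : I ⊆ univ.filter (fun x => G.dist v x ≤ 2) := by
    intro x hx
    have := hdI x hx
    rw [Finset.mem_filter]
    exact ⟨Finset.mem_univ _, by omega⟩
  have h2 : (univ.filter (fun x => G.dist v x ≤ 2) \ I).card + I.card
      = (univ.filter (fun x => G.dist v x ≤ 2)).card := Finset.card_sdiff_add_card_eq_card hsub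
  have h3 : (univ.filter (fun x => G.dist v x ≤ 2)).card ≤
      1 + (G.neighborFinset v).card + (univ.filter (fun x => G.dist v x = 2)).card := by
    have hs : univ.filter (fun x => G.dist v x ≤ 2) ⊆
        ({v} ∪ G.neighborFinset v) ∪ univ.filter (fun x => G.dist v x = 2) := by
      intro x hx
      rw [Finset.mem_filter] at hx
      rw [Finset.mem_union, Finset.mem_union, Finset.mem_singleton,
        SimpleGraph.mem_neighborFinset, Finset.mem_filter]
      by_cases hxv : x = v
      · exact Or.inl (Or.inl hxv)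
      · have h0 : G.dist v x ≠ 0 := by
          intro h0
          exact hxv (hconn.dist_eq_zero_iff.1 h0).symm
        by_cases h1 : G.dist v x = 1
        · exact Or.inl (Or.inr (SimpleGraph.dist_eq_one_iff_adj.1 h1))
        · exact Or.inr ⟨Finset.mem_univ _, by omega⟩
    calc _ ≤ (({v} ∪ G.neighborFinset v) ∪ univ.filter (fun x => G.dist v x = 2)).card :=
          Finset.card_le_card hs
      _ ≤ ({v} ∪ G.neighborFinset v).card + (univ.filter (fun x => G.dist v x = 2)).card :=
          Finset.card_union_le _ _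
      _ ≤ ({v} : Finset V).card + (G.neighborFinset v).card +
          (univ.filter (fun x => G.dist v x = 2)).card := by
        have := Finset.card_union_le ({v} : Finset V) (G.neighborFinset v)
        omega
      _ = _ := by rw [Finset.card_singleton]
  rw [hI3] at h1 h2
  omega

/-- far sets have smaller independence number -/
theorem ind_far [Fintype V] [DecidableEq V] {G : SimpleGraph V} {v : V} {T : Finset V}
    (hT : ∀ x ∈ T, x ≠ v ∧ ¬ G.Adj v x) : ind G T + 1 ≤ ind G univ := by
  have h1 : 1 ≤ ind G {v} := ind_pos (by simp)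
  have h2 := ind_add_le (G := G) (S := {v}) (S' := T) (by
    rw [Finset.disjoint_left]
    intro x hx hx'
    rw [Finset.mem_singleton] at hx
    exact (hT x hx').1 hx) (by
    intro x hx y hy hadj
    rw [Finset.mem_singleton] at hx
    subst hx
    exact (hT y hy).2 hadj)
  have h3 : ind G ({v} ∪ T) ≤ ind G univ := ind_mono (Finset.subset_univ _)
  omega

/-- a vertex at distance two has a parent in the neighbourhood of `v` -/
theorem exists_parent {G : SimpleGraph V} (hconn : G.Connected) {v x : V} {j : ℕ}
    (hx : G.dist v x = j + 1) : ∃ w, G.Adj w x ∧ G.dist v w = j := by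
  obtain ⟨g, g0, g1, gadj, gd⟩ := exists_geodesic hconn v x
  rw [hx] at g1 gadj gd
  refine ⟨g j, ?_, ?_⟩
  · have := gadj j (by omega)
    rwa [g1] at this
  · exact (gd j (by omega)).2

end Vale.Agent.P048
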