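import Vale.Agent.P048.Basic

/-!
# P048: systems of paths with ends in a clique
-/

namespace Vale.Agent.P048

variable {V : Type*}

/-- A system of disjoint paths of `G` (its blocks), each of which starts and ends in `K`. -/
structure Sys (G : SimpleGraph V) (K : Finset V) (bl : List (List V)) : Prop where
  nodup : bl.flatten.Nodup
  chain : ∀ b ∈ bl, List.IsChain G.Adj b
  head : ∀ b ∈ bl, ∃ x ∈ b.head?, x ∈ K
  last : ∀ b ∈ bl, ∃ x ∈ b.getLast?, x ∈ K

/-- The system `bl` covers `K`. -/
def Cov (K : Finset V) (bl : List (List V)) : Prop := ∀ x ∈ K, x ∈ bl.flatten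

/-- The piece `A` of the block `A ++ B` of `bl` ends just before the vertex `k` of `K` in the
cyclic order (the end of `A ++ B` counts as being just before its head). -/
def IsCut (bl : List (List V)) (k : V) (A B : List V) : Prop :=
  A ++ B ∈ bl ∧ A ≠ [] ∧ (B.head? = some k ∨ (B = [] ∧ A.head? = some k))

/-- `B` as a list of at most one nonempty block. -/
def opt : List V → List (List V)
  | [] => []
  | x :: l => [x :: l]

end Vale.Agent.P048
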