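import Vale.Agent.P048.Engine

/-!
# P048: decision trees for graphs with few vertices

The vertices are `f 0, …, f (N - 1)`.  A tree branches on the adjacency of two of them; each leaf
names a cycle on `m` of them, a clique on `w` of them or an independent set of `s` of them.
-/

namespace Vale.Agent.P048

open Finset

variable {V : Type*}

/-- decision trees -/
inductive Tr where
  | c (l : List ℕ)
  | k (l : List ℕ)
  | i (l : List ℕ)
  | b (x y : ℕ) (t s : Tr)

/-- the bit of the pair `x, y` -/
def bitOf (x y : ℕ) : ℕ := Nat.shiftLeft 1 (Nat.add (Nat.mul 16 x) y)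

/-- is the pair `x, y` in the set `P`? -/
def tb (P x y : ℕ) : Bool :=
  Nat.beq (Nat.land (Nat.shiftRight P (Nat.add (Nat.mul 16 x) y)) 1) 1

/-- insert the pairs `x, y` and `y, x` -/
def insb (P x y : ℕ) : ℕ := Nat.lor (Nat.lor P (bitOf x y)) (bitOf y x)

def chainP (P : ℕ) : ℕ → List ℕ → Bool
  | _, [] => true
  | x, y :: l => tb P x y && chainP P y l

def allP (P x : ℕ) : List ℕ → Bool
  | [] => true
  | y :: l => Nat.blt x y && (tb P x y && allP P x l)

def pairsP (P : ℕ) : List ℕ → Bool
  | [] => true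
  | x :: l => allP P x l && pairsP P l

/-- `l` is a cycle on `m` positions -/
def cycP (N m P : ℕ) : List ℕ → Bool
  | [] => false
  | x :: l => chainP P x l && (nodupb (x :: l) && (allltb N (x :: l) &&
      (tb P (lastb x l) x && (lenb l).succ.beq m)))

/-- the tree is correct, for the known adjacent pairs `P` and nonadjacent pairs `Q` -/
def Tr.check (N m w s : ℕ) : Tr → ℕ → ℕ → Bool
  | .c l, P, _ => cycP N m P l
  | .k l, P, _ => pairsP P l && (allltb N l && (lenb l).beq w)
  | .i l, _, Q => pairsP Q l && (allltb N l && (lenb l).beq s)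
  | .b x y t u, P, Q => Nat.blt x 16 && (Nat.blt y 16 &&
      (t.check N m w s (insb P x y) Q && u.check N m w s P (insb Q x y)))

theorem tb_eq (P x y : ℕ) : tb P x y = P.testBit (16 * x + y) := by
  unfold tb Nat.testBit
  have h : Nat.land (Nat.shiftRight P (Nat.add (Nat.mul 16 x) y)) 1
      = 1 &&& (P >>> (16 * x + y)) := by
    rw [Nat.and_comm]
    rfl
  rw [h]
  have h2 : 1 &&& (P >>> (16 * x + y)) = (P >>> (16 * x + y)) % 2 := Nat.one_and_eq_mod_two _
  rw [h2]
  rcases Nat.mod_two_eq_zero_or_one (P >>> (16 * x + y)) with h3 | h3 <;> rw [h3] <;> rfl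

theorem tb_bitOf {x y a b : ℕ} (hb : b < 16) (hy : y < 16) (h : tb (bitOf x y) a b = true) :
    a = x ∧ b = y := by
  rw [tb_eq] at h
  have h1 : bitOf x y = 2 ^ (16 * x + y) := by
    unfold bitOf
    change 1 <<< (16 * x + y) = _
    rw [Nat.one_shiftLeft]
  rw [h1, Nat.testBit_two_pow] at h
  simp only [decide_eq_true_eq] at h
  omega

theorem tb_insb {P x y a b : ℕ} (hb : b < 16) (hx : x < 16) (hy : y < 16)
    (h : tb (insb P x y) a b = true) :
    tb P a b = true ∨ (a = x ∧ b = y) ∨ (a = y ∧ b = x) := by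
  have h1 : tb (insb P x y) a b = (tb P a b || tb (bitOf x y) a b || tb (bitOf y x) a b) := by
    rw [tb_eq, tb_eq, tb_eq, tb_eq]
    unfold insb
    change ((P ||| bitOf x y) ||| bitOf y x).testBit _ = _
    rw [Nat.testBit_or, Nat.testBit_or]
  rw [h1] at h
  simp only [Bool.or_eq_true] at h
  rcases h with (h | h) | h
  · exact Or.inl h
  · exact Or.inr (Or.inl (tb_bitOf hb hy h))
  · exact Or.inr (Or.inr (tb_bitOf hb hx h))

theorem chainP_spec {G : SimpleGraph V} {f : ℕ → V} {P : ℕ} {N : ℕ} (hN : N ≤ 16)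
    (hP : ∀ a b, b < 16 → tb P a b = true → G.Adj (f a) (f b)) :
    ∀ (l : List ℕ) (x : ℕ), chainP P x l = true → allltb N (x :: l) = true →
      List.IsChain G.Adj ((x :: l).map f) := by
  intro l
  induction l with
  | nil => intro x _ _; simp
  | cons y l ih =>
    intro x h1 h2
    simp only [chainP, Bool.and_eq_true] at h1
    simp only [allltb, Bool.and_eq_true, Nat.blt_eq] at h2
    rw [List.map_cons, List.map_cons, List.isChain_cons_cons]
    refine ⟨hP x y (by omega) h1.1, ?_⟩
    have := ih y h1.2 (by simp only [allltb, Bool.and_eq_true, Nat.blt_eq]; exact h2.2)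
    rwa [List.map_cons] at this

theorem allP_spec {P x : ℕ} : ∀ (l : List ℕ), allP P x l = true → ∀ y ∈ l, x < y ∧ tb P x y = true := by
  intro l
  induction l with
  | nil => intro _ y hy; simp at hy
  | cons z l ih =>
    intro h y hy
    simp only [allP, Bool.and_eq_true, Nat.blt_eq] at h
    rcases List.mem_cons.1 hy with rfl | hy
    · exact ⟨h.1, h.2.1⟩
    · exact ih h.2.2 y hy

theorem pairsP_spec {P : ℕ} : ∀ (l : List ℕ), pairsP P l = true →
    l.Pairwise (fun x y => x < y ∧ tb P x y = true) := by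
  intro l
  induction l with
  | nil => intro _; exact List.Pairwise.nil
  | cons x l ih =>
    intro h
    simp only [pairsP, Bool.and_eq_true] at h
    exact List.pairwise_cons.2 ⟨allP_spec l h.1, ih h.2⟩

/-- the images of a list of positions -/
theorem card_image_of_sorted [DecidableEq V] {f : ℕ → V} {N : ℕ}
    (hinj : ∀ i j, i < N → j < N → f i = f j → i = j) {l : List ℕ}
    (hl : l.Pairwise (fun x y => x < y)) (hlt : ∀ i ∈ l, i < N) :
    (l.toFinset.image f).card = l.length := by
  rw [Finset.card_image_of_injOn, List.toFinset_card_of_nodup]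
  · exact hl.imp (fun h => h.ne)
  · intro x hx y hy hxy
    rw [Finset.mem_coe, List.mem_toFinset] at hx hy
    exact hinj x y (hlt x hx) (hlt y hy) hxy

theorem pairwise_mem_cases {R : ℕ → ℕ → Prop} {l : List ℕ} (hl : l.Pairwise R) {x y : ℕ}
    (hx : x ∈ l) (hy : y ∈ l) : x = y ∨ R x y ∨ R y x := by
  induction hl with
  | nil => simp at hx
  | cons h _ ih =>
    rcases List.mem_cons.1 hx with hx1 | hx1 <;> rcases List.mem_cons.1 hy with hy1 | hy1
    · exact Or.inl (hx1.trans hy1.symm)
    · rw [hx1]
      exact Or.inr (Or.inl (h y hy1))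
    · rw [hy1]
      exact Or.inr (Or.inr (h x hx1))
    · exact ih hx1 hy1

/-- A correct tree is a contradiction. -/
theorem Tr.sound [DecidableEq V] (G : SimpleGraph V) (f : ℕ → V) (N m w s : ℕ) (hN : N ≤ 16)
    (hinj : ∀ i j, i < N → j < N → f i = f j → i = j)
    (hfree : ∀ l, CycL G l → l.length ≠ m)
    (hK : ∀ K ⊆ (Finset.range N).image f, G.IsClique (K : Set V) → K.card < w)
    (hI : ∀ I ⊆ (Finset.range N).image f, G.IsIndepSet (I : Set V) → I.card < s) :
    ∀ (t : Tr) (P Q : ℕ), (∀ a b, b < 16 → tb P a b = true → G.Adj (f a) (f b)) →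
      (∀ a b, b < 16 → tb Q a b = true → ¬ G.Adj (f a) (f b)) →
      t.check N m w s P Q = true → False := by
  intro t
  induction t with
  | c l =>
    intro P Q hP hQ h
    cases l with
    | nil => simp [Tr.check, cycP] at h
    | cons x l =>
      simp only [Tr.check, cycP, Bool.and_eq_true, Nat.beq_eq] at h
      obtain ⟨h1, h2, h3, h4, h5⟩ := h
      have hlt := allltb_spec _ h3
      refine hfree ((x :: l).map f) ⟨?_, chainP_spec hN hP l x h1 h3, ?_⟩ ?_
      · rw [List.nodup_map_iff_inj_on (nodupb_spec _ h2)]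
        intro a ha b hb hab
        exact hinj a b (hlt a ha) (hlt b hb) hab
      · intro a ha b hb
        rw [List.getLast?_map, lastb_spec] at ha
        simp only [Option.map_some, Option.mem_def, Option.some.injEq] at ha
        simp only [List.map_cons, List.head?_cons, Option.mem_def, Option.some.injEq] at hb
        subst ha hb
        have := hlt x (by simp)
        exact hP _ _ (by omega) h4
      · rw [List.length_map, List.length_cons, ← lenb_spec]
        exact h5
  | k l =>
    intro P Q hP hQ h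
    simp only [Tr.check, Bool.and_eq_true, Nat.beq_eq] at h
    obtain ⟨h1, h2, h3⟩ := h
    have hlt := allltb_spec _ h2
    have hp := pairsP_spec l h1
    have hc := card_image_of_sorted hinj (hp.imp (fun h => h.1)) hlt
    have := hK (l.toFinset.image f) (by
      intro x hx
      rw [Finset.mem_image] at hx ⊢
      obtain ⟨i, hi, rfl⟩ := hx
      exact ⟨i, Finset.mem_range.2 (hlt i (List.mem_toFinset.1 hi)), rfl⟩) (by
      intro x hx y hy hxy
      rw [Finset.mem_coe, Finset.mem_image] at hx hy
      obtain ⟨i, hi, rfl⟩ := hx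
      obtain ⟨j, hj, rfl⟩ := hy
      rw [List.mem_toFinset] at hi hj
      have hi' := hlt i hi
      have hj' := hlt j hj
      rcases pairwise_mem_cases hp hi hj with h | h | h
      · rw [h] at hxy
        exact absurd rfl hxy
      · exact hP i j (by omega) h.2
      · exact (hP j i (by omega) h.2).symm)
    rw [hc, ← lenb_spec, h3] at this
    exact lt_irrefl _ this
  | i l =>
    intro P Q hP hQ h
    simp only [Tr.check, Bool.and_eq_true, Nat.beq_eq] at h
    obtain ⟨h1, h2, h3⟩ := h
    have hlt := allltb_spec _ h2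
    have hp := pairsP_spec l h1
    have hc := card_image_of_sorted hinj (hp.imp (fun h => h.1)) hlt
    have := hI (l.toFinset.image f) (by
      intro x hx
      rw [Finset.mem_image] at hx ⊢
      obtain ⟨i, hi, rfl⟩ := hx
      exact ⟨i, Finset.mem_range.2 (hlt i (List.mem_toFinset.1 hi)), rfl⟩) (by
      intro x hx y hy hxy
      rw [Finset.mem_coe, Finset.mem_image] at hx hy
      obtain ⟨i, hi, rfl⟩ := hx
      obtain ⟨j, hj, rfl⟩ := hy
      rw [List.mem_toFinset] at hi hj
      have hi' := hlt i hi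
      have hj' := hlt j hj
      rcases pairwise_mem_cases hp hi hj with h | h | h
      · rw [h] at hxy
        exact absurd rfl hxy
      · exact hQ i j (by omega) h.2
      · exact fun hadj => hQ j i (by omega) h.2 hadj.symm)
    rw [hc, ← lenb_spec, h3] at this
    exact lt_irrefl _ this
  | b x y t u iht ihu =>
    intro P Q hP hQ h
    simp only [Tr.check, Bool.and_eq_true, Nat.blt_eq] at h
    obtain ⟨h1, h2, h3, h4⟩ := h
    by_cases hadj : G.Adj (f x) (f y)
    · refine iht (insb P x y) Q ?_ hQ h3
      intro a b hb hab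
      rcases tb_insb hb h1 h2 hab with h | ⟨rfl, rfl⟩ | ⟨rfl, rfl⟩
      · exact hP a b hb h
      · exact hadj
      · exact hadj.symm
    · refine ihu P (insb Q x y) hP ?_ h4
      intro a b hb hab
      rcases tb_insb hb h1 h2 hab with h | ⟨rfl, rfl⟩ | ⟨rfl, rfl⟩
      · exact hQ a b hb h
      · exact hadj
      · exact fun h => hadj h.symm

/-- the set of the pairs of a list -/
def mask : List (ℕ × ℕ) → ℕ
  | [] => 0
  | q :: l => insb (mask l) q.1 q.2

theorem mask_spec {G : SimpleGraph V} {f : ℕ → V} : ∀ (l : List (ℕ × ℕ)),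
    (∀ q ∈ l, q.1 < 16 ∧ q.2 < 16 ∧ G.Adj (f q.1) (f q.2)) →
    ∀ a b, b < 16 → tb (mask l) a b = true → G.Adj (f a) (f b) := by
  intro l
  induction l with
  | nil =>
    intro _ a b _ h
    rw [tb_eq] at h
    simp [mask] at h
  | cons q l ih =>
    intro hl a b hb h
    obtain ⟨h1, h2, h3⟩ := hl q List.mem_cons_self
    rcases tb_insb hb h1 h2 h with h | ⟨rfl, rfl⟩ | ⟨rfl, rfl⟩
    · exact ih (fun q hq => hl q (List.mem_cons_of_mem _ hq)) a b hb h
    · exact h3
    · exact h3.symm

/-- Trees with initial edges `E`. -/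
theorem Tr.sound' [DecidableEq V] (G : SimpleGraph V) (f : ℕ → V) (N m w s : ℕ) (hN : N ≤ 16)
    (hinj : ∀ i j, i < N → j < N → f i = f j → i = j)
    (hfree : ∀ l, CycL G l → l.length ≠ m)
    (hK : ∀ K ⊆ (Finset.range N).image f, G.IsClique (K : Set V) → K.card < w)
    (hI : ∀ I ⊆ (Finset.range N).image f, G.IsIndepSet (I : Set V) → I.card < s)
    (E : List (ℕ × ℕ)) (hE : ∀ q ∈ E, q.1 < 16 ∧ q.2 < 16 ∧ G.Adj (f q.1) (f q.2))
    (t : Tr) (h : t.check N m w s (mask E) 0 = true) : False := by
  refine Tr.sound G f N m w s hN hinj hfree hK hI t (mask E) 0 (mask_spec E hE) ?_ h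
  intro a b _ h
  rw [tb_eq] at h
  simp at h

end Vale.Agent.P048
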